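import Vale.Agent.P157.Defs

/-! # Averaging over the perturbation parameters -/

namespace Vale.Agent.P157

open Filter Topology

/-- Parameters in the box `[ε, 2ε]` on the coordinates in `J`. -/
def Box {κ : Type} (J : Finset κ) (ε : ℝ) (ϑ : κ → ℝ) : Prop := ∀ j ∈ J, ε ≤ ϑ j ∧ ϑ j ≤ 2 * ε

/-- Second difference in one coordinate. -/
def sd2 {κ : Type} [DecidableEq κ] (U : (κ → ℝ) → ℝ) (ϑ : κ → ℝ) (j : κ) (y : ℝ) : ℝ :=
  U (Function.update ϑ j (ϑ j + y)) + U (Function.update ϑ j (ϑ j - y)) - 2 * U ϑ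

namespace AvgAux

theorem sum_update {α β : Type} [Fintype α] [DecidableEq α] [Fintype β] (j : α)
    (g : (α → β) → ℝ) :
    ∑ i : α → β, ∑ t : β, g (Function.update i j t) = Fintype.card β * ∑ i : α → β, g i := by
  have hinv : Function.Involutive
      (fun p : (α → β) × β => (Function.update p.1 j p.2, p.1 j)) := by
    rintro ⟨i, t⟩; simp
  have h := Equiv.sum_comp hinv.toPerm (fun p : (α → β) × β => g p.1)
  rw [Fintype.sum_prod_type, Fintype.sum_prod_type] at h
  simp only [Function.Involutive.coe_toPerm] at h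
  rw [h]
  simp [Finset.mul_sum]

theorem tele (u : ℝ → ℝ) (I : ℕ) :
    ∑ t ∈ Finset.range I, (u (t + 1) + u (t - 1) - 2 * u t)
      = (u I - u (I - 1)) - (u 0 - u (-1)) := by
  induction I with
  | zero => simp
  | succ I ih =>
    rw [Finset.sum_range_succ, ih]
    push_cast
    rw [add_sub_cancel_right]; ring

/-- Grid points. -/
noncomputable def pt {κ : Type} [DecidableEq κ] (J : Finset κ) (ε y : ℝ) {I : ℕ}
    (i : J → Fin I) (j : κ) : ℝ :=
  if h : j ∈ J then ε + ((i ⟨j, h⟩ : ℕ) : ℝ) * y else 0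

theorem pt_update {κ : Type} [DecidableEq κ] (J : Finset κ) (ε y : ℝ) {I : ℕ}
    (i : J → Fin I) (j : J) (t : Fin I) :
    pt J ε y (Function.update i j t) = Function.update (pt J ε y i) j (ε + ((t : ℕ) : ℝ) * y) := by
  funext l
  by_cases hl : l = j
  · subst hl; simp [pt]
  · rw [Function.update_of_ne hl]
    unfold pt
    split_ifs with h
    · rw [Function.update_of_ne (fun e => hl (congrArg Subtype.val e))]
    · rfl

theorem pt_box {κ : Type} [DecidableEq κ] (J : Finset κ) {ε y : ℝ} {I : ℕ} (hy : 0 ≤ y)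
    (hI : I * y = ε) (i : J → Fin I) : Box J ε (pt J ε y i) := by
  intro j hj
  simp only [pt, dif_pos hj]
  have h1 : ((i ⟨j, hj⟩ : ℕ) : ℝ) ≤ I := by exact_mod_cast (i ⟨j, hj⟩).2.le
  have h2 : ((i ⟨j, hj⟩ : ℕ) : ℝ) * y ≤ I * y := by gcongr
  have h3 : 0 ≤ ((i ⟨j, hj⟩ : ℕ) : ℝ) * y := by positivity
  constructor <;> linarith

theorem sum_sd2 {κ : Type} [DecidableEq κ] (J : Finset κ) {ε y Λ : ℝ} {I : ℕ} (hy : 0 < y)
    (hy2 : y ≤ ε / 2) (hI : I * y = ε) (U : (κ → ℝ) → ℝ)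
    (hlip : ∀ ϑ, Box J ε ϑ → ∀ j ∈ J, ∀ a b : ℝ, ε / 2 ≤ a → a ≤ 3 * ε →
      ε / 2 ≤ b → b ≤ 3 * ε →
      |U (Function.update ϑ j a) - U (Function.update ϑ j b)| ≤ Λ * |a - b|) (j : J) :
    I * ∑ i : J → Fin I, sd2 U (pt J ε y i) j y ≤ Fintype.card (J → Fin I) * (2 * Λ * y) := by
  have h := sum_update j (fun i : J → Fin I => sd2 U (pt J ε y i) j y)
  rw [Fintype.card_fin] at h
  rw [← h]
  calc ∑ i : J → Fin I, ∑ t : Fin I, sd2 U (pt J ε y (Function.update i j t)) j y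
      ≤ ∑ _i : J → Fin I, 2 * Λ * y := by
        refine Finset.sum_le_sum fun i _ => ?_
        have e : ∀ t : Fin I, sd2 U (pt J ε y (Function.update i j t)) j y
            = (fun s : ℕ => U (Function.update (pt J ε y i) j (ε + ((s : ℝ) + 1) * y))
              + U (Function.update (pt J ε y i) j (ε + ((s : ℝ) - 1) * y))
              - 2 * U (Function.update (pt J ε y i) j (ε + (s : ℝ) * y))) t := by
          intro t
          rw [pt_update]
          simp only [sd2, Function.update_idem, Function.update_self]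
          rw [show ε + ((t : ℕ) : ℝ) * y + y = ε + (((t : ℕ) : ℝ) + 1) * y by ring,
            show ε + ((t : ℕ) : ℝ) * y - y = ε + (((t : ℕ) : ℝ) - 1) * y by ring]
        rw [Finset.sum_congr rfl fun t _ => e t, Fin.sum_univ_eq_sum_range
          (fun s : ℕ => U (Function.update (pt J ε y i) j (ε + ((s : ℝ) + 1) * y))
              + U (Function.update (pt J ε y i) j (ε + ((s : ℝ) - 1) * y))
              - 2 * U (Function.update (pt J ε y i) j (ε + (s : ℝ) * y))) I,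
          tele (fun s => U (Function.update (pt J ε y i) j (ε + s * y))) I]
        have hb := pt_box J hy.le hI i
        have h1 := hlip _ hb j j.2 (ε + I * y) (ε + (I - 1) * y) (by linarith) (by linarith)
          (by linarith) (by linarith)
        have h2 := hlip _ hb j j.2 (ε + 0 * y) (ε + (-1) * y) (by linarith) (by linarith)
          (by linarith) (by linarith)
        rw [show ε + I * y - (ε + (I - 1) * y) = y by ring, abs_of_pos hy] at h1
        rw [show ε + 0 * y - (ε + (-1) * y) = y by ring, abs_of_pos hy] at h2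
        have := (abs_le.mp h1).2
        have := (abs_le.mp h2).1
        linarith
    _ = Fintype.card (J → Fin I) * (2 * Λ * y) := by simp

theorem seq_lower {a : ℕ → ℝ} {Kb : ℕ} (hKb : 1 ≤ Kb) {g : ℝ}
    (h : ∀ᶠ N : ℕ in atTop, a N + Kb * g ≤ a (N + Kb)) {δ : ℝ} (hδ : 0 < δ) :
    ∀ᶠ N : ℕ in atTop, (g - δ) * N ≤ a N := by
  obtain ⟨N0, hN0⟩ := eventually_atTop.mp h
  obtain ⟨B, hB⟩ : ∃ B : ℝ, ∀ N, N < N0 + Kb → g * N - B ≤ a N := by
    refine ⟨∑ N ∈ Finset.range (N0 + Kb), |g * N - a N|, fun N hN => ?_⟩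
    have := Finset.single_le_sum (f := fun N : ℕ => |g * N - a N|) (fun _ _ => abs_nonneg _)
      (Finset.mem_range.mpr hN)
    have := le_abs_self (g * N - a N)
    linarith
  have hall : ∀ N : ℕ, g * N - B ≤ a N := by
    intro N
    induction N using Nat.strong_induction_on with
    | _ N ih =>
      by_cases hN : N < N0 + Kb
      · exact hB N hN
      · obtain ⟨M, rfl⟩ : ∃ M, N = M + Kb := ⟨N - Kb, by omega⟩
        have h1 := ih M (by omega)
        have h2 := hN0 M (by omega)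
        push_cast
        linarith
  filter_upwards [tendsto_natCast_atTop_atTop.eventually_ge_atTop (B / δ)] with N hN
  rw [div_le_iff₀ hδ] at hN
  have := hall N
  linarith

end AvgAux

open AvgAux in
theorem avg_lower {κ : Type} [DecidableEq κ] (J : Finset κ) {ε : ℝ} (hε : 0 < ε) {Kb : ℕ}
    (hKb : 1 ≤ Kb) (L c C g δ0 : ℝ) (V U : ℕ → (κ → ℝ) → ℝ) (F : ℕ → ℝ)
    (hlip : ∀ᶠ N : ℕ in atTop, ∀ ϑ, Box J ε ϑ → ∀ j ∈ J, ∀ a b : ℝ, ε / 2 ≤ a → a ≤ 3 * ε →
      ε / 2 ≤ b → b ≤ 3 * ε →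
      |U N (Function.update ϑ j a) - U N (Function.update ϑ j b)| ≤ L * N * |a - b|)
    (hsc : ∀ᶠ N : ℕ in atTop, ∀ ϑ, Box J ε ϑ → ∀ j ∈ J, ∀ y : ℝ, 0 < y → y ≤ ε / 2 →
      -(c * N * y ^ 2) ≤ sd2 (U N) ϑ j y)
    (hgood : ∀ᶠ k in 𝓝[>] (0 : ℝ), ∀ᶠ y in 𝓝[>] (0 : ℝ), ∀ᶠ N : ℕ in atTop, ∀ ϑ, Box J ε ϑ →
      (∀ j ∈ J, sd2 (U N) ϑ j y ≤ k * y * N) → Kb * g ≤ V (N + Kb) ϑ - V N ϑ)
    (hbad : ∀ᶠ N : ℕ in atTop, ∀ ϑ, Box J ε ϑ → -C ≤ V (N + Kb) ϑ - V N ϑ)
    (hF : ∀ᶠ N : ℕ in atTop, ∀ ϑ, Box J ε ϑ → V N ϑ - δ0 * N ≤ F N) {δ : ℝ} (hδ : 0 < δ) :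
    ∀ᶠ N : ℕ in atTop, (g - δ0 - δ) * N ≤ F N := by
  obtain ⟨k, hk, hk0⟩ := (hgood.and self_mem_nhdsWithin).exists
  replace hk0 : 0 < k := hk0
  obtain ⟨M, hM⟩ : ∃ M : ℝ, M = |Kb * g| + |C| := ⟨_, rfl⟩
  have hM0 : 0 ≤ M := by rw [hM]; positivity
  have hT : Tendsto (fun N : ℕ => (N : ℝ)) atTop atTop := tendsto_natCast_atTop_atTop
  have hlim : Tendsto (fun I : ℕ => ε / (I : ℝ)) atTop (𝓝[>] 0) := by
    refine tendsto_nhdsWithin_iff.mpr ⟨tendsto_const_div_atTop_nhds_zero_nat ε, ?_⟩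
    filter_upwards [eventually_ge_atTop 1] with I hI
    have : (0 : ℝ) < I := by exact_mod_cast hI
    exact div_pos hε this
  obtain ⟨I, hI, hI2, hI3⟩ := ((hlim.eventually hk).and ((hT.eventually_ge_atTop 2).and
    (hT.eventually_ge_atTop (M * J.card * (2 * |L| + |c| * ε) / (k * (δ / 2)))))).exists
  have hI0 : (0 : ℝ) < I := by linarith
  obtain ⟨y, hy⟩ : ∃ y : ℝ, y = ε / I := ⟨_, rfl⟩
  rw [← hy] at hI
  have hy0 : 0 < y := by rw [hy]; positivity
  have hIy : I * y = ε := by rw [hy]; field_simp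
  have hy2 : y ≤ ε / 2 := by nlinarith
  obtain ⟨R, hR⟩ : ∃ R : ℝ, R = Fintype.card (J → Fin I) := ⟨_, rfl⟩
  have hR0 : 0 < R := by
    have : Nonempty (Fin I) := ⟨⟨0, by exact_mod_cast hI0⟩⟩
    rw [hR]; exact_mod_cast Fintype.card_pos
  have hKb' : (1 : ℝ) ≤ Kb := by exact_mod_cast hKb
  have hseq : ∀ᶠ N : ℕ in atTop, (∑ i : J → Fin I, V N (pt J ε y i)) / R + Kb * (g - δ / 2)
      ≤ (∑ i : J → Fin I, V (N + Kb) (pt J ε y i)) / R := by
    filter_upwards [hI, hlip, hsc, hbad, eventually_ge_atTop 1] with N h1 h2 h3 h4 hN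
    have hN0 : (0 : ℝ) < N := by exact_mod_cast hN
    have hkyN : 0 < k * y * N := by positivity
    have hnn : ∀ (i : J → Fin I) (j : J), 0 ≤ sd2 (U N) (pt J ε y i) j y + |c| * N * y ^ 2 := by
      intro i j
      have a1 := h3 _ (pt_box J hy0.le hIy i) j j.2 y hy0 hy2
      have a2 : c * N * y ^ 2 ≤ |c| * N * y ^ 2 := by gcongr; exact le_abs_self c
      linarith
    have hpt : ∀ i : J → Fin I, Kb * g - M / (k * y * N) *
        ∑ j : J, (sd2 (U N) (pt J ε y i) j y + |c| * N * y ^ 2)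
          ≤ V (N + Kb) (pt J ε y i) - V N (pt J ε y i) := by
      intro i
      have hb := pt_box J hy0.le hIy i
      have hs : 0 ≤ ∑ j : J, (sd2 (U N) (pt J ε y i) j y + |c| * N * y ^ 2) :=
        Finset.sum_nonneg fun j _ => hnn i j
      by_cases hg : ∀ j ∈ J, sd2 (U N) (pt J ε y i) j y ≤ k * y * N
      · have := h1 _ hb hg
        have : 0 ≤ M / (k * y * N) *
          ∑ j : J, (sd2 (U N) (pt J ε y i) j y + |c| * N * y ^ 2) := by positivity
        linarith
      · push Not at hg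
        obtain ⟨j, hj, hlt⟩ := hg
        have a1 := Finset.single_le_sum
          (f := fun j : J => sd2 (U N) (pt J ε y i) j y + |c| * N * y ^ 2)
          (fun j _ => hnn i j) (Finset.mem_univ (⟨j, hj⟩ : J))
        have a2 : 0 ≤ |c| * N * y ^ 2 := by positivity
        have a3 : k * y * N ≤ ∑ j : J, (sd2 (U N) (pt J ε y i) j y + |c| * N * y ^ 2) := by
          simp only at a1; linarith
        have a4 : M / (k * y * N) * (k * y * N) ≤ M / (k * y * N) *
          ∑ j : J, (sd2 (U N) (pt J ε y i) j y + |c| * N * y ^ 2) := by gcongr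
        rw [div_mul_cancel₀ _ hkyN.ne'] at a4
        have a5 := h4 _ hb
        have a6 := le_abs_self (Kb * g)
        have a7 := le_abs_self C
        linarith
    have hj : ∀ j : J, ∑ i : J → Fin I, (sd2 (U N) (pt J ε y i) j y + |c| * N * y ^ 2)
        ≤ R * (y * N) * (2 * |L| + |c| * ε) / I := by
      intro j
      have a1 := sum_sd2 J (Λ := |L| * N) hy0 hy2 hIy (U N) (fun ϑ hϑ j hj a b q1 q2 q3 q4 =>
        (h2 ϑ hϑ j hj a b q1 q2 q3 q4).trans (by gcongr; exact le_abs_self L)) j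
      rw [← hR] at a1
      rw [Finset.sum_add_distrib, Finset.sum_const, Finset.card_univ, nsmul_eq_mul, ← hR,
        le_div_iff₀ hI0]
      have a2 : R * (|c| * N * y ^ 2) * I = R * (y * N) * (|c| * ε) := by rw [← hIy]; ring
      linarith
    have hsum := Finset.sum_le_sum fun i (_ : i ∈ Finset.univ) => hpt i
    rw [Finset.sum_sub_distrib, Finset.sum_sub_distrib, Finset.sum_const, Finset.card_univ,
      nsmul_eq_mul, ← hR, ← Finset.mul_sum, Finset.sum_comm] at hsum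
    have a2 : ∑ j : J, ∑ i : J → Fin I, (sd2 (U N) (pt J ε y i) j y + |c| * N * y ^ 2)
        ≤ J.card * (R * (y * N) * (2 * |L| + |c| * ε) / I) := by
      refine (Finset.sum_le_sum fun j _ => hj j).trans ?_
      simp
    have a3 : M / (k * y * N) * (J.card * (R * (y * N) * (2 * |L| + |c| * ε) / I))
        ≤ R * (δ / 2) := by
      have e : M / (k * y * N) * (J.card * (R * (y * N) * (2 * |L| + |c| * ε) / I))
          = R * (M * J.card * (2 * |L| + |c| * ε) / (k * I)) := by field_simp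
      rw [e]
      refine mul_le_mul_of_nonneg_left ?_ hR0.le
      rw [div_le_iff₀ (by positivity)] at hI3 ⊢
      linarith
    have a4 := mul_le_mul_of_nonneg_left a2 (show 0 ≤ M / (k * y * N) by positivity)
    have a5 : R * (δ / 2) ≤ R * (Kb * (δ / 2)) := by gcongr; nlinarith
    rw [div_add' _ _ _ hR0.ne']
    gcongr
    linarith
  filter_upwards [seq_lower (a := fun N => (∑ i : J → Fin I, V N (pt J ε y i)) / R) hKb hseq
    (half_pos hδ), hF] with N h1 h2
  have h3 := Finset.sum_le_sum fun i (_ : i ∈ (Finset.univ : Finset (J → Fin I))) =>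
    h2 _ (pt_box J hy0.le hIy i)
  rw [Finset.sum_sub_distrib, Finset.sum_const, Finset.sum_const, Finset.card_univ, nsmul_eq_mul,
    nsmul_eq_mul, ← hR] at h3
  rw [le_div_iff₀ hR0] at h1
  have : R * ((g - δ0 - δ) * N) ≤ R * F N := by linarith
  exact le_of_mul_le_mul_left this hR0

end Vale.Agent.P157
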