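import Vale.Agent.P157.Gibbs

/-! # Concentration of the field derivative when second differences are small -/

namespace Vale.Agent.P157

open MeasureTheory ProbabilityTheory

variable {ι β : Type} [Fintype ι] [DecidableEq ι] [Fintype β] {Ω : Type} [MeasurableSpace Ω]
  (μ : Measure Ω) [IsProbabilityMeasure μ] {ζ : ℕ → ℝ} {H : (ι → ℝ) → Ω → ℝ}
  {h1 h2 : ι → (ι → ℝ) → Ω → ℝ} {e : β ↪ ι} {K b Λ : ℝ} {s : (ℕ → ℝ) → ℕ → ι → ℝ}

namespace ConcAux

omit [Fintype ι] in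
theorem blk_apply (e : β ↪ ι) (c : β → ℝ) (j : β) : blk e c (e j) = c j := by
  rw [blk, Finset.sum_eq_single j (fun k _ hk => if_neg fun h => hk (e.injective h)) (by simp),
    if_pos rfl]

omit [Fintype ι] in
theorem blk_off (e : β ↪ ι) (c : β → ℝ) {i : ι} (h : ∀ j, e j ≠ i) : blk e c i = 0 :=
  Finset.sum_eq_zero fun j _ => if_neg (h j)

theorem sum_blk (e : β ↪ ι) (c : β → ℝ) (f : ι → ℝ) :
    ∑ i, blk e c i * f i = ∑ j, c j * f (e j) := by
  simp only [blk, Finset.sum_mul, ite_mul, zero_mul]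
  rw [Finset.sum_comm]
  simp

omit [Fintype ι] [DecidableEq ι] [Fintype β] in
theorem fam_ne (hs : Fam e s) (θ : ℕ → ℝ) {d j : ℕ} (h : j ≠ d) (t : ℝ) :
    s (Function.update θ d t) j = s θ j := by
  funext i
  by_cases h0 : j = 0 ∨ ∀ k, e k ≠ i
  · exact hs.off _ _ _ _ h0
  · push Not at h0
    obtain ⟨h0, k, rfl⟩ := h0
    rw [hs.blockv _ _ _ h0, hs.blockv _ _ _ h0, Function.update_of_ne h]

omit [DecidableEq ι] [Fintype β] in
theorem gvs_ne (hs : Fam e s) (θ : ℕ → ℝ) {d j : ℕ} (h : j ≠ d) (t : ℝ) :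
    gvs (s (Function.update θ d t)) j = gvs (s θ) j := congrArg gv (fam_ne hs θ h t)

omit [DecidableEq ι] in
theorem X_shift {σ : ℕ → ι → ℝ} {Ψ : (ι → ℝ) → ℝ} (hΨ : Measurable Ψ) (v : ι → ℝ) (d : ℕ)
    (w : ι → ℝ) : X ζ (gvs σ) (fun u => Ψ (u + v)) d w = X ζ (gvs σ) Ψ d (w + v) :=
  X_push (AddMonoidHom.id _) measurable_id v (fun j => (noise_gv (σ j)).prob) hΨ (fun _ => rfl)
    (fun _ _ => Measure.map_id) w

theorem bm2 (hJ : HJ H h1 h2) (i : ι) : BM2 (h1 i) := (hJ.jet.choose_spec i).bm2_m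

theorem bm2' (hJ : HJ H h1 h2) (i : ι) : BM2 (h2 i) := (hJ.jet.choose_spec i).bm2_a

theorem semi (hζ : Zok ζ) (hJ : HJ H h1 h2) (hB : Blk H h1 e K b Λ) (σ : ℕ → ι → ℝ) (d : ℕ)
    (c : β → ℝ) (w : ι → ℝ) :
    ∑ j, c j * GE ζ (gvs σ) μ H (h1 (e j)) d w - K / 2 * ∑ j, c j ^ 2 ≤
      X ζ (gvs σ) (gtop μ H) d (w + blk e c) - X ζ (gvs σ) (gtop μ H) d w := by
  have hν : ∀ d, Noise (gvs σ d) := fun d => noise_gv (σ d)
  have hL := hJ.hg.lg_gtop (μ := μ)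
  have g1 : ∀ j ∈ Finset.univ, BM2 fun w x => c j * h1 (e j) w x :=
    fun j _ => (bm2 hJ _).const_mul _
  have g2 := BM2.sum _ g1
  have g3 := g2.sub (BM2.const (K / 2 * ∑ j, c j ^ 2))
  have := chain_jensen (cas_gvs hζ σ hL) (cas_gvs hζ σ (hL.shift (blk e c))) (Nat.zero_le d)
    (fun _ _ _ => rfl) (hJ.hg.bm_gib (μ := μ) g3) (fun u =>
      (gexp_mono 1 (hJ.hg.eint u) (g3.bm u).eint ((hJ.hg.eint (u + blk e c)).sub (hJ.hg.eint u))
        fun x => by linarith [hB.sc c u x]).trans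
        (gexp_le_lse_sub zero_le_one (hJ.hg.eint u) (hJ.hg.eint (u + blk e c)))) w
  rw [X_shift hL.1] at this
  refine le_trans (le_of_eq ?_) this
  refine Eq.trans ?_ (GE_sub hJ.hg hζ hν g2 (BM2.const _) d w).symm
  rw [GE_const hJ.hg hζ hν, GE_sum hJ.hg hζ hν _ g1]
  simp only [GE_const_mul]

omit [DecidableEq ι] in
theorem osc_X (hζ : Zok ζ) (hH : HG H) (σ : ℕ → ι → ℝ) (d : ℕ) {v : ι → ℝ}
    (h : ∀ w x, |H (w + v) x - H w x| ≤ b) (w : ι → ℝ) :
    |X ζ (gvs σ) (gtop μ H) d (w + v) - X ζ (gvs σ) (gtop μ H) d w| ≤ b := by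
  have hL := hH.lg_gtop (μ := μ)
  rw [← X_shift hL.1]
  exact chain_abs (cas_gvs hζ σ hL) (cas_gvs hζ σ (hL.shift v)) (Nat.zero_le d)
    (fun _ _ _ => rfl) (fun u => abs_lse_sub_le zero_le_one (hH.eint u) (hH.eint (u + v))
      (ae_of_all _ (h u))) w

omit [DecidableEq ι] in
theorem eint_lin {Φ : (ι → ℝ) → ℝ} (h : LG Φ) (w : ι → ℝ) {L : (ι → ℝ) → ι → ℝ}
    (hL : Measurable L) {C : ℝ} (hC : ∀ η, ‖L η‖ ≤ C * ‖η‖) (σ : ι → ℝ) :
    EInt (gv σ) fun η => Φ (w + L η) := by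
  obtain ⟨hm, D, hD⟩ := h
  refine EInt.of_le (F := fun η => ‖η‖) (C := |D| * (1 + ‖w‖)) (D := |D| * C)
    ⟨measurable_norm, (noise_gv σ).ex⟩ (hm.comp (hL.const_add w)) fun η => ?_
  refine (hD _).trans ((mul_le_mul_of_nonneg_right (le_abs_self D) (by positivity)).trans ?_)
  rw [abs_norm, mul_assoc, ← mul_add]
  exact mul_le_mul_of_nonneg_left (by linarith [norm_add_le w (L η), hC η]) (abs_nonneg D)

omit [DecidableEq ι] in
theorem norm_diag (a η : ι → ℝ) : ‖fun i => a i * η i‖ ≤ ‖a‖ * ‖η‖ := norm_mul_le a η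

omit [DecidableEq ι] in
theorem eint_diag {Φ : (ι → ℝ) → ℝ} (h : LG Φ) (w a σ : ι → ℝ) :
    EInt (gv σ) fun η => Φ (w + fun i => a i * η i) :=
  eint_lin h w (by fun_prop) (norm_diag a) σ

omit [DecidableEq ι] in
theorem eint_coord (σ : ι → ℝ) (i : ι) {g : (ι → ℝ) → ℝ} (hg : BM g) :
    EInt (gv σ) fun η => η i * g η := by
  obtain ⟨hm, C, hC⟩ := hg
  refine EInt.of_le (F := fun η => ‖η‖) (C := 0) (D := C)
    ⟨measurable_norm, (noise_gv σ).ex⟩ ((measurable_pi_apply i).mul hm) fun η => ?_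
  rw [abs_mul, zero_add, abs_norm, mul_comm]
  exact mul_le_mul (hC η) (norm_le_pi_norm η i) (abs_nonneg _) ((abs_nonneg _).trans (hC η))

omit [DecidableEq ι] in
theorem eint_coord' (σ : ι → ℝ) (i : ι) : EInt (gv σ) fun η => η i := by
  simpa using eint_coord σ i (BM.const 1)

theorem sq_moment {z : ℝ} (h0 : 0 ≤ z) (h1 : z ≤ 1) {Φ : (ι → ℝ) → ℝ} (hΦ : LG Φ) (w a : ι → ℝ)
    (i : ι) (h : ∀ u (t : ℝ), |Φ (u + t • Pi.single i 1) - Φ u| ≤ b) :
    gexp (gv fun _ => 1) z (fun η => Φ (w + fun k => a k * η k)) (fun η => η i ^ 2) ≤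
      Real.exp (2 * b) := by
  have hb : 0 ≤ b := (abs_nonneg _).trans (h 0 0)
  have e1 := eint_diag hΦ w a fun _ => 1
  have e2 : EInt (gv fun _ => 1) fun η => Φ (w + fun k => a k * Function.update η i 0 k) := by
    have := eint_diag hΦ w (Function.update a i 0) fun _ => 1
    refine (congrArg _ (funext fun η => congrArg Φ (congrArg _ (funext fun k => ?_)))).mp this
    by_cases hk : k = i
    · simp [hk]
    · simp [hk]
  have := e2.prob_tilted z
  refine (gexp_le_exp_mul h0 e2 e1 (b := b) (ae_of_all _ fun η => ?_)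
    ((e2.tilted (eint_coord' _ i) z).integrable_pow 2) fun _ => sq_nonneg _).trans ?_
  · refine le_of_eq_of_le (congrArg (fun u => |Φ u - _|) (funext fun k => ?_)) (h _ (a i * η i))
    by_cases hk : k = i
    · simp [hk]
    · simp [hk]
  · have hp := integral_exp_pos (e2.2 z)
    rw [gexp_eq, gv_coord_indep _ i (F := fun η => Real.exp (z * Φ (w + fun k => a k * η k)))
      (e1.1.const_mul z).exp (g := fun t => t ^ 2) (by fun_prop), integral_sq_g1 zero_le_one,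
      mul_one, div_self hp.ne', mul_one]
    exact Real.exp_le_exp.2 (by nlinarith)

theorem lower (hζ : Zok ζ) (hJ : HJ H h1 h2) (hB : Blk H h1 e K b Λ) (hs : Fam e s)
    (θ : ℕ → ℝ) {d : ℕ} (hd : d ≠ 0) (hθ : 0 < θ d) (w : ι → ℝ) : ∃ B : ℝ, ∀ y, 0 ≤ θ d + y →
    y * B - K / 2 * y ^ 2 * (Real.exp (2 * b) * Fintype.card β)
      ≤ X ζ (gvs (s (Function.update θ d (θ d + y)))) (gtop μ H) (d + 1) w
        - X ζ (gvs (s θ)) (gtop μ H) (d + 1) w := by
  have hν : ∀ d, Noise (gvs (s θ) d) := fun d => noise_gv _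
  have hL := (cas_gvs hζ (s θ) (hJ.hg.lg_gtop (μ := μ))).lgX d
  have e1 := eint_diag hL w (fun i => √(s θ d i)) fun _ => 1
  have := e1.prob_tilted (ζ d)
  have i1 : ∀ j, Integrable (fun η : ι → ℝ => η (e j) *
      GE ζ (gvs (s θ)) μ H (h1 (e j)) d (w + fun i => √(s θ d i) * η i)) _ := fun j =>
    (e1.tilted (eint_coord _ (e j) ⟨(bm_GE hJ.hg hζ hν (bm2 hJ (e j)) d).1.comp (by fun_prop),
      (bm_GE hJ.hg hζ hν (bm2 hJ (e j)) d).2.imp fun _ h _ => h _⟩) (ζ d)).integrable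
  have i2 := fun j => (e1.tilted (eint_coord' _ (e j)) (ζ d)).integrable_pow 2
  have j1 := integrable_finsetSum Finset.univ fun j _ => i1 j
  have j2 := integrable_finsetSum Finset.univ fun j _ => i2 j
  refine ⟨∫ η, ∑ j, η (e j) * GE ζ (gvs (s θ)) μ H (h1 (e j)) d (w + fun i => √(s θ d i) * η i)
    ∂((gv fun _ => 1).tilted fun η => ζ d *
      X ζ (gvs (s θ)) (gtop μ H) d (w + fun i => √(s θ d i) * η i)), fun y hy => ?_⟩
  have e2 := eint_diag hL w (fun i => √(s (Function.update θ d (θ d + y)) d i)) fun _ => 1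
  have hT : ∀ σ : ι → ℝ, T (ζ d) (gv σ) (X ζ (gvs (s θ)) (gtop μ H) d) w =
      lse (gv fun _ => 1) (ζ d) fun η =>
        X ζ (gvs (s θ)) (gtop μ H) d (w + fun i => √(σ i) * η i) := fun σ => by
    rw [T, gv_eq_map σ]
    exact lse_map (by fun_prop) _ (hL.1.comp (measurable_const_add w))
  rw [X_succ, X_succ, X_congr (ζ' := ζ) (ν' := gvs (s θ)) fun j hj => ⟨rfl, gvs_ne hs θ hj.ne _⟩,
    gvs, gvs, hT, hT]
  refine le_trans ?_ (gexp_le_lse_sub (hζ.nn d) e1 e2)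
  refine le_trans ?_ (integral_mono ((j1.const_mul y).sub (j2.const_mul (K / 2 * y ^ 2)))
    (e1.tilted (e2.sub e1) (ζ d)).integrable fun η => ?_)
  · simp only [Pi.sub_apply]
    rw [integral_sub (j1.const_mul y) (j2.const_mul _), integral_const_mul, integral_const_mul,
      integral_finsetSum _ fun j _ => i2 j]
    refine sub_le_sub_left ?_ _
    rcases hB.osc with h | h
    · simp [h]
    · refine mul_le_mul_of_nonneg_left ?_ (mul_nonneg (by linarith [hB.K0]) (sq_nonneg y))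
      refine (Finset.sum_le_card_nsmul _ _ _ fun j _ => sq_moment (hζ.nn d) (hζ.le_one d) hL w _
        (e j) fun u t => osc_X μ hζ hJ.hg _ d (fun w x => h j w t x) u).trans_eq ?_
      rw [nsmul_eq_mul, mul_comm, Finset.card_univ]
  · have := semi μ hζ hJ hB (s θ) d (fun j => y * η (e j)) (w + fun i => √(s θ d i) * η i)
    simp only [mul_pow, mul_assoc, ← Finset.mul_sum] at this
    simp only [Pi.sub_apply, mul_assoc]
    refine this.trans_eq (congrArg (fun u => X ζ (gvs (s θ)) (gtop μ H) d u - _) ?_)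
    funext i
    by_cases hi : ∀ j, e j ≠ i
    · simp only [Pi.add_apply, blk_off e _ hi, add_zero, hs.off _ θ d i (Or.inr hi)]
    · push Not at hi
      obtain ⟨j, rfl⟩ := hi
      simp only [Pi.add_apply, blk_apply, hs.blockv _ d j hd, Function.update_self,
        Real.sqrt_sq hy, Real.sqrt_sq hθ.le]
      ring

theorem deriv_field (hζ : Zok ζ) (hJ : HJ H h1 h2) (hs : Fam e s)
    (θ : ℕ → ℝ) {d : ℕ} (hd : d ≠ 0) (hθ : 0 < θ d) (w : ι → ℝ) :
    HasDerivAt (fun y => X ζ (gvs (s (Function.update θ d (θ d + y)))) (gtop μ H) (d + 1) w)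
      (θ d * ∑ j, Bp ζ (gvs (s θ)) μ H (h1 (e j)) (h2 (e j)) d w) 0 := by
  obtain ⟨K', hK'⟩ := hJ.jet
  obtain ⟨u, hu⟩ : ∃ u : ℕ → ι → ℝ, u = fun k i => if k = d then blk e (fun _ => θ d ^ 2) i else 0 :=
    ⟨_, rfl⟩
  have key : ∀ y, s θ - (1 / 2 : ℝ) • u + (1 / 2 + ((θ d + y) ^ 2 - θ d ^ 2) / θ d ^ 2) • u =
      s (Function.update θ d (θ d + y)) := by
    intro y
    funext k i
    simp only [Pi.add_apply, Pi.sub_apply, Pi.smul_apply, smul_eq_mul, hu]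
    split_ifs with hk
    · subst hk
      by_cases hi : ∀ j, e j ≠ i
      · rw [blk_off e _ hi, hs.off (Function.update θ k _) θ k i (Or.inr hi)]; ring
      · push Not at hi
        obtain ⟨j, rfl⟩ := hi
        rw [blk_apply, hs.blockv _ k j hd, hs.blockv _ k j hd, Function.update_self]
        field_simp
        ring
    · rw [fam_ne hs θ hk]; ring
  have hu1 : ∀ k i, 0 ≤ u k i ∧ u k i ≤ s θ k i := by
    intro k i
    simp only [hu]
    split_ifs with hk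
    · subst hk
      by_cases hi : ∀ j, e j ≠ i
      · rw [blk_off e _ hi]; exact ⟨le_rfl, hs.nn _ _ _⟩
      · push Not at hi
        obtain ⟨j, rfl⟩ := hi
        rw [blk_apply, hs.blockv _ k j hd]; exact ⟨sq_nonneg _, le_rfl⟩
    · exact ⟨le_rfl, hs.nn _ _ _⟩
  have h1 := (deriv_X hζ (hJ.hg.lg_gtop (μ := μ)) (fun i => jet_gtop hJ.hg (hK' i))
    (s θ - (1 / 2 : ℝ) • u) u
    (fun k i => by simp only [Pi.sub_apply, Pi.smul_apply, smul_eq_mul]; linarith [hu1 k i])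
    (fun k i => by simp only [Pi.sub_apply, Pi.smul_apply, smul_eq_mul]; linarith [hu1 k i])
    (d + 1) w (1 / 2) ⟨by norm_num, by norm_num⟩).hasDerivAt
    (Icc_mem_nhds (by norm_num) (by norm_num))
  have h2 : HasDerivAt (fun y => 1 / 2 + ((θ d + y) ^ 2 - θ d ^ 2) / θ d ^ 2) (2 / θ d) 0 := by
    refine (((((hasDerivAt_id' (0 : ℝ)).const_add (θ d)).fun_pow 2).sub_const _).div_const _
      |>.const_add _).congr_deriv ?_
    simp only [Nat.cast_ofNat, add_zero]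
    field_simp
    ring
  have h3 := h1.comp_of_eq 0 h2 (by simp)
  simp only [Function.comp_def, key, sub_add_cancel] at h3
  refine h3.congr_deriv ?_
  rw [Finset.sum_eq_single d (fun k _ hk => by simp [hu, hk]) (by simp)]
  simp only [hu, if_pos, sum_blk, ← Finset.mul_sum, Bp]
  field_simp

end ConcAux

open ConcAux

/-- Pointwise tangent inequality in the field strength of level `d`. -/
theorem tangent_field (hζ : Zok ζ) (hJ : HJ H h1 h2) (hB : Blk H h1 e K b Λ) (hs : Fam e s)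
    (θ : ℕ → ℝ) {d : ℕ} (hd : d ≠ 0) (hθ : 0 < θ d) {y : ℝ} (hy : 0 ≤ θ d + y) (w : ι → ℝ) :
    y * (θ d * ∑ j, Bp ζ (gvs (s θ)) μ H (h1 (e j)) (h2 (e j)) d w)
        - K / 2 * y ^ 2 * (Real.exp (2 * b) * Fintype.card β)
      ≤ X ζ (gvs (s (Function.update θ d (θ d + y)))) (gtop μ H) (d + 1) w
        - X ζ (gvs (s θ)) (gtop μ H) (d + 1) w := by
  obtain ⟨B, hB'⟩ := lower μ hζ hJ hB hs θ hd hθ w
  have h1 := (deriv_field μ hζ hJ hs θ hd hθ w).fun_sub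
    (((hasDerivAt_id' (0 : ℝ)).mul_const B).fun_sub ((((hasDerivAt_id' (0 : ℝ)).fun_pow 2).const_mul
      (K / 2)).mul_const (Real.exp (2 * b) * Fintype.card β)))
  have h2 := IsLocalMin.hasDerivAt_eq_zero (by
    filter_upwards [Ioi_mem_nhds (neg_lt_zero.2 hθ)] with t ht
    have := hB' t (by linarith [Set.mem_Ioi.1 ht])
    simp only [add_zero, Function.update_eq_self]
    linarith) h1
  simp only [Nat.cast_ofNat, Nat.add_one_sub_one, pow_one, mul_zero, zero_mul, one_mul, sub_zero,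
    sub_eq_zero] at h2
  rw [h2]
  exact hB' y hy

theorem ConcAux.bm_tan (hζ : Zok ζ) (hJ : HJ H h1 h2) (σ : ℕ → ι → ℝ) (d : ℕ) (t : ℝ) :
    BM fun w => t * ∑ j, Bp ζ (gvs σ) μ H (h1 (e j)) (h2 (e j)) d w :=
  (BM.sum _ fun j _ => bm_Bp hJ.hg hζ (fun d => noise_gv (σ d)) (bm2 hJ (e j)) (bm2' hJ (e j))
    d).const_mul t

/-- Second differences are almost nonnegative. -/
theorem sd_lower (hζ : Zok ζ) (hJ : HJ H h1 h2) (hB : Blk H h1 e K b Λ) (hs : Fam e s)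
    (θ : ℕ → ℝ) {d n : ℕ} (hd : d ≠ 0) (hdn : d ≤ n) {y : ℝ} (hy0 : 0 ≤ y) (hy : y < θ d) :
    -(K * y ^ 2 * (Real.exp (2 * b) * Fintype.card β))
      ≤ X ζ (gvs (s (Function.update θ d (θ d + y)))) (gtop μ H) (n + 1) 0
        + X ζ (gvs (s (Function.update θ d (θ d - y)))) (gtop μ H) (n + 1) 0
        - 2 * X ζ (gvs (s θ)) (gtop μ H) (n + 1) 0 := by
  have hL := hJ.hg.lg_gtop (μ := μ)
  have hc := cas_gvs hζ (s θ) hL
  have hu := bm_tan μ (e := e) hζ hJ (s θ) d (θ d)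
  have key : ∀ y, 0 ≤ θ d + y → _ := fun y hy' => chain_jensen hc (cas_gvs hζ _ hL)
    (Nat.succ_le_succ hdn) (fun j h _ => gvs_ne hs θ (Nat.ne_of_gt h) _)
    ((hu.const_mul y).sub (BM.const _))
    (tangent_field μ hζ hJ hB hs θ hd (hy0.trans_lt hy) hy') 0
  have a1 := key y (by linarith)
  have a2 := key (-y) (by linarith)
  rw [hc.Ex_sub _ (hu.const_mul _) (BM.const _), hc.Ex_const, Ex_const_mul] at a1 a2
  rw [← sub_eq_add_neg] at a2
  linarith

theorem ConcAux.exp_bound {n : ℕ} (hζ : ZAdm n ζ) (hJ : HJ H h1 h2) (hB : Blk H h1 e K b Λ)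
    (hs : Fam e s) (θ : ℕ → ℝ) {Λ0 : ℝ} (hΛ0 : ∀ w x, ∑ i, s θ n i * h1 i w x ^ 2 ≤ Λ0)
    {ζs : ℝ} (hζs : 0 < ζs) (hζs' : ζs ≤ ζ (n - 1)) {d : ℕ} (hd : 1 ≤ d) (hdn : d ≤ n)
    (hθ : 0 < θ d) {y : ℝ} (hy : 0 ≤ θ d + y) :
    Ex ζ (gvs (s θ)) (gtop μ H) (d + 1) (fun w => Real.exp (ζs *
        (y * (θ d * ∑ j, Bp ζ (gvs (s θ)) μ H (h1 (e j)) (h2 (e j)) d w)
          - K / 2 * y ^ 2 * (Real.exp (2 * b) * Fintype.card β)))) (n + 1) 0
      ≤ Real.exp (ζs * (X ζ (gvs (s (Function.update θ d (θ d + y)))) (gtop μ H) (n + 1) 0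
        - X ζ (gvs (s θ)) (gtop μ H) (n + 1) 0 + ζs * (4 * Λ0) / 2)) := by
  have hz := hζ.zok
  have hL := hJ.hg.lg_gtop (μ := μ)
  have hc := cas_gvs hz (s θ) hL
  have hc' := cas_gvs hz (s (Function.update θ d (θ d + y))) hL
  have ht := tangent_field μ hz hJ hB hs θ (Nat.ne_of_gt hd) hθ hy
  have hδ := ((bm_tan μ (e := e) hz hJ (s θ) d (θ d)).const_mul y).sub
    (BM.const (K / 2 * y ^ 2 * (Real.exp (2 * b) * Fintype.card β)))
  have hG : ∀ σ w, ∑ i, s θ n i * GE ζ (gvs σ) μ H (h1 i) n w ^ 2 ≤ Λ0 := fun σ w => by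
    have := sum_sq_GE_le (μ := μ) hJ.hg hz (fun d => noise_gv (σ d)) (ν := gvs σ)
      (fun i => (bm2 hJ i).const_mul √(s θ n i)) (Λ := Λ0)
      (fun w x => by simpa only [mul_pow, Real.sq_sqrt (hs.nn _ _ _)] using hΛ0 w x) n w
    simpa only [GE_const_mul, mul_pow, Real.sq_sqrt (hs.nn _ _ _)] using this
  rcases hdn.eq_or_lt with rfl | hdn
  · have h0 : 0 ≤ Λ0 := (Finset.sum_nonneg fun i _ =>
      mul_nonneg (hs.nn _ _ _) (sq_nonneg _)).trans (hG (s θ) 0)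
    rw [Ex_of_le le_rfl]
    refine Real.exp_le_exp.2 (mul_le_mul_of_nonneg_left ((ht 0).trans ?_) hζs.le)
    exact le_add_of_nonneg_right (by positivity)
  · obtain ⟨K', hK'⟩ := hJ.jet
    have hD := (hc'.lgX n).sub (hc.lgX n)
    have hν := noise_gv (s θ n)
    have a1 := chain_exp hc hc' hdn (fun j h _ => gvs_ne hs θ (Nat.ne_of_gt h) _) hδ ht hζs
      fun j _ h => hζs'.trans (hz.anti (Nat.le_sub_one_of_lt h))
    have a2 := sub_gaussian hζs.le (hζs'.trans (hz.le_one _)) hD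
      (fun i => (hc'.jetX (jet_gtop hJ.hg (hK' i)) n).sub (hc.jetX (jet_gtop hJ.hg (hK' i)) n))
      (hs.nn θ n) (L2 := 4 * Λ0) (fun w => by
        have b1 := hG (s θ) w
        have b2 := hG (s (Function.update θ d (θ d + y))) w
        refine le_trans (Finset.sum_le_sum fun i _ => (?_ : _ ≤
          2 * (s θ n i * GE ζ (gvs (s θ)) μ H (h1 i) n w ^ 2) + 2 * (s θ n i *
            GE ζ (gvs (s (Function.update θ d (θ d + y)))) μ H (h1 i) n w ^ 2))) ?_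
        · unfold GE
          linarith [mul_nonneg (hs.nn θ n i) (sq_nonneg (Ex ζ (gvs (s θ)) (gtop μ H) 0
            (gib μ H (h1 i)) n w + Ex ζ (gvs (s (Function.update θ d (θ d + y)))) (gtop μ H) 0
            (gib μ H (h1 i)) n w))]
        · rw [Finset.sum_add_distrib, ← Finset.mul_sum, ← Finset.mul_sum]
          linarith) 0
    rw [Ex_succ hdn, X_succ, X_succ, gvs_ne hs θ hdn.ne', hζ.zn n le_rfl, P]
    have := hν.prob
    simp only [gvs]
    rw [gexp_zero]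
    refine (integral_mono (ChainAux.shift (hc.bmEx _ (hδ.const_mul ζs).exp n) 0).integrable
      ((hD.eint hν 0).2 ζs) fun z => a1 _).trans ?_
    rw [← exp_mul_lse ((hD.eint hν 0).2 ζs)]
    refine Real.exp_le_exp.2 (mul_le_mul_of_nonneg_left (a2.trans_eq ?_) hζs.le)
    simp only [T, lse, if_true]
    rw [integral_sub ((hc'.lgX n).eint hν 0).integrable ((hc.lgX n).eint hν 0).integrable]

theorem conc {n : ℕ} (hζ : ZAdm n ζ) (hJ : HJ H h1 h2) (hB : Blk H h1 e K b Λ) (hs : Fam e s)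
    (θ τ : ℕ → ℝ) {y κ : ℝ} (hy : 0 < y) (hθ : ∀ d, 1 ≤ d → d ≤ n → y < θ d)
    (hSD : SD (fun θ' => X ζ (gvs (s θ')) (gtop μ H) (n + 1) 0) θ τ y κ n)
    {Λ0 : ℝ} (hΛ0 : ∀ w x, ∑ i, s θ n i * h1 i w x ^ 2 ≤ Λ0)
    {ζs : ℝ} (hζs : 0 < ζs) (hζs' : ζs ≤ ζ (n - 1)) {d : ℕ} (hd : 1 ≤ d) (hdn : d ≤ n) :
    Ex ζ (gvs (s θ)) (gtop μ H) (d + 1)
        (fun w => |θ d * ∑ j, Bp ζ (gvs (s θ)) μ H (h1 (e j)) (h2 (e j)) d w - τ d|) (n + 1) 0
      ≤ (κ + K / 2 * y ^ 2 * (Real.exp (2 * b) * Fintype.card β) + Real.log 2 / ζs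
          + 2 * ζs * Λ0) / y := by
  have hc := cas_gvs hζ.zok (s θ) (hJ.hg.lg_gtop (μ := μ))
  have hy' := hθ d hd hdn
  have a1 := exp_bound μ hζ hJ hB hs θ hΛ0 hζs hζs' hd hdn (hy.trans hy') (y := y) (by linarith)
  have a2 := exp_bound μ hζ hJ hB hs θ hΛ0 hζs hζs' hd hdn (hy.trans hy') (y := -y) (by linarith)
  obtain ⟨s1, s2⟩ := hSD d hd hdn
  rw [← sub_eq_add_neg, neg_sq] at a2
  have hu := bm_tan μ (e := e) hζ.zok hJ (s θ) d (θ d)
  generalize K / 2 * y ^ 2 * (Real.exp (2 * b) * Fintype.card β) = c at *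
  obtain ⟨u, hu'⟩ : ∃ u : (ι → ℝ) → ℝ,
    ∀ w, θ d * ∑ j, Bp ζ (gvs (s θ)) μ H (h1 (e j)) (h2 (e j)) d w = u w := ⟨_, fun _ => rfl⟩
  simp only [hu'] at a1 a2 hu s1 s2 ⊢
  obtain ⟨M, hM⟩ : ∃ M, M = Real.log 2 + ζs * (κ + c + 2 * ζs * Λ0) := ⟨_, rfl⟩
  have b1 := (((hu.const_mul y).sub (BM.const c)).const_mul ζs).exp
  have b2 := (((hu.const_mul (-y)).sub (BM.const c)).const_mul ζs).exp
  have c1 := b1.const_mul (Real.exp (ζs * (c - y * τ d) - M))
  have c2 := b2.const_mul (Real.exp (ζs * (c + y * τ d) - M))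
  have key := hc.Ex_mono (d + 1) ((hu.sub (BM.const (τ d))).abs.const_mul (ζs * y))
    ((BM.const (M - 1)).add (c1.add c2)) (fun w => by
      rw [← Real.exp_add, ← Real.exp_add]
      have p1 := Real.add_one_le_exp (ζs * (c - y * τ d) - M + ζs * (y * u w - c))
      have p2 := Real.add_one_le_exp (ζs * (c + y * τ d) - M + ζs * (-y * u w - c))
      have p3 := Real.exp_pos (ζs * (c - y * τ d) - M + ζs * (y * u w - c))
      have p4 := Real.exp_pos (ζs * (c + y * τ d) - M + ζs * (-y * u w - c))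
      rcases abs_cases (u w - τ d) with h | h <;> rw [h.1] <;> linarith) (n + 1) 0
  rw [Ex_const_mul, hc.Ex_add _ (BM.const _) (c1.add c2), hc.Ex_add _ c1 c2, hc.Ex_const,
    Ex_const_mul, Ex_const_mul] at key
  have hh : Real.exp (-Real.log 2) = 1 / 2 := by
    rw [Real.exp_neg, Real.exp_log two_pos, one_div]
  have d1 := mul_le_mul_of_nonneg_left a1 (Real.exp_pos (ζs * (c - y * τ d) - M)).le
  have d2 := mul_le_mul_of_nonneg_left a2 (Real.exp_pos (ζs * (c + y * τ d) - M)).le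
  rw [← Real.exp_add] at d1 d2
  replace d1 := d1.trans ((Real.exp_le_exp.2 (by
    linarith [mul_le_mul_of_nonneg_left s1 hζs.le])).trans hh.le)
  replace d2 := d2.trans ((Real.exp_le_exp.2 (by
    linarith [mul_le_mul_of_nonneg_left s2 hζs.le])).trans hh.le)
  rw [le_div_iff₀ hy]
  refine le_of_mul_le_mul_left ?_ hζs
  have : ζs * (Real.log 2 / ζs) = Real.log 2 := mul_div_cancel₀ _ hζs.ne'
  linarith

end Vale.Agent.P157
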