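import Vale.Agent.P157.Crude

/-! # The uniform measure on the cube -/

namespace Vale.Agent.P157

open MeasureTheory ProbabilityTheory

variable {S : Type} [Fintype S] [DecidableEq S]

namespace IsingBAux

theorem unif_single (b : S → Bool) :
    uniformOn (Set.univ : Set (S → Bool)) {b} = ((2 : ENNReal) ^ Fintype.card S)⁻¹ := by
  rw [uniformOn_univ, Measure.count_singleton, Fintype.card_fun, Fintype.card_bool, one_div]
  push_cast
  rfl

/-- Selection of the coordinates that carry variance. -/
def sel {A S : Type} : Co A (Option S) → Option (Option (Co A S))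
  | .inl (a, i) => i.map fun j => some (.inl (a, j))
  | .inr (.inl i) => some (i.map fun j => .inr (.inl j))
  | .inr (.inr a) => some (some (.inr (.inr a)))

/-- The inverse of the selection. -/
def back {A S : Type} : Option (Co A S) → Co A (Option S)
  | none => .inr (.inl none)
  | some (.inl (a, j)) => .inl (a, some j)
  | some (.inr (.inl j)) => .inr (.inl (some j))
  | some (.inr (.inr a)) => .inr (.inr a)

theorem back_sel {A S : Type} (k : Co A (Option S)) (i : Option (Co A S))
    (hk : sel k = some i) : k = back i := by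
  rcases k with ⟨a, _ | j⟩ | (_ | j) | a
  · cases hk
  all_goals
    cases hk
    rfl

theorem sel_inj {A S : Type} (k l : Co A (Option S)) (i : Option (Co A S))
    (hk : sel k = some i) (hl : sel l = some i) : k = l :=
  (back_sel k i hk).trans (back_sel l i hl).symm

end IsingBAux

open IsingBAux

omit [DecidableEq S] in
theorem measurable_spin : Measurable (spin : (S → Bool) → Sph S) := measurable_of_finite _

instance ising_prob : IsProbabilityMeasure (ising S) :=
  Measure.isProbabilityMeasure_map measurable_spin.aemeasurable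

theorem integral_ising {F : Sph S → ℝ} (hF : Measurable F) :
    ∫ x, F x ∂(ising S) = ((2 : ℝ) ^ Fintype.card S)⁻¹ * ∑ b : S → Bool, F (spin b) := by
  rw [ising, integral_map measurable_spin.aemeasurable hF.aestronglyMeasurable,
    integral_fintype Integrable.of_finite, Finset.mul_sum]
  refine Finset.sum_congr rfl fun b _ => ?_
  rw [Measure.real, unif_single, smul_eq_mul, ENNReal.toReal_inv, ENNReal.toReal_pow,
    ENNReal.toReal_ofNat]

theorem ising_ae : ∀ᵐ x ∂(ising S), ∀ i, x.1 i ^ 2 = 1 := by
  rw [ae_all_iff]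
  intro i
  rw [ising, ae_map_iff measurable_spin.aemeasurable
    (measurableSet_eq_fun ((measurable_sph_coord i).pow_const 2) measurable_const)]
  refine Filter.Eventually.of_forall fun b => ?_
  show (if b i then (1 : ℝ) else -1) ^ 2 = 1
  split_ifs <;> norm_num

theorem ising_reindex {S' : Type} [Fintype S'] [DecidableEq S'] (e : S ≃ S') :
    (ising S).map (reSph e) = ising S' := by
  let E : (S → Bool) ≃ (S' → Bool) := e.arrowCongr (Equiv.refl Bool)
  have hE : Measurable E := measurable_of_finite _
  have h1 : (uniformOn (Set.univ : Set (S → Bool))).map E = uniformOn Set.univ := by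
    refine Measure.ext_of_singleton fun b => ?_
    have h2 : E ⁻¹' {b} = {E.symm b} := by
      ext c
      exact E.eq_symm_apply.symm
    rw [Measure.map_apply hE (measurableSet_singleton b), h2, unif_single, unif_single,
      Fintype.card_congr e]
  rw [ising, ising, ← h1, Measure.map_map (measurable_reSph e) measurable_spin,
    Measure.map_map measurable_spin hE]
  rfl

theorem log_integral_ising (w : S → ℝ) :
    Real.log (∫ x, Real.exp (∑ i, w i * x.1 i) ∂(ising S)) = ∑ i, lc (w i) := by
  have hm : Measurable fun x : Sph S => Real.exp (∑ i, w i * x.1 i) :=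
    (Finset.measurable_sum _ fun i _ => (measurable_sph_coord i).const_mul _).exp
  have h1 : ∑ b : S → Bool, Real.exp (∑ i, w i * (spin b).1 i)
      = ∏ i, (2 * Real.cosh (w i)) := by
    have h2 : ∀ i, 2 * Real.cosh (w i)
        = ∑ c : Bool, Real.exp (w i * if c then 1 else -1) := fun i => by
      rw [Fintype.sum_bool, Real.cosh_eq]
      simp only [if_true, mul_one, Bool.false_eq_true, if_false, mul_neg]
      ring
    simp only [h2]
    rw [Finset.prod_univ_sum, Fintype.piFinset_univ]
    exact Finset.sum_congr rfl fun b _ => Real.exp_sum _ _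
  rw [integral_ising hm, h1, Finset.prod_mul_distrib, Finset.prod_const, Finset.card_univ,
    inv_mul_cancel_left₀ (by positivity), Real.log_prod fun i _ => (Real.cosh_pos _).ne']
  rfl

/-- Without patterns the cube factorizes. -/
theorem vs_ising_zero {ζ : ℕ → ℝ} (hζ : Zok ζ) (F : ℕ → ℝ → ℝ) (n : ℕ) (θ θ' : ℕ → ℝ) :
    VS (ising S) F 0 ζ n θ θ' = Fintype.card S * psi n ζ (cum n (sq0 θ)) lc := by
  rw [vs_zero, psi_cum n ζ _ lg_lc.1]
  simp only [log_integral_ising]
  refine (X_pi (cas_g1s hζ (sq0 θ) lg_lc) (n + 1) 0).trans ?_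
  simp only [Pi.zero_apply, Finset.sum_const, Finset.card_univ, nsmul_eq_mul]

theorem IsingBAux.gtop_sel {A : Type} [Fintype A] [DecidableEq A]
    {f : A → ℝ → ℝ} (hm : ∀ a, Measurable (f a)) {K : ℝ} (hb : ∀ a x, |f a x| ≤ K)
    (u : Option (Co A S) → ℝ) :
    gtop (ising (Option S)) (uH f) (fun k => (sel k).elim 0 u)
      = gtop (ising S) (uH f) (fun c => u (some c)) + lc (u none) := by
  have h1 : ∀ p : Bool × (S → Bool),
      uH f (fun k => (sel k).elim 0 u) (spin (Equiv.piOptionEquivProd.symm p))
        = u none * (if p.1 then 1 else -1) + uH f (fun c => u (some c)) (spin p.2) := by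
    intro p
    simp only [uH, arg, Fintype.sum_option, sel, spin, Option.map_none, Option.map_some,
      Option.elim_none, Option.elim_some, zero_mul, zero_add]
    show _ + (u none * (if p.1 then 1 else -1) + _) = _
    rw [add_left_comm]
    rfl
  have h2 : 0 < ∑ b : S → Bool, Real.exp (uH f (fun c => u (some c)) (spin b)) :=
    Finset.sum_pos (fun _ _ => Real.exp_pos _) Finset.univ_nonempty
  rw [gtop_eq, gtop_eq, integral_ising ((hg_uH hm hb).bm _).1.exp,
    integral_ising ((hg_uH hm hb).bm _).1.exp,
    ← (Equiv.piOptionEquivProd (β := fun _ : Option S => Bool)).symm.sum_comp, lc,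
    ← Real.log_mul (by positivity) (Real.cosh_pos _).ne']
  simp only [h1, Real.exp_add]
  rw [Fintype.sum_prod_type, Fintype.sum_bool, Fintype.card_option, Real.cosh_eq]
  simp only [← Finset.mul_sum, if_true, mul_one, Bool.false_eq_true, if_false, mul_neg]
  refine congrArg Real.log ?_
  ring

/-- With no variance on the pattern entries of the new spin the system decouples. -/
theorem val_ising_decoupled {A : Type} [Fintype A] [DecidableEq A] {ζ : ℕ → ℝ} (hζ : Zok ζ)
    {f : A → ℝ → ℝ} (hm : ∀ a, Measurable (f a)) {K : ℝ} (hb : ∀ a x, |f a x| ≤ K)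
    (n : ℕ) (g : A → S → ℝ) (x : ℕ → Option S → ℝ) (y : ℕ → A → ℝ) :
    Val (ising (Option S)) f ζ (prof n (fun a i => i.elim 0 (g a)) x y) n
      = Val (ising S) f ζ (prof n g (fun d i => x d (some i)) y) n
        + X ζ (g1s fun d => x d none) lc (n + 1) 0 := by
  have h1 := X_sel (sel : Co A (Option S) → Option (Option (Co A S))) sel_inj ζ
    (fun d c => c.elim (x d none) (prof n g (fun d i => x d (some i)) y d))
    (prof n (fun a i => i.elim 0 (g a)) x y) (Ψ' := gtop (ising (Option S)) (uH f))
    (hg_uH hm hb).lg_gtop.1 (d := n + 1) fun j _ k => by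
      rcases k with ⟨a, _ | i⟩ | (_ | i) | a
      · exact ite_self _
      all_goals rfl
  simp only [gtop_sel hm hb] at h1
  rw [Val, ← h1, X_option hζ _ (hg_uH hm hb).lg_gtop lg_lc]
  rfl

theorem vso_eq (F : ℕ → ℝ → ℝ) (m : ℕ) (ζ : ℕ → ℝ) (n : ℕ) (θ θ' : ℕ → ℝ) :
    VSo S F m ζ n θ θ' (sq0 θ) = VS (ising (Option S)) F m ζ n θ θ' := by
  have h : (fun d (i : Option S) => i.elim (sq0 θ d) fun _ => sq0 θ d)
      = fun d _ => sq0 θ d := by
    funext d i
    cases i <;> rfl
  rw [VSo, VS, cprof, h, Fintype.card_option, Nat.cast_add, Nat.cast_one]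

theorem vs_ising_option {F : ℕ → ℝ → ℝ} (hm : ∀ a, Measurable (F a)) (N m : ℕ) (ζ : ℕ → ℝ)
    (n : ℕ) (θ θ' : ℕ → ℝ) :
    VS (ising (Option (Fin N))) F m ζ n θ θ' = VS (ising (Fin (N + 1))) F m ζ n θ θ' := by
  rw [← ising_reindex (finSuccEquiv N).symm, vs_reindex _ _ hm]

theorem X_lc_bounds {ζ : ℕ → ℝ} (hζ : Zok ζ) {v : ℕ → ℝ} (hv : ∀ d, 0 ≤ v d) (n : ℕ) :
    0 ≤ X ζ (g1s v) lc n 0 ∧ X ζ (g1s v) lc n 0 ≤ (∑ d ∈ Finset.range n, v d) / 2 := by
  have hc := cas_g1s hζ v lg_lc
  have hlc : ∀ d x, lse (g1 (v d)) 1 (fun z => lc (x + z)) = lc x + v d / 2 := by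
    intro d x
    have hid : LG fun z : ℝ => z := ⟨measurable_id, 1, fun z => by
      rw [Real.norm_eq_abs]; linarith⟩
    have hi : ∀ c : ℝ, Integrable (fun z => Real.exp (c * z)) (g1 (v d)) := fun c => by
      simpa only [zero_add] using (hid.eint (noise_g1 (v d)) 0).2 c
    have h1 : ∀ z, Real.exp (1 * lc (x + z))
        = Real.exp x / 2 * Real.exp (1 * z) + Real.exp (-x) / 2 * Real.exp (-1 * z) := fun z => by
      rw [one_mul, lc, Real.exp_log (Real.cosh_pos _), Real.cosh_eq, neg_add, Real.exp_add,
        Real.exp_add, one_mul, neg_one_mul]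
      ring
    rw [lse, if_neg one_ne_zero, inv_one, one_mul]
    simp only [h1]
    rw [integral_add ((hi 1).const_mul _) ((hi (-1)).const_mul _), integral_const_mul,
      integral_const_mul, integral_exp_g1 (hv d), integral_exp_g1 (hv d), neg_one_sq, one_pow,
      mul_one, ← add_mul, ← add_div, ← Real.cosh_eq,
      Real.log_mul (Real.cosh_pos _).ne' (Real.exp_pos _).ne', Real.log_exp, lc]
  have key : ∀ d x, 0 ≤ X ζ (g1s v) lc d x ∧
      X ζ (g1s v) lc d x ≤ lc x + (∑ j ∈ Finset.range d, v j) / 2 := by
    intro d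
    induction d with
    | zero =>
      intro x
      refine ⟨Real.log_nonneg (Real.one_le_cosh x), ?_⟩
      rw [Finset.sum_range_zero, zero_div, add_zero]
      exact le_rfl
    | succ d ih =>
      intro x
      have e1 : EInt (g1 (v d)) fun z => X ζ (g1s v) lc d (x + z) :=
        (hc.lgX d).eint (noise_g1 (v d)) x
      have e2 : EInt (g1 (v d)) fun z => lc (x + z) := lg_lc.eint (noise_g1 (v d)) x
      have a1 := lse_mono (hζ.nn d) (EInt.const 0) e1 fun z => (ih _).1
      have a2 := lse_mono_zeta (hζ.nn d) (hζ.le_one d) e1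
      have a3 := lse_mono zero_le_one e1 (e2.add (EInt.const _)) fun z => (ih _).2
      rw [lse_const] at a1
      rw [lse_add_const e2.integrable (e2.2 1), hlc] at a3
      refine ⟨a1, (a2.trans a3).trans_eq ?_⟩
      rw [Finset.sum_range_succ]
      ring
  have h0 : lc 0 = 0 := by rw [lc, Real.cosh_zero, Real.log_one]
  have h := key n 0
  rwa [h0, zero_add] at h

end Vale.Agent.P157
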