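import Vale.Agent.P157.Defs

/-! # A concavity criterion: off diagonal signs and monotonicity along the diagonal -/

namespace Vale.Agent.P157

namespace LnatAux

open Filter Topology

variable {ι : Type}

/-- Relations that behave like the nonnegativity of a symmetric bilinear form. -/
structure Cone (R : (ι → ℝ) → (ι → ℝ) → Prop) : Prop where
  symm : ∀ u v, R u v → R v u
  zero : ∀ v, R 0 v
  add : ∀ u u' v, R u v → R u' v → R (u + u') v
  smul : ∀ (c : ℝ) u v, 0 ≤ c → R u v → R (c • u) v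
  neg : ∀ u v, R u v → R (-u) (-v)

variable {R : (ι → ℝ) → (ι → ℝ) → Prop}

theorem Cone.sum (h : Cone R) {α : Type} (s : Finset α) (f : α → ι → ℝ) (v : ι → ℝ)
    (hf : ∀ a ∈ s, R (f a) v) : R (∑ a ∈ s, f a) v :=
  Finset.sum_induction f (fun u => R u v) (fun a b => h.add a b v) (h.zero v) hf

variable [Fintype ι] [DecidableEq ι]

theorem Cone.level (h : Cone R) (h2 : ∀ k l, k ≠ l → R (-Pi.single k 1) (Pi.single l 1))
    (h3 : ∀ k, R (Pi.single k 1) 1) (A : Finset ι) (u : ι → ℝ) {c : ℝ} (hc : 0 ≤ c)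
    (hin : ∀ l ∈ A, c ≤ u l) (hout : ∀ l, l ∉ A → u l ≤ c) :
    R (∑ k ∈ A, Pi.single k 1) u := by
  have e1 : u = c • (1 : ι → ℝ) + ∑ l, (u l - c) • (Pi.single l 1 : ι → ℝ) := by
    funext j
    simp [Finset.sum_apply, Pi.single_apply]
  have e2 : (∑ k ∈ A, Pi.single k 1 : ι → ℝ) = 1 + ∑ k ∈ Aᶜ, -(Pi.single k 1 : ι → ℝ) := by
    funext j
    by_cases hj : j ∈ A <;> simp [Finset.sum_apply, Pi.single_apply, hj]
  rw [e1]
  refine h.symm _ _ (h.add _ _ _ (h.smul _ _ _ hc (h.symm _ _ (h.sum _ _ _ fun k _ => h3 k)))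
    (h.sum _ _ _ fun l _ => ?_))
  by_cases hl : l ∈ A
  · refine h.smul _ _ _ (sub_nonneg.2 (hin l hl)) ?_
    rw [e2]
    refine h.symm _ _ (h.add _ _ _ (h.symm _ _ (h3 l)) (h.sum _ _ _ fun k hk => h2 k l ?_))
    rintro rfl
    exact Finset.mem_compl.1 hk hl
  · rw [← neg_sub, neg_smul, ← smul_neg]
    refine h.smul _ _ _ (sub_nonneg.2 (hout l hl)) (h.symm _ _ (h.sum _ _ _ fun k hk =>
      h.symm _ _ (h2 l k ?_)))
    rintro rfl
    exact hl hk

theorem Cone.comono (h : Cone R) (h2 : ∀ k l, k ≠ l → R (-Pi.single k 1) (Pi.single l 1))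
    (h3 : ∀ k, R (Pi.single k 1) 1) (u : ι → ℝ) (A : Finset ι) :
    ∀ w : ι → ℝ, (∀ k, k ∉ A → w k = 0) → (∀ k, 0 ≤ w k) → (∀ k l, u k ≤ u l → w k ≤ w l) →
      (∀ k, u k ≤ 0 → w k = 0) → R w u := by
  induction A using Finset.strongInduction with
  | H A ih =>
    intro w h0 hw hm hz
    rcases (Finset.univ.filter fun k => w k ≠ 0).eq_empty_or_nonempty with he | hne
    · have : w = 0 := funext fun k => by
        by_contra hk
        have : k ∈ Finset.univ.filter fun k => w k ≠ 0 := by simpa using hk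
        rw [he] at this
        exact Finset.notMem_empty k this
      rw [this]
      exact h.zero u
    obtain ⟨k0, hk0, hmin⟩ := Finset.exists_min_image _ u hne
    set B := Finset.univ.filter fun k => w k ≠ 0 with hB
    have mem : ∀ k, k ∈ B ↔ w k ≠ 0 := fun k => by simp [hB]
    have pos : ∀ k ∈ B, 0 < w k := fun k hk => lt_of_le_of_ne (hw k) ((mem k).1 hk).symm
    have hk0A : k0 ∈ A := by
      by_contra hn
      exact (mem k0).1 hk0 (h0 k0 hn)
    have e : w = w k0 • (∑ k ∈ B, Pi.single k 1 : ι → ℝ) +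
        fun k => if k ∈ B then w k - w k0 else 0 := by
      funext j
      by_cases hj : j ∈ B
      · simp [Finset.sum_apply, Pi.single_apply, hj]
      · have : w j = 0 := by
          by_contra hn
          exact hj ((mem j).2 hn)
        simp [Finset.sum_apply, Pi.single_apply, hj, this]
    have nn : ∀ k, 0 ≤ if k ∈ B then w k - w k0 else 0 := fun k => by
      split_ifs with hk
      · exact sub_nonneg.2 (hm _ _ (hmin k hk))
      · exact le_rfl
    rw [e]
    refine h.add _ _ _ (h.smul _ _ _ (hw k0) (h.level h2 h3 B u (c := u k0) ?_ hmin ?_))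
      (ih (A.erase k0) (Finset.erase_ssubset hk0A) _ (fun k hk => ?_) nn (fun k l hkl => ?_)
        fun k hk => ?_)
    · by_contra hn
      exact (mem k0).1 hk0 (hz k0 (not_le.1 hn).le)
    · intro l hl
      by_contra hn
      exact hl ((mem l).2 ((pos k0 hk0).trans_le (hm _ _ (not_le.1 hn).le)).ne')
    · split_ifs with hkB
      · by_cases hkk : k = k0
        · rw [hkk, sub_self]
        · exact absurd (h0 k fun hA => hk (Finset.mem_erase.2 ⟨hkk, hA⟩)) ((mem k).1 hkB)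
      · rfl
    · by_cases hkB : k ∈ B
      · have hl : l ∈ B := (mem l).2 ((pos k hkB).trans_le (hm _ _ hkl)).ne'
        rw [if_pos hkB, if_pos hl]
        exact sub_le_sub_right (hm _ _ hkl) _
      · rw [if_neg hkB]
        exact nn l
    · exact if_neg fun hkB => (mem k).1 hkB (hz k hk)

theorem Cone.diag (h : Cone R) (h2 : ∀ k l, k ≠ l → R (-Pi.single k 1) (Pi.single l 1))
    (h3 : ∀ k, R (Pi.single k 1) 1) (u : ι → ℝ) : R u u := by
  have key : ∀ u : ι → ℝ, R (fun k => max (u k) 0) u := fun u =>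
    h.comono h2 h3 u Finset.univ _ (fun k hk => absurd (Finset.mem_univ k) hk)
      (fun k => le_max_right _ _) (fun k l hkl => max_le_max_right 0 hkl) fun k hk =>
      max_eq_right hk
  have a1 := h.neg _ _ (key (-u))
  rw [neg_neg] at a1
  have a2 := h.add _ _ _ (key u) a1
  have e : ((fun k => max (u k) 0) + -fun k => max ((-u) k) 0) = u := by
    funext k
    exact (sub_eq_add_neg _ _).symm.trans (max_zero_sub_max_neg_zero_eq_self (u k))
  rwa [e] at a2

theorem le_of_deriv {F F' : ℝ → ℝ} {s c : ℝ} (hs : 0 ≤ s)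
    (h : ∀ σ ∈ Set.Icc 0 s, HasDerivAt F (F' σ) σ) (hb : ∀ σ ∈ Set.Icc 0 s, F' σ ≤ c) :
    F s - F 0 ≤ s * c := by
  rcases hs.eq_or_lt with rfl | hs'
  · simp
  obtain ⟨σ, h1, h2⟩ := exists_hasDerivAt_eq_slope F F' hs'
    (fun x hx => (h x hx).continuousAt.continuousWithinAt) fun x hx => h x (Set.Ioo_subset_Icc_self hx)
  have := hb σ (Set.Ioo_subset_Icc_self h1)
  rw [h2, sub_zero, div_le_iff₀ hs'] at this
  linarith

theorem deriv_nonpos {F : ℝ → ℝ} {c : ℝ} (h : HasDerivAt F c 0)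
    (hb : ∀ᶠ t in 𝓝[>] (0 : ℝ), F t ≤ F 0) : c ≤ 0 := by
  refine le_of_tendsto h.tendsto_slope_zero_right ?_
  filter_upwards [hb, self_mem_nhdsWithin] with t h1 h2
  rw [zero_add]
  exact mul_nonpos_of_nonneg_of_nonpos (inv_nonneg.2 (le_of_lt h2)) (sub_nonpos.2 h1)

omit [DecidableEq ι] in
theorem shift {U : Set (ι → ℝ)} {φ : (ι → ℝ) → ℝ} {g : (ι → ℝ) → ι → ℝ}
    (h1 : ∀ p ∈ U, ∀ u : ι → ℝ, HasDerivAt (fun t : ℝ => φ (p + t • u)) (-∑ k, u k * g p k) 0)
    (p u : ι → ℝ) (t : ℝ) (h : p + t • u ∈ U) :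
    HasDerivAt (fun s : ℝ => φ (p + s • u)) (-∑ k, u k * g (p + t • u) k) t := by
  have a1 := h1 _ h u
  rw [← sub_self t] at a1
  have a2 := a1.comp_sub_const t t
  simpa only [add_assoc, ← add_smul, add_sub_cancel] using a2

omit [Fintype ι] [DecidableEq ι] in
theorem seg {U : Set (ι → ℝ)} (hc : Convex ℝ U) {p u : ι → ℝ} {s σ : ℝ} (hp : p ∈ U)
    (hs : p + s • u ∈ U) (hσ : σ ∈ Set.Icc 0 s) : p + σ • u ∈ U := by
  rcases (hσ.1.trans hσ.2).eq_or_lt with rfl | h
  · rw [le_antisymm hσ.2 hσ.1]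
    exact hs
  · have := hc.add_smul_mem hp hs (t := σ / s) ⟨div_nonneg hσ.1 h.le, (div_le_one h).2 hσ.2⟩
    rwa [smul_smul, div_mul_cancel₀ _ h.ne'] at this

/-- The derivative in direction `u` is monotone in direction `v`. -/
def Pos (U : Set (ι → ℝ)) (g : (ι → ℝ) → ι → ℝ) (u v : ι → ℝ) : Prop :=
  ∀ p ∈ U, ∀ s : ℝ, 0 ≤ s → p + s • v ∈ U → ∑ k, u k * g p k ≤ ∑ k, u k * g (p + s • v) k

omit [DecidableEq ι] in
theorem cone_pos {U : Set (ι → ℝ)} (hU : IsOpen U) (hc : Convex ℝ U) {φ : (ι → ℝ) → ℝ}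
    {g : (ι → ℝ) → ι → ℝ}
    (h1 : ∀ p ∈ U, ∀ u : ι → ℝ, HasDerivAt (fun t : ℝ => φ (p + t • u)) (-∑ k, u k * g p k) 0) :
    Cone (Pos U g) := by
  refine ⟨fun u v h p hp s hs hps => ?_, fun v p _ s _ _ => by simp, fun u u' v h h' p hp s hs hps => ?_,
    fun c u v hc0 h p hp s hs hps => ?_, fun u v h p hp s hs hps => ?_⟩
  · have ev : ∀ q ∈ U, ∀ᶠ t in 𝓝[>] (0 : ℝ), q + t • v ∈ U := fun q hq => by
      have hcont : Continuous fun t : ℝ => q + t • v := by fun_prop
      refine mem_nhdsWithin_of_mem_nhds (hcont.continuousAt.preimage_mem_nhds (hU.mem_nhds ?_))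
      simpa using hq
    have a1 := deriv_nonpos ((h1 _ hps v).fun_sub (h1 _ hp v)) (by
      filter_upwards [ev _ hp, ev _ hps, self_mem_nhdsWithin] with t t1 t2 t3
      rw [add_right_comm] at t2
      have := le_of_deriv (c := 0) hs (fun σ hσ =>
        (shift h1 (p + t • v) u σ (seg hc t1 t2 hσ)).fun_sub (shift h1 p u σ (seg hc hp hps hσ)))
        fun σ hσ => by
          have b1 := seg hc t1 t2 hσ
          rw [add_right_comm] at b1
          have := h _ (seg hc hp hps hσ) t (le_of_lt t3) b1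
          rw [add_right_comm p (t • v)]
          linarith
      simp only [zero_smul, add_zero, mul_zero] at this ⊢
      rw [add_right_comm]
      linarith)
    linarith
  · simp only [Pi.add_apply, add_mul, Finset.sum_add_distrib]
    exact add_le_add (h p hp s hs hps) (h' p hp s hs hps)
  · simp only [Pi.smul_apply, smul_eq_mul, mul_assoc, ← Finset.mul_sum]
    exact mul_le_mul_of_nonneg_left (h p hp s hs hps) hc0
  · have e : p + s • -v + s • v = p := by rw [smul_neg, neg_add_cancel_right]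
    have := h _ hps s hs (e.symm ▸ hp)
    rw [e] at this
    simp only [Pi.neg_apply, neg_mul, Finset.sum_neg_distrib]
    exact neg_le_neg this

end LnatAux

open LnatAux in
theorem lnat {ι : Type} [Fintype ι] [DecidableEq ι] [LinearOrder ι] {U : Set (ι → ℝ)}
    (hU : IsOpen U) (hc : Convex ℝ U) (φ : (ι → ℝ) → ℝ) (g : (ι → ℝ) → ι → ℝ)
    (h1 : ∀ p ∈ U, ∀ u : ι → ℝ, HasDerivAt (fun t : ℝ => φ (p + t • u)) (-∑ k, u k * g p k) 0)
    (h2 : ∀ p ∈ U, ∀ h : ℝ, 0 ≤ h → ∀ k l, k < l → p + Pi.single l h ∈ U →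
      g (p + Pi.single l h) k ≤ g p k)
    (h3 : ∀ p ∈ U, ∀ h : ℝ, 0 ≤ h → (p + fun _ => h) ∈ U → ∀ k, g p k ≤ g (p + fun _ => h) k)
    {p' p'' : ι → ℝ} (hp' : p' ∈ U) (hp'' : p'' ∈ U) :
    φ p'' ≤ φ p' - ∑ k, (p'' k - p' k) * g p' k := by
  have hC := cone_pos hU hc h1
  have a1 : ∀ k l, k < l → Pos U g (-Pi.single k 1) (Pi.single l 1) := by
    intro k l hkl p hp s hs hps
    have e : s • (Pi.single l 1 : ι → ℝ) = Pi.single l s := by
      rw [← Pi.single_smul, smul_eq_mul, mul_one]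
    rw [e] at hps ⊢
    simpa [Pi.single_apply] using h2 p hp s hs k l hkl hps
  have a2 : ∀ k l, k ≠ l → Pos U g (-Pi.single k 1) (Pi.single l 1) := by
    intro k l hkl
    rcases lt_or_gt_of_ne hkl with h | h
    · exact a1 k l h
    · have := hC.neg _ _ (hC.symm _ _ (a1 l k h))
      rwa [neg_neg] at this
  have a3 : ∀ k, Pos U g (Pi.single k 1) 1 := by
    intro k p hp s hs hps
    have e : s • (1 : ι → ℝ) = fun _ => s := by
      funext j
      simp
    rw [e] at hps ⊢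
    simpa [Pi.single_apply] using h3 p hp s hs hps k
  have a4 := hC.diag a2 a3 (p'' - p')
  have e : p' + (1 : ℝ) • (p'' - p') = p'' := by rw [one_smul, add_sub_cancel]
  have hin : ∀ σ ∈ Set.Icc (0 : ℝ) 1, p' + σ • (p'' - p') ∈ U := fun σ hσ =>
    seg hc hp' (e.symm ▸ hp'') hσ
  have := le_of_deriv zero_le_one (fun σ hσ => shift h1 p' (p'' - p') σ (hin σ hσ))
    fun σ hσ => neg_le_neg (a4 p' hp' σ hσ.1 (hin σ hσ))
  simp only [e, zero_smul, add_zero, one_mul, Pi.sub_apply] at this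
  linarith

end Vale.Agent.P157
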