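import Vale.Agent.P157.Crude

/-! # Quadratic terminal data -/

namespace Vale.Agent.P157

open MeasureTheory ProbabilityTheory

theorem QuadAux.integral_exp {v c : ℝ} (hv : 0 ≤ v) (hc : c * v < 1) (x : ℝ) :
    ∫ z, Real.exp (c * (x + z) ^ 2 / 2) ∂(g1 v)
      = Real.exp (c * x ^ 2 / (2 * (1 - c * v)) - Real.log (1 - c * v) / 2) := by
  rcases hv.eq_or_lt with rfl | hv
  · simp [g1]
  have ha : 0 < 1 - c * v := by linarith
  set a := 1 - c * v with ha'
  have hs : 0 < v / a := div_pos hv ha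
  have hv' : v.toNNReal ≠ 0 := by simpa using hv
  have hs' : (v / a).toNNReal ≠ 0 := by simpa using hs
  have h1 : Real.exp (-(Real.log a / 2)) = (√a)⁻¹ := by
    rw [Real.exp_neg, ← Real.log_sqrt ha.le, Real.exp_log (Real.sqrt_pos.2 ha)]
  have h2 : √(2 * Real.pi * v) = √(2 * Real.pi * (v / a)) * √a := by
    rw [← Real.sqrt_mul (by positivity)]
    congr 1
    field_simp
  have key : ∀ z, gaussianPDFReal 0 v.toNNReal z • Real.exp (c * (x + z) ^ 2 / 2) =
      Real.exp (c * x ^ 2 / (2 * a) - Real.log a / 2) *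
        gaussianPDFReal (c * x * (v / a)) (v / a).toNNReal z := by
    intro z
    have h3 : -(z - 0) ^ 2 / (2 * v) + c * (x + z) ^ 2 / 2 =
        c * x ^ 2 / (2 * a) + -(z - c * x * (v / a)) ^ 2 / (2 * (v / a)) := by
      field_simp
      rw [ha']
      ring
    simp only [gaussianPDFReal, smul_eq_mul, Real.coe_toNNReal _ hv.le,
      Real.coe_toNNReal _ hs.le]
    rw [mul_assoc, ← Real.exp_add, h3, sub_eq_add_neg (c * x ^ 2 / (2 * a)), Real.exp_add,
      Real.exp_add, h1, h2, mul_inv]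
    ring
  rw [g1, integral_gaussianReal_eq_integral_smul hv']
  simp only [key]
  rw [integral_const_mul, integral_gaussianPDFReal_eq_one _ hs', mul_one]

theorem integrable_exp_quad {v c : ℝ} (hv : 0 ≤ v) (hc : c * v < 1) (x : ℝ) :
    Integrable (fun z => Real.exp (c * (x + z) ^ 2 / 2)) (g1 v) :=
  Integrable.of_integral_ne_zero (by
    rw [QuadAux.integral_exp hv hc]; exact (Real.exp_pos _).ne')

theorem integral_exp_quad {v c : ℝ} (hv : 0 ≤ v) (hc : c * v < 1) (x : ℝ) :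
    ∫ z, Real.exp (c * (x + z) ^ 2 / 2) ∂(g1 v)
      = Real.exp (c * x ^ 2 / (2 * (1 - c * v)) - Real.log (1 - c * v) / 2) :=
  QuadAux.integral_exp hv hc x

/-- Cost of one level for the quadratic `x ^ 2 / (2 D)`. -/
noncomputable def qcost (ζ v D : ℝ) : ℝ :=
  if ζ = 0 then v / (2 * D) else Real.log (D / (D - ζ * v)) / (2 * ζ)

namespace QuadAux

theorem lt_one {ζ v D : ℝ} (hD : 0 < D * (D - ζ * v)) : ζ / D * v < 1 := by
  have hD0 : D ≠ 0 := by rintro rfl; simp at hD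
  have h1 : 1 - ζ / D * v = D * (D - ζ * v) / D ^ 2 := by field_simp
  have h2 : 0 < D * (D - ζ * v) / D ^ 2 := by positivity
  linarith

theorem int_sq (v D x : ℝ) : Integrable (fun z => (x + z) ^ 2 / (2 * D)) (g1 v) := by
  have h : EInt (g1 v) fun z => x + z :=
    LG.eint (noise_g1 v) (Ψ := fun u : ℝ => u) ⟨measurable_id, 1, fun w => by simp⟩ x
  exact (h.integrable_pow 2).div_const _

theorem int_exp {ζ v D : ℝ} (hv : 0 ≤ v) (hD : 0 < D * (D - ζ * v)) (x : ℝ) :
    Integrable (fun z => Real.exp (ζ * ((x + z) ^ 2 / (2 * D)))) (g1 v) := by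
  have e : ∀ z : ℝ, ζ * ((x + z) ^ 2 / (2 * D)) = ζ / D * (x + z) ^ 2 / 2 := fun z => by ring
  simp only [e]
  exact integrable_exp_quad hv (lt_one hD) x

theorem lse_quad {ζ v D : ℝ} (hv : 0 ≤ v) (hD : 0 < D * (D - ζ * v)) (x : ℝ) :
    lse (g1 v) ζ (fun z => (x + z) ^ 2 / (2 * D)) = x ^ 2 / (2 * (D - ζ * v)) + qcost ζ v D := by
  have hD0 : D ≠ 0 := by rintro rfl; simp at hD
  have hD1 : D - ζ * v ≠ 0 := by intro h; simp [h] at hD
  unfold lse qcost
  split_ifs with h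
  · subst h
    have h0 : EInt (g1 v) fun z => z := by
      simpa using LG.eint (noise_g1 v) (Ψ := fun u : ℝ => u) ⟨measurable_id, 1, fun w => by simp⟩ 0
    have e : ∀ z : ℝ, (x + z) ^ 2 = x ^ 2 + 2 * x * z + z ^ 2 := fun z => by ring
    have i1 : Integrable (fun z : ℝ => 2 * x * z) (g1 v) := h0.integrable.const_mul _
    have i2 : Integrable (fun z : ℝ => x ^ 2 + 2 * x * z) (g1 v) := (integrable_const _).add i1
    simp only [e]
    rw [integral_div, integral_add i2 (h0.integrable_pow 2), integral_add (integrable_const _) i1,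
      integral_const_mul, integral_id_g1, integral_sq_g1 hv]
    simp only [integral_const, probReal_univ, smul_eq_mul]
    ring
  · have e : ∀ z : ℝ, ζ * ((x + z) ^ 2 / (2 * D)) = ζ / D * (x + z) ^ 2 / 2 := fun z => by ring
    simp only [e]
    have e2 : 1 - ζ / D * v = (D / (D - ζ * v))⁻¹ := by field_simp
    rw [integral_exp_quad hv (lt_one hD), Real.log_exp, e2, Real.log_inv]
    field_simp
    ring

theorem lse_pi {S : Type} [Fintype S] {ν : Measure ℝ} [IsProbabilityMeasure ν] {ζ : ℝ}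
    {f : S → ℝ → ℝ} (h1 : ∀ i, Integrable (f i) ν)
    (h2 : ∀ i, Integrable (fun z => Real.exp (ζ * f i z)) ν) :
    Integrable (fun z : S → ℝ => ∑ i, f i (z i)) (Measure.pi fun _ => ν) ∧
    Integrable (fun z : S → ℝ => Real.exp (ζ * ∑ i, f i (z i))) (Measure.pi fun _ => ν) ∧
    lse (Measure.pi fun _ : S => ν) ζ (fun z => ∑ i, f i (z i)) = ∑ i, lse ν ζ (f i) := by
  have i1 : ∀ i, Integrable (fun z : S → ℝ => f i (z i)) (Measure.pi fun _ => ν) := fun i =>
    integrable_comp_eval (μ := fun _ : S => ν) (h1 i)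
  simp only [Finset.mul_sum, Real.exp_sum]
  refine ⟨integrable_finsetSum _ fun i _ => i1 i,
    Integrable.fintype_prod (f := fun i z => Real.exp (ζ * f i z)) h2, ?_⟩
  unfold lse
  split_ifs with h
  · rw [integral_finsetSum _ fun i _ => i1 i]
    exact Finset.sum_congr rfl fun i _ =>
      integral_comp_eval (μ := fun _ : S => ν) (h1 i).aestronglyMeasurable
  · simp only [Finset.mul_sum, Real.exp_sum]
    rw [integral_fintype_prod_eq_prod (fun i z => Real.exp (ζ * f i z)),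
      Real.log_prod fun i _ => (integral_exp_pos (h2 i)).ne', Finset.mul_sum]

theorem qcost_le {ζ v D : ℝ} (hζ : 0 ≤ ζ) (hv : 0 ≤ v) (hD : 0 < D - ζ * v) :
    qcost ζ v D ≤ v / (2 * (D - ζ * v)) := by
  unfold qcost
  split_ifs with h
  · simp [h]
  · have hζ' : 0 < ζ := lt_of_le_of_ne hζ (Ne.symm h)
    have hD' : 0 < D := by nlinarith [mul_nonneg hζ hv]
    have h1 := Real.log_le_sub_one_of_pos (div_pos hD' hD)
    have h2 : D / (D - ζ * v) - 1 = v / (2 * (D - ζ * v)) * (2 * ζ) := by field_simp; ring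
    rw [div_le_iff₀ (by positivity)]
    linarith

theorem le_D {ζ v D : ℕ → ℝ} (hζ : ∀ d, 0 ≤ ζ d) (hv : ∀ d, 0 ≤ v d) {n : ℕ}
    (hD : ∀ d, d < n → D (d + 1) = D d - ζ d * v d) {d : ℕ} (hd : d ≤ n) : D n ≤ D d := by
  induction hd using Nat.decreasingInduction with
  | self => exact le_rfl
  | of_succ k hk ih =>
    have := hD k hk
    nlinarith [mul_nonneg (hζ k) (hv k)]

end QuadAux

/-- One step on a quadratic of either sign. -/
theorem T_quad {ζ v D : ℝ} (hζ : 0 ≤ ζ) (hv : 0 ≤ v) (hD : 0 < D * (D - ζ * v)) (c x : ℝ) :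
    T ζ (g1 v) (fun u => u ^ 2 / (2 * D) + c) x = x ^ 2 / (2 * (D - ζ * v)) + c + qcost ζ v D := by
  have _ := hζ
  unfold T
  rw [lse_add_const (QuadAux.int_sq v D x) (QuadAux.int_exp hv hD x), QuadAux.lse_quad hv hD]
  ring

/-- Upper bound through a quadratic terminal function. -/
theorem quad_bound {S : Type} [Fintype S] {ζ : ℕ → ℝ} (hζ : Zok ζ) {v D : ℕ → ℝ}
    (hv : ∀ d, 0 ≤ v d) {n : ℕ} (hD : ∀ d, d < n → D (d + 1) = D d - ζ d * v d) (hDn : 0 < D n)
    {Ψ : (S → ℝ) → ℝ} (hΨ : LG Ψ) {c : ℝ} (h : ∀ w, Ψ w ≤ (∑ i, w i ^ 2) / (2 * D 0) + c)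
    (w : S → ℝ) :
    X ζ (gvs fun d (_ : S) => v d) Ψ n w ≤ (∑ i, w i ^ 2) / (2 * D n) + c
      + Fintype.card S * ∑ d ∈ Finset.range n, qcost (ζ d) (v d) (D d) := by
  have hC := cas_gvs hζ (fun d (_ : S) => v d) hΨ
  have hpos : ∀ d, d ≤ n → 0 < D d := fun d hd => hDn.trans_le (QuadAux.le_D hζ.nn hv hD hd)
  have key : ∀ d, d ≤ n → ∀ w : S → ℝ, X ζ (gvs fun d (_ : S) => v d) Ψ d w ≤
      (∑ i, w i ^ 2) / (2 * D d) + c
        + Fintype.card S * ∑ j ∈ Finset.range d, qcost (ζ j) (v j) (D j) := by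
    intro d
    induction d with
    | zero => intro _ w; simpa [X] using h w
    | succ d ih =>
      intro hd w
      have hDD : 0 < D d * (D d - ζ d * v d) := by
        rw [← hD d hd]; exact mul_pos (hpos d (by omega)) (hpos _ hd)
      obtain ⟨i1, i2, i3⟩ := QuadAux.lse_pi (ζ := ζ d)
        (f := fun (i : S) z => (w i + z) ^ 2 / (2 * D d))
        (fun i => QuadAux.int_sq (v d) (D d) (w i)) fun i => QuadAux.int_exp (hv d) hDD (w i)
      set c' := c + Fintype.card S * ∑ j ∈ Finset.range d, qcost (ζ j) (v j) (D j) with hc'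
      have hE : EInt (Measure.pi fun _ : S => g1 (v d))
          fun z => X ζ (gvs fun d (_ : S) => v d) Ψ d (w + z) := (hC.lgX d).eint (hC.noise d) w
      have i2' : Integrable (fun z : S → ℝ =>
          Real.exp (ζ d * (∑ i, (w i + z i) ^ 2 / (2 * D d) + c'))) (Measure.pi fun _ => g1 (v d)) := by
        simp only [mul_add, Real.exp_add]
        exact i2.mul_const _
      have h1 : X ζ (gvs fun d (_ : S) => v d) Ψ (d + 1) w ≤ lse (Measure.pi fun _ : S => g1 (v d))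
          (ζ d) fun z => ∑ i, (w i + z i) ^ 2 / (2 * D d) + c' := by
        refine lse_mono' (ν := Measure.pi fun _ : S => g1 (v d)) (hζ.nn d) hE.integrable (hE.2 _)
          (i1.add (integrable_const _)) i2' (ae_of_all _ fun z => ?_)
        have := ih (by omega) (w + z)
        simp only [Pi.add_apply, Finset.sum_div] at this
        simp only [hc']
        linarith
      rw [lse_add_const i1 i2, i3] at h1
      simp only [QuadAux.lse_quad (hv d) hDD, Finset.sum_add_distrib, Finset.sum_const,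
        Finset.card_univ, nsmul_eq_mul] at h1
      rw [Finset.sum_range_succ, hD d hd, Finset.sum_div]
      simp only [hc'] at h1
      linarith
  exact key n le_rfl w

theorem csDelta_pos {n : ℕ} {ζ q : ℕ → ℝ} (h : Adm n ζ q) {d : ℕ} (hd : 1 ≤ d) :
    0 < csDelta ζ q d := by
  refine Finset.sum_pos' (fun k _ => mul_nonneg (h.zadm.zok.nn k)
    (sub_nonneg.2 (h.qa (Nat.le_succ k)))) ⟨0, Finset.mem_range.2 hd, ?_⟩
  rw [h.z0, h.q0]
  linarith [h.q1]

theorem one_sub_QQ {ζ q : ℕ → ℝ} (hz : ζ 0 = 1) (hq : q 0 = 1) (d : ℕ) :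
    1 - QQ ζ q d = csDelta ζ q d + ζ d * q d := by
  induction d with
  | zero => simp [QQ, csDelta, hz, hq]
  | succ d ih =>
    simp only [QQ, csDelta, Finset.sum_range_succ] at ih ⊢
    linarith

theorem QuadAux.gap {n : ℕ} {ζ q : ℕ → ℝ} (h : Adm n ζ q) {d : ℕ} (hd : 1 ≤ d) :
    (1 - ζ 1) * (1 - q 1) ≤ 1 - QQ ζ q d - ζ d := by
  induction d, hd using Nat.le_induction with
  | base => simp only [QQ, Finset.sum_range_one, h.z0]; linarith
  | succ d _ ih =>
    have h1 : 0 ≤ ζ d - ζ (d + 1) := sub_nonneg.2 (h.zadm.zok.anti (Nat.le_succ d))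
    have h2 : 0 ≤ 1 - q (d + 1) := by
      have := h.qa (Nat.zero_le (d + 1))
      rw [h.q0] at this
      linarith
    simp only [QQ, Finset.sum_range_succ] at ih ⊢
    nlinarith [mul_nonneg h1 h2]

theorem QuadAux.sum_sq0 (n : ℕ) (θ g : ℕ → ℝ) :
    ∑ d ∈ Finset.range (n + 1), g d * sq0 θ d = ∑ d ∈ Finset.Icc 1 n, g d * θ d ^ 2 := by
  induction n with
  | zero => simp [sq0]
  | succ n ih => rw [Finset.sum_range_succ, ih, Finset.sum_Icc_succ_top (by omega)]; simp [sq0]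

theorem QuadAux.field_le {S : Type} [Fintype S] (μ : Measure (Sph S)) [IsProbabilityMeasure μ]
    {D : ℝ} (hD : 0 < D) (w : S → ℝ) :
    Real.log (∫ x, Real.exp (∑ i, w i * x.1 i) ∂μ)
      ≤ (∑ i, w i ^ 2) / (2 * D) + D * Fintype.card S / 2 := by
  have hb : ∀ x : Sph S, ∑ i, w i * x.1 i ≤ (∑ i, w i ^ 2) / (2 * D) + D * Fintype.card S / 2 := by
    intro x
    have hx : (Fintype.card S : ℝ) = ∑ i, x.1 i ^ 2 := x.2.symm
    generalize x.1 = y at hx ⊢
    rw [hx, Finset.mul_sum, Finset.sum_div, Finset.sum_div, ← Finset.sum_add_distrib]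
    refine Finset.sum_le_sum fun i _ => ?_
    have : w i ^ 2 / (2 * D) + D * y i ^ 2 / 2 - w i * y i =
        (w i - D * y i) ^ 2 / (2 * D) := by field_simp; ring
    have h2 : 0 ≤ (w i - D * y i) ^ 2 / (2 * D) := by positivity
    linarith
  have h0 : 0 ≤ (∑ i, w i ^ 2) / (2 * D) + D * Fintype.card S / 2 := by positivity
  have h1 : ∫ x, Real.exp (∑ i, w i * x.1 i) ∂μ
      ≤ Real.exp ((∑ i, w i ^ 2) / (2 * D) + D * Fintype.card S / 2) := by
    refine (integral_mono_of_nonneg (ae_of_all _ fun x => (Real.exp_pos _).le)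
      (integrable_const _) (ae_of_all _ fun x => Real.exp_le_exp.2 (hb x))).trans ?_
    simp
  rcases (integral_nonneg (μ := μ) (f := fun x : Sph S => Real.exp (∑ i, w i * x.1 i))
    fun x => (Real.exp_pos _).le).eq_or_lt with h2 | h2
  · rw [← h2, Real.log_zero]; exact h0
  · exact (Real.log_le_iff_le_exp h2).2 h1

/-- The field objective is coercive, uniformly over spin measures. -/
theorem coercive {n : ℕ} {ζ q : ℕ → ℝ} (h : Adm n ζ q) : ∃ C c : ℝ, 0 < c ∧
    ∀ (S : Type) [Fintype S] [DecidableEq S] (μ : Measure (Sph S)) [IsProbabilityMeasure μ]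
      (F : ℕ → ℝ → ℝ) (θ θ' : ℕ → ℝ),
      VS μ F 0 ζ n θ θ'
          - Fintype.card S * (∑ d ∈ Finset.Icc 1 n, θ d ^ 2 * (1 - QQ ζ q d)) / 2
        ≤ Fintype.card S * (C - c * ∑ d ∈ Finset.Icc 1 n, θ d ^ 2) := by
  have hz := h.zadm.zok
  have h1 : ζ 1 < 1 := by simpa [h.z0] using h.zlt 0 h.zadm.one_le
  obtain ⟨e, he⟩ : ∃ e, e = (1 - ζ 1) * (1 - q 1) / 2 := ⟨_, rfl⟩
  have he0 : 0 < e := by rw [he]; have := h.q1; exact half_pos (mul_pos (by linarith) (by linarith))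
  refine ⟨e⁻¹ / 2, e / 2, half_pos he0, fun S _ _ μ _ F θ θ' => ?_⟩
  set D : ℕ → ℝ := fun d => e⁻¹ + ∑ j ∈ Finset.Ico d (n + 1), ζ j * sq0 θ j with hDdef
  have hD : ∀ d, d < n + 1 → D (d + 1) = D d - ζ d * sq0 θ d := fun d hd => by
    simp only [hDdef]
    rw [Finset.sum_eq_sum_Ico_succ_bot hd]
    ring
  have hDn : D (n + 1) = e⁻¹ := by simp [hDdef]
  have hle : ∀ d, d ≤ n + 1 → e⁻¹ ≤ D d := fun d hd =>
    hDn ▸ QuadAux.le_D hz.nn (sq0_nonneg θ) hD hd
  have hei : 0 < e⁻¹ := inv_pos.2 he0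
  have hb := quad_bound hz (sq0_nonneg θ) hD (hDn ▸ hei) (lg_field μ)
    (QuadAux.field_le μ (hei.trans_le (hle 0 (by omega)))) 0
  rw [← vs_zero μ (F := F) n θ θ'] at hb
  have hq : ∑ d ∈ Finset.range (n + 1), qcost (ζ d) (sq0 θ d) (D d) ≤
      ∑ d ∈ Finset.Icc 1 n, e / 2 * θ d ^ 2 := by
    rw [← QuadAux.sum_sq0 n θ fun _ => e / 2]
    refine Finset.sum_le_sum fun d hd => ?_
    have hd' := Finset.mem_range.1 hd
    have h2 := hle (d + 1) hd'
    rw [hD d hd'] at h2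
    refine (QuadAux.qcost_le (hz.nn d) (sq0_nonneg θ d) (hei.trans_le h2)).trans ?_
    calc sq0 θ d / (2 * (D d - ζ d * sq0 θ d)) ≤ sq0 θ d / (2 * e⁻¹) :=
          div_le_div_of_nonneg_left (sq0_nonneg θ d) (by positivity) (by linarith)
      _ = e / 2 * sq0 θ d := by field_simp
  have hD0 : D 0 = e⁻¹ + ∑ d ∈ Finset.Icc 1 n, ζ d * θ d ^ 2 := by
    simp only [hDdef]
    rw [← Finset.range_eq_Ico, QuadAux.sum_sq0]
  have hs : ∑ d ∈ Finset.Icc 1 n, ζ d * θ d ^ 2 + 4 * ∑ d ∈ Finset.Icc 1 n, e / 2 * θ d ^ 2 ≤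
      ∑ d ∈ Finset.Icc 1 n, θ d ^ 2 * (1 - QQ ζ q d) := by
    rw [Finset.mul_sum, ← Finset.sum_add_distrib]
    refine Finset.sum_le_sum fun d hd => ?_
    have h3 := QuadAux.gap h (Finset.mem_Icc.1 hd).1
    nlinarith [sq_nonneg (θ d)]
  have hN : (0 : ℝ) ≤ Fintype.card S := Nat.cast_nonneg _
  rw [Finset.mul_sum _ _ (e / 2)]
  rw [hD0] at hb
  simp only [Pi.zero_apply, ne_eq, OfNat.ofNat_ne_zero, not_false_eq_true, zero_pow,
    Finset.sum_const_zero, zero_div, zero_add] at hb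
  nlinarith [mul_le_mul_of_nonneg_left hq hN, mul_le_mul_of_nonneg_left hs hN]

/-- The algebraic inequality behind the Crisanti-Sommers formula. -/
theorem cs_tangent {n : ℕ} {ζ q : ℕ → ℝ} (h : Adm n ζ q) {v D : ℕ → ℝ} (hv : ∀ d, 0 ≤ v d)
    (hv0 : v 0 = 0) (hD : ∀ d, d < n + 1 → D (d + 1) = D d - ζ d * v d)
    (hDn : D n = (csDelta ζ q n)⁻¹) :
    ∑ d ∈ Finset.range (n + 1), qcost (ζ d) (v d) (D d) + (D 0 - 1 - Real.log (D 0)) / 2
        - (∑ d ∈ Finset.Icc 1 n, v d * (1 - QQ ζ q d)) / 2 ≤ sphereS n ζ q := by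
  have hz := h.zadm.zok
  have hn := h.zadm.one_le
  have hδn := csDelta_pos h hn
  have hpos : ∀ d, d ≤ n → 0 < D d := fun d hd =>
    (hDn ▸ inv_pos.2 hδn : 0 < D n).trans_le
      (QuadAux.le_D hz.nn hv (fun k hk => hD k (by omega)) hd)
  set g : ℕ → ℝ := fun d =>
    Real.log (D d) + Real.log (csDelta ζ q d) - D d * csDelta ζ q d + 1 with hg
  have hg0 : ∀ d, 1 ≤ d → d ≤ n → g d ≤ 0 := fun d h1 h2 => by
    have a := hpos d h2
    have b := csDelta_pos h h1
    have := Real.log_le_sub_one_of_pos (mul_pos a b)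
    rw [Real.log_mul a.ne' b.ne'] at this
    simp only [hg]
    linarith
  have key : ∀ m, m + 1 ≤ n →
      ∑ d ∈ Finset.range (m + 1), qcost (ζ d) (v d) (D d) + (D 0 - 1 - Real.log (D 0)) / 2
        - (∑ d ∈ Finset.Icc 1 m, v d * (1 - QQ ζ q d)) / 2
        - (Real.log (csDelta ζ q 1) + ∑ d ∈ Finset.Ico 1 (m + 1),
          (ζ d)⁻¹ * Real.log (csDelta ζ q (d + 1) / csDelta ζ q d)) / 2
        ≤ (D (m + 1) * q (m + 1) - (ζ m)⁻¹ * g (m + 1)) / 2 := by
    intro m
    induction m with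
    | zero =>
      intro _
      have e1 : D 1 = D 0 := by simpa [hv0] using hD 0 (by omega)
      have e2 : csDelta ζ q 1 = 1 - q 1 := by simp [csDelta, h.z0, h.q0]
      have e3 : qcost 1 (v 0) (D 0) = 0 := by
        simp [qcost, hv0, (hpos 0 (by omega)).ne']
      simp only [hg, zero_add, Finset.sum_range_one, e3, e1, h.z0, inv_one, one_mul,
        Finset.Ico_self, Finset.sum_empty, add_zero]
      rw [Finset.Icc_eq_empty (by omega), Finset.sum_empty]
      nth_rewrite 3 [e2]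
      linarith
    | succ m ih =>
      intro hm
      have ih := ih (by omega)
      have hζ : 0 < ζ (m + 1) := h.zadm.pos (by omega)
      have hζ' : (ζ m)⁻¹ ≤ (ζ (m + 1))⁻¹ := inv_anti₀ hζ (hz.anti (Nat.le_succ m))
      have a1 := hpos (m + 1) (by omega)
      have a2 := hpos (m + 1 + 1) hm
      have b1 := csDelta_pos h (d := m + 1) (by omega)
      have b2 := csDelta_pos h (d := m + 1 + 1) (by omega)
      have hD1 := hD (m + 1) (by omega)
      have e1 : qcost (ζ (m + 1)) (v (m + 1)) (D (m + 1)) =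
          (ζ (m + 1))⁻¹ * (Real.log (D (m + 1)) - Real.log (D (m + 1 + 1))) / 2 := by
        rw [qcost, if_neg hζ.ne', ← hD1, Real.log_div a1.ne' a2.ne']
        field_simp
      have e2 : csDelta ζ q (m + 1 + 1) =
          csDelta ζ q (m + 1) + ζ (m + 1) * (q (m + 1) - q (m + 1 + 1)) := Finset.sum_range_succ _ _
      have e3 : v (m + 1) * (csDelta ζ q (m + 1) + ζ (m + 1) * q (m + 1)) =
          (ζ (m + 1))⁻¹ * (D (m + 1) * csDelta ζ q (m + 1) -
            D (m + 1 + 1) * csDelta ζ q (m + 1 + 1)) + D (m + 1) * q (m + 1) -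
            D (m + 1 + 1) * q (m + 1 + 1) := by
        rw [e2, hD1]
        field_simp
        ring
      have e4 := mul_le_mul_of_nonpos_right hζ' (hg0 (m + 1) (by omega) (by omega))
      rw [Finset.sum_range_succ, Finset.sum_Icc_succ_top (by omega),
        Finset.sum_Ico_succ_top (by omega), one_sub_QQ h.z0 h.q0 (m + 1), e1, e3,
        Real.log_div b2.ne' b1.ne']
      simp only [hg] at ih e4 ⊢
      linarith
  obtain ⟨m, rfl⟩ : ∃ m, n = m + 1 := ⟨n - 1, by omega⟩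
  have k := key m le_rfl
  have z : ζ (m + 1) = 0 := h.zn _ le_rfl
  have e1 : g (m + 1) = 0 := by
    simp only [hg, hDn, Real.log_inv, inv_mul_cancel₀ hδn.ne']
    ring
  have e2 : qcost (ζ (m + 1)) (v (m + 1)) (D (m + 1)) = v (m + 1) * csDelta ζ q (m + 1) / 2 := by
    rw [qcost, if_pos z, hDn]
    field_simp
  rw [e1, hDn] at k
  rw [Finset.sum_range_succ, Finset.sum_Icc_succ_top (by omega), one_sub_QQ h.z0 h.q0 (m + 1),
    e2, z, sphereS, div_eq_inv_mul (q (m + 1))]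
  linarith

end Vale.Agent.P157
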