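import Vale.Agent.P157.Mono
import Vale.Agent.P157.Lnat
import Vale.Agent.P157.Quad
import Vale.Agent.P157.IsingB

/-! # Concavity of the `log cosh` cascade in the conjugate path -/

namespace Vale.Agent.P157

open MeasureTheory ProbabilityTheory

namespace ConcaveAux

/-- The value without the top variance. -/
noncomputable def Ph (n : ℕ) (ζ c : ℕ → ℝ) : ℝ := psi n ζ c lc - c 0 / 2

/-- Minus twice the gradient. -/
noncomputable def gr (n : ℕ) (ζ c : ℕ → ℝ) (k : ℕ) : ℝ := (ζ k - ζ (k + 1)) * rho1 n ζ c (k + 1)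

theorem delta_nonneg {ζ : ℕ → ℝ} (h : Zok ζ) (k : ℕ) : 0 ≤ ζ k - ζ (k + 1) :=
  sub_nonneg.2 (h.anti k.le_succ)

theorem Exbb {n : ℕ} {ζ : ℕ → ℝ} (hζ : ZAdm n ζ) (c : ℕ → ℝ) {d : ℕ} (hd : d ≤ n + 1) :
    Ex ζ (g1s (dq c)) lc d (bb ζ (g1s (dq c)) lc Real.tanh (fun x => 1 - Real.tanh x ^ 2) d)
      (n + 1) 0 = 1 - ∑ k ∈ Finset.range d, gr n ζ c k := by
  have hc := cas_g1s hζ.zok (dq c) lg_lc
  rw [hc.bb_formula djet_lc.bm_m djet_lc.bm_a hd]
  simp only [hζ.z0, one_mul, sub_add_cancel, hc.Ex_const]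
  rfl

theorem seg {n : ℕ} {ζ : ℕ → ℝ} (hζ : ZAdm n ζ) {c c' : ℕ → ℝ} (hc : CAdm n c)
    (hc' : CAdm n c') :
    (∀ t ∈ Set.Icc (0 : ℝ) 1, HasDerivWithinAt (fun t : ℝ => Ph n ζ (c + t • (c' - c)))
      (-(∑ k ∈ Finset.range n, (c' (k + 1) - c (k + 1)) * gr n ζ (c + t • (c' - c)) k) / 2)
      (Set.Icc 0 1) t) ∧
    ∀ k, k < n → ContinuousOn (fun t : ℝ => gr n ζ (c + t • (c' - c)) k) (Set.Icc 0 1) := by
  have e : ∀ t : ℝ, dq c + t • dq (c' - c) = dq (c + t • (c' - c)) := fun t => by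
    funext d
    simp only [dq, Pi.add_apply, Pi.smul_apply, Pi.sub_apply, smul_eq_mul]
    ring
  obtain ⟨h1, h2⟩ := deriv_X1 hζ.zok lg_lc djet_lc (dq c) (dq (c' - c)) hc.dq_nonneg
    (fun d => by
      have := hc'.dq_nonneg d
      simp only [dq, Pi.sub_apply] at this ⊢
      linarith) (n + 1) 0
  simp only [e] at h1 h2
  refine ⟨fun t ht => ?_, fun k hk => ?_⟩
  · have h3 : HasDerivWithinAt (fun t : ℝ => (c 0 + t * (c' 0 - c 0)) / 2) ((c' 0 - c 0) / 2)
        (Set.Icc 0 1) t := by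
      simpa using ((((hasDerivAt_id t).mul_const (c' 0 - c 0)).const_add (c 0)).div_const
        2).hasDerivWithinAt
    simp only [Ph, psi_eq_X n ζ _ lg_lc.1]
    refine ((h1 t ht).sub h3).congr_deriv ?_
    rw [Finset.sum_congr rfl fun d hd => by rw [Exbb hζ _ (Finset.mem_range.1 hd).le],
      sum_dq_mul (by simp [hc.zero, hc'.zero])]
    simp only [Pi.sub_apply]
    ring
  · refine ((h2 k (by omega)).sub (h2 (k + 1) (by omega))).congr fun t _ => ?_
    simp only [Pi.sub_apply]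
    rw [Exbb hζ _ (by omega), Exbb hζ _ (by omega), Finset.sum_range_succ]
    ring

/-- A finite vector as a path with no variance at the top level. -/
noncomputable def emb {n : ℕ} (x : Fin n → ℝ) (d : ℕ) : ℝ :=
  if h : d - 1 < n then x ⟨d - 1, h⟩ else 0

theorem emb_succ {n : ℕ} (x : Fin n → ℝ) (k : Fin n) : emb x (k + 1) = x k := by
  simp [emb]

theorem emb_seg {n : ℕ} (x y : Fin n → ℝ) (t : ℝ) :
    emb (x + t • (y - x)) = emb x + t • (emb y - emb x) := by
  funext d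
  simp only [emb, Pi.add_apply, Pi.smul_apply, Pi.sub_apply]
  split_ifs <;> simp

theorem cadm_emb {n : ℕ} {x : Fin n → ℝ} (h : Antitone x) (h0 : ∀ k, 0 ≤ x k) :
    CAdm n (emb x) := by
  refine ⟨fun a b hab => ?_, fun d hd => dif_neg (by omega)⟩
  unfold emb
  split_ifs with h1 h2 h2
  · exact h (Fin.mk_le_mk.2 (by omega))
  · omega
  · exact h0 _
  · exact le_rfl

/-- The open cone. -/
def cone (n : ℕ) : Set (Fin n → ℝ) := {x | StrictAnti x ∧ ∀ k, 0 < x k}

theorem cone_eq (n : ℕ) : cone n = (⋂ a, ⋂ b, ⋂ _ : a < b, {x : Fin n → ℝ | x b < x a}) ∩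
    ⋂ k, {x : Fin n → ℝ | 0 < x k} := by
  ext x
  simp [cone, StrictAnti]

theorem isOpen_cone (n : ℕ) : IsOpen (cone n) := by
  rw [cone_eq]
  exact (isOpen_iInter_of_finite fun a => isOpen_iInter_of_finite fun b =>
    isOpen_iInter_of_finite fun _ => isOpen_lt (continuous_apply b) (continuous_apply a)).inter
    (isOpen_iInter_of_finite fun k => isOpen_lt continuous_const (continuous_apply k))

theorem mix {a b x y s t : ℝ} (h1 : x < a) (h2 : y < b) (hs : 0 ≤ s) (ht : 0 ≤ t)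
    (h : s + t = 1) : s * x + t * y < s * a + t * b := by
  rcases hs.eq_or_lt with h0 | h0
  · subst h0
    rw [zero_add] at h
    subst h
    linarith
  · nlinarith

theorem convex_cone (n : ℕ) : Convex ℝ (cone n) := fun _ hx _ hy _ _ hs ht h =>
  ⟨fun _ _ hab => mix (hx.1 hab) (hy.1 hab) hs ht h, fun k => by
    simpa using mix (hx.2 k) (hy.2 k) hs ht h⟩

theorem cone_cadm {n : ℕ} {x : Fin n → ℝ} (h : x ∈ cone n) : CAdm n (emb x) :=
  cadm_emb h.1.antitone fun k => (h.2 k).le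

theorem sum_emb {n : ℕ} (x y : Fin n → ℝ) (r : ℕ → ℝ) :
    ∑ k ∈ Finset.range n, (emb y (k + 1) - emb x (k + 1)) * r k = ∑ k, (y k - x k) * r k := by
  rw [Finset.sum_range]
  simp only [emb_succ]

theorem on_cone {n : ℕ} {ζ : ℕ → ℝ} (hζ : ZAdm n ζ) {x y : Fin n → ℝ} (hx : x ∈ cone n)
    (hy : y ∈ cone n) :
    Ph n ζ (emb y) ≤ Ph n ζ (emb x) - ∑ k, (y k - x k) * (gr n ζ (emb x) k / 2) := by
  refine lnat (isOpen_cone n) (convex_cone n) (fun x => Ph n ζ (emb x))
    (fun x k => gr n ζ (emb x) k / 2) (fun p hp u => ?_) (fun p hp h hh k l hkl hp' => ?_)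
    (fun p hp h hh _ k => ?_) hx hy
  · have hcont : Continuous fun t : ℝ => p + t • u := by fun_prop
    obtain ⟨ε, hε, hb⟩ := Metric.isOpen_iff.1 ((isOpen_cone n).preimage hcont) 0 (by simpa)
    have m1 : p + (-(ε / 2)) • u ∈ cone n := hb (by
      rw [mem_ball_zero_iff, norm_neg, Real.norm_of_nonneg (by linarith)]; linarith)
    have m2 : p + (ε / 2) • u ∈ cone n := hb (by
      rw [mem_ball_zero_iff, Real.norm_of_nonneg (by linarith)]; linarith)
    have h1 := ((seg hζ (cone_cadm m1) (cone_cadm m2)).1 (1 / 2)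
      ⟨by norm_num, by norm_num⟩).hasDerivAt (Icc_mem_nhds (by norm_num) (by norm_num))
    have e : ∀ t : ℝ, emb (p + (-(ε / 2)) • u) + (1 / 2 + t / ε) •
        (emb (p + (ε / 2) • u) - emb (p + (-(ε / 2)) • u)) = emb (p + t • u) := fun t => by
      rw [← emb_seg]
      congr 1
      funext k
      simp only [Pi.add_apply, Pi.smul_apply, Pi.sub_apply, smul_eq_mul]
      field_simp
      ring
    have h2 : HasDerivAt (fun t : ℝ => 1 / 2 + t / ε) (1 / ε) 0 :=
      ((hasDerivAt_id (0 : ℝ)).div_const ε).const_add (1 / 2)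
    have h3 := HasDerivAt.comp_of_eq (0 : ℝ) h1 h2 (by simp)
    have e0 := e 0
    rw [zero_div, add_zero, zero_smul, add_zero] at e0
    simp only [Function.comp_def, e, e0, sum_emb] at h3
    refine h3.congr_deriv ?_
    rw [neg_div, neg_mul, Finset.sum_div, Finset.sum_mul]
    refine congrArg Neg.neg (Finset.sum_congr rfl fun k _ => ?_)
    simp only [Pi.add_apply, Pi.smul_apply, smul_eq_mul]
    field_simp
    ring
  · have hl : 0 < l.1 := (Nat.zero_le _).trans_lt hkl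
    have e : emb (p + Pi.single l h) =
        Function.update (emb p) (l + 1) (emb p (l + 1) + h) := by
      funext d
      by_cases hd : d = l + 1
      · subst hd
        simp [emb_succ]
      · rw [Function.update_of_ne hd]
        unfold emb
        split_ifs with h1
        · rw [Pi.add_apply, Pi.single_eq_of_ne (fun h2 => hd (by
            have := congrArg Fin.val h2
            simp only at this
            omega)), add_zero]
        · rfl
    have h4 : emb p (l + 1) + h ≤ emb p (l + 1 - 1) := by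
      have := (cone_cadm hp').anti (Nat.le_succ l.1)
      rw [e, Function.update_self, Function.update_of_ne (by omega)] at this
      exact this
    have h5 := rho1_move hζ.zok (cone_cadm hp) (k := k + 1) (l := l + 1)
      (Nat.succ_lt_succ hkl) l.2 hh h4
    rw [e]
    exact div_le_div_of_nonneg_right
      (mul_le_mul_of_nonneg_left h5 (delta_nonneg hζ.zok k)) two_pos.le
  · have h5 := rho1_root hζ (c' := emb (p + fun _ => h)) (cone_cadm hp) (fun d hd => by
      simp only [dq, emb, dif_pos (show d - 1 < n by omega),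
        dif_pos (show d + 1 - 1 < n by omega), Pi.add_apply]
      ring) (by
      simp only [dq, emb, dif_pos (show n - 1 < n by have := hζ.one_le; omega),
        dif_neg (show ¬n + 1 - 1 < n by omega), Pi.add_apply]
      linarith) (k := k + 1) k.2
    exact div_le_div_of_nonneg_right
      (mul_le_mul_of_nonneg_left h5 (delta_nonneg hζ.zok k)) two_pos.le

theorem on_closure {n : ℕ} {ζ : ℕ → ℝ} (hζ : ZAdm n ζ) {x y : Fin n → ℝ} (hx : Antitone x)
    (hx0 : ∀ k, 0 ≤ x k) (hy : Antitone y) (hy0 : ∀ k, 0 ≤ y k) :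
    Ph n ζ (emb y) ≤ Ph n ζ (emb x) - ∑ k, (y k - x k) * (gr n ζ (emb x) k / 2) := by
  set e : Fin n → ℝ := fun k => (n : ℝ) - k with he
  have hec : e ∈ cone n := ⟨fun a b hab => sub_lt_sub_left (Nat.cast_lt.2 hab) _,
    fun k => sub_pos.2 (Nat.cast_lt.2 k.2)⟩
  have hm : ∀ z : Fin n → ℝ, Antitone z → (∀ k, 0 ≤ z k) → ∀ t ∈ Set.Ioc (0 : ℝ) 1,
      z + t • (e - z) ∈ cone n := fun z hz hz0 t ht => ⟨fun a b hab => by
    have h1 := hz hab.le
    have h2 := hec.1 hab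
    simp only [Pi.add_apply, Pi.smul_apply, Pi.sub_apply, smul_eq_mul]
    nlinarith [ht.1, ht.2], fun k => by
    have h1 := hz0 k
    have h2 := hec.2 k
    simp only [Pi.add_apply, Pi.smul_apply, Pi.sub_apply, smul_eq_mul]
    nlinarith [ht.1, ht.2]⟩
  have h0 : (0 : ℝ) ∈ Set.Icc (0 : ℝ) 1 := ⟨le_rfl, zero_le_one⟩
  obtain ⟨a1, a2⟩ := seg hζ (cadm_emb hx hx0) (cone_cadm hec)
  obtain ⟨b1, -⟩ := seg hζ (cadm_emb hy hy0) (cone_cadm hec)
  simp only [← emb_seg] at a1 a2 b1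
  have c1 := (b1 0 h0).continuousWithinAt
  have c2 := (a1 0 h0).continuousWithinAt.sub (tendsto_finsetSum Finset.univ
    fun (k : Fin n) _ => ContinuousWithinAt.mul (s := Set.Icc 0 1) (x := 0)
      (f := fun t : ℝ => (y + t • (e - y)) k - (x + t • (e - x)) k) (by fun_prop)
      ((a2 k k.2 0 h0).div_const 2))
  have := ContinuousWithinAt.closure_le (s := Set.Ioc (0 : ℝ) 1) (x := 0)
    (by rw [closure_Ioc zero_ne_one]; exact h0) (c1.mono Set.Ioc_subset_Icc_self)
    (c2.mono Set.Ioc_subset_Icc_self) fun t ht => on_cone hζ (hm x hx hx0 t ht) (hm y hy hy0 t ht)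
  simpa using this

theorem emb_tail {n : ℕ} {p : ℕ → ℝ} (h : CAdm n p) (d : ℕ) (hd : 1 ≤ d) :
    p d = emb (fun k : Fin n => p (k + 1)) d := by
  unfold emb
  split_ifs with h1
  · simp only [Nat.sub_add_cancel hd]
  · exact h.zero d (by omega)

theorem pairing_le {n : ℕ} {ζ : ℕ → ℝ} (hζ : Zok ζ) {p q p' q' : ℕ → ℝ}
    (h : ∀ k, 1 ≤ k → p k * q k ≤ p' k * q' k) : pairing n ζ p q ≤ pairing n ζ p' q' :=
  Finset.sum_le_sum fun k _ =>
    mul_le_mul_of_nonneg_left (h _ (Nat.le_add_left 1 k)) (delta_nonneg hζ k)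

end ConcaveAux

open ConcaveAux

theorem lc_tangent {n : ℕ} {ζ : ℕ → ℝ} (hζ : ZAdm n ζ) {p' p'' : ℕ → ℝ} (h' : CAdm n p')
    (h'' : CAdm n p'') :
    psi n ζ p'' lc - p'' 0 / 2 + pairing n ζ p'' (qt n ζ p') / 2
      ≤ psi n ζ p' lc - p' 0 / 2 + pairing n ζ p' (qt n ζ p') / 2 := by
  have an : ∀ {p : ℕ → ℝ}, CAdm n p → Antitone fun k : Fin n => p (k + 1) :=
    fun h a b hab => h.anti (Nat.succ_le_succ hab)
  have ca : ∀ {p : ℕ → ℝ}, CAdm n p → CAdm n (emb fun k : Fin n => p (k + 1)) :=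
    fun h => cadm_emb (an h) fun _ => h.nonneg _
  have key := on_closure hζ (an h') (fun _ => h'.nonneg _) (an h'') fun _ => h''.nonneg _
  have e1 := psi_lc_top hζ (h'.anti zero_le_one) ((ca h').anti zero_le_one) (emb_tail h')
  have e2 := psi_lc_top hζ (h''.anti zero_le_one) ((ca h'').anti zero_le_one) (emb_tail h'')
  have e3 : ∑ k : Fin n, (p'' (k + 1) - p' (k + 1)) *
      (gr n ζ (emb fun k : Fin n => p' (k + 1)) k / 2) =
      pairing n ζ p'' (qt n ζ p') / 2 - pairing n ζ p' (qt n ζ p') / 2 := by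
    rw [pairing, pairing, Finset.sum_range, Finset.sum_range, Finset.sum_div, Finset.sum_div,
      ← Finset.sum_sub_distrib]
    refine Finset.sum_congr rfl fun k _ => ?_
    rw [gr, ← rho1_top hζ (h'.anti zero_le_one) ((ca h').anti zero_le_one) (emb_tail h')
      (Nat.le_add_left 1 k), qt, if_neg (Nat.succ_ne_zero _), if_pos (Nat.succ_le_of_lt k.2)]
    ring
  rw [Ph, Ph, ← e1, ← e2, e3] at key
  linarith

theorem isingObj_nonempty (n : ℕ) (ζ q : ℕ → ℝ) : (isingObj n ζ q).Nonempty :=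
  ⟨_, fun _ => 0, antitone_const, fun _ _ => rfl, rfl⟩

theorem isingObj_bdd {n : ℕ} {ζ q : ℕ → ℝ} (h : Adm n ζ q) : BddAbove (isingObj n ζ q) := by
  obtain ⟨C, c, hc, h1⟩ := coercive h
  refine ⟨C, ?_⟩
  rintro y ⟨p, ha, hz, rfl⟩
  have hp : CAdm n p := ⟨ha, hz⟩
  have h2 := h1 Unit (ising Unit) (fun _ _ => 0) (fun d => √(dq p d)) fun _ => 0
  rw [vs_ising_zero h.zadm.zok, pen_eq] at h2
  have hq := cadm_cum n (sq0_nonneg fun d => √(dq p d))
  have e : ∀ d, 1 ≤ d → p d = cum n (sq0 fun d => √(dq p d)) d := by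
    intro d hd
    by_cases hdn : d ≤ n + 1
    · rw [cum, Finset.sum_congr rfl fun j hj => show _ = -p (j + 1) - -p j by
        rw [sq0, if_neg (by have := (Finset.mem_Ico.1 hj).1; omega),
          Real.sq_sqrt (hp.dq_nonneg j), dq]
        ring, Finset.sum_Ico_sub (fun j => -p j) hdn, hz (n + 1) n.lt_succ_self]
      ring
    · rw [hz d (by omega), hq.zero d (by omega)]
  have e1 := psi_lc_top h.zadm (ha zero_le_one) (hq.anti zero_le_one) e
  have e2 : pairing n ζ p q = pairing n ζ (cum n (sq0 fun d => √(dq p d))) q :=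
    Finset.sum_congr rfl fun k _ => by rw [e _ (Nat.le_add_left 1 k)]
  have h3 : 0 ≤ c * ∑ d ∈ Finset.Icc 1 n, √(dq p d) ^ 2 := by positivity
  simp only [Fintype.card_unit, Nat.cast_one, one_mul] at h2
  change psi n ζ p lc - p 0 / 2 + pairing n ζ p q / 2 ≤ C
  linarith

theorem adm_shr {n : ℕ} {ζ q : ℕ → ℝ} (hζ : ZAdm n ζ) (hq : CAdm n q) (h0 : q 0 = 1) {η : ℝ}
    (hη : 0 < η) : Adm n ζ (shr η q) := by
  have h1 : q 1 / (1 + η) < 1 := by
    rw [div_lt_one (by linarith)]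
    linarith [hq.anti (zero_le_one (α := ℕ))]
  refine ⟨hζ.z0, hζ.zlt, hζ.zn, if_pos rfl, h1, antitone_nat_of_succ_le fun d => ?_,
    fun d hd => ?_⟩
  · by_cases hd : d = 0
    · subst hd
      exact h1.le
    · rw [shr, shr, if_neg hd, if_neg d.succ_ne_zero]
      exact div_le_div_of_nonneg_right (hq.anti d.le_succ) (by linarith)
  · rw [shr, if_neg (by omega), hq.zero d hd, zero_div]

theorem abs_QQ_shr {n : ℕ} {ζ q : ℕ → ℝ} (hζ : ZAdm n ζ) (hq : CAdm n q) (h0 : q 0 = 1) {η : ℝ}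
    (hη : 0 < η) (d : ℕ) : |QQ ζ q d - QQ ζ (shr η q) d| ≤ η := by
  rw [QQ, QQ, ← Finset.sum_sub_distrib]
  refine (Finset.abs_sum_le_sum_abs _ _).trans ((Finset.sum_le_sum
    (g := fun k => (ζ k - ζ (k + 1)) * η) fun k _ => ?_).trans ?_)
  · rw [← mul_sub, abs_mul, abs_of_nonneg (delta_nonneg hζ.zok k), shr, if_neg k.succ_ne_zero]
    refine mul_le_mul_of_nonneg_left ?_ (delta_nonneg hζ.zok k)
    have h1 := hq.nonneg (k + 1)
    have h2 : q (k + 1) ≤ 1 := h0 ▸ hq.anti (Nat.zero_le _)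
    have e : q (k + 1) - q (k + 1) / (1 + η) = η * (q (k + 1) / (1 + η)) := by
      field_simp
      ring
    rw [e, abs_of_nonneg (by positivity)]
    exact mul_le_of_le_one_right hη.le ((div_le_one (by linarith)).2 (by linarith))
  · rw [← Finset.sum_mul, Finset.sum_range_sub', hζ.z0]
    exact mul_le_of_le_one_left hη.le (by linarith [hζ.zok.nn d])

/-- At an approximate critical point the cavity term dominates the entropy. -/
theorem ising_conj {n : ℕ} {ζ : ℕ → ℝ} (hζ : ZAdm n ζ) {p c q : ℕ → ℝ} (hp : CAdm n p)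
    (hc : CAdm n c) {η1 η2 : ℝ} (h1 : 0 ≤ η1) (h2 : 0 < η2)
    (h : ∀ d, 1 ≤ d → d ≤ n → |QQ ζ q d - QQ ζ (qt n ζ (p + c)) d| ≤ η1) :
    isingS n ζ (shr η2 (qt n ζ (p + c)))
      ≤ psi n ζ (p + c) lc + (pairing n ζ p q - p 0) / 2 + p 0 * η1 / 2 := by
  refine csSup_le (isingObj_nonempty _ _ _) ?_
  rintro y ⟨r, ha, hz, rfl⟩
  have hr : CAdm n r := ⟨ha, hz⟩
  have hQ := cadm_qt (n := n) hζ.zok (p + c)
  have a1 := lc_tangent hζ (hp.add hc) hr
  have a2 : pairing n ζ r (shr η2 (qt n ζ (p + c))) ≤ pairing n ζ r (qt n ζ (p + c)) :=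
    pairing_le hζ.zok fun k hk => mul_le_mul_of_nonneg_left (by
      rw [shr, if_neg (by omega)]
      exact div_le_self (hQ.nonneg k) (by linarith)) (hr.nonneg k)
  have a3 : pairing n ζ (p + c) (qt n ζ (p + c)) =
      pairing n ζ p (qt n ζ (p + c)) + pairing n ζ c (qt n ζ (p + c)) := by
    rw [pairing, pairing, pairing, ← Finset.sum_add_distrib]
    exact Finset.sum_congr rfl fun k _ => by rw [Pi.add_apply]; ring
  have a4 : pairing n ζ c (qt n ζ (p + c)) ≤ c 0 := by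
    refine (pairing_le hζ.zok (p' := fun _ => c 0) (q' := fun _ => 1) fun k _ =>
      mul_le_mul (hc.anti (Nat.zero_le k)) (hQ.anti (Nat.zero_le k)) (hQ.nonneg k)
        (hc.nonneg 0)).trans (le_of_eq ?_)
    rw [pairing, ← Finset.sum_mul, hζ.sum_delta, one_mul, mul_one]
  have a5 := abel_le (n := n) (p := p) (L := p 0)
    (a := fun k => (ζ k - ζ (k + 1)) * qt n ζ (p + c) (k + 1) - (ζ k - ζ (k + 1)) * q (k + 1)) h1
    (fun d hd hd' => by
      rw [Finset.sum_sub_distrib]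
      have := (abs_le.1 (h d hd hd')).1
      rw [QQ, QQ] at this
      linarith) (fun k _ _ => hp.anti k.le_succ) (fun k _ _ => hp.nonneg k)
    (hp.anti zero_le_one) (hp.nonneg 0)
  have a6 : pairing n ζ p (qt n ζ (p + c)) - pairing n ζ p q = ∑ k ∈ Finset.range n,
      ((ζ k - ζ (k + 1)) * qt n ζ (p + c) (k + 1) - (ζ k - ζ (k + 1)) * q (k + 1)) *
        p (k + 1) := by
    rw [pairing, pairing, ← Finset.sum_sub_distrib]
    exact Finset.sum_congr rfl fun k _ => by ring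
  rw [Pi.add_apply] at a1
  change psi n ζ r lc - r 0 / 2 + pairing n ζ r (shr η2 (qt n ζ (p + c))) / 2 ≤ _
  linarith

/-- The field objective of the cube is bounded by the entropy term. -/
theorem ising_field_le {n : ℕ} {ζ q : ℕ → ℝ} (h : Adm n ζ q) (N : ℕ) (F : ℕ → ℝ → ℝ)
    (θ θ' : ℕ → ℝ) :
    VS (ising (Fin N)) F 0 ζ n θ θ'
        - N * (∑ d ∈ Finset.Icc 1 n, θ d ^ 2 * (1 - QQ ζ q d)) / 2 ≤ N * isingS n ζ q := by
  have hq := cadm_cum n (sq0_nonneg θ)
  have h1 : psi n ζ (cum n (sq0 θ)) lc - cum n (sq0 θ) 0 / 2 +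
      pairing n ζ (cum n (sq0 θ)) q / 2 ≤ isingS n ζ q :=
    le_csSup (isingObj_bdd h) ⟨_, hq.anti, hq.zero, rfl⟩
  have h2 := mul_le_mul_of_nonneg_left h1 (Nat.cast_nonneg N)
  rw [vs_ising_zero h.zadm.zok, pen_eq, Fintype.card_fin]
  linarith

end Vale.Agent.P157
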