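import Vale.Agent.P157.Fish

/-! # Decoupling from concentration -/

namespace Vale.Agent.P157

open MeasureTheory ProbabilityTheory

namespace DecLAux

section casc
variable {W : Type} [NormedAddCommGroup W] [MeasurableSpace W] [BorelSpace W]
  [SecondCountableTopology W] {ζ : ℕ → ℝ} {ν : ℕ → Measure W} {Ψ : W → ℝ}

theorem conc_div {B : W → ℝ} {θ θm τ e0 : ℝ} (hθm : 0 < θm) (hθ : θm ≤ θ) {k N : ℕ} {w : W}
    (hc : Ex ζ ν Ψ k (fun u => |θ * B u - τ|) N w ≤ e0) :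
    Ex ζ ν Ψ k (fun u => |B u - τ / θ|) N w ≤ e0 / θm := by
  have hθ0 : 0 < θ := hθm.trans_le hθ
  have h0 : 0 ≤ e0 := (Ex_nonneg k (fun _ => abs_nonneg _) N w).trans hc
  have e : (fun u => |B u - τ / θ|) = fun u => θ⁻¹ * |θ * B u - τ| := by
    funext u
    rw [← abs_of_pos (inv_pos.2 hθ0), ← abs_mul]
    congr 1
    field_simp
  rw [e, Ex_const_mul]
  calc _ ≤ θ⁻¹ * e0 := mul_le_mul_of_nonneg_left hc (inv_pos.2 hθ0).le
    _ = e0 / θ := by ring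
    _ ≤ e0 / θm := div_le_div_of_nonneg_left h0 hθm hθ

theorem abs_mean (h : Cas ζ ν Ψ) {B : W → ℝ} (hB : BM B) (a : ℝ) (k N : ℕ) (w : W) :
    |Ex ζ ν Ψ k B N w - a| ≤ Ex ζ ν Ψ k (fun u => |B u - a|) N w := by
  have h1 := h.abs_Ex_le_Ex_abs k (hB.sub (BM.const a)) N w
  rwa [h.Ex_sub k hB (BM.const a), h.Ex_const] at h1

theorem conc_step (h : Cas ζ ν Ψ) {B0 B1 R : W → ℝ} (h0 : BM B0) (h1 : BM B1) (hR : BM R)
    {Δ Δm a b η : ℝ} (hΔ0 : 0 < Δm) (hΔ : Δm ≤ Δ) {k N : ℕ} (hk : k + 1 ≤ N) {w : W}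
    (he : ∀ u, B1 u = Ex ζ ν Ψ k B0 (k + 1) u - Δ * R u)
    (c0 : Ex ζ ν Ψ k (fun u => |B0 u - a|) N w ≤ η)
    (c1 : Ex ζ ν Ψ (k + 1) (fun u => |B1 u - b|) N w ≤ η) :
    Ex ζ ν Ψ (k + 1) (fun u => |R u - Ex ζ ν Ψ (k + 1) R N w|) N w ≤ 4 * η / Δm := by
  have hΔ1 : 0 < Δ := hΔ0.trans_le hΔ
  have hη : 0 ≤ η := (Ex_nonneg k (fun _ => abs_nonneg _) N w).trans c0
  set c := (a - b) / Δ with hc
  have b0 := (h0.sub (BM.const a)).abs
  have b1 := (h1.sub (BM.const b)).abs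
  have b2 := h.bmEx k b0 (k + 1)
  have b3 := (hR.sub (BM.const c)).abs
  have p1 : ∀ u, Δ * |R u - c| ≤ Ex ζ ν Ψ k (fun u => |B0 u - a|) (k + 1) u + |B1 u - b| := by
    intro u
    have e : Δ * (R u - c) = (Ex ζ ν Ψ k B0 (k + 1) u - a) - (B1 u - b) := by
      rw [he u, hc]
      field_simp
      ring
    rw [← abs_of_pos hΔ1, ← abs_mul, e]
    exact (abs_sub _ _).trans (add_le_add_left (abs_mean h h0 a k (k + 1) u) _)
  have p2 := h.Ex_mono (k + 1) (b3.const_mul Δ) (b2.add b1) p1 N w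
  rw [Ex_const_mul, h.Ex_add (k + 1) b2 b1, Ex_tower (Nat.le_succ k) hk] at p2
  have p3 : Ex ζ ν Ψ (k + 1) (fun u => |R u - c|) N w ≤ 2 * η / Δm := by
    refine le_trans ?_ (div_le_div_of_nonneg_left (by positivity) hΔ0 hΔ)
    rw [le_div_iff₀ hΔ1]
    linarith
  have p4 := (abs_mean h hR c (k + 1) N w).trans p3
  have p5 := h.Ex_mono (k + 1) (hR.sub (BM.const (Ex ζ ν Ψ (k + 1) R N w))).abs
    (b3.add (BM.const (2 * η / Δm))) (fun u => by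
      have := abs_sub_le (R u) c (Ex ζ ν Ψ (k + 1) R N w)
      rw [abs_sub_comm c] at this
      linarith) N w
  rw [h.Ex_add (k + 1) b3 (BM.const _), h.Ex_const] at p5
  calc _ ≤ 2 * η / Δm + 2 * η / Δm := by linarith
    _ = _ := by ring

end casc

theorem sq_diff {β : Type} [Fintype β] (u m : β → ℝ) (x : ℝ) {A B me : ℝ} (hme : 0 < me)
    (hu : ∑ j, u j ^ 2 ≤ A) (hm : x ^ 2 * ∑ j, m j ^ 2 ≤ A)
    (hc : ∑ j, (u j - x * m j) ^ 2 ≤ B) :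
    |∑ j, u j ^ 2 - x ^ 2 * ∑ j, m j ^ 2| ≤ me * A + B / me := by
  have h1 : ∀ j, |u j ^ 2 - x ^ 2 * m j ^ 2| ≤
      me / 2 * (u j ^ 2 + x ^ 2 * m j ^ 2) + (u j - x * m j) ^ 2 / me := by
    intro j
    have e : u j ^ 2 - x ^ 2 * m j ^ 2 = (u j - x * m j) * (u j + x * m j) := by ring
    have h2 : (u j - x * m j) ^ 2 / me * me = (u j - x * m j) ^ 2 := div_mul_cancel₀ _ hme.ne'
    have h3 : me / 4 * (u j + x * m j) ^ 2 ≤ me / 2 * (u j ^ 2 + x ^ 2 * m j ^ 2) := by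
      nlinarith [mul_nonneg hme.le (sq_nonneg (u j - x * m j))]
    rw [e]
    generalize u j - x * m j = p at h2 ⊢
    generalize u j + x * m j = q at h3 ⊢
    have h4 : |p * q| ≤ me / 4 * q ^ 2 + p ^ 2 / me := by
      refine le_of_mul_le_mul_right ?_ hme
      rw [add_mul, h2, ← abs_of_pos hme, ← abs_mul, abs_of_pos hme, abs_le]
      constructor <;> nlinarith [sq_nonneg (p - me * q / 2), sq_nonneg (p + me * q / 2)]
    linarith
  rw [Finset.mul_sum, ← Finset.sum_sub_distrib]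
  refine (Finset.abs_sum_le_sum_abs _ _).trans ((Finset.sum_le_sum fun j _ => h1 j).trans ?_)
  rw [Finset.sum_add_distrib, ← Finset.mul_sum, Finset.sum_add_distrib, ← Finset.mul_sum,
    ← Finset.sum_div]
  have h5 := div_le_div_of_nonneg_right hc hme.le
  nlinarith

section gibbs
variable {W : Type} [NormedAddCommGroup W] [MeasurableSpace W] [BorelSpace W]
  [SecondCountableTopology W] {Ω : Type} [MeasurableSpace Ω] {μ : Measure Ω}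
  [IsProbabilityMeasure μ] {ζ : ℕ → ℝ} {ν : ℕ → Measure W} {H : W → Ω → ℝ}
  {β : Type} [Fintype β] {ξ : β → W → Ω → ℝ}
variable (hH : HG H) (hζ : Zok ζ) (hν : ∀ d, Noise (ν d))
include hH hζ hν

theorem bm_S (hξ : ∀ j, BM2 (ξ j)) (k : ℕ) : BM fun w => ∑ j, GE ζ ν μ H (ξ j) k w ^ 2 :=
  BM.sum _ fun j _ => (bm_GE hH hζ hν (hξ j) k).pow 2

theorem rho_eq (hξ : ∀ j, BM2 (ξ j)) (n k : ℕ) : rho ζ ν μ H ξ n k =
    Ex ζ ν (gtop μ H) k (fun w => ∑ j, GE ζ ν μ H (ξ j) k w ^ 2) (n + 1) 0 :=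
  ((hH.cas hζ hν).Ex_sum k _ (fun j _ => (bm_GE hH hζ hν (hξ j) k).pow 2) _ _).symm

theorem S_le_R (hξ : ∀ j, BM2 (ξ j)) (k : ℕ) (w : W) : ∑ j, GE ζ ν μ H (ξ j) (k + 1) w ^ 2 ≤
    Ex ζ ν (gtop μ H) k (fun w => ∑ j, GE ζ ν μ H (ξ j) k w ^ 2) (k + 1) w := by
  rw [(hH.cas hζ hν).Ex_sum k _ (fun j _ => (bm_GE hH hζ hν (hξ j) k).pow 2)]
  refine Finset.sum_le_sum fun j _ => ?_
  have h1 := (hH.cas (μ := μ) hζ hν).sq_Ex_le k (bm_GE (μ := μ) hH hζ hν (hξ j) k) (k + 1) w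
  have h2 : Ex ζ ν (gtop μ H) k (GE ζ ν μ H (ξ j) k) (k + 1) = GE ζ ν μ H (ξ j) (k + 1) :=
    Ex_tower (Nat.zero_le k) (Nat.le_succ k) _
  rwa [h2] at h1

theorem cov_le (hξ : ∀ j, BM2 (ξ j)) {φ : W → Ω → ℝ} {L lam : ℝ}
    (hφ : Measurable (Function.uncurry φ)) (hL : ∀ w x, |φ w x| ≤ L) (hlam : 0 ≤ lam) (l : ℕ)
    (w : W) (hv : ∀ c : β → ℝ, ∑ j, c j ^ 2 = 1 →
      GE ζ ν μ H (fun w x => (∑ j, c j * ξ j w x) ^ 2) l w
        - GE ζ ν μ H (fun w x => ∑ j, c j * ξ j w x) l w ^ 2 ≤ lam) :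
    ∑ j, (GE ζ ν μ H (fun w x => φ w x * ξ j w x) l w
      - GE ζ ν μ H φ l w * GE ζ ν μ H (ξ j) l w) ^ 2 ≤ L ^ 2 * lam := by
  have bφ : BM2 φ := ⟨hφ, L, hL⟩
  set c : β → ℝ := fun j => GE ζ ν μ H (fun w x => φ w x * ξ j w x) l w
      - GE ζ ν μ H φ l w * GE ζ ν μ H (ξ j) l w with hc
  change ∑ j, c j ^ 2 ≤ _
  have hN0 : 0 ≤ ∑ j, c j ^ 2 := Finset.sum_nonneg fun _ _ => sq_nonneg _
  rcases hN0.eq_or_lt with h0 | hN
  · rw [← h0]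
    positivity
  set r := √(∑ j, c j ^ 2) with hr
  have hr0 : 0 < r := Real.sqrt_pos.2 hN
  have hr2 : r ^ 2 = ∑ j, c j ^ 2 := Real.sq_sqrt hN0
  have h1 : ∑ j, (c j / r) ^ 2 = 1 := by
    simp only [div_pow]
    rw [← Finset.sum_div, ← hr2, div_self (by positivity)]
  have bg : BM2 fun w x => ∑ j, c j / r * ξ j w x :=
    BM2.sum _ fun j _ => (hξ j).const_mul _
  have h2 := GE_cov_sq_le (μ := μ) hH hζ hν bφ bg l w
  have h3 : GE ζ ν μ H (fun w x => φ w x * ∑ j, c j / r * ξ j w x) l w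
      - GE ζ ν μ H φ l w * GE ζ ν μ H (fun w x => ∑ j, c j / r * ξ j w x) l w = r := by
    have e1 : (fun w x => φ w x * ∑ j, c j / r * ξ j w x) =
        fun w x => ∑ j, c j / r * (φ w x * ξ j w x) := by
      funext w x
      rw [Finset.mul_sum]
      exact Finset.sum_congr rfl fun j _ => by ring
    rw [e1, GE_sum hH hζ hν _ (fun j _ => (bφ.mul (hξ j)).const_mul _),
      GE_sum hH hζ hν _ (fun j _ => (hξ j).const_mul _), Finset.mul_sum,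
      ← Finset.sum_sub_distrib]
    have e2 : ∀ j, GE ζ ν μ H (fun w x => c j / r * (φ w x * ξ j w x)) l w
        - GE ζ ν μ H φ l w * GE ζ ν μ H (fun w x => c j / r * ξ j w x) l w = c j ^ 2 / r := by
      intro j
      rw [GE_const_mul, GE_const_mul]
      calc _ = c j / r * c j := by rw [hc]; ring
        _ = _ := by ring
    rw [Finset.sum_congr rfl fun j _ => e2 j, ← Finset.sum_div, ← hr2]
    field_simp
  have h4 : GE ζ ν μ H (fun w x => φ w x ^ 2) l w - GE ζ ν μ H φ l w ^ 2 ≤ L ^ 2 := by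
    have := GE_mono (μ := μ) hH hζ hν (bφ.pow 2) (BM2.const (L ^ 2))
      (fun w x => sq_le_sq' (abs_le.1 (hL w x)).1 (abs_le.1 (hL w x)).2) l w
    rw [GE_const hH hζ hν] at this
    linarith [sq_nonneg (GE ζ ν μ H φ l w)]
  have h5 := sq_GE_le (μ := μ) hH hζ hν bg l w
  rw [h3, hr2] at h2
  exact h2.trans (mul_le_mul h4 (hv _ h1) (by linarith) (sq_nonneg _))

theorem triv (hξ : ∀ j, BM2 (ξ j)) {Λ : ℝ} (hΛ : ∀ w x, ∑ j, ξ j w x ^ 2 ≤ Λ)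
    {φ : W → Ω → ℝ} {L : ℝ} (hφ : Measurable (Function.uncurry φ)) (hL : ∀ w x, |φ w x| ≤ L) :
    0 ≤ L ∧ (∀ j, BM2 fun w x => φ w x * ξ j w x) ∧
      (∀ w x, ∑ j, (φ w x * ξ j w x) ^ 2 ≤ L ^ 2 * Λ) ∧ ∀ n k,
      |rho ζ ν μ H (fun j w x => φ w x * ξ j w x) n k
        - rho ζ ν μ H ξ n k * Esq ζ ν μ H φ n k| ≤ L ^ 2 * Λ := by
  have bφ : BM2 φ := ⟨hφ, L, hL⟩
  obtain ⟨x0⟩ := nonempty_of_isProbabilityMeasure μ
  have hL0 : 0 ≤ L := (abs_nonneg _).trans (hL 0 x0)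
  have b1 : ∀ j, BM2 fun w x => φ w x * ξ j w x := fun j => bφ.mul (hξ j)
  have b2 : ∀ w x, ∑ j, (φ w x * ξ j w x) ^ 2 ≤ L ^ 2 * Λ := fun w x => by
    simp only [mul_pow]
    rw [← Finset.mul_sum]
    exact mul_le_mul (sq_le_sq' (abs_le.1 (hL w x)).1 (abs_le.1 (hL w x)).2) (hΛ w x)
      (Finset.sum_nonneg fun _ _ => sq_nonneg _) (sq_nonneg _)
  refine ⟨hL0, b1, b2, fun n k => ?_⟩
  have h1 := rho_le (μ := μ) hH hζ hν b1 b2 n k
  have h2 := rho_nonneg (ζ := ζ) (ν := ν) (μ := μ) (H := H) (fun j w x => φ w x * ξ j w x) n k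
  have h3 := rho_le (μ := μ) hH hζ hν hξ hΛ n k
  have h4 := rho_nonneg (ζ := ζ) (ν := ν) (μ := μ) (H := H) ξ n k
  have h5 := Esq_le_sq (ζ := ζ) (ν := ν) (μ := μ) (H := H) hL0
    (fun w => ae_of_all _ (hL w)) n k
  have h6 := Esq_nonneg (ζ := ζ) (ν := ν) (μ := μ) (H := H) φ n k
  have h7 := mul_le_mul h3 h5 h6 (h4.trans h3)
  have h8 := mul_nonneg h4 h6
  rw [abs_le]
  constructor <;> linarith

theorem level (hξ : ∀ j, BM2 (ξ j)) {Λ : ℝ} (hΛ : ∀ w x, ∑ j, ξ j w x ^ 2 ≤ Λ)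
    {φ : W → Ω → ℝ} {L : ℝ} (hφ : Measurable (Function.uncurry φ)) (hL : ∀ w x, |φ w x| ≤ L)
    {n k : ℕ} (hk : k ≤ n) {me om ε : ℝ} (hme : 0 < me) (hom : 0 ≤ om)
    (hv : ∀ (c : β → ℝ) (w : W), ∑ j, c j ^ 2 = 1 →
      GE ζ ν μ H (fun w x => (∑ j, c j * ξ j w x) ^ 2) (k + 1) w
        - GE ζ ν μ H (fun w x => ∑ j, c j * ξ j w x) (k + 1) w ^ 2 ≤
      (Ex ζ ν (gtop μ H) k (fun u => ∑ j, GE ζ ν μ H (ξ j) k u ^ 2) (k + 1) w
        - ∑ j, GE ζ ν μ H (ξ j) (k + 1) w ^ 2) + om)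
    (hε : Ex ζ ν (gtop μ H) (k + 1) (fun u => |Ex ζ ν (gtop μ H) k
      (fun u => ∑ j, GE ζ ν μ H (ξ j) k u ^ 2) (k + 1) u - rho ζ ν μ H ξ n k|) (n + 1) 0 ≤ ε) :
    |rho ζ ν μ H (fun j w x => φ w x * ξ j w x) n (k + 1)
        - rho ζ ν μ H ξ n (k + 1) * Esq ζ ν μ H φ n (k + 1)| ≤
      L ^ 2 * (me * Λ + om / me + ε +
        (rho ζ ν μ H ξ n k - rho ζ ν μ H ξ n (k + 1)) * (1 / me + 2)) := by
  have hC := hH.cas (μ := μ) hζ hν
  have bφ : BM2 φ := ⟨hφ, L, hL⟩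
  obtain ⟨hL0, b1, b2, -⟩ := triv (μ := μ) hH hζ hν hξ hΛ hφ hL
  have bU := bm_S (μ := μ) hH hζ hν b1 (k + 1)
  have bS := bm_S (μ := μ) hH hζ hν hξ (k + 1)
  have bR := hC.bmEx k (bm_S (μ := μ) hH hζ hν hξ k) (k + 1)
  have bN := (bm_GE (μ := μ) hH hζ hν bφ (k + 1)).pow 2
  have e0 : rho ζ ν μ H ξ n k = Ex ζ ν (gtop μ H) (k + 1) (Ex ζ ν (gtop μ H) k
      (fun u => ∑ j, GE ζ ν μ H (ξ j) k u ^ 2) (k + 1)) (n + 1) 0 := by
    rw [Ex_tower (Nat.le_succ k) (Nat.succ_le_succ hk), rho_eq hH hζ hν hξ]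
  have e1 := rho_eq (μ := μ) hH hζ hν hξ n (k + 1)
  have e2 := rho_eq (μ := μ) hH hζ hν b1 n (k + 1)
  have ht := rho_anti (μ := μ) hH hζ hν hξ (Nat.le_succ k) (Nat.succ_le_succ hk)
  have hSR := S_le_R (μ := μ) hH hζ hν hξ k
  have hcov := fun w => cov_le (μ := μ) hH hζ hν hξ hφ hL
    (add_nonneg (sub_nonneg.2 (hSR w)) hom) (k + 1) w (fun c hc => hv c w hc)
  have hN : ∀ w, GE ζ ν μ H φ (k + 1) w ^ 2 ≤ L ^ 2 := fun w => by
    have := abs_le.1 (abs_GE_le (ζ := ζ) (ν := ν) (μ := μ) (H := H) hL0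
      (fun w => ae_of_all _ (hL w)) (k + 1) w)
    exact sq_le_sq' this.1 this.2
  have hS0 : ∀ w, 0 ≤ ∑ j, GE ζ ν μ H (ξ j) (k + 1) w ^ 2 := fun w =>
    Finset.sum_nonneg fun _ _ => sq_nonneg _
  have hd := fun w => sq_diff (fun j => GE ζ ν μ H (fun w x => φ w x * ξ j w x) (k + 1) w)
    (fun j => GE ζ ν μ H (ξ j) (k + 1) w) (GE ζ ν μ H φ (k + 1) w) hme
    (sum_sq_GE_le hH hζ hν b1 b2 (k + 1) w)
    (mul_le_mul (hN w) (sum_sq_GE_le hH hζ hν hξ hΛ (k + 1) w) (hS0 w) (sq_nonneg _)) (hcov w)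
  rw [e2, Esq]
  generalize rho ζ ν μ H ξ n k = r0 at *
  generalize rho ζ ν μ H ξ n (k + 1) = r1 at *
  set U := fun w => ∑ j, GE ζ ν μ H (fun w x => φ w x * ξ j w x) (k + 1) w ^ 2 with hU
  set S := fun w => ∑ j, GE ζ ν μ H (ξ j) (k + 1) w ^ 2 with hS
  set R := Ex ζ ν (gtop μ H) k (fun u => ∑ j, GE ζ ν μ H (ξ j) k u ^ 2) (k + 1) with hR
  set N := fun w => GE ζ ν μ H φ (k + 1) w ^ 2 with hN'
  have hd' : ∀ w, |U w - N w * S w| ≤ me * (L ^ 2 * Λ) + L ^ 2 * (R w - S w + om) / me := hd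
  have hSR' : ∀ w, S w ≤ R w := hSR
  have hN2 : ∀ w, N w ≤ L ^ 2 := hN
  have hN0 : ∀ w, 0 ≤ N w := fun w => sq_nonneg _
  have bA := (bR.sub (BM.const r0)).abs
  have p1 : ∀ w, |U w - r1 * N w| ≤ L ^ 2 * (me * Λ + om / me + (r0 - r1)) +
      (L ^ 2 * (1 / me + 1) * (R w - S w) + L ^ 2 * |R w - r0|) := by
    intro w
    have q1 : |S w - r1| ≤ (R w - S w) + |R w - r0| + (r0 - r1) := by
      have := abs_le.1 (le_refl |R w - r0|)
      rw [abs_le]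
      constructor <;> linarith [hSR' w]
    have q2 : |N w * (S w - r1)| ≤ L ^ 2 * ((R w - S w) + |R w - r0| + (r0 - r1)) := by
      rw [abs_mul, abs_of_nonneg (hN0 w)]
      exact mul_le_mul (hN2 w) q1 (abs_nonneg _) (sq_nonneg _)
    have q3 : U w - r1 * N w = (U w - N w * S w) + N w * (S w - r1) := by ring
    rw [q3]
    refine (abs_add_le _ _).trans ((add_le_add (hd' w) q2).trans_eq ?_)
    ring
  have p2 := hC.abs_Ex_le_Ex_abs (k + 1) (bU.sub (bN.const_mul r1)) (n + 1) 0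
  rw [hC.Ex_sub (k + 1) bU (bN.const_mul r1), Ex_const_mul] at p2
  have p3 := hC.Ex_mono (k + 1) (bU.sub (bN.const_mul r1)).abs ((BM.const _).add
    (((bR.sub bS).const_mul _).add (bA.const_mul _))) p1 (n + 1) 0
  rw [hC.Ex_add (k + 1) (BM.const _) (((bR.sub bS).const_mul _).add (bA.const_mul _)),
    hC.Ex_add (k + 1) ((bR.sub bS).const_mul _) (bA.const_mul _), hC.Ex_const, Ex_const_mul,
    Ex_const_mul, hC.Ex_sub (k + 1) bR bS, ← e0, ← e1] at p3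
  have p4 := mul_le_mul_of_nonneg_left hε (sq_nonneg L)
  refine p2.trans (p3.trans ?_)
  calc _ ≤ L ^ 2 * (me * Λ + om / me + (r0 - r1)) +
      (L ^ 2 * (1 / me + 1) * (r0 - r1) + L ^ 2 * ε) := by linarith
    _ = _ := by ring

end gibbs

end DecLAux

open DecLAux

variable {ι β : Type} [Fintype ι] [DecidableEq ι] [Fintype β] {Ω : Type} [MeasurableSpace Ω]
  (μ : Measure Ω) [IsProbabilityMeasure μ] {ζ : ℕ → ℝ} {H : (ι → ℝ) → Ω → ℝ}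
  {h1 h2 : ι → (ι → ℝ) → Ω → ℝ} {e : β ↪ ι} {K b Λ : ℝ}

theorem mean_of_conc {n : ℕ} (hζ : ZAdm n ζ) (hJ : HJ H h1 h2) (s : ℕ → ι → ℝ) (θ τ : ℕ → ℝ)
    {θm e0 : ℝ} (hθm : 0 < θm) {d : ℕ} (hdn : d ≤ n) (hθ : θm ≤ θ d)
    (hc : Ex ζ (gvs s) (gtop μ H) (d + 1)
      (fun w => |θ d * ∑ j, Bp ζ (gvs s) μ H (h1 (e j)) (h2 (e j)) d w - τ d|) (n + 1) 0 ≤ e0) :
    |EG ζ (gvs s) μ H (fun w x => ∑ j, (h2 (e j) w x + h1 (e j) w x ^ 2)) n
        - QQ ζ (rho ζ (gvs s) μ H (fun j => h1 (e j)) n) d - τ d / θ d| ≤ e0 / θm := by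
  obtain ⟨K, hK⟩ := hJ.jet
  have hν : ∀ d, Noise (gvs s d) := fun d => noise_gv (s d)
  have hH := hJ.hg
  have hz := hζ.zok
  have hC := hH.cas (μ := μ) hz hν
  have bm : ∀ j, BM2 (h1 (e j)) := fun j => (hK (e j)).bm2_m
  have ba : ∀ j, BM2 (h2 (e j)) := fun j => (hK (e j)).bm2_a
  have bB : ∀ j ∈ Finset.univ, BM (Bp ζ (gvs s) μ H (h1 (e j)) (h2 (e j)) d) := fun j _ =>
    bm_Bp hH hz hν (bm j) (ba j) d
  have p1 := (abs_mean hC (BM.sum _ bB) (τ d / θ d) (d + 1) (n + 1) 0).trans (conc_div hθm hθ hc)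
  rw [hC.Ex_sum (d + 1) _ bB,
    Finset.sum_congr rfl fun j _ => Ex_Bp hH hz hν hζ.z0 (bm j) (ba j) hdn] at p1
  have e1 : EG ζ (gvs s) μ H (fun w x => ∑ j, (h2 (e j) w x + h1 (e j) w x ^ 2)) n =
      ∑ j, EG ζ (gvs s) μ H (fun w x => h2 (e j) w x + h1 (e j) w x ^ 2) n :=
    GE_sum hH hz hν _ (fun j _ => (ba j).add ((bm j).pow 2)) _ _
  have e2 : QQ ζ (rho ζ (gvs s) μ H (fun j => h1 (e j)) n) d = ∑ j, ∑ k ∈ Finset.range d,
      (ζ k - ζ (k + 1)) * Esq ζ (gvs s) μ H (h1 (e j)) n (k + 1) := by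
    rw [Finset.sum_comm]
    exact Finset.sum_congr rfl fun k _ => Finset.mul_sum _ _ _
  rw [e1, e2, ← Finset.sum_sub_distrib]
  exact p1

theorem dec_of_conc {n : ℕ} (hζ : ZAdm n ζ) (hJ : HJ H h1 h2) (hB : Blk H h1 e K b Λ)
    (s : ℕ → ι → ℝ) (θ τ : ℕ → ℝ) (hs : ∀ d j, d ≠ 0 → s d (e j) = θ d ^ 2)
    {θm e0 me Δm : ℝ} (hθm : 0 < θm) (hθ : ∀ d, 1 ≤ d → d ≤ n → θm ≤ θ d)
    (hme0 : 0 < me) (hme1 : me ≤ 1) (hmesh : ∀ k, k < n → ζ k - ζ (k + 1) ≤ me ^ 2)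
    (hΔ0 : 0 < Δm) (hΔ : ∀ k, k < n → Δm ≤ ζ k - ζ (k + 1))
    (hc : ∀ d, 1 ≤ d → d ≤ n → Ex ζ (gvs s) (gtop μ H) (d + 1)
      (fun w => |θ d * ∑ j, Bp ζ (gvs s) μ H (h1 (e j)) (h2 (e j)) d w - τ d|) (n + 1) 0 ≤ e0) :
    Dec ζ (gvs s) μ H (fun j => h1 (e j)) n
      (6 * me * Λ + (√Λ / θm + K) / Δm / me + 4 * e0 / (θm * Δm)) := by
  intro φ L hφ hL
  obtain ⟨K', hK⟩ := hJ.jet
  have hν : ∀ d, Noise (gvs s d) := fun d => noise_gv (s d)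
  have hH := hJ.hg
  have hz := hζ.zok
  have hC := hH.cas (μ := μ) hz hν
  have bm : ∀ j, BM2 (h1 (e j)) := fun j => (hK (e j)).bm2_m
  have ba : ∀ j, BM2 (h2 (e j)) := fun j => (hK (e j)).bm2_a
  have bB : ∀ d, ∀ j ∈ Finset.univ, BM (Bp ζ (gvs s) μ H (h1 (e j)) (h2 (e j)) d) := fun d j _ =>
    bm_Bp hH hz hν (bm j) (ba j) d
  have hK0 := hB.K0
  have he0 : 0 ≤ e0 := (Ex_nonneg _ (fun _ => abs_nonneg _) _ _).trans (hc 1 le_rfl hζ.one_le)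
  have hρ0 := fun k => rho_nonneg (ζ := ζ) (ν := gvs s) (μ := μ) (H := H) (fun j => h1 (e j)) n k
  have hρ1 := fun k => rho_le (μ := μ) hH hz hν bm hB.lam n k
  have hΛ : 0 ≤ Λ := (hρ0 0).trans (hρ1 0)
  obtain ⟨-, -, -, htriv⟩ := triv (μ := μ) hH hz hν bm hB.lam hφ hL
  set om := (√Λ / θm + K) / Δm with hom
  set ε := 4 * e0 / (θm * Δm) with hε
  have hom0 : 0 ≤ om := by positivity
  have hε0 : 0 ≤ ε := by positivity
  set ρ := rho ζ (gvs s) μ H (fun j => h1 (e j)) n with hρ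
  have key : ∀ k ∈ Finset.range n, (ζ k - ζ (k + 1)) *
      |rho ζ (gvs s) μ H (fun j w x => φ w x * h1 (e j) w x) n (k + 1)
        - ρ (k + 1) * Esq ζ (gvs s) μ H φ n (k + 1)| ≤
      L ^ 2 * ((ζ k - ζ (k + 1)) * (me * Λ + om / me + ε) + 3 * me * (ρ k - ρ (k + 1))
        + if k < 2 then me * Λ else 0) := by
    intro k hk
    rw [Finset.mem_range] at hk
    have hd0 : 0 < ζ k - ζ (k + 1) := hΔ0.trans_le (hΔ k hk)
    have hd1 := hmesh k hk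
    have hd2 : ζ k - ζ (k + 1) ≤ me := hd1.trans (by nlinarith)
    have ht : 0 ≤ ρ k - ρ (k + 1) :=
      sub_nonneg.2 (rho_anti (μ := μ) hH hz hν bm (Nat.le_succ k) (Nat.succ_le_succ hk.le))
    split_ifs with h2k
    · have q1 := mul_le_mul hd2 (htriv n (k + 1)) (abs_nonneg _) hme0.le
      refine q1.trans ?_
      have q2 : 0 ≤ L ^ 2 * ((ζ k - ζ (k + 1)) * (me * Λ + om / me + ε)
        + 3 * me * (ρ k - ρ (k + 1))) := by positivity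
      linarith
    · obtain ⟨d, rfl⟩ : ∃ d, k = d + 1 := ⟨k - 1, by omega⟩
      have hθk := hθ (d + 1) (by omega) hk.le
      have hζk : Δm ≤ ζ (d + 1) := by linarith [hΔ (d + 1) hk, hz.nn (d + 1 + 1)]
      have bS := bm_S (μ := μ) hH hz hν bm (d + 1)
      have c1 := conc_step hC (BM.sum _ (bB d)) (BM.sum _ (bB (d + 1))) (hC.bmEx (d + 1) bS (d + 2))
        hΔ0 (hΔ d (by omega)) (k := d + 1) (N := n + 1) (by omega) (w := 0) (fun u => by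
          rw [hC.Ex_sum (d + 1) _ (bB d),
            hC.Ex_sum (d + 1) _ (fun j _ => (bm_GE hH hz hν (bm j) (d + 1)).pow 2),
            Finset.mul_sum, ← Finset.sum_sub_distrib]
          exact Finset.sum_congr rfl fun j _ => Bp_succ hH hz hν (bm j) (ba j) d u)
        (conc_div hθm (hθ d (by omega) (by omega)) (hc d (by omega) (by omega)))
        (conc_div hθm hθk (hc (d + 1) (by omega) hk.le))
      rw [Ex_tower (Nat.le_succ (d + 1)) (by omega), ← rho_eq hH hz hν bm] at c1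
      have c2 := level (μ := μ) hH hz hν bm hB.lam hφ hL hk.le hme0 hom0 (fun c w hc1 => by
        refine (cond_var_le μ hz hζ.z0 hJ hB s (d + 1) (hΔ0.trans_le hζk) (hθm.trans_le hθk)
          (fun j => hs (d + 1) j (Nat.succ_ne_zero d)) c hc1 w).trans (add_le_add_right ?_ _)
        have := div_le_div_of_nonneg_left (Real.sqrt_nonneg Λ) hθm hθk
        exact div_le_div₀ (by positivity) (by linarith) hΔ0 hζk)
        (c1.trans_eq (show 4 * (e0 / θm) / Δm = ε by rw [hε]; field_simp))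
      refine (mul_le_mul_of_nonneg_left c2 hd0.le).trans ?_
      have q1 : (ζ (d + 1) - ζ (d + 1 + 1)) * (1 / me + 2) ≤ 3 * me := by
        have q2 : (ζ (d + 1) - ζ (d + 1 + 1)) * (1 / me) ≤ me := by
          rw [mul_one_div, div_le_iff₀ hme0]
          linarith
        linarith
      have q3 := mul_le_mul_of_nonneg_left (mul_le_mul_of_nonneg_right q1 ht) (sq_nonneg L)
      rw [← hρ]
      linarith
  refine (Finset.sum_le_sum key).trans ?_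
  rw [← Finset.mul_sum]
  refine mul_le_mul_of_nonneg_left ?_ (sq_nonneg L)
  rw [Finset.sum_add_distrib, Finset.sum_add_distrib, ← Finset.sum_mul, hζ.sum_delta,
    ← Finset.mul_sum, Finset.sum_range_sub' ρ n, ← Finset.sum_filter, Finset.sum_const,
    nsmul_eq_mul]
  have q1 : (((Finset.range n).filter fun k => k < 2).card : ℝ) ≤ 2 := by
    have : ((Finset.range n).filter fun k => k < 2).card ≤ (Finset.range 2).card :=
      Finset.card_le_card fun k hk => Finset.mem_range.2 (Finset.mem_filter.1 hk).2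
    rw [Finset.card_range] at this
    exact_mod_cast this
  have q2 := mul_le_mul_of_nonneg_right q1 (mul_nonneg hme0.le hΛ)
  have q3 : 3 * me * (ρ 0 - ρ n) ≤ 3 * me * Λ :=
    mul_le_mul_of_nonneg_left (by linarith [hρ0 n, hρ1 0]) (by positivity)
  linarith

end Vale.Agent.P157
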