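import Vale.Agent.P157.Deriv

/-! # Continuity of the one dimensional functional -/

namespace Vale.Agent.P157

open MeasureTheory ProbabilityTheory

namespace PsiLipAux

theorem sq_anti {ζ : ℕ → ℝ} {ν : ℕ → Measure ℝ} {f m : ℝ → ℝ} (h : Cas ζ ν f) (hm : BM m)
    {k N : ℕ} (hk : k + 1 ≤ N) (x : ℝ) :
    Ex ζ ν f (k + 1) (fun u => Ex ζ ν f 0 m (k + 1) u ^ 2) N x
      ≤ Ex ζ ν f k (fun u => Ex ζ ν f 0 m k u ^ 2) N x := by
  rw [← Ex_tower (Nat.le_succ k) hk (fun u => Ex ζ ν f 0 m k u ^ 2)]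
  refine h.Ex_mono _ ((h.bmEx 0 hm _).pow 2) (h.bmEx k ((h.bmEx 0 hm _).pow 2) _) (fun w => ?_) _ _
  rw [← Ex_tower (Nat.zero_le k) (Nat.le_succ k) m]
  exact h.sq_Ex_le k (h.bmEx 0 hm k) _ w

theorem deriv_bound {n : ℕ} {ζ : ℕ → ℝ} (hζ : ZAdm n ζ) {ν : ℕ → Measure ℝ} {f f1 f2 : ℝ → ℝ}
    {K : ℝ} (hf : Sm f f1 f2 K) (h : Cas ζ ν f) {e : ℕ → ℝ} (he : e (n + 1) = 0) {η : ℝ}
    (hη : 0 ≤ η) (hq : ∀ d, 1 ≤ d → d ≤ n → |QQ ζ e d| ≤ η) :
    |(∑ d ∈ Finset.range (n + 1), dq e d * Ex ζ ν f d (bb ζ ν f f1 f2 d) (n + 1) 0) / 2|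
      ≤ (K + K ^ 2) * |e 0| / 2 + K ^ 2 * η / 2 := by
  have hK := hf.jet.K0
  have hsq : ∀ y : ℝ, |y| ≤ K → |y ^ 2| ≤ K ^ 2 := fun y hy => by
    rw [abs_pow]
    exact pow_le_pow_left₀ (abs_nonneg _) hy 2
  rw [Finset.sum_congr rfl fun d hd => by
    rw [h.bb_formula hf.jet.bm_m hf.jet.bm_a (Finset.mem_range.1 hd).le], sum_dq_mul he]
  have hB : |Ex ζ ν f 0 (fun u => f2 u + ζ 0 * f1 u ^ 2) (n + 1) 0| ≤ K + K ^ 2 := by
    refine abs_Ex_le 0 (fun w => ?_) _ _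
    rw [hζ.z0, one_mul]
    exact (abs_add_le _ _).trans (add_le_add (hf.jet.ba w) (hsq _ (hf.jet.bm w)))
  have hA := abel_abs_le (n := n) (a := fun k => (ζ k - ζ (k + 1)) * e (k + 1))
    (p := fun k => Ex ζ ν f k (fun u => Ex ζ ν f 0 f1 k u ^ 2) (n + 1) 0) (L := K ^ 2) hη hq
    (fun k _ hk => sq_anti h hf.jet.bm_m (by omega) 0)
    (fun k _ _ => Ex_nonneg k (fun w => sq_nonneg _) _ _)
    ((le_abs_self _).trans (abs_Ex_le 1 (fun w => hsq _ (abs_Ex_le 0 hf.jet.bm _ _)) _ _))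
    (sq_nonneg K)
  have e1 : ∑ k ∈ Finset.range n, e (k + 1) * ((ζ k - ζ (k + 1)) *
      Ex ζ ν f (k + 1) (fun u => Ex ζ ν f 0 f1 (k + 1) u ^ 2) (n + 1) 0) =
      ∑ k ∈ Finset.range n, (ζ k - ζ (k + 1)) * e (k + 1) *
      Ex ζ ν f (k + 1) (fun u => Ex ζ ν f 0 f1 (k + 1) u ^ 2) (n + 1) 0 :=
    Finset.sum_congr rfl fun k _ => by ring
  rw [e1, abs_div, abs_two, ← add_div]
  refine div_le_div_of_nonneg_right ((abs_sub _ _).trans (add_le_add ?_ ?_)) zero_le_two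
  · rw [abs_mul, mul_comm]
    exact mul_le_mul_of_nonneg_right hB (abs_nonneg _)
  · rw [mul_comm]
    exact hA

theorem X_zero (ζ : ℕ → ℝ) (v : ℕ → ℝ) (d : ℕ) :
    X ζ (g1s v) (fun _ : ℝ => (0 : ℝ)) d = fun _ => 0 := by
  induction d with
  | zero => rfl
  | succ d ih =>
    funext x
    rw [X_succ, ih]
    exact lse_const (ν := g1 (v d)) (ζ d) 0

end PsiLipAux

open PsiLipAux

theorem psi_lip {n : ℕ} {ζ : ℕ → ℝ} (hζ : ZAdm n ζ) {f f1 f2 : ℝ → ℝ} {K : ℝ}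
    (hf : Sm f f1 f2 K) {c c' : ℕ → ℝ} (hc : CAdm n c) (hc' : CAdm n c') {η : ℝ} (hη : 0 ≤ η)
    (h : ∀ d, 1 ≤ d → d ≤ n → |QQ ζ c d - QQ ζ c' d| ≤ η) :
    |psi n ζ c f - psi n ζ c' f| ≤ (K + K ^ 2) * |c 0 - c' 0| / 2 + K ^ 2 * η / 2 := by
  have hd := (deriv_X1 hζ.zok hf.lg hf.jet (dq c') (dq (c - c')) hc'.dq_nonneg
    (fun d => by
      have := hc.dq_nonneg d
      simp only [dq, Pi.sub_apply] at this ⊢
      linarith) (n + 1) 0).1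
  have key := norm_image_sub_le_of_norm_deriv_le_segment_01' hd
    (C := (K + K ^ 2) * |c 0 - c' 0| / 2 + K ^ 2 * η / 2) fun t _ => by
      refine deriv_bound hζ hf (cas_g1s hζ.zok _ hf.lg) (e := c - c') ?_ hη fun d h1 h2 => ?_
      · rw [Pi.sub_apply, hc.zero _ (Nat.lt_succ_self n), hc'.zero _ (Nat.lt_succ_self n), sub_zero]
      · have := h d h1 h2
        simp only [QQ, ← Finset.sum_sub_distrib, ← mul_sub] at this ⊢
        exact this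
  have e1 : dq c' + (1 : ℝ) • dq (c - c') = dq c := by
    funext d
    simp only [dq, Pi.add_apply, Pi.sub_apply, one_smul]
    ring
  rw [e1, zero_smul, add_zero] at key
  rw [psi_eq_X n ζ c hf.meas, psi_eq_X n ζ c' hf.meas]
  exact key

theorem QQ_add (ζ c c' : ℕ → ℝ) (d : ℕ) : QQ ζ (c + c') d = QQ ζ c d + QQ ζ c' d := by
  simp only [QQ, Pi.add_apply, mul_add, Finset.sum_add_distrib]

theorem QQ_bounds {n : ℕ} {ζ : ℕ → ℝ} (hζ : Zok ζ) {c : ℕ → ℝ} (hc : CAdm n c) (d : ℕ) :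
    0 ≤ QQ ζ c d ∧ QQ ζ c d ≤ c 0 := by
  have h0 : ∀ k, 0 ≤ ζ k - ζ (k + 1) := fun k => sub_nonneg.2 (hζ.anti (Nat.le_succ k))
  refine ⟨Finset.sum_nonneg fun k _ => mul_nonneg (h0 k) (hc.nonneg _), ?_⟩
  calc QQ ζ c d ≤ ∑ k ∈ Finset.range d, (ζ k - ζ (k + 1)) * c 0 :=
        Finset.sum_le_sum fun k _ => mul_le_mul_of_nonneg_left (hc.anti (Nat.zero_le _)) (h0 k)
    _ = (ζ 0 - ζ d) * c 0 := by rw [← Finset.sum_mul, Finset.sum_range_sub']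
    _ ≤ c 0 := mul_le_of_le_one_left (hc.nonneg 0) (by linarith [hζ.le1, hζ.nn d])

/-- Without potential the cascade is a plain Gaussian average. -/
theorem Ex_zero {ζ : ℕ → ℝ} (hζ : Zok ζ) {v : ℕ → ℝ} (hv : ∀ d, 0 ≤ v d) {φ : ℝ → ℝ}
    (hφ : BM φ) (d : ℕ) (x : ℝ) :
    Ex ζ (g1s v) (fun _ => 0) 0 φ d x = ∫ z, φ (x + z) ∂(g1 (∑ k ∈ Finset.range d, v k)) := by
  have _ := hζ
  have hP : ∀ (ζ' : ℝ) (ν : Measure ℝ) [IsProbabilityMeasure ν] (ψ : ℝ → ℝ) (y : ℝ),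
      P ζ' ν (fun _ => 0) ψ y = ∫ z, ψ (y + z) ∂ν := by
    intro ζ' ν _ ψ y
    simp [P, gexp]
  have key : ∀ d, Ex ζ (g1s v) (fun _ => 0) 0 φ d =
      P 0 (g1 (∑ k ∈ Finset.range d, v k)) (fun _ => 0) φ := by
    intro d
    induction d with
    | zero =>
      rw [Finset.sum_range_zero, g1_of_nonpos le_rfl, P_dirac]
      rfl
    | succ d ih =>
      have hT : T 0 (g1 (∑ k ∈ Finset.range d, v k)) (fun _ : ℝ => (0 : ℝ)) = fun _ => 0 :=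
        funext fun _ => lse_const 0 0
      rw [Ex_succ (Nat.zero_le d), X_zero, ih, Finset.sum_range_succ,
        g1_conv (Finset.sum_nonneg fun k _ => hv k) (hv d),
        P_conv le_rfl (noise_g1 _) (noise_g1 _) (BM.lg ⟨measurable_const, 0, fun _ => by simp⟩) hφ,
        hT]
      funext y
      change P (ζ d) (g1 (v d)) _ _ y = _
      rw [hP, hP]
  rw [key, hP]

theorem psi_L1 {n : ℕ} {ζ : ℕ → ℝ} (hζ : Zok ζ) {q : ℕ → ℝ} (hq : CAdm n q) (h0 : q 0 = 1)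
    {f g : ℝ → ℝ} (hf : Measurable f) (hg : Measurable g) {b : ℝ} (hfb : ∀ x, |f x| ≤ b)
    (hgb : ∀ x, |g x| ≤ b) :
    |psi n ζ q f - psi n ζ q g| ≤ Real.exp (2 * b) * ∫ z, |f z - g z| ∂(gaussianReal 0 1) := by
  have key : ∀ {f g : ℝ → ℝ}, Measurable f → Measurable g → (∀ x, |f x| ≤ b) → (∀ x, |g x| ≤ b) →
      psi n ζ q f - psi n ζ q g ≤ Real.exp (2 * b) * ∫ z, |f z - g z| ∂(gaussianReal 0 1) := by
    intro f g hf hg hfb hgb
    have bf : BM f := ⟨hf, b, hfb⟩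
    have bg : BM g := ⟨hg, b, hgb⟩
    have cf := cas_g1s hζ (dq q) bf.lg
    have cg := cas_g1s hζ (dq q) bg.lg
    have c0 := cas_g1s hζ (dq q)
      (BM.lg (φ := fun _ : ℝ => (0 : ℝ)) ⟨measurable_const, 0, fun _ => by simp⟩)
    have ba := (bf.sub bg).abs
    have h1 := chain_jensen cf cg (Nat.zero_le (n + 1)) (fun _ _ _ => rfl) (ba.const_mul (-1))
      (fun w => by
        change -1 * |f w - g w| ≤ g w - f w
        linarith [le_abs_self (f w - g w)]) 0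
    rw [Ex_const_mul] at h1
    have h2 := density (k := 0) (d := n + 1) c0 cf (fun _ _ _ => rfl) (b := b)
      (fun w => by
        change |f w - 0| ≤ b
        rw [sub_zero]
        exact hfb w) ba (fun w => abs_nonneg _) 0
    have h3 : ∑ k ∈ Finset.range (n + 1), dq q k = 1 := by
      simp only [dq]
      rw [Finset.sum_range_sub', h0, hq.zero _ (Nat.lt_succ_self n), sub_zero]
    rw [Ex_zero hζ hq.dq_nonneg ba, h3, g1_one] at h2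
    simp only [zero_add] at h2
    rw [psi_eq_X n ζ q hf, psi_eq_X n ζ q hg]
    linarith
  rw [abs_le]
  refine ⟨?_, key hf hg hfb hgb⟩
  have := key hg hf hgb hfb
  simp only [abs_sub_comm (g _) (f _)] at this
  linarith

end Vale.Agent.P157
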