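import Vale.Agent.P157.Gibbs

/-! # Expansion in an extra variance, uniformly in the system and the number of levels -/

namespace Vale.Agent.P157

open MeasureTheory ProbabilityTheory

namespace UnifAux

theorem exp_le {s : ℝ} (h0 : 0 ≤ s) (h1 : s ≤ 1) : Real.exp (2 * s) - 1 ≤ 16 * s := by
  have h2 : Real.exp (2 * s) ≤ 8 := by
    have : Real.exp (2 * s) ≤ Real.exp (1 + 1) := Real.exp_le_exp.2 (by linarith)
    rw [Real.exp_add] at this
    have h := Real.exp_one_lt_d9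
    have h' := Real.exp_pos 1
    nlinarith
  have h3 : -(2 * s) + 1 ≤ Real.exp (-(2 * s)) := Real.add_one_le_exp _
  have h4 : Real.exp (-(2 * s)) * Real.exp (2 * s) = 1 := by
    rw [← Real.exp_add, neg_add_cancel, Real.exp_zero]
  have h5 := Real.exp_pos (2 * s)
  nlinarith [mul_le_mul_of_nonneg_right h3 h5.le]

theorem sq_lip {a b L : ℝ} (ha : |a| ≤ 1) (hb : |b| ≤ 1) (h : |a - b| ≤ L) :
    |a ^ 2 - b ^ 2| ≤ 2 * L := by
  have e : a ^ 2 - b ^ 2 = (a + b) * (a - b) := by ring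
  rw [e, abs_mul]
  exact mul_le_mul ((abs_add_le _ _).trans (by linarith)) h (abs_nonneg _) (by norm_num)

theorem sq_le_one {a : ℝ} (ha : |a| ≤ 1) : |a ^ 2| ≤ 1 := by
  rw [abs_pow]
  exact pow_le_one₀ (abs_nonneg _) ha

theorem gexp_lip {Ω : Type} [MeasurableSpace Ω] {μ : Measure Ω} [IsProbabilityMeasure μ]
    {F G g : Ω → ℝ} (hF : EInt μ F) (hG : EInt μ G) {b : ℝ} (hb0 : 0 ≤ b)
    (hb : ∀ᵐ x ∂μ, |G x - F x| ≤ b) (hg : Measurable g) (hg1 : ∀ᵐ x ∂μ, |g x| ≤ 1) :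
    |gexp μ 1 G g - gexp μ 1 F g| ≤ 2 * (Real.exp (2 * b) - 1) := by
  set g' : Ω → ℝ := fun x => max (-1) (min (g x) 1) with hg'
  have h1 : ∀ x, -1 ≤ g' x := fun x => le_max_left _ _
  have h2 : ∀ x, g' x ≤ 1 := fun x => max_le (by norm_num) (min_le_right _ _)
  have hbm : BM g' := ⟨measurable_const.max (hg.min measurable_const), 1,
    fun x => abs_le.2 ⟨h1 x, h2 x⟩⟩
  have hae : g =ᵐ[μ] g' := by
    filter_upwards [hg1] with x hx
    rw [abs_le] at hx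
    simp only [hg', min_eq_left hx.2, max_eq_right hx.1]
  rw [gexp_congr_ae (Filter.EventuallyEq.refl _ G) hae,
    gexp_congr_ae (Filter.EventuallyEq.refl _ F) hae]
  have := hF.prob_tilted 1
  have ha := gexp_le_exp_mul zero_le_one hF hG hb ((BM.const 1).add hbm).integrable
    (fun x => by linarith [h1 x])
  have hs := gexp_le_exp_mul zero_le_one hF hG hb ((BM.const 1).sub hbm).integrable
    (fun x => by linarith [h2 x])
  rw [gexp_add 1 hG (EInt.const 1) hbm.eint, gexp_add 1 hF (EInt.const 1) hbm.eint,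
    gexp_const 1 hG, gexp_const 1 hF, mul_one] at ha
  rw [gexp_sub 1 hG (EInt.const 1) hbm.eint, gexp_sub 1 hF (EInt.const 1) hbm.eint,
    gexp_const 1 hG, gexp_const 1 hF, mul_one] at hs
  have h3 := abs_le.1 (abs_gexp_le (ν := μ) 1 F zero_le_one
    (Filter.Eventually.of_forall fun x => abs_le.2 ⟨h1 x, h2 x⟩))
  have h4 : 1 ≤ Real.exp (2 * b) := Real.one_le_exp (by linarith)
  rw [abs_le]
  constructor <;> nlinarith [h3.1, h3.2]

variable {W : Type} [NormedAddCommGroup W] [MeasurableSpace W] [BorelSpace W]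
  [SecondCountableTopology W] {ζ : ℕ → ℝ} {ν : ℕ → Measure W} {Ψ : W → ℝ}

theorem ex_lip (h : Cas ζ ν Ψ) (c : W) {b : ℝ} (hb : ∀ w, |Ψ (w + c) - Ψ w| ≤ b) (k : ℕ)
    {φ : W → ℝ} (hφ : Measurable φ) (h1 : ∀ w, |φ w| ≤ 1) {L : ℝ}
    (hL : ∀ w, |φ (w + c) - φ w| ≤ L) (d : ℕ) (w : W) :
    |Ex ζ ν Ψ k φ d (w + c) - Ex ζ ν Ψ k φ d w| ≤ L + 2 * (Real.exp (2 * b) - 1) := by
  have h' : Cas ζ ν fun w => Ψ (w + c) := ⟨h.z, h.noise, h.lg.shift c⟩
  have hm : Measurable fun w => φ (w + c) := hφ.comp (measurable_add_const c)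
  have e : Ex ζ ν (fun w => Ψ (w + c)) k (fun w => φ (w + c)) d w = Ex ζ ν Ψ k φ d (w + c) :=
    Ex_push (AddMonoidHom.id W) measurable_id c (fun j => (h.noise j).prob) h.lg.1
      (fun _ => rfl) k hφ (fun _ => rfl) (fun j _ => Measure.map_id) w
  have hk : ∀ w, |X ζ ν (fun w => Ψ (w + c)) k w - X ζ ν Ψ k w| ≤ b :=
    chain_abs h h' (Nat.zero_le k) (fun _ _ _ => rfl) hb
  have h2 := density_abs h h' (d := d) (fun _ _ _ => rfl) hk hφ h1 w
  have h3 := abs_Ex_le (ζ := ζ) (ν := ν) (Ψ := fun w => Ψ (w + c)) k hL d w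
  rw [h'.Ex_sub k ⟨hm, 1, fun w => h1 _⟩ ⟨hφ, 1, h1⟩, e] at h3
  rw [abs_le] at h2 h3 ⊢
  constructor <;> linarith [h2.1, h2.2, h3.1, h3.2]

theorem sum_le (hζ : Zok ζ) (d : ℕ) {f : ℕ → ℝ} {L : ℝ} (hL : 0 ≤ L) (h : ∀ k, |f k| ≤ L) :
    |∑ k ∈ Finset.range d, (ζ k - ζ (k + 1)) * f k| ≤ L := by
  refine (Finset.abs_sum_le_sum_abs _ _).trans ?_
  have h1 : ∀ k ∈ Finset.range d, |(ζ k - ζ (k + 1)) * f k| ≤ (ζ k - ζ (k + 1)) * L := by
    intro k _
    have h0 : 0 ≤ ζ k - ζ (k + 1) := sub_nonneg.2 (hζ.anti (Nat.le_succ k))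
    rw [abs_mul, abs_of_nonneg h0]
    exact mul_le_mul_of_nonneg_left (h k) h0
  refine (Finset.sum_le_sum h1).trans ?_
  rw [← Finset.sum_mul, Finset.sum_range_sub']
  have := hζ.nn d
  have := hζ.le1
  nlinarith

variable [NormedSpace ℝ W] {Ω : Type} [MeasurableSpace Ω] {μ : Measure Ω} [IsProbabilityMeasure μ]
  {H : W → Ω → ℝ} {ξ : Ω → ℝ} {v : W}

theorem jet (hζ : Zok ζ) (h1 : ζ 0 = 1) (hν : ∀ d, Noise (ν d)) (hH : HG H) (hξ : BM ξ)
    (hξ1 : ∀ᵐ x ∂μ, |ξ x| ≤ 1) (hv : ∀ w (t : ℝ) x, H (w + t • v) x = H w x + t * ξ x) (d : ℕ) :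
    DJet (X ζ ν (gtop μ H) (d + 1)) v (GE ζ ν μ H (fun _ x => ξ x) (d + 1))
      (fun w => Bp ζ ν μ H (fun _ x => ξ x) (fun _ _ => 0) d w
        - ζ d * GE ζ ν μ H (fun _ x => ξ x) (d + 1) w ^ 2) 352 := by
  obtain ⟨hξm, C, hC⟩ := hξ
  have hC' : ∀ x, |ξ x| ≤ |C| := fun x => (hC x).trans (le_abs_self C)
  have hF : FJet H v (fun _ x => ξ x) (fun _ _ => 0) |C| :=
    { K0 := abs_nonneg C
      mm := hξm.comp measurable_snd
      ma := measurable_const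
      bm := fun _ x => hC' x
      ba := fun _ _ => by simp
      lip := fun w x t => by
        rw [hv, add_sub_cancel_left, abs_mul, mul_comm]
        exact mul_le_mul_of_nonneg_right (hC' x) (abs_nonneg _)
      tay := fun w x t => by
        rw [hv]
        simp only [add_sub_cancel_left, sub_self, mul_zero, abs_zero]
        positivity }
  have hc := hH.cas (μ := μ) hζ hν
  have hm2 : BM2 (fun (_ : W) x => ξ x) := hF.bm2_m
  have hq2 : BM2 (fun (_ : W) x => (0 : ℝ) + ξ x ^ 2) := (BM2.const 0).add (hm2.pow 2)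
  have hξ2 : ∀ᵐ x ∂μ, |(0 : ℝ) + ξ x ^ 2| ≤ 1 := by
    filter_upwards [hξ1] with x hx
    rw [zero_add]
    exact sq_le_one hx
  have hm0 := hH.bm_gib (μ := μ) hm2
  have hq0 := hH.bm_gib (μ := μ) hq2
  have hBp : ∀ w, Bp ζ ν μ H (fun _ x => ξ x) (fun _ _ => 0) d w
      = GE ζ ν μ H (fun _ x => 0 + ξ x ^ 2) (d + 1) w
        - ∑ k ∈ Finset.range d, (ζ k - ζ (k + 1)) * Ex ζ ν (gtop μ H) (k + 1)
          (fun u => GE ζ ν μ H (fun _ x => ξ x) (k + 1) u ^ 2) (d + 1) w := by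
    intro w
    unfold Bp
    rw [hc.bb_formula hm0 (hq0.sub (hm0.pow 2)) (Nat.le_succ d)]
    simp only [h1, one_mul, sub_add_cancel]
    rfl
  have b1 : ∀ k w, |GE ζ ν μ H (fun _ x => ξ x) k w| ≤ 1 :=
    abs_GE_le zero_le_one fun _ => hξ1
  have b2 : ∀ k w, |GE ζ ν μ H (fun _ x => 0 + ξ x ^ 2) k w| ≤ 1 :=
    abs_GE_le zero_le_one fun _ => hξ2
  have b3 : ∀ k w, |Ex ζ ν (gtop μ H) (k + 1)
      (fun u => GE ζ ν μ H (fun _ x => ξ x) (k + 1) u ^ 2) (d + 1) w| ≤ 1 :=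
    fun k w => abs_Ex_le _ (fun u => sq_le_one (b1 _ u)) _ w
  have hz0 := hζ.nn d
  have hz1 := hζ.le_one d
  have b4 : ∀ w, |Bp ζ ν μ H (fun _ x => ξ x) (fun _ _ => 0) d w
      - ζ d * GE ζ ν μ H (fun _ x => ξ x) (d + 1) w ^ 2| ≤ 3 := by
    intro w
    rw [hBp]
    have t1 := abs_le.1 (b2 (d + 1) w)
    have t2 := abs_le.1 (sum_le hζ d zero_le_one fun k => b3 k w)
    have t3 := abs_le.1 (sq_le_one (b1 (d + 1) w))
    have t4 := sq_nonneg (GE ζ ν μ H (fun _ x => ξ x) (d + 1) w)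
    rw [abs_le]
    constructor <;> nlinarith [t1.1, t1.2, t2.1, t2.2, t3.2]
  refine (jet_gibbs hH hζ hν hF d).upgrade (fun w => (b1 _ w).trans (by norm_num))
    (fun w => (b4 w).trans (by norm_num)) fun w t => ?_
  rcases le_or_gt |t| 1 with ht | ht
  swap
  · have t1 := abs_le.1 (b4 w)
    have t2 := abs_le.1 (b4 (w + t • v))
    rw [abs_le]
    constructor <;> linarith [t1.1, t1.2, t2.1, t2.2]
  have hd : ∀ w, ∀ᵐ x ∂μ, |H (w + t • v) x - H w x| ≤ |t| := by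
    intro w
    filter_upwards [hξ1] with x hx
    rw [hv, add_sub_cancel_left, abs_mul]
    exact mul_le_of_le_one_right (abs_nonneg _) hx
  have hΨ : ∀ w, |gtop μ H (w + t • v) - gtop μ H w| ≤ |t| := fun w =>
    abs_lse_sub_le zero_le_one (hH.eint w) (hH.eint _) (hd w)
  set E := Real.exp (2 * |t|) - 1 with hE
  have hE0 : 0 ≤ E := sub_nonneg.2 (Real.one_le_exp (by positivity))
  have hE1 : E ≤ 16 * |t| := exp_le (abs_nonneg t) ht
  have l0 : ∀ w, |gib μ H (fun _ x => ξ x) (w + t • v) - gib μ H (fun _ x => ξ x) w| ≤ 2 * E :=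
    fun w => gexp_lip (hH.eint w) (hH.eint _) (abs_nonneg t) (hd w) hξm hξ1
  have l0' : ∀ w, |gib μ H (fun _ x => 0 + ξ x ^ 2) (w + t • v)
      - gib μ H (fun _ x => 0 + ξ x ^ 2) w| ≤ 2 * E :=
    fun w => gexp_lip (hH.eint w) (hH.eint _) (abs_nonneg t) (hd w)
      (measurable_const.add (hξm.pow_const 2)) hξ2
  have l1 : ∀ k w, |GE ζ ν μ H (fun _ x => ξ x) k (w + t • v) - GE ζ ν μ H (fun _ x => ξ x) k w|
      ≤ 2 * E + 2 * E := fun k w => ex_lip hc _ hΨ 0 hm0.1 (b1 0) l0 k w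
  have l2 := ex_lip hc _ hΨ 0 hq0.1 (b2 0) l0' (d + 1) w
  have l3 : ∀ k w, |GE ζ ν μ H (fun _ x => ξ x) k (w + t • v) ^ 2
      - GE ζ ν μ H (fun _ x => ξ x) k w ^ 2| ≤ 2 * (2 * E + 2 * E) :=
    fun k w => sq_lip (b1 k _) (b1 k _) (l1 k w)
  have l4 := sum_le hζ d (L := 2 * (2 * E + 2 * E) + 2 * E) (by positivity) fun k =>
    ex_lip hc _ hΨ (k + 1) ((bm_GE hH hζ hν hm2 (k + 1)).1.pow_const 2)
      (fun u => sq_le_one (b1 _ u)) (l3 (k + 1)) (d + 1) w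
  have l5 : |ζ d * (GE ζ ν μ H (fun _ x => ξ x) (d + 1) (w + t • v) ^ 2
      - GE ζ ν μ H (fun _ x => ξ x) (d + 1) w ^ 2)| ≤ 2 * (2 * E + 2 * E) := by
    rw [abs_mul, abs_of_nonneg hz0]
    exact (mul_le_of_le_one_left (abs_nonneg _) hz1).trans (l3 _ w)
  simp only [mul_sub (ζ _ - ζ _), Finset.sum_sub_distrib] at l4
  rw [mul_sub] at l5
  rw [hBp, hBp]
  unfold GE at l4 l5 ⊢
  rw [abs_le] at l2 l4 l5 ⊢
  constructor <;> linarith [l2.1, l2.2, l4.1, l4.2, l5.1, l5.2]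

/-- The uniform measure on two points. -/
noncomputable def mu2 : Measure Bool := (2 : ENNReal)⁻¹ • (Measure.dirac true + Measure.dirac false)

instance : IsProbabilityMeasure mu2 :=
  ⟨by
    simp only [mu2, Measure.smul_apply, Measure.add_apply, measure_univ, smul_eq_mul]
    rw [one_add_one_eq_two]
    exact ENNReal.inv_mul_cancel (by norm_num) (by norm_num)⟩

theorem integral_mu2 (f : Bool → ℝ) : ∫ b, f b ∂mu2 = (f true + f false) / 2 := by
  rw [mu2, integral_smul_measure, integral_add_measure Integrable.of_finite Integrable.of_finite,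
    integral_dirac, integral_dirac]
  simp only [ENNReal.toReal_inv, ENNReal.toReal_ofNat, smul_eq_mul]
  ring

/-- The sign of a Boolean. -/
def sg (b : Bool) : ℝ := if b then 1 else -1

theorem abs_sg (b : Bool) : |sg b| = 1 := by cases b <;> simp [sg]

theorem gtop_two : gtop mu2 (fun (x : ℝ) b => x * sg b) = lc := by
  funext x
  rw [gtop_eq, integral_mu2, lc, Real.cosh_eq]
  simp [sg]

theorem gib_two : gib mu2 (fun (x : ℝ) b => x * sg b) (fun _ b => sg b) = Real.tanh := by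
  funext x
  rw [gib, gexp_eq, integral_mu2, integral_mu2, Real.tanh_eq_sinh_div_cosh, Real.cosh_eq,
    Real.sinh_eq]
  simp [sg, sub_eq_add_neg]

theorem hg_two : HG (fun (x : ℝ) b => x * sg b) := by
  refine ⟨measurable_fst.mul ((measurable_of_countable sg).comp measurable_snd), 1, fun w b => ?_⟩
  rw [abs_mul, abs_sg, Real.norm_eq_abs]
  linarith

end UnifAux

open UnifAux

theorem unif : ∃ Cu : ℝ, 0 ≤ Cu ∧
    ∀ (W : Type) [NormedAddCommGroup W] [NormedSpace ℝ W] [MeasurableSpace W] [BorelSpace W]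
      [SecondCountableTopology W] (Ω : Type) [MeasurableSpace Ω] (μ : Measure Ω)
      [IsProbabilityMeasure μ] (ζ : ℕ → ℝ) (ν : ℕ → Measure W) (H : W → Ω → ℝ) (ξ : Ω → ℝ)
      (v : W), Zok ζ → ζ 0 = 1 → (∀ d, Noise (ν d)) → HG H → BM ξ → (∀ᵐ x ∂μ, |ξ x| ≤ 1) →
      (∀ w (t : ℝ) x, H (w + t • v) x = H w x + t * ξ x) →
      ∀ (n d : ℕ), d ≤ n → ∀ σ : ℝ, 0 ≤ σ → σ ≤ 1 →
      |X ζ (Function.update ν d ((line v σ).conv (ν d))) (gtop μ H) (n + 1) 0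
          - X ζ ν (gtop μ H) (n + 1) 0
          - σ / 2 * Db ζ ν μ H (fun _ x => ξ x) (fun _ _ => 0) n d| ≤ Cu * (σ * √σ) := by
  obtain ⟨C, hC, h⟩ := one_step 352
  refine ⟨C, hC, ?_⟩
  intro W _ _ _ _ _ Ω _ μ _ ζ ν H ξ v hζ h1 hν hH hξ hξ1 hv n d hd σ h0 hσ
  have := h W ζ ν (gtop μ H) (hH.cas hζ hν) d (n + 1) (Nat.lt_succ_of_le hd) v _ _
    (jet hζ h1 hν hH hξ hξ1 hv d) σ h0 hσ 0
  simp only [sub_add_cancel] at this
  obtain ⟨hξm, C', hC'⟩ := hξ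
  have hm : BM2 (fun (_ : W) x => ξ x) := ⟨hξm.comp measurable_snd, C', fun _ x => hC' x⟩
  rw [← Ex_Bp hH hζ hν h1 hm (BM2.const 0) hd]
  exact this

theorem unif_lc : ∃ Cu : ℝ, 0 ≤ Cu ∧ ∀ (n : ℕ) (ζ c : ℕ → ℝ), ZAdm n ζ → CAdm n c →
    ∀ d, d ≤ n → ∀ σ : ℝ, 0 ≤ σ → σ ≤ 1 →
      |psi n ζ (c + cum n (Pi.single d σ)) lc - psi n ζ c lc
        - σ / 2 * (1 - QQ ζ (qt n ζ c) d)| ≤ Cu * (σ * √σ) := by
  obtain ⟨C, hC, h⟩ := unif
  refine ⟨C, hC, ?_⟩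
  intro n ζ c hζ hc d hd σ h0 hσ
  have hν : ∀ j, Noise (g1s (dq c) j) := fun j => noise_g1 _
  have := h ℝ Bool mu2 ζ (g1s (dq c)) (fun x b => x * sg b) sg 1 hζ.zok hζ.z0 hν hg_two
    ⟨measurable_of_countable sg, 1, fun b => (abs_sg b).le⟩
    (Filter.Eventually.of_forall fun b => (abs_sg b).le)
    (fun w t b => by rw [smul_eq_mul, mul_one, add_mul]) n d hd σ h0 hσ
  have e1 : Function.update (g1s (dq c)) d ((line (1 : ℝ) σ).conv (g1s (dq c) d))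
      = g1s fun j => dq c j + (Pi.single d σ : ℕ → ℝ) j := by
    funext j
    by_cases hj : j = d
    · subst hj
      simp only [Function.update_self, g1s, Pi.single_eq_same]
      rw [line_one, g1_conv (hc.dq_nonneg j) h0]
    · simp only [Function.update_of_ne hj, g1s, Pi.single_eq_of_ne hj, add_zero]
  have e2 : Db ζ (g1s (dq c)) mu2 (fun (x : ℝ) b => x * sg b) (fun _ b => sg b) (fun _ _ => 0) n d
      = 1 - QQ ζ (qt n ζ c) d := by
    have e3 : (fun (_ : ℝ) (b : Bool) => (0 : ℝ) + sg b ^ 2) = fun _ _ => 1 := by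
      funext _ b
      rw [zero_add, ← sq_abs, abs_sg, one_pow]
    unfold Db QQ EG
    rw [e3, GE_const hg_two hζ.zok hν]
    congr 1
    refine Finset.sum_congr rfl fun k hk => ?_
    have hk' : k + 1 ≤ n := (Finset.mem_range.1 hk).trans_le hd
    rw [qt, if_neg (Nat.succ_ne_zero k), if_pos hk']
    unfold Esq GE rho1
    rw [gtop_two, gib_two]
  rw [e1, e2, gtop_two] at this
  rw [psi_add_cum _ _ _ _ lg_lc.1, psi_eq_X _ _ _ lg_lc.1]
  exact this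

end Vale.Agent.P157
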