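import Vale.Agent.P157.Univ
import Vale.Agent.P157.Conc

/-! # Crude comparisons for the universal system -/

namespace Vale.Agent.P157

open MeasureTheory ProbabilityTheory

variable {A S : Type} [Fintype A] [Fintype S] [DecidableEq A] [DecidableEq S]
  {f f1 f2 : A → ℝ → ℝ} {K : ℝ} (μ : Measure (Sph S)) [IsProbabilityMeasure μ] {ζ : ℕ → ℝ}

set_option linter.unusedVariables false
set_option linter.unusedSectionVars false

namespace CrudeAux

omit [Fintype A] [Fintype S] [DecidableEq A] [DecidableEq S] in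
theorem oldA_inj : Function.Injective (oldA (A := A) (S := S)) := by
  rintro (⟨a, i⟩ | i | a) (⟨b, j⟩ | j | b) h <;> simp_all [oldA]

/-- Relabelled coordinates. -/
def newC {A' S' : Type} (eA : A ≃ A') (eS : S ≃ S') : Co A S → Co A' S'
  | .inl (a, i) => .inl (eA a, eS i)
  | .inr (.inl i) => .inr (.inl (eS i))
  | .inr (.inr a) => .inr (.inr (eA a))

omit [Fintype A] [Fintype S] [DecidableEq A] [DecidableEq S] in
theorem newC_inj {A' S' : Type} (eA : A ≃ A') (eS : S ≃ S') : Function.Injective (newC eA eS) := by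
  rintro (⟨a, i⟩ | i | a) (⟨b, j⟩ | j | b) h <;> simp_all [newC]

theorem uH_re {A' S' : Type} [Fintype A'] [Fintype S'] (eA : A ≃ A') (eS : S ≃ S')
    (f' : A' → ℝ → ℝ) (u : Co A' S' → ℝ) (z : Sph S) :
    uH f' u (reSph eS z) = uH (fun a => f' (eA a)) (fun k => u (newC eA eS k)) z := by
  have h : ∀ c : S' → ℝ, ∑ i, c i * (reSph eS z).1 i = ∑ i, c (eS i) * z.1 i := by
    intro c
    rw [← eS.sum_comp]
    simp [reSph]
  unfold uH arg
  rw [← eA.sum_comp]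
  simp only [h]
  rfl

theorem measurable_uH (hm : ∀ a, Measurable (f a)) : Measurable (Function.uncurry (uH (S := S) f)) :=
  (Finset.measurable_sum _ fun a _ => (hm a).comp (measurable_arg a)).add
    (Finset.measurable_sum _ fun i _ => ((measurable_pi_apply _).comp measurable_fst).mul
      ((measurable_sph_coord i).comp measurable_snd))

theorem sq0_congr {θ ϑ : ℕ → ℝ} {n d : ℕ} (h : ∀ d, 1 ≤ d → d ≤ n → θ d = ϑ d) (hd : d ≤ n) :
    sq0 θ d = sq0 ϑ d := by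
  unfold sq0
  split_ifs with h0
  · rfl
  · rw [h d (Nat.one_le_iff_ne_zero.2 h0) hd]

theorem sq0_zero (d : ℕ) : sq0 0 d = 0 := by simp [sq0]

theorem sum_sq0 (θ : ℕ → ℝ) (n : ℕ) :
    ∑ d ∈ Finset.range (n + 1), sq0 θ d = ∑ d ∈ Finset.Icc 1 n, θ d ^ 2 := by
  induction n with
  | zero => simp [sq0]
  | succ n ih => rw [Finset.sum_range_succ, ih, Finset.sum_Icc_succ_top (by omega)]; simp [sq0]

/-- A single spike. -/
noncomputable def up (d : ℕ) (c : ℝ) (j : ℕ) : ℝ := if j = d then |c| else 0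

theorem up_nonneg (d : ℕ) (c : ℝ) (j : ℕ) : 0 ≤ up d c j := by
  unfold up
  split_ifs
  · exact abs_nonneg c
  · exact le_rfl

theorem sum_up (n d : ℕ) (c : ℝ) : ∑ j ∈ Finset.range (n + 1), up d c j ≤ |c| := by
  unfold up
  rw [Finset.sum_ite_eq']
  split_ifs
  · exact le_rfl
  · exact abs_nonneg c

theorem sq0_upd (θ : ℕ → ℝ) (d : ℕ) (a b : ℝ) (j : ℕ) :
    |sq0 (Function.update θ d a) j - sq0 (Function.update θ d b) j| ≤ up d (a ^ 2 - b ^ 2) j := by
  by_cases h0 : j = 0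
  · simpa [sq0, h0] using up_nonneg d _ 0
  · by_cases hj : j = d
    · subst hj
      simp [sq0, h0, up]
    · simp [sq0, up, hj]

theorem X_dirac {W : Type} [NormedAddCommGroup W] [MeasurableSpace W] [BorelSpace W]
    [SecondCountableTopology W] (ζ : ℕ → ℝ) (Ψ : W → ℝ) (d : ℕ) :
    X ζ (fun _ => Measure.dirac 0) Ψ d = Ψ := by
  induction d with
  | zero => rfl
  | succ d ih => rw [X_succ, T_dirac, ih]

theorem lg_field : LG fun w : S → ℝ => Real.log (∫ x, Real.exp (∑ i, w i * x.1 i) ∂μ) := by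
  have h : HG fun (w : S → ℝ) (x : Sph S) => ∑ i, w i * x.1 i := by
    refine ⟨Finset.measurable_sum _ fun i _ => ((measurable_pi_apply _).comp measurable_fst).mul
      ((measurable_sph_coord i).comp measurable_snd), Fintype.card S * (1 + Fintype.card S),
      fun w x => ?_⟩
    refine (Finset.abs_sum_le_sum_abs _ _).trans
      ((Finset.sum_le_card_nsmul _ _ ((1 + ‖w‖) * (1 + Fintype.card S)) fun i _ => ?_).trans
        (le_of_eq ?_))
    · rw [abs_mul]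
      have h1 : |w i| ≤ ‖w‖ := norm_le_pi_norm w i
      have h2 := sph_sq_le x i
      refine mul_le_mul (by linarith) ?_ (abs_nonneg _) (by positivity)
      nlinarith [sq_abs (x.1 i), sq_nonneg (|x.1 i| - 1)]
    · rw [Finset.card_univ, nsmul_eq_mul]
      ring
  have h2 := h.lg_gtop (μ := μ)
  rwa [show gtop μ _ = _ from funext (gtop_eq _)] at h2

end CrudeAux

theorem val_congr (f : A → ℝ → ℝ) (n : ℕ) {s s' : ℕ → Co A S → ℝ}
    (h : ∀ d, d ≤ n → ∀ c, s d c = s' d c) : Val μ f ζ s n = Val μ f ζ s' n := by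
  unfold Val
  rw [X_congr (ζ' := ζ) (ν := gvs s) (ν' := gvs s') (d := n + 1) fun j hj =>
    ⟨rfl, congrArg gv (funext (h j (Nat.lt_succ_iff.1 hj)))⟩]

theorem val_mono_x (hζ : Zok ζ) (hz : ζ 0 = 1) (hf : ∀ a, Sm (f a) (f1 a) (f2 a) K) (n : ℕ)
    {g : A → S → ℝ} {x x' : ℕ → S → ℝ} {y : ℕ → A → ℝ} (hg : ∀ a i, 0 ≤ g a i)
    (hx : ∀ d i, 0 ≤ x d i) (hy : ∀ d a, 0 ≤ y d a) (h : ∀ d i, x d i ≤ x' d i) :
    Val μ f ζ (prof n g x y) n ≤ Val μ f ζ (prof n g x' y) n := by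
  have := val_ge μ hζ hz hf n hg hx hy hg (fun d i => (hx d i).trans (h d i)) hy (κ := 0)
    (fun t _ => by
      simp only [valD, sub_self, zero_mul, Finset.sum_const_zero, zero_add, add_zero, mul_zero]
      exact Finset.sum_nonneg fun d hd => Finset.sum_nonneg fun i _ =>
        mul_nonneg (sub_nonneg.2 (h d i))
          (Db_F_nonneg μ hζ hz hf _ (Nat.lt_succ_iff.1 (Finset.mem_range.1 hd)) i))
  linarith

theorem val_lip_x (hζ : Zok ζ) (hz : ζ 0 = 1) (hf : ∀ a, Sm (f a) (f1 a) (f2 a) K) (n : ℕ)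
    {g : A → S → ℝ} {x x' : ℕ → S → ℝ} {y : ℕ → A → ℝ} (hg : ∀ a i, 0 ≤ g a i)
    (hx : ∀ d i, 0 ≤ x d i) (hx' : ∀ d i, 0 ≤ x' d i) (hy : ∀ d a, 0 ≤ y d a) {u : ℕ → ℝ}
    (h : ∀ d, d ≤ n → ∀ i, |x' d i - x d i| ≤ u d) (hu : ∀ d, 0 ≤ u d) :
    |Val μ f ζ (prof n g x' y) n - Val μ f ζ (prof n g x y) n|
      ≤ Fintype.card S * (∑ d ∈ Finset.range (n + 1), u d) / 2 := by
  have key : ∀ t, |valD μ f f1 f2 ζ n g g x x' y y t|
      ≤ Fintype.card S * ∑ d ∈ Finset.range (n + 1), u d := by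
    intro t
    simp only [valD, sub_self, zero_mul, Finset.sum_const_zero, zero_add, add_zero]
    rw [Finset.mul_sum]
    refine (Finset.abs_sum_le_sum_abs _ _).trans (Finset.sum_le_sum fun d hd => ?_)
    have hd' := Nat.lt_succ_iff.1 (Finset.mem_range.1 hd)
    rw [← EG_sum_sq μ hζ hf (profI n g g x x' y y t) n, Finset.sum_mul]
    refine (Finset.abs_sum_le_sum_abs _ _).trans (Finset.sum_le_sum fun i _ => ?_)
    have h0 := Db_F_nonneg μ hζ hz hf (profI n g g x x' y y t) hd' i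
    rw [abs_mul, abs_of_nonneg h0, mul_comm]
    have h1 := Db_F_le μ hζ hf (profI n g g x x' y y t) n d i
    exact mul_le_mul h1 (h d hd' i) (abs_nonneg _) (h0.trans h1)
  refine abs_le.2 ⟨val_ge μ hζ hz hf n hg hx hy hg hx' hy fun t _ => ?_,
    val_le μ hζ hz hf n hg hx hy hg hx' hy fun t _ => ?_⟩
  · linarith [(abs_le.1 (key t)).1]
  · linarith [(abs_le.1 (key t)).2]

theorem val_lip_y (hK : 0 ≤ K) (hζ : Zok ζ) (hz : ζ 0 = 1) (hf : ∀ a, Sm (f a) (f1 a) (f2 a) K)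
    (n : ℕ) {g : A → S → ℝ} {x : ℕ → S → ℝ} {y y' : ℕ → A → ℝ} (hg : ∀ a i, 0 ≤ g a i)
    (hx : ∀ d i, 0 ≤ x d i) (hy : ∀ d a, 0 ≤ y d a) (hy' : ∀ d a, 0 ≤ y' d a) {u : ℕ → ℝ}
    (h : ∀ d, d ≤ n → ∀ a, |y' d a - y d a| ≤ u d) (hu : ∀ d, 0 ≤ u d) :
    |Val μ f ζ (prof n g x y') n - Val μ f ζ (prof n g x y) n|
      ≤ Fintype.card A * (K + K ^ 2) * (∑ d ∈ Finset.range (n + 1), u d) / 2 := by
  have key : ∀ t, |valD μ f f1 f2 ζ n g g x x y y' t|
      ≤ Fintype.card A * (K + K ^ 2) * ∑ d ∈ Finset.range (n + 1), u d := by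
    intro t
    simp only [valD, sub_self, zero_mul, Finset.sum_const_zero, zero_add, add_zero]
    rw [Finset.mul_sum]
    refine (Finset.abs_sum_le_sum_abs _ _).trans (Finset.sum_le_sum fun d hd => ?_)
    have hd' := Nat.lt_succ_iff.1 (Finset.mem_range.1 hd)
    refine (Finset.abs_sum_le_sum_abs _ _).trans
      ((Finset.sum_le_card_nsmul _ _ (u d * (K + K ^ 2)) fun a _ => ?_).trans (le_of_eq ?_))
    · rw [abs_mul]
      exact mul_le_mul (h d hd' a) (abs_Db_Y_le μ hζ hf _ n d a) (abs_nonneg _) (hu d)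
    · rw [Finset.card_univ, nsmul_eq_mul]
      ring
  refine abs_le.2 ⟨val_ge μ hζ hz hf n hg hx hy hg hx hy' fun t _ => ?_,
    val_le μ hζ hz hf n hg hx hy hg hx hy' fun t _ => ?_⟩
  · linarith [(abs_le.1 (key t)).1]
  · linarith [(abs_le.1 (key t)).2]

/-- Removing a pattern changes the value by at most the bound on its potential. -/
theorem val_drop (hζ : Zok ζ) {f' : Option A → ℝ → ℝ} (hm : ∀ a, Measurable (f' a)) {K' b : ℝ}
    (hb : ∀ a x, |f' a x| ≤ K') (hb0 : ∀ x, |f' none x| ≤ b) (n : ℕ)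
    (s' : ℕ → Co (Option A) S → ℝ) :
    |Val μ f' ζ s' n - Val μ (fun a => f' (some a)) ζ (fun d c => s' d (oldA c)) n| ≤ b := by
  let f'' : Option A → ℝ → ℝ := fun a => a.elim (fun _ => 0) fun a => f' (some a)
  have hm'' : ∀ a, Measurable (f'' a) := fun a => by
    cases a with
    | none => exact measurable_const
    | some a => exact hm _
  have hb'' : ∀ a x, |f'' a x| ≤ K' := fun a x => by
    cases a with
    | none => simpa [f''] using (abs_nonneg _).trans (hb none 0)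
    | some a => exact hb _ _
  have h1 := hg_uH (S := S) hm hb
  have h2 := hg_uH (S := S) hm'' hb''
  have h3 := hg_uH (S := S) (f := fun a => f' (some a)) (fun a => hm _) (fun a => hb _)
  have h4 := X_sel (fun k : Co A S => some (oldA k))
    (fun k l i hk hl => CrudeAux.oldA_inj (Option.some.inj (hk.trans hl.symm))) ζ s'
    (fun d c => s' d (oldA c)) (h3.lg_gtop (μ := μ)).1 (d := n + 1) (fun _ _ _ => rfl)
  have h5 : (fun u : Co (Option A) S → ℝ => gtop μ (uH fun a => f' (some a))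
      fun k : Co A S => (some (oldA k)).elim 0 u) = gtop μ (uH f'') := by
    funext u
    unfold gtop
    congr 1
    funext x
    simp only [uH, Fintype.sum_option, f'', Option.elim, zero_add]
    rfl
  unfold Val
  rw [← h4, h5]
  refine chain_abs (h2.cas hζ fun d => noise_gv _) (h1.cas hζ fun d => noise_gv _) (Nat.zero_le _)
    (fun _ _ _ => rfl) (fun w => ?_) 0
  refine abs_lse_sub_le zero_le_one (h2.eint w) (h1.eint w) (ae_of_all _ fun x => ?_)
  simp only [uH, Fintype.sum_option, f'', Option.elim, zero_add]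
  rw [add_assoc, add_sub_cancel_right]
  exact hb0 _

theorem measurable_reSph {S' : Type} [Fintype S'] (e : S ≃ S') : Measurable (reSph e) :=
  Measurable.subtype_mk (measurable_pi_lambda _ fun i => measurable_sph_coord (e.symm i))

/-- Relabelling patterns and spins. -/
theorem val_reindex {A' S' : Type} [Fintype A'] [Fintype S'] (eA : A ≃ A') (eS : S ≃ S')
    {f' : A' → ℝ → ℝ} (hm : ∀ a, Measurable (f' a)) (n : ℕ) (g : A' → S' → ℝ)
    (x : ℕ → S' → ℝ) (y : ℕ → A' → ℝ) :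
    Val (μ.map (reSph eS)) f' ζ (prof n g x y) n
      = Val μ (fun a => f' (eA a)) ζ
          (prof n (fun a i => g (eA a) (eS i)) (fun d i => x d (eS i)) fun d a => y d (eA a)) n := by
  classical
  have h4 := X_sel (fun k : Co A S => some (CrudeAux.newC eA eS k))
    (fun k l i hk hl => CrudeAux.newC_inj eA eS (Option.some.inj (hk.trans hl.symm))) ζ
    (prof n g x y)
    (prof n (fun a i => g (eA a) (eS i)) (fun d i => x d (eS i)) fun d a => y d (eA a))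
    (Ψ' := gtop μ (uH fun a => f' (eA a)))
    (measurable_lse (ν := μ) 1 (CrudeAux.measurable_uH (S := S) fun a => hm (eA a))) (d := n + 1)
    (fun _ _ k => by rcases k with ⟨a, i⟩ | i | a <;> rfl)
  have h5 : gtop (μ.map (reSph eS)) (uH f') = fun u : Co A' S' → ℝ =>
      gtop μ (uH fun a => f' (eA a)) fun k => (some (CrudeAux.newC eA eS k)).elim 0 u := by
    funext u
    have hu : Measurable (uH f' u) := (CrudeAux.measurable_uH hm).of_uncurry_left
    exact (lse_map (measurable_reSph eS) 1 hu).trans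
      (congrArg (lse μ 1) (funext (CrudeAux.uH_re eA eS f' u)))
  unfold Val
  rw [h5]
  exact h4

/-! ## Canonical systems -/

variable {F F1 F2 : ℕ → ℝ → ℝ}

theorem vs_congr {F' : ℕ → ℝ → ℝ} {m : ℕ} (h : ∀ a, a < m → F a = F' a) (n : ℕ)
    {θ θ' ϑ ϑ' : ℕ → ℝ} (h1 : ∀ d, 1 ≤ d → d ≤ n → θ d = ϑ d)
    (h2 : ∀ d, 1 ≤ d → d ≤ n → θ' d = ϑ' d) : VS μ F m ζ n θ θ' = VS μ F' m ζ n ϑ ϑ' := by
  unfold VS
  rw [show (fun a : Fin m => F a) = fun a : Fin m => F' a from funext fun a => h a a.2]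
  refine val_congr μ _ n fun d hd c => ?_
  rcases c with ⟨a, i⟩ | i | a
  · rfl
  · exact CrudeAux.sq0_congr h1 hd
  · exact CrudeAux.sq0_congr h2 hd

theorem vs_reindex {S' : Type} [Fintype S'] (eS : S ≃ S') (hm : ∀ a, Measurable (F a)) (m n : ℕ)
    (θ θ' : ℕ → ℝ) : VS (μ.map (reSph eS)) F m ζ n θ θ' = VS μ F m ζ n θ θ' := by
  unfold VS cprof
  rw [val_reindex μ (Equiv.refl (Fin m)) eS (fun a => hm a), Fintype.card_congr eS]
  rfl

/-- The system with `m + 1` patterns, written with the last pattern singled out. -/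
theorem vs_succ (hm : ∀ a, Measurable (F a)) (m n : ℕ) (θ θ' : ℕ → ℝ) :
    VS μ F (m + 1) ζ n θ θ'
      = Val μ (fun a : Option (Fin m) => a.elim (F m) fun b => F b) ζ
          (cprof (Option (Fin m)) S n θ θ') n := by
  have h := val_reindex μ (ζ := ζ) (finSuccEquivLast (n := m)) (Equiv.refl S)
    (f' := fun a : Option (Fin m) => a.elim (F m) fun b => F b)
    (fun a => by cases a <;> exact hm _) n (fun _ _ => (Fintype.card S : ℝ)⁻¹)
    (fun d _ => sq0 θ d) (fun d _ => sq0 θ' d)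
  rw [show reSph (Equiv.refl S) = id from rfl, Measure.map_id] at h
  unfold VS cprof
  rw [h]
  congr 1
  funext a
  induction a using Fin.lastCases with
  | last => simp
  | cast a => simp

theorem vs_succ_sub (hζ : Zok ζ) (hm : ∀ a, Measurable (F a)) {K' b : ℝ}
    (hb : ∀ a x, |F a x| ≤ K') (m : ℕ) (hb0 : ∀ x, |F m x| ≤ b) (n : ℕ) (θ θ' : ℕ → ℝ) :
    |VS μ F (m + 1) ζ n θ θ' - VS μ F m ζ n θ θ'| ≤ b := by
  have h := val_drop μ hζ (f' := fun a : Option (Fin m) => a.elim (F m) fun b => F b)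
    (fun a => by cases a <;> exact hm _) (K' := K') (fun a => by cases a <;> exact hb _) hb0 n
    (cprof (Option (Fin m)) S n θ θ')
  rw [vs_succ μ hm]
  convert h using 3
  unfold VS
  congr 1
  funext d c
  rcases c with ⟨a, i⟩ | i | a <;> rfl

theorem vs_add_sub (hζ : Zok ζ) (hm : ∀ a, Measurable (F a)) (hb : ∀ a x, |F a x| ≤ K)
    (m j n : ℕ) (θ θ' : ℕ → ℝ) :
    |VS μ F (m + j) ζ n θ θ' - VS μ F m ζ n θ θ'| ≤ j * K := by
  induction j with
  | zero => simp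
  | succ j ih =>
    have h := vs_succ_sub μ hζ hm hb (m + j) (hb _) n θ θ'
    rw [← add_assoc]
    push_cast
    rw [abs_le] at *
    constructor <;> linarith [h.1, h.2, ih.1, ih.2]

theorem vs_zero_nonneg (hζ : Zok ζ) (hz : ζ 0 = 1) (n : ℕ) (θ θ' : ℕ → ℝ) :
    0 ≤ VS μ F 0 ζ n θ θ' := by
  have h := val_mono_x μ hζ hz (f := fun a : Fin 0 => F a) (f1 := fun _ _ => 0) (f2 := fun _ _ => 0)
    (K := 0) (fun a => a.elim0) n (g := fun _ _ => (Fintype.card S : ℝ)⁻¹) (x := fun _ _ => 0)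
    (x' := fun d _ => sq0 θ d) (y := fun d _ => sq0 θ' d) (fun a => a.elim0) (fun _ _ => le_rfl)
    (fun _ a => a.elim0) (fun d _ => sq0_nonneg θ d)
  refine le_trans (le_of_eq ?_) h
  have h1 : gvs (prof n (fun (_ : Fin 0) (_ : S) => (Fintype.card S : ℝ)⁻¹) (fun _ _ => 0)
      fun d _ => sq0 θ' d) = fun _ => Measure.dirac 0 := by
    funext d
    refine gv_of_nonpos fun c => ?_
    rcases c with ⟨a, i⟩ | i | a
    · exact a.elim0
    · exact le_rfl
    · exact a.elim0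
  unfold Val
  rw [h1, CrudeAux.X_dirac]
  unfold gtop
  rw [show uH (fun a : Fin 0 => F a) (0 : Co (Fin 0) S → ℝ) = fun _ => 0 by
    funext x
    simp [uH], lse_const]

theorem vs_le_vs_field (hζ : Zok ζ) (hz : ζ 0 = 1) (hF : ∀ a, Sm (F a) (F1 a) (F2 a) K)
    (m n : ℕ) (θ θ' : ℕ → ℝ) : VS μ F m ζ n 0 θ' ≤ VS μ F m ζ n θ θ' :=
  val_mono_x μ hζ hz (fun a : Fin m => hF a) n (fun _ _ => by positivity)
    (fun d _ => sq0_nonneg _ d) (fun d _ => sq0_nonneg _ d)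
    (fun d _ => by rw [CrudeAux.sq0_zero]; exact sq0_nonneg _ d)

theorem vs_field_le (hζ : Zok ζ) (hz : ζ 0 = 1) (hF : ∀ a, Sm (F a) (F1 a) (F2 a) K)
    (m n : ℕ) (θ θ' : ℕ → ℝ) :
    VS μ F m ζ n θ θ' ≤ VS μ F m ζ n 0 0
      + Fintype.card S * (∑ d ∈ Finset.Icc 1 n, θ d ^ 2) / 2
      + m * (K + K ^ 2) * (∑ d ∈ Finset.Icc 1 n, θ' d ^ 2) / 2 := by
  have h1 := val_lip_x μ hζ hz (fun a : Fin m => hF a) n (g := fun _ _ => (Fintype.card S : ℝ)⁻¹)
    (x := fun d _ => sq0 0 d) (x' := fun d _ => sq0 θ d) (y := fun d _ => sq0 θ' d)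
    (fun _ _ => by positivity) (fun d _ => sq0_nonneg _ d) (fun d _ => sq0_nonneg _ d)
    (fun d _ => sq0_nonneg _ d) (u := sq0 θ)
    (fun d _ _ => by rw [CrudeAux.sq0_zero, sub_zero, abs_of_nonneg (sq0_nonneg _ d)])
    (sq0_nonneg _)
  have h2 := val_lip_y μ (hF 0).jet.K0 hζ hz (fun a : Fin m => hF a) n
    (g := fun _ _ => (Fintype.card S : ℝ)⁻¹)
    (x := fun d _ => sq0 0 d) (y := fun d _ => sq0 0 d) (y' := fun d _ => sq0 θ' d)
    (fun _ _ => by positivity) (fun d _ => sq0_nonneg _ d) (fun d _ => sq0_nonneg _ d)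
    (fun d _ => sq0_nonneg _ d) (u := sq0 θ')
    (fun d _ _ => by rw [CrudeAux.sq0_zero, sub_zero, abs_of_nonneg (sq0_nonneg _ d)])
    (sq0_nonneg _)
  rw [CrudeAux.sum_sq0] at h1 h2
  rw [Fintype.card_fin] at h2
  unfold VS cprof
  linarith [(abs_le.1 h1).2, (abs_le.1 h2).2]

theorem vs_lip_x (hζ : Zok ζ) (hz : ζ 0 = 1) (hF : ∀ a, Sm (F a) (F1 a) (F2 a) K)
    (m n : ℕ) (θ θ' : ℕ → ℝ) (d : ℕ) (a b : ℝ) :
    |VS μ F m ζ n (Function.update θ d a) θ' - VS μ F m ζ n (Function.update θ d b) θ'|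
      ≤ Fintype.card S * |a ^ 2 - b ^ 2| / 2 := by
  refine (val_lip_x μ hζ hz (fun a : Fin m => hF a) n (fun _ _ => by positivity)
    (fun d _ => sq0_nonneg _ d) (fun d _ => sq0_nonneg _ d) (fun d _ => sq0_nonneg _ d)
    (fun j _ _ => CrudeAux.sq0_upd θ d a b j) (CrudeAux.up_nonneg d _)).trans ?_
  have := CrudeAux.sum_up n d (a ^ 2 - b ^ 2)
  gcongr

theorem vs_lip_y (hζ : Zok ζ) (hz : ζ 0 = 1) (hF : ∀ a, Sm (F a) (F1 a) (F2 a) K)
    (m n : ℕ) (θ θ' : ℕ → ℝ) (d : ℕ) (a b : ℝ) :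
    |VS μ F m ζ n θ (Function.update θ' d a) - VS μ F m ζ n θ (Function.update θ' d b)|
      ≤ m * (K + K ^ 2) * |a ^ 2 - b ^ 2| / 2 := by
  have hK := (hF 0).jet.K0
  refine (val_lip_y μ hK hζ hz (fun a : Fin m => hF a) n (fun _ _ => by positivity)
    (fun d _ => sq0_nonneg _ d) (fun d _ => sq0_nonneg _ d) (fun d _ => sq0_nonneg _ d)
    (fun j _ _ => CrudeAux.sq0_upd θ' d a b j) (CrudeAux.up_nonneg d _)).trans ?_
  have := CrudeAux.sum_up n d (a ^ 2 - b ^ 2)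
  rw [Fintype.card_fin]
  gcongr

theorem vs_sd_x (hζ : Zok ζ) (hF : ∀ a, Sm (F a) (F1 a) (F2 a) K) (m n : ℕ) (θ θ' : ℕ → ℝ)
    {d : ℕ} (hd : 1 ≤ d) (hdn : d ≤ n) {y : ℝ} (hy0 : 0 ≤ y) (hy : y < θ d) :
    0 ≤ VS μ F m ζ n (Function.update θ d (θ d + y)) θ'
      + VS μ F m ζ n (Function.update θ d (θ d - y)) θ' - 2 * VS μ F m ζ n θ θ' := by
  have h := sd_lower μ hζ (hj_uH (S := S) fun a : Fin m => hF a)
    (blk_F (fun a : Fin m => hF a) (Function.Embedding.refl S))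
    (fam_F n (g := fun _ _ => (Fintype.card S : ℝ)⁻¹) (y := fun d _ => sq0 θ' d)
      (fun _ _ => by positivity) fam_refl fun d _ => sq0_nonneg _ d) θ
    (Nat.one_le_iff_ne_zero.1 hd) hdn hy0 hy
  rw [zero_mul, zero_mul, neg_zero] at h
  exact h

theorem vs_sd_y (hζ : Zok ζ) (hF : ∀ a, Sm (F a) (F1 a) (F2 a) K) (m n : ℕ) (θ θ' : ℕ → ℝ)
    {d : ℕ} (hd : 1 ≤ d) (hdn : d ≤ n) {y : ℝ} (hy0 : 0 ≤ y) (hy : y < θ' d) :
    -(K * y ^ 2 * (Real.exp (4 * K) * m))
      ≤ VS μ F m ζ n θ (Function.update θ' d (θ' d + y))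
        + VS μ F m ζ n θ (Function.update θ' d (θ' d - y)) - 2 * VS μ F m ζ n θ θ' := by
  have h := sd_lower μ hζ (hj_uH (S := S) fun a : Fin m => hF a)
    (blk_Y (hF 0).jet.K0 fun a : Fin m => hF a)
    (fam_Y n (g := fun _ _ => (Fintype.card S : ℝ)⁻¹) (x := fun d _ => sq0 θ d)
      (fun _ _ => by positivity) fun d _ => sq0_nonneg _ d) θ'
    (Nat.one_le_iff_ne_zero.1 hd) hdn hy0 hy
  rw [Fintype.card_fin, show 2 * (2 * K) = 4 * K by ring] at h
  exact h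

/-- Without patterns only the spin fields matter. -/
theorem vs_zero (n : ℕ) (θ θ' : ℕ → ℝ) :
    VS μ F 0 ζ n θ θ' = X ζ (gvs fun d (_ : S) => sq0 θ d)
      (fun w : S → ℝ => Real.log (∫ x, Real.exp (∑ i, w i * x.1 i) ∂μ)) (n + 1) 0 := by
  rw [← X_sel (fun k : S => some (.inr (.inl k) : Co (Fin 0) S))
    (fun k l i hk hl => by simpa using hk.trans hl.symm) ζ (cprof (Fin 0) S n θ θ')
    (fun d _ => sq0 θ d) (CrudeAux.lg_field μ).1 (d := n + 1) (fun _ _ _ => rfl)]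
  unfold VS Val
  congr 1
  funext u
  rw [gtop_eq]
  simp [uH]

theorem lg_field : LG fun w : S → ℝ => Real.log (∫ x, Real.exp (∑ i, w i * x.1 i) ∂μ) :=
  CrudeAux.lg_field μ

theorem SD.mono {U : (ℕ → ℝ) → ℝ} {θ τ : ℕ → ℝ} {y κ κ' : ℝ} {n : ℕ} (h : SD U θ τ y κ n)
    (hκ : κ ≤ κ') : SD U θ τ y κ' n := fun d h1 h2 =>
  ⟨by linarith [(h d h1 h2).1], by linarith [(h d h1 h2).2]⟩

theorem SD.of_close {U U' : (ℕ → ℝ) → ℝ} {θ τ : ℕ → ℝ} {y κ C : ℝ} {n : ℕ} (h : SD U θ τ y κ n)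
    (hC : ∀ d a, |a - θ d| ≤ |y| →
      |U' (Function.update θ d a) - U (Function.update θ d a)| ≤ C) :
    SD U' θ τ y (κ + 2 * C) n := by
  intro d h1 h2
  have a0 := abs_le.1 (hC d (θ d) (by simp))
  have a1 := abs_le.1 (hC d (θ d + y) (by simp))
  have a2 := abs_le.1 (hC d (θ d - y) (by simp))
  rw [Function.update_eq_self] at a0
  exact ⟨by linarith [(h d h1 h2).1, a0.1, a1.2], by linarith [(h d h1 h2).2, a0.1, a2.2]⟩

theorem sd_of_second {U : (ℕ → ℝ) → ℝ} {θ : ℕ → ℝ} {y κ : ℝ} {n : ℕ} (hy : 0 < y)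
    (h : ∀ d, 1 ≤ d → d ≤ n → U (Function.update θ d (θ d + y))
      + U (Function.update θ d (θ d - y)) - 2 * U θ ≤ 2 * κ) : ∃ τ, SD U θ τ y κ n := by
  refine ⟨fun d => (U (Function.update θ d (θ d + y)) - U (Function.update θ d (θ d - y))) / (2 * y),
    fun d h1 h2 => ?_⟩
  have e : ∀ t : ℝ, y * (t / (2 * y)) = t / 2 := fun t => by field_simp
  simp only [e]
  exact ⟨by linarith [h d h1 h2], by linarith [h d h1 h2]⟩

end Vale.Agent.P157
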