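import Vale.Agent.P157.Lse

/-! # Basic calculus of cascades -/

namespace Vale.Agent.P157

open MeasureTheory ProbabilityTheory

set_option linter.unusedSectionVars false

variable {W : Type} [NormedAddCommGroup W] [MeasurableSpace W] [BorelSpace W]
  [SecondCountableTopology W]

theorem ZAdm.zok {n : ℕ} {ζ : ℕ → ℝ} (h : ZAdm n ζ) : Zok ζ := by
  have ha : Antitone ζ := antitone_nat_of_succ_le fun d => by
    rcases lt_or_ge d n with hd | hd
    · exact (h.zlt d hd).le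
    · rw [h.zn d hd, h.zn (d + 1) (by omega)]
  exact ⟨ha, fun d => (h.zn _ (le_max_right d n)).symm.le.trans (ha (le_max_left d n)), h.z0.le⟩

theorem ZAdm.one_le {n : ℕ} {ζ : ℕ → ℝ} (h : ZAdm n ζ) : 1 ≤ n := by
  by_contra hn
  have h1 := h.zn 0 (by omega)
  rw [h.z0] at h1
  exact one_ne_zero h1

theorem ZAdm.pos {n : ℕ} {ζ : ℕ → ℝ} (h : ZAdm n ζ) {d : ℕ} (hd : d < n) : 0 < ζ d :=
  (h.zok.nn (d + 1)).trans_lt (h.zlt d hd)

theorem ZAdm.sum_delta {n : ℕ} {ζ : ℕ → ℝ} (h : ZAdm n ζ) :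
    ∑ k ∈ Finset.range n, (ζ k - ζ (k + 1)) = 1 := by
  rw [Finset.sum_range_sub', h.z0, h.zn n le_rfl, sub_zero]

theorem Zok.le_one {ζ : ℕ → ℝ} (h : Zok ζ) (d : ℕ) : ζ d ≤ 1 := (h.anti (Nat.zero_le d)).trans h.le1

theorem Adm.zadm {n : ℕ} {ζ q : ℕ → ℝ} (h : Adm n ζ q) : ZAdm n ζ := ⟨h.z0, h.zlt, h.zn⟩

theorem Adm.cadm {n : ℕ} {ζ q : ℕ → ℝ} (h : Adm n ζ q) : CAdm n q := ⟨h.qa, h.qn⟩

theorem CAdm.nonneg {n : ℕ} {c : ℕ → ℝ} (h : CAdm n c) (d : ℕ) : 0 ≤ c d :=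
  (h.zero (max d (n + 1)) (by omega)).symm.le.trans (h.anti (le_max_left _ _))

theorem CAdm.dq_nonneg {n : ℕ} {c : ℕ → ℝ} (h : CAdm n c) (d : ℕ) : 0 ≤ dq c d :=
  sub_nonneg.2 (h.anti (Nat.le_succ d))

theorem CAdm.add {n : ℕ} {c c' : ℕ → ℝ} (h : CAdm n c) (h' : CAdm n c') : CAdm n (c + c') :=
  ⟨h.anti.add h'.anti, fun d hd => by rw [Pi.add_apply, h.zero d hd, h'.zero d hd, add_zero]⟩

theorem cadm_cum (n : ℕ) {v : ℕ → ℝ} (hv : ∀ d, 0 ≤ v d) : CAdm n (cum n v) := by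
  refine ⟨fun a b hab => Finset.sum_le_sum_of_subset_of_nonneg
    (Finset.Ico_subset_Ico_left hab) fun d _ _ => hv d, fun d hd => ?_⟩
  rw [cum, Finset.Ico_eq_empty (by omega), Finset.sum_empty]

theorem dq_cum (n : ℕ) (v : ℕ → ℝ) {d : ℕ} (hd : d ≤ n) : dq (cum n v) d = v d := by
  rw [dq, cum, cum, Finset.sum_eq_sum_Ico_succ_bot (by omega), add_sub_cancel_right]

theorem sq0_nonneg (θ : ℕ → ℝ) (d : ℕ) : 0 ≤ sq0 θ d := by
  unfold sq0
  split_ifs
  · exact le_rfl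
  · exact sq_nonneg _

namespace CascAux

theorem lg_nonneg {Ψ : W → ℝ} (h : LG Ψ) : ∃ C, 0 ≤ C ∧ ∀ w, |Ψ w| ≤ C * (1 + ‖w‖) := by
  obtain ⟨C, hC⟩ := h.2
  refine ⟨C, ?_, hC⟩
  simpa using (abs_nonneg _).trans (hC 0)

theorem eint_norm {ν : Measure W} (hν : Noise ν) : EInt ν fun z => ‖z‖ :=
  ⟨measurable_norm, hν.ex⟩

theorem eint_map {Ω Ω' : Type} [MeasurableSpace Ω] [MeasurableSpace Ω'] {ν : Measure Ω}
    {φ : Ω → Ω'} (hφ : Measurable φ) {F : Ω' → ℝ} (hF : EInt (ν.map φ) F) :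
    EInt ν fun ω => F (φ ω) :=
  ⟨hF.1.comp hφ, fun c => (hF.2 c).comp_measurable hφ⟩

theorem lse_prod_add {Ω Ω' : Type} [MeasurableSpace Ω] [MeasurableSpace Ω'] {ν : Measure Ω}
    {ν' : Measure Ω'} [IsProbabilityMeasure ν] [IsProbabilityMeasure ν'] (ζ : ℝ) {F : Ω → ℝ}
    {G : Ω' → ℝ} (hF : EInt ν F) (hG : EInt ν' G) :
    lse (ν.prod ν') ζ (fun z => F z.1 + G z.2) = lse ν ζ F + lse ν' ζ G := by
  unfold lse
  split_ifs with h
  · rw [integral_add (hF.integrable.comp_fst ν') (hG.integrable.comp_snd ν), integral_fun_fst,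
      integral_fun_snd]
    simp
  · simp only [mul_add, Real.exp_add]
    rw [integral_prod_mul (fun a => Real.exp (ζ * F a)) (fun b => Real.exp (ζ * G b)),
      Real.log_mul (integral_exp_pos (hF.2 ζ)).ne' (integral_exp_pos (hG.2 ζ)).ne', mul_add]

theorem lse_pi_sum {Ω S : Type} [MeasurableSpace Ω] [Fintype S] {ν : Measure Ω}
    [IsProbabilityMeasure ν] (ζ : ℝ) {F : S → Ω → ℝ} (hF : ∀ i, EInt ν (F i)) :
    lse (Measure.pi fun _ : S => ν) ζ (fun z => ∑ i, F i (z i)) = ∑ i, lse ν ζ (F i) := by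
  unfold lse
  split_ifs with h
  · rw [integral_finsetSum _ fun i _ =>
      integrable_comp_eval (μ := fun _ : S => ν) (i := i) (hF i).integrable]
    exact Finset.sum_congr rfl fun i _ =>
      integral_comp_eval (μ := fun _ : S => ν) (i := i) (hF i).1.aestronglyMeasurable
  · simp only [Finset.mul_sum, Real.exp_sum]
    rw [integral_fintype_prod_eq_prod (fun i a => Real.exp (ζ * F i a)),
      Real.log_prod fun i _ => (integral_exp_pos ((hF i).2 ζ)).ne', Finset.mul_sum]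

end CascAux

theorem BM.lg {φ : W → ℝ} (h : BM φ) : LG φ := by
  obtain ⟨hm, C, hC⟩ := h
  refine ⟨hm, C, fun w => (hC w).trans ?_⟩
  exact le_mul_of_one_le_right ((abs_nonneg _).trans (hC w)) (by linarith [norm_nonneg w])

theorem LG.add {Ψ Φ : W → ℝ} (h : LG Ψ) (h' : LG Φ) : LG fun w => Ψ w + Φ w := by
  obtain ⟨hm, C, hC⟩ := h
  obtain ⟨hm', C', hC'⟩ := h'
  refine ⟨hm.add hm', C + C', fun w => (abs_add_le _ _).trans ?_⟩
  rw [add_mul]
  exact add_le_add (hC w) (hC' w)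

theorem LG.sub {Ψ Φ : W → ℝ} (h : LG Ψ) (h' : LG Φ) : LG fun w => Ψ w - Φ w := by
  obtain ⟨hm, C, hC⟩ := h
  obtain ⟨hm', C', hC'⟩ := h'
  refine ⟨hm.sub hm', C + C', fun w => (abs_sub _ _).trans ?_⟩
  rw [add_mul]
  exact add_le_add (hC w) (hC' w)

theorem LG.shift {Ψ : W → ℝ} (h : LG Ψ) (c : W) : LG fun w => Ψ (w + c) := by
  obtain ⟨C, hC0, hC⟩ := CascAux.lg_nonneg h
  refine ⟨h.1.comp (measurable_add_const c), C * (1 + ‖c‖), fun w => (hC _).trans ?_⟩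
  rw [mul_assoc]
  refine mul_le_mul_of_nonneg_left ?_ hC0
  nlinarith [norm_add_le w c, mul_nonneg (norm_nonneg c) (norm_nonneg w)]

theorem LG.eint {ν : Measure W} (hν : Noise ν) {Ψ : W → ℝ} (h : LG Ψ) (w : W) :
    EInt ν fun z => Ψ (w + z) := by
  obtain ⟨C, hC0, hC⟩ := CascAux.lg_nonneg h
  refine (CascAux.eint_norm hν).of_le (h.1.comp (measurable_const_add w))
    (C := C * (1 + ‖w‖)) (D := C) fun z => (hC _).trans ?_
  rw [abs_norm, ← mul_add]
  exact mul_le_mul_of_nonneg_left (by linarith [norm_add_le w z]) hC0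

theorem Noise.conv {ν ν' : Measure W} (h : Noise ν) (h' : Noise ν') : Noise (ν.conv ν') := by
  have := h.prob
  have := h'.prob
  refine ⟨inferInstance, fun c => ?_⟩
  have hm : Measurable fun z : W => Real.exp (c * ‖z‖) := (measurable_norm.const_mul c).exp
  rw [Measure.conv, integrable_map_measure hm.aestronglyMeasurable measurable_add.aemeasurable]
  refine ((h.ex |c|).mul_prod (h'.ex |c|)).mono'
    (hm.comp measurable_add).aestronglyMeasurable (ae_of_all _ fun z => ?_)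
  rw [Function.comp_apply, Real.norm_eq_abs, abs_of_pos (Real.exp_pos _), ← Real.exp_add,
    Real.exp_le_exp, ← mul_add]
  exact mul_le_mul (le_abs_self c) (norm_add_le _ _) (norm_nonneg _) (abs_nonneg c)

theorem noise_dirac : Noise (Measure.dirac (0 : W)) :=
  ⟨inferInstance, fun _ => integrable_dirac (by simp)⟩

theorem measurable_T (ζ : ℝ) (ν : Measure W) [SFinite ν] {Ψ : W → ℝ} (h : Measurable Ψ) :
    Measurable (T ζ ν Ψ) :=
  measurable_lse ζ (F := fun w z => Ψ (w + z)) (h.comp measurable_add)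

theorem measurable_P (ζ : ℝ) (ν : Measure W) [SFinite ν] {Ψ φ : W → ℝ} (h : Measurable Ψ)
    (hφ : Measurable φ) : Measurable (P ζ ν Ψ φ) :=
  measurable_gexp ζ (F := fun w z => Ψ (w + z)) (g := fun w z => φ (w + z))
    (h.comp measurable_add) (hφ.comp measurable_add)

theorem LG.step {ζ : ℝ} (hζ : 0 ≤ ζ) {ν : Measure W} (hν : Noise ν) {Ψ : W → ℝ} (h : LG Ψ) :
    LG (T ζ ν Ψ) := by
  have := hν.prob
  obtain ⟨C, hC0, hC⟩ := CascAux.lg_nonneg h
  have e1 := (CascAux.eint_norm hν).const_mul C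
  have e2 := (CascAux.eint_norm hν).const_mul (-C)
  refine ⟨measurable_T ζ ν h.1,
    C + (|lse ν ζ fun z => C * ‖z‖| + |lse ν ζ fun z => -C * ‖z‖|), fun w => ?_⟩
  have hb : ∀ z, |Ψ (w + z)| ≤ C * ‖z‖ + C * (1 + ‖w‖) := fun z => (hC _).trans (by
    rw [← mul_add]
    exact mul_le_mul_of_nonneg_left (by linarith [norm_add_le w z]) hC0)
  have h1 := lse_mono hζ (h.eint hν w) (e1.add (EInt.const (C * (1 + ‖w‖))))
    fun z => (abs_le.1 (hb z)).2
  have h2 := lse_mono hζ (e2.add (EInt.const (-(C * (1 + ‖w‖))))) (h.eint hν w)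
    fun z => by linarith [(abs_le.1 (hb z)).1]
  rw [lse_add_const e1.integrable (e1.2 ζ)] at h1
  rw [lse_add_const e2.integrable (e2.2 ζ)] at h2
  have a1 := le_abs_self (lse ν ζ fun z => C * ‖z‖)
  have a2 := neg_abs_le (lse ν ζ fun z => -C * ‖z‖)
  have a3 := abs_nonneg (lse ν ζ fun z => C * ‖z‖)
  have a4 := abs_nonneg (lse ν ζ fun z => -C * ‖z‖)
  have a5 := mul_nonneg (add_nonneg a3 a4) (norm_nonneg w)
  rw [T, abs_le]
  constructor <;> nlinarith

theorem abs_P_le (ζ : ℝ) (ν : Measure W) (Ψ : W → ℝ) {φ : W → ℝ} {C : ℝ}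
    (h : ∀ w, |φ w| ≤ C) (w : W) : |P ζ ν Ψ φ w| ≤ C :=
  abs_gexp_le ζ _ ((abs_nonneg _).trans (h w)) (ae_of_all _ fun _ => h _)

theorem BM.kernel (ζ : ℝ) {ν : Measure W} (hν : Noise ν) {Ψ φ : W → ℝ} (h : LG Ψ) (hφ : BM φ) :
    BM (P ζ ν Ψ φ) := by
  have := hν.prob
  obtain ⟨hm, C, hC⟩ := hφ
  exact ⟨measurable_P ζ ν h.1 hm, C, abs_P_le ζ ν Ψ hC⟩

theorem T_dirac (ζ : ℝ) (Ψ : W → ℝ) : T ζ (Measure.dirac 0) Ψ = Ψ := by
  funext w
  rw [T, lse]
  split_ifs with h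
  · simp
  · simp [h]

theorem P_dirac (ζ : ℝ) (Ψ φ : W → ℝ) : P ζ (Measure.dirac 0) Ψ φ = φ := by
  funext w
  rw [P, gexp_eq]
  simp

theorem T_conv {ζ : ℝ} (hζ : 0 ≤ ζ) {ν ν' : Measure W} (h : Noise ν) (h' : Noise ν')
    {Ψ : W → ℝ} (hΨ : LG Ψ) : T ζ (ν.conv ν') Ψ = T ζ ν (T ζ ν' Ψ) := by
  have := h.prob
  have := h'.prob
  funext w
  have e := hΨ.eint (h.conv h') w
  rw [T, Measure.conv, lse_map measurable_add ζ e.1,
    lse_prod ζ (CascAux.eint_map measurable_add e)]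
  simp only [T, add_assoc]

theorem P_conv {ζ : ℝ} (hζ : 0 ≤ ζ) {ν ν' : Measure W} (h : Noise ν) (h' : Noise ν')
    {Ψ φ : W → ℝ} (hΨ : LG Ψ) (hφ : BM φ) :
    P ζ (ν.conv ν') Ψ φ = P ζ ν (T ζ ν' Ψ) (P ζ ν' Ψ φ) := by
  have := h.prob
  have := h'.prob
  funext w
  have e := hΨ.eint (h.conv h') w
  obtain ⟨hm, C, hC⟩ := hφ
  have hm' : Measurable fun z => φ (w + z) := hm.comp (measurable_const_add w)
  have hb : BM fun z : W × W => φ (w + (z.1 + z.2)) :=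
    ⟨hm'.comp measurable_add, C, fun _ => hC _⟩
  rw [P, Measure.conv, gexp_map measurable_add ζ e.1 hm',
    gexp_prod ζ (CascAux.eint_map measurable_add e) hb]
  simp only [T, P, add_assoc]

variable {ζ : ℕ → ℝ} {ν : ℕ → Measure W} {Ψ : W → ℝ}

theorem X_succ (d : ℕ) : X ζ ν Ψ (d + 1) = T (ζ d) (ν d) (X ζ ν Ψ d) := rfl

theorem measurable_X (hν : ∀ d, IsProbabilityMeasure (ν d)) (hΨ : Measurable Ψ) (d : ℕ) :
    Measurable (X ζ ν Ψ d) := by
  induction d with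
  | zero => exact hΨ
  | succ d ih =>
    have := hν d
    exact measurable_T _ _ ih

theorem measurable_Ex (hν : ∀ d, IsProbabilityMeasure (ν d)) (hΨ : Measurable Ψ) (k : ℕ)
    {φ : W → ℝ} (hφ : Measurable φ) (d : ℕ) : Measurable (Ex ζ ν Ψ k φ d) := by
  induction d with
  | zero => exact hφ
  | succ d ih =>
    have := hν d
    rw [Ex]
    split_ifs
    · exact hφ
    · exact measurable_P _ _ (measurable_X hν hΨ d) ih

theorem Cas.lgX (h : Cas ζ ν Ψ) (d : ℕ) : LG (X ζ ν Ψ d) := by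
  induction d with
  | zero => exact h.lg
  | succ d ih => exact ih.step (h.z.nn d) (h.noise d)

theorem Cas.update (h : Cas ζ ν Ψ) (d : ℕ) {ν' : Measure W} (h' : Noise ν') :
    Cas ζ (Function.update ν d ν') Ψ := by
  refine ⟨h.z, fun j => ?_, h.lg⟩
  by_cases hj : j = d
  · rw [hj, Function.update_self]
    exact h'
  · rw [Function.update_of_ne hj]
    exact h.noise j

theorem Ex_of_le {k d : ℕ} (h : d ≤ k) (φ : W → ℝ) : Ex ζ ν Ψ k φ d = φ := by
  cases d with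
  | zero => rfl
  | succ d => rw [Ex, if_pos (by omega)]

theorem Ex_succ {k d : ℕ} (h : k ≤ d) (φ : W → ℝ) :
    Ex ζ ν Ψ k φ (d + 1) = P (ζ d) (ν d) (X ζ ν Ψ d) (Ex ζ ν Ψ k φ d) := by
  rw [Ex, if_neg (by omega)]

theorem Ex_tower {k l d : ℕ} (h1 : k ≤ l) (h2 : l ≤ d) (φ : W → ℝ) :
    Ex ζ ν Ψ l (Ex ζ ν Ψ k φ l) d = Ex ζ ν Ψ k φ d := by
  induction d, h2 using Nat.le_induction with
  | base => exact Ex_of_le le_rfl _
  | succ d hd ih => rw [Ex_succ hd, Ex_succ (h1.trans hd), ih]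

theorem abs_Ex_le (k : ℕ) {φ : W → ℝ} {C : ℝ} (h : ∀ w, |φ w| ≤ C) (d : ℕ) (w : W) :
    |Ex ζ ν Ψ k φ d w| ≤ C := by
  induction d generalizing w with
  | zero => exact h w
  | succ d ih =>
    rw [Ex]
    split_ifs
    · exact h w
    · exact abs_P_le _ _ _ ih w

theorem Ex_nonneg (k : ℕ) {φ : W → ℝ} (h : ∀ w, 0 ≤ φ w) (d : ℕ) (w : W) :
    0 ≤ Ex ζ ν Ψ k φ d w := by
  induction d generalizing w with
  | zero => exact h w
  | succ d ih =>
    rw [Ex]
    split_ifs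
    · exact h w
    · exact gexp_nonneg _ _ fun _ => ih _

theorem Cas.bmEx (h : Cas ζ ν Ψ) (k : ℕ) {φ : W → ℝ} (hφ : BM φ) (d : ℕ) :
    BM (Ex ζ ν Ψ k φ d) := by
  obtain ⟨hm, C, hC⟩ := hφ
  exact ⟨measurable_Ex (fun d => (h.noise d).prob) h.lg.1 k hm d, C, abs_Ex_le k hC d⟩

theorem CascAux.eX (h : Cas ζ ν Ψ) (d : ℕ) (w : W) : EInt (ν d) fun z => X ζ ν Ψ d (w + z) :=
  (h.lgX d).eint (h.noise d) w

theorem CascAux.eB (h : Cas ζ ν Ψ) {φ : W → ℝ} (hφ : BM φ) (d : ℕ) (w : W) :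
    EInt (ν d) fun z => φ (w + z) :=
  hφ.lg.eint (h.noise d) w

theorem Cas.Ex_const (h : Cas ζ ν Ψ) (k : ℕ) (c : ℝ) (d : ℕ) (w : W) :
    Ex ζ ν Ψ k (fun _ => c) d w = c := by
  induction d generalizing w with
  | zero => rfl
  | succ d ih =>
    have := (h.noise d).prob
    rw [Ex]
    split_ifs
    · rfl
    · simp only [P, ih]
      exact gexp_const _ (CascAux.eX h d w) c

theorem Cas.Ex_add (h : Cas ζ ν Ψ) (k : ℕ) {φ ψ : W → ℝ} (hφ : BM φ) (hψ : BM ψ) (d : ℕ)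
    (w : W) : Ex ζ ν Ψ k (fun u => φ u + ψ u) d w = Ex ζ ν Ψ k φ d w + Ex ζ ν Ψ k ψ d w := by
  induction d generalizing w with
  | zero => rfl
  | succ d ih =>
    have := (h.noise d).prob
    simp only [Ex]
    split_ifs
    · rfl
    · simp only [P, ih]
      exact gexp_add _ (CascAux.eX h d w) (CascAux.eB h (h.bmEx k hφ d) d w)
        (CascAux.eB h (h.bmEx k hψ d) d w)

theorem Cas.Ex_sub (h : Cas ζ ν Ψ) (k : ℕ) {φ ψ : W → ℝ} (hφ : BM φ) (hψ : BM ψ) (d : ℕ)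
    (w : W) : Ex ζ ν Ψ k (fun u => φ u - ψ u) d w = Ex ζ ν Ψ k φ d w - Ex ζ ν Ψ k ψ d w := by
  induction d generalizing w with
  | zero => rfl
  | succ d ih =>
    have := (h.noise d).prob
    simp only [Ex]
    split_ifs
    · rfl
    · simp only [P, ih]
      exact gexp_sub _ (CascAux.eX h d w) (CascAux.eB h (h.bmEx k hφ d) d w)
        (CascAux.eB h (h.bmEx k hψ d) d w)

theorem Ex_const_mul (k : ℕ) (c : ℝ) (φ : W → ℝ) (d : ℕ) (w : W) :
    Ex ζ ν Ψ k (fun u => c * φ u) d w = c * Ex ζ ν Ψ k φ d w := by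
  induction d generalizing w with
  | zero => rfl
  | succ d ih =>
    simp only [Ex]
    split_ifs
    · rfl
    · simp only [P, ih]
      exact gexp_const_mul _ _ _ c

theorem Cas.Ex_sum (h : Cas ζ ν Ψ) (k : ℕ) {β : Type} (s : Finset β) {φ : β → W → ℝ}
    (hφ : ∀ j ∈ s, BM (φ j)) (d : ℕ) (w : W) :
    Ex ζ ν Ψ k (fun u => ∑ j ∈ s, φ j u) d w = ∑ j ∈ s, Ex ζ ν Ψ k (φ j) d w := by
  induction d generalizing w with
  | zero => rfl
  | succ d ih =>
    have := (h.noise d).prob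
    simp only [Ex]
    split_ifs
    · rfl
    · simp only [P, ih]
      exact gexp_sum _ (CascAux.eX h d w) s fun j hj => CascAux.eB h (h.bmEx k (hφ j hj) d) d w

theorem Cas.Ex_mono (h : Cas ζ ν Ψ) (k : ℕ) {φ ψ : W → ℝ} (hφ : BM φ) (hψ : BM ψ)
    (hle : ∀ w, φ w ≤ ψ w) (d : ℕ) (w : W) : Ex ζ ν Ψ k φ d w ≤ Ex ζ ν Ψ k ψ d w := by
  induction d generalizing w with
  | zero => exact hle w
  | succ d ih =>
    have := (h.noise d).prob
    simp only [Ex]
    split_ifs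
    · exact hle w
    · exact gexp_mono _ (CascAux.eX h d w) (CascAux.eB h (h.bmEx k hφ d) d w)
        (CascAux.eB h (h.bmEx k hψ d) d w) fun _ => ih _

theorem Cas.abs_Ex_le_Ex_abs (h : Cas ζ ν Ψ) (k : ℕ) {φ : W → ℝ} (hφ : BM φ) (d : ℕ) (w : W) :
    |Ex ζ ν Ψ k φ d w| ≤ Ex ζ ν Ψ k (fun u => |φ u|) d w := by
  induction d generalizing w with
  | zero => exact le_rfl
  | succ d ih =>
    have := (h.noise d).prob
    simp only [Ex]
    split_ifs
    · exact le_rfl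
    · exact (abs_gexp_le_gexp_abs _ _ _).trans (gexp_mono _ (CascAux.eX h d w)
        (CascAux.eB h (h.bmEx k hφ d).abs d w) (CascAux.eB h (h.bmEx k hφ.abs d) d w)
        fun _ => ih _)

theorem Cas.sq_Ex_le (h : Cas ζ ν Ψ) (k : ℕ) {φ : W → ℝ} (hφ : BM φ) (d : ℕ) (w : W) :
    Ex ζ ν Ψ k φ d w ^ 2 ≤ Ex ζ ν Ψ k (fun u => φ u ^ 2) d w := by
  induction d generalizing w with
  | zero => exact le_rfl
  | succ d ih =>
    have := (h.noise d).prob
    simp only [Ex]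
    split_ifs
    · exact le_rfl
    · exact (sq_gexp_le _ (CascAux.eX h d w) (CascAux.eB h (h.bmEx k hφ d) d w)).trans
        (gexp_mono _ (CascAux.eX h d w) (CascAux.eB h ((h.bmEx k hφ d).pow 2) d w)
          (CascAux.eB h (h.bmEx k (hφ.pow 2) d) d w) fun _ => ih _)

theorem Cas.X_add_const (h : Cas ζ ν Ψ) (c : ℝ) (d : ℕ) (w : W) :
    X ζ ν (fun u => Ψ u + c) d w = X ζ ν Ψ d w + c := by
  induction d generalizing w with
  | zero => rfl
  | succ d ih =>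
    have := (h.noise d).prob
    simp only [X, T, ih]
    exact lse_add_const (CascAux.eX h d w).integrable ((CascAux.eX h d w).2 _) c

/-- The cascade up to depth `d` only depends on the levels below `d`. -/
theorem X_congr {ζ' : ℕ → ℝ} {ν' : ℕ → Measure W} {d : ℕ}
    (h : ∀ j, j < d → ζ j = ζ' j ∧ ν j = ν' j) : X ζ ν Ψ d = X ζ' ν' Ψ d := by
  induction d with
  | zero => rfl
  | succ d ih =>
    rw [X, X, ih fun j hj => h j (by omega), (h d (by omega)).1, (h d (by omega)).2]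

theorem Ex_congr {ζ' : ℕ → ℝ} {ν' : ℕ → Measure W} {d : ℕ}
    (h : ∀ j, j < d → ζ j = ζ' j ∧ ν j = ν' j) (k : ℕ) (φ : W → ℝ) :
    Ex ζ ν Ψ k φ d = Ex ζ' ν' Ψ k φ d := by
  induction d with
  | zero => rfl
  | succ d ih =>
    rw [Ex, Ex, ih fun j hj => h j (by omega), X_congr fun j hj => h j (by omega),
      (h d (by omega)).1, (h d (by omega)).2]

theorem aa_congr {ζ' : ℕ → ℝ} {ν' : ℕ → Measure W} {d : ℕ}
    (h : ∀ j, j < d → ζ j = ζ' j ∧ ν j = ν' j) (m a : W → ℝ) :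
    aa ζ ν Ψ m a d = aa ζ' ν' Ψ m a d := by
  induction d with
  | zero => rfl
  | succ d ih =>
    rw [aa, aa, ih fun j hj => h j (by omega), X_congr fun j hj => h j (by omega),
      Ex_congr h, Ex_congr (d := d) fun j hj => h j (by omega), (h d (by omega)).1,
      (h d (by omega)).2]

/-- Two cascades that agree at depth `k` and have the same levels above agree above. -/
theorem X_congr_above {ζ' : ℕ → ℝ} {ν' : ℕ → Measure W} {Ψ' : W → ℝ} {k d : ℕ} (hkd : k ≤ d)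
    (h : ∀ j, k ≤ j → j < d → ζ j = ζ' j ∧ ν j = ν' j) (hk : X ζ ν Ψ k = X ζ' ν' Ψ' k) :
    X ζ ν Ψ d = X ζ' ν' Ψ' d := by
  induction d, hkd using Nat.le_induction with
  | base => exact hk
  | succ d hd ih =>
    rw [X, X, ih fun j hj hj' => h j hj (by omega), (h d hd (by omega)).1, (h d hd (by omega)).2]

theorem Ex_congr_above {ζ' : ℕ → ℝ} {ν' : ℕ → Measure W} {Ψ' : W → ℝ} {k d : ℕ}
    (h : ∀ j, k ≤ j → j < d → ζ j = ζ' j ∧ ν j = ν' j) (hk : X ζ ν Ψ k = X ζ' ν' Ψ' k)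
    (φ : W → ℝ) : Ex ζ ν Ψ k φ d = Ex ζ' ν' Ψ' k φ d := by
  induction d with
  | zero => rfl
  | succ d ih =>
    rw [Ex, Ex]
    split_ifs with hd
    · rfl
    · have hd' : k ≤ d := by omega
      rw [ih fun j hj hj' => h j hj (by omega),
        X_congr_above hd' (fun j hj hj' => h j hj (by omega)) hk, (h d hd' (by omega)).1,
        (h d hd' (by omega)).2]

section push
variable {W' : Type} [NormedAddCommGroup W'] [MeasurableSpace W'] [BorelSpace W']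
  [SecondCountableTopology W']

/-- Affine change of variables. -/
theorem X_push (L : W →+ W') (hL : Measurable L) (c : W') {ν' : ℕ → Measure W'}
    (hp : ∀ j, IsProbabilityMeasure (ν' j)) {Ψ' : W' → ℝ} (hΨ' : Measurable Ψ')
    (hΨ : ∀ w, Ψ w = Ψ' (L w + c)) {d : ℕ} (hν : ∀ j, j < d → (ν j).map L = ν' j) (w : W) :
    X ζ ν Ψ d w = X ζ ν' Ψ' d (L w + c) := by
  induction d generalizing w with
  | zero => exact hΨ w
  | succ d ih =>
    have hm : Measurable fun z => X ζ ν' Ψ' d (L w + c + z) :=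
      (measurable_X hp hΨ' d).comp (measurable_const_add _)
    simp only [X, T]
    rw [← hν d (by omega), lse_map hL _ hm]
    simp only [ih fun j hj => hν j (by omega), map_add, add_right_comm]

theorem Ex_push (L : W →+ W') (hL : Measurable L) (c : W') {ν' : ℕ → Measure W'}
    (hp : ∀ j, IsProbabilityMeasure (ν' j)) {Ψ' : W' → ℝ} (hΨ' : Measurable Ψ')
    (hΨ : ∀ w, Ψ w = Ψ' (L w + c)) (k : ℕ) {φ : W → ℝ} {φ' : W' → ℝ} (hφ' : Measurable φ')
    (hφ : ∀ w, φ w = φ' (L w + c)) {d : ℕ} (hν : ∀ j, j < d → (ν j).map L = ν' j) (w : W) :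
    Ex ζ ν Ψ k φ d w = Ex ζ ν' Ψ' k φ' d (L w + c) := by
  induction d generalizing w with
  | zero => exact hφ w
  | succ d ih =>
    have hm : Measurable fun z => X ζ ν' Ψ' d (L w + c + z) :=
      (measurable_X hp hΨ' d).comp (measurable_const_add _)
    have hm' : Measurable fun z => Ex ζ ν' Ψ' k φ' d (L w + c + z) :=
      (measurable_Ex hp hΨ' k hφ' d).comp (measurable_const_add _)
    simp only [Ex]
    split_ifs
    · exact hφ w
    · simp only [P]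
      rw [← hν d (by omega), gexp_map hL _ hm hm']
      simp only [ih fun j hj => hν j (by omega),
        X_push L hL c hp hΨ' hΨ (d := d) fun j hj => hν j (by omega), map_add, add_right_comm]

/-- Independent systems add. -/
theorem X_prod {ν' : ℕ → Measure W'} {Ψ' : W' → ℝ} (h : Cas ζ ν Ψ) (h' : Cas ζ ν' Ψ') (d : ℕ)
    (w : W × W') :
    X ζ (fun j => (ν j).prod (ν' j)) (fun u : W × W' => Ψ u.1 + Ψ' u.2) d w
      = X ζ ν Ψ d w.1 + X ζ ν' Ψ' d w.2 := by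
  induction d generalizing w with
  | zero => rfl
  | succ d ih =>
    have := (h.noise d).prob
    have := (h'.noise d).prob
    simp only [X, T, ih]
    exact CascAux.lse_prod_add _ (CascAux.eX h d w.1) (CascAux.eX h' d w.2)

end push

/-- Independent copies of a one dimensional system add. -/
theorem X_pi {S : Type} [Fintype S] {ν : ℕ → Measure ℝ} {ψ : ℝ → ℝ} (h : Cas ζ ν ψ) (d : ℕ)
    (w : S → ℝ) :
    X ζ (fun j => Measure.pi fun _ : S => ν j) (fun u : S → ℝ => ∑ i, ψ (u i)) d w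
      = ∑ i, X ζ ν ψ d (w i) := by
  induction d generalizing w with
  | zero => rfl
  | succ d ih =>
    have := (h.noise d).prob
    simp only [X, T, ih]
    exact CascAux.lse_pi_sum _ fun i => CascAux.eX h d (w i)

end Vale.Agent.P157
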