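import Vale.Agent.P157.Casc

/-! # Comparison of two cascades with the same levels above depth `k` -/

namespace Vale.Agent.P157

open MeasureTheory ProbabilityTheory

variable {W : Type} [NormedAddCommGroup W] [MeasurableSpace W] [BorelSpace W]
  [SecondCountableTopology W] {ζ : ℕ → ℝ} {ν ν' : ℕ → Measure W} {Ψ Ψ' : W → ℝ}

namespace ChainAux

theorem shift {φ : W → ℝ} (h : BM φ) (w : W) : BM fun z => φ (w + z) :=
  ⟨h.1.comp (measurable_const_add w), h.2.imp fun _ hC _ => hC _⟩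

theorem bm_sub (h : Cas ζ ν Ψ) (h' : Cas ζ ν' Ψ') {k : ℕ} {b : ℝ}
    (hb : ∀ w, |X ζ ν' Ψ' k w - X ζ ν Ψ k w| ≤ b) : BM fun u => X ζ ν' Ψ' k u - X ζ ν Ψ k u :=
  ⟨(h'.lgX k).1.sub (h.lgX k).1, b, hb⟩

theorem eint_norm {μ : Measure W} (hμ : Noise μ) (a : ℝ) : EInt μ fun z => a * ‖z‖ :=
  EInt.const_mul ⟨measurable_norm, hμ.ex⟩ a

theorem fam (h : Cas ζ ν Ψ) {E : Type} [MeasurableSpace E] {Φ : E → W → ℝ}
    (hm : Measurable (Function.uncurry Φ)) {C : ℝ} (hC : ∀ e w, |Φ e w| ≤ C * (1 + ‖w‖)) (d : ℕ) :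
    (Measurable fun p : E × W => X ζ ν (Φ p.1) d p.2) ∧
      ∃ C, 0 ≤ C ∧ ∀ e w, |X ζ ν (Φ e) d w| ≤ C * (1 + ‖w‖) := by
  induction d with
  | zero =>
    exact ⟨hm, |C|, abs_nonneg C, fun e w => (hC e w).trans
      (mul_le_mul_of_nonneg_right (le_abs_self C) (by positivity))⟩
  | succ d ih =>
    obtain ⟨h1, C, hC0, h2⟩ := ih
    have hν := h.noise d
    have := hν.prob
    refine ⟨measurable_lse (ν := ν d) (ζ d) (F := fun (p : E × W) z => X ζ ν (Φ p.1) d (p.2 + z))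
      (h1.comp (measurable_fst.fst.prodMk (measurable_fst.snd.add measurable_snd))),
      C + |lse (ν d) (ζ d) fun z => C * ‖z‖| + |lse (ν d) (ζ d) fun z => -C * ‖z‖|,
      by positivity, fun e w => ?_⟩
    have hL : LG (X ζ ν (Φ e) d) := ⟨h1.comp measurable_prodMk_left, C, h2 e⟩
    have hb : ∀ z, |X ζ ν (Φ e) d (w + z)| ≤ C * ‖z‖ + C * (1 + ‖w‖) := fun z =>
      (h2 e _).trans (by nlinarith [norm_add_le w z])
    have a1 := lse_mono (h.z.nn d) (hL.eint hν w)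
      ((eint_norm hν C).add (EInt.const (C * (1 + ‖w‖)))) fun z => (abs_le.1 (hb z)).2
    have a2 := lse_mono (h.z.nn d) ((eint_norm hν (-C)).add (EInt.const (-(C * (1 + ‖w‖)))))
      (hL.eint hν w) fun z => by linarith [(abs_le.1 (hb z)).1]
    rw [lse_add_const (eint_norm hν _).integrable ((eint_norm hν _).2 _)] at a1 a2
    have b1 := mul_nonneg (abs_nonneg (lse (ν d) (ζ d) fun z => C * ‖z‖)) (norm_nonneg w)
    have b2 := mul_nonneg (abs_nonneg (lse (ν d) (ζ d) fun z => -C * ‖z‖)) (norm_nonneg w)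
    have b3 := abs_nonneg (lse (ν d) (ζ d) fun z => C * ‖z‖)
    have b4 := abs_nonneg (lse (ν d) (ζ d) fun z => -C * ‖z‖)
    have b5 := le_abs_self (lse (ν d) (ζ d) fun z => C * ‖z‖)
    have b6 := neg_abs_le (lse (ν d) (ζ d) fun z => -C * ‖z‖)
    show |lse (ν d) (ζ d) fun z => X ζ ν (Φ e) d (w + z)| ≤ _
    rw [abs_le]
    constructor <;> linarith

end ChainAux

open ChainAux

theorem chain_jensen (h : Cas ζ ν Ψ) (h' : Cas ζ ν' Ψ') {k d : ℕ} (hkd : k ≤ d)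
    (hν : ∀ j, k ≤ j → j < d → ν' j = ν j) {δ : W → ℝ} (hδ : BM δ)
    (hle : ∀ w, δ w ≤ X ζ ν' Ψ' k w - X ζ ν Ψ k w) (w : W) :
    Ex ζ ν Ψ k δ d w ≤ X ζ ν' Ψ' d w - X ζ ν Ψ d w := by
  induction d, hkd using Nat.le_induction generalizing w with
  | base => rw [Ex_of_le le_rfl]; exact hle w
  | succ d hkd ih =>
    have := (h.noise d).prob
    have e1 := (h.lgX d).eint (h.noise d) w
    have e2 := (h'.lgX d).eint (h.noise d) w
    rw [Ex_succ hkd, X_succ, X_succ, hν d hkd d.lt_succ_self]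
    exact (gexp_mono _ e1 (shift (h.bmEx k hδ d) w).eint (e2.sub e1) fun z =>
      ih (fun j h1 h2 => hν j h1 (h2.trans d.lt_succ_self)) _).trans
      (gexp_le_lse_sub (h.z.nn d) e1 e2)

theorem chain_mono (h : Cas ζ ν Ψ) (h' : Cas ζ ν' Ψ') {k d : ℕ} (hkd : k ≤ d)
    (hν : ∀ j, k ≤ j → j < d → ν' j = ν j) {c : ℝ}
    (hle : ∀ w, X ζ ν Ψ k w + c ≤ X ζ ν' Ψ' k w) (w : W) :
    X ζ ν Ψ d w + c ≤ X ζ ν' Ψ' d w := by
  have := chain_jensen h h' hkd hν (BM.const c) (fun w => by linarith [hle w]) w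
  rw [h.Ex_const] at this
  linarith

theorem chain_abs (h : Cas ζ ν Ψ) (h' : Cas ζ ν' Ψ') {k d : ℕ} (hkd : k ≤ d)
    (hν : ∀ j, k ≤ j → j < d → ν' j = ν j) {b : ℝ}
    (hb : ∀ w, |X ζ ν' Ψ' k w - X ζ ν Ψ k w| ≤ b) (w : W) :
    |X ζ ν' Ψ' d w - X ζ ν Ψ d w| ≤ b := by
  have a1 := chain_mono h h' hkd hν (c := -b) (fun w => by linarith [(abs_le.1 (hb w)).1]) w
  have a2 := chain_mono h' h hkd (fun j h1 h2 => (hν j h1 h2).symm) (c := -b)
    (fun w => by linarith [(abs_le.1 (hb w)).2]) w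
  rw [abs_le]
  constructor <;> linarith

theorem ChainAux.dens (h : Cas ζ ν Ψ) (h' : Cas ζ ν' Ψ') {k d : ℕ} (hkd : k ≤ d)
    (hν : ∀ j, k ≤ j → j < d → ν' j = ν j) {b : ℝ}
    (hb : ∀ w, |X ζ ν' Ψ' k w - X ζ ν Ψ k w| ≤ b) {φ : W → ℝ} (hφ : BM φ) (h0 : ∀ w, 0 ≤ φ w)
    (w : W) : Ex ζ ν' Ψ' k φ d w * Real.exp (ζ d * (X ζ ν' Ψ' d w - X ζ ν Ψ d w)) ≤
      Real.exp ((2 * ζ k - ζ d) * b) * Ex ζ ν Ψ k φ d w := by
  induction d, hkd using Nat.le_induction generalizing w with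
  | base =>
    rw [Ex_of_le le_rfl, Ex_of_le le_rfl, mul_comm]
    refine mul_le_mul_of_nonneg_right (Real.exp_le_exp.2 ?_) (h0 w)
    linarith [mul_le_mul_of_nonneg_left (abs_le.1 (hb w)).2 (h.z.nn k)]
  | succ d hkd ih =>
    have := (h.noise d).prob
    have hν' : ∀ j, k ≤ j → j < d → ν' j = ν j := fun j h1 h2 => hν j h1 (h2.trans d.lt_succ_self)
    have e1 := (h.lgX d).eint (h.noise d) w
    have e2 := (h'.lgX d).eint (h.noise d) w
    have a1 := chain_abs h h' (hkd.trans d.le_succ) hν hb w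
    have a2 := gexp_mono (ζ d) e1 (shift ((h'.bmEx k hφ d).mul
      ((bm_sub h h' (chain_abs h h' hkd hν' hb)).const_mul (ζ d)).exp) w).eint
      (shift ((h.bmEx k hφ d).const_mul _) w).eint fun z => ih hν' (w + z)
    have a3 := Ex_nonneg (ζ := ζ) (ν := ν) (Ψ := Ψ) k h0 (d + 1) w
    rw [gexp_const_mul] at a2
    rw [Ex_succ hkd] at a3 ⊢
    rw [Ex_succ hkd, hν d hkd d.lt_succ_self, P, gexp_change _ e1 e2, mul_assoc, ← Real.exp_add]
    refine (mul_le_mul_of_nonneg_right a2 (Real.exp_pos _).le).trans ?_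
    rw [mul_right_comm, ← Real.exp_add]
    refine mul_le_mul_of_nonneg_right (Real.exp_le_exp.2 ?_) a3
    rw [X_succ, X_succ, hν d hkd d.lt_succ_self] at a1 ⊢
    have a4 := mul_le_mul_of_nonneg_left (abs_le.1 a1).1 (sub_nonneg.2 (h.z.anti d.le_succ))
    simp only [T, Nat.succ_eq_add_one] at a4 ⊢
    linarith

/-- Density comparison, uniform in the number of levels. -/
theorem density (h : Cas ζ ν Ψ) (h' : Cas ζ ν' Ψ') {k d : ℕ}
    (hν : ∀ j, k ≤ j → j < d → ν' j = ν j) {b : ℝ}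
    (hb : ∀ w, |X ζ ν' Ψ' k w - X ζ ν Ψ k w| ≤ b) {φ : W → ℝ} (hφ : BM φ) (h0 : ∀ w, 0 ≤ φ w)
    (w : W) : Ex ζ ν' Ψ' k φ d w ≤ Real.exp (2 * b) * Ex ζ ν Ψ k φ d w := by
  have hb0 : 0 ≤ b := (abs_nonneg _).trans (hb w)
  rcases le_total d k with hd | hkd
  · rw [Ex_of_le hd, Ex_of_le hd]
    exact le_mul_of_one_le_left (h0 w) (Real.one_le_exp (by linarith))
  · have a1 := ChainAux.dens h h' hkd hν hb hφ h0 w
    have a2 := mul_le_mul_of_nonneg_left (abs_le.1 (chain_abs h h' hkd hν hb w)).1 (h.z.nn d)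
    have a3 := mul_le_mul_of_nonneg_right (h.z.le_one k) hb0
    rw [← le_div_iff₀ (Real.exp_pos _), mul_div_right_comm, ← Real.exp_sub] at a1
    exact a1.trans (mul_le_mul_of_nonneg_right (Real.exp_le_exp.2 (by linarith))
      (Ex_nonneg k h0 d w))

theorem density_abs (h : Cas ζ ν Ψ) (h' : Cas ζ ν' Ψ') {k d : ℕ}
    (hν : ∀ j, k ≤ j → j < d → ν' j = ν j) {b : ℝ}
    (hb : ∀ w, |X ζ ν' Ψ' k w - X ζ ν Ψ k w| ≤ b) {φ : W → ℝ} (hφ : Measurable φ) {C : ℝ}
    (hC : ∀ w, |φ w| ≤ C) (w : W) :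
    |Ex ζ ν' Ψ' k φ d w - Ex ζ ν Ψ k φ d w| ≤ 2 * C * (Real.exp (2 * b) - 1) := by
  have hb0 : 0 ≤ b := (abs_nonneg _).trans (hb w)
  have hφ' : BM φ := ⟨hφ, C, hC⟩
  have a1 := density h h' hν hb ((BM.const C).add hφ') (fun u => by linarith [(abs_le.1 (hC u)).1]) w
  have a2 := density h h' hν hb ((BM.const C).sub hφ') (fun u => by linarith [(abs_le.1 (hC u)).2]) w
  rw [h.Ex_add k (BM.const C) hφ', h'.Ex_add k (BM.const C) hφ', h.Ex_const, h'.Ex_const] at a1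
  rw [h.Ex_sub k (BM.const C) hφ', h'.Ex_sub k (BM.const C) hφ', h.Ex_const, h'.Ex_const] at a2
  have a3 := abs_le.1 (abs_Ex_le (ζ := ζ) (ν := ν) (Ψ := Ψ) k hC d w)
  have a4 : 0 ≤ Real.exp (2 * b) - 1 := sub_nonneg.2 (Real.one_le_exp (by linarith))
  rw [abs_le]
  constructor <;>
    linarith [mul_le_mul_of_nonneg_left a3.1 a4, mul_le_mul_of_nonneg_left a3.2 a4]

/-- First order expansion with a remainder that does not depend on the number of levels. -/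
theorem first_order (h : Cas ζ ν Ψ) (h' : Cas ζ ν' Ψ') {k d : ℕ} (hkd : k ≤ d)
    (hν : ∀ j, k ≤ j → j < d → ν' j = ν j) {b : ℝ}
    (hb : ∀ w, |X ζ ν' Ψ' k w - X ζ ν Ψ k w| ≤ b) (w : W) :
    |X ζ ν' Ψ' d w - X ζ ν Ψ d w
        - Ex ζ ν Ψ k (fun u => X ζ ν' Ψ' k u - X ζ ν Ψ k u) d w|
      ≤ 2 * b * (Real.exp (2 * b) - 1) := by
  have hδ := bm_sub h h' hb
  have a1 := chain_jensen h h' hkd hν hδ (fun _ => le_rfl) w
  have a2 := chain_jensen h' h hkd (fun j h1 h2 => (hν j h1 h2).symm) (hδ.const_mul (-1))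
    (fun _ => by linarith) w
  rw [Ex_const_mul] at a2
  have a3 := density_abs h h' hν hb hδ.1 hb w
  rw [abs_of_nonneg (sub_nonneg.2 a1)]
  linarith [(abs_le.1 a3).2]

/-- Exponential moments along levels with exponent at least `ζs`. -/
theorem chain_exp (h : Cas ζ ν Ψ) (h' : Cas ζ ν' Ψ') {k d : ℕ} (hkd : k ≤ d)
    (hν : ∀ j, k ≤ j → j < d → ν' j = ν j) {δ : W → ℝ} (hδ : BM δ)
    (hle : ∀ w, δ w ≤ X ζ ν' Ψ' k w - X ζ ν Ψ k w) {ζs : ℝ} (h0 : 0 < ζs)
    (hs : ∀ j, k ≤ j → j < d → ζs ≤ ζ j) (w : W) :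
    Ex ζ ν Ψ k (fun u => Real.exp (ζs * δ u)) d w
      ≤ Real.exp (ζs * (X ζ ν' Ψ' d w - X ζ ν Ψ d w)) := by
  induction d, hkd using Nat.le_induction generalizing w with
  | base =>
    rw [Ex_of_le le_rfl]
    exact Real.exp_le_exp.2 (mul_le_mul_of_nonneg_left (hle w) h0.le)
  | succ d hkd ih =>
    have := (h.noise d).prob
    have e1 := (h.lgX d).eint (h.noise d) w
    have e2 := (h'.lgX d).eint (h.noise d) w
    have := e1.prob_tilted (ζ d)
    have e3 := e1.tilted (e2.sub e1) (ζ d)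
    rw [Ex_succ hkd, X_succ, X_succ, hν d hkd d.lt_succ_self, T, T, lse_sub _ e1 e2]
    refine (integral_mono (shift (h.bmEx k (hδ.const_mul ζs).exp d) w).integrable (e3.2 ζs)
      fun z => ih (fun j h1 h2 => hν j h1 (h2.trans d.lt_succ_self))
        (fun j h1 h2 => hs j h1 (h2.trans d.lt_succ_self)) _).trans ?_
    rw [← exp_mul_lse (e3.2 ζs)]
    exact Real.exp_le_exp.2 (mul_le_mul_of_nonneg_left
      (lse_mono_zeta h0.le (hs d hkd d.lt_succ_self) e3) h0.le)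

/-- A mixture at the top dominates the worst component. -/
theorem mixture (h : Cas ζ ν Ψ) {E : Type} [MeasurableSpace E] (π : Measure E)
    [IsProbabilityMeasure π] {Φ : E → W → ℝ} (hm : Measurable (Function.uncurry Φ))
    {C : ℝ} (hC : ∀ e w, |Φ e w| ≤ C * (1 + ‖w‖)) {c : ℝ}
    (hle : ∀ w, lse π 1 (fun e => Φ e w) + c ≤ Ψ w) (d : ℕ) (w : W) {B : ℝ}
    (hB : ∀ᵐ e ∂π, B ≤ X ζ ν (Φ e) d w) : B + c ≤ X ζ ν Ψ d w := by
  have hbm : ∀ d w, BM fun e => X ζ ν (Φ e) d w := fun d w =>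
    ⟨(fam h hm hC d).1.comp measurable_prodMk_right, _,
      fun e => (fam h hm hC d).2.choose_spec.2 e w⟩
  have key : ∀ d w, lse π (ζ d) (fun e => X ζ ν (Φ e) d w) + c ≤ X ζ ν Ψ d w := by
    intro d
    induction d with
    | zero =>
      exact fun w => (add_le_add_left (lse_mono_zeta (h.z.nn 0) h.z.le1 (hbm 0 w).eint) c).trans
        (hle w)
    | succ d ih =>
      intro w
      obtain ⟨h1, C, hC0, h2⟩ := fam h hm hC d
      have hν := h.noise d
      have := hν.prob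
      have hF : Measurable fun p : E × W => X ζ ν (Φ p.1) d (w + p.2) :=
        h1.comp (measurable_fst.prodMk (measurable_snd.const_add w))
      have hb : ∀ e z, |X ζ ν (Φ e) d (w + z)| ≤ C * (1 + ‖w‖) + C * |‖z‖| := fun e z =>
        (h2 e _).trans (by rw [abs_norm]; nlinarith [norm_add_le w z])
      have e1 : EInt (π.prod (ν d)) fun p : E × W => X ζ ν (Φ p.1) d (w + p.2) :=
        EInt.of_le (F := fun p => ‖p.2‖) ⟨measurable_snd.norm, fun c => (hν.ex c).comp_snd π⟩ hF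
          fun p => hb p.1 p.2
      have e2 : EInt ((ν d).prod π) fun p : W × E => X ζ ν (Φ p.2) d (w + p.1) :=
        EInt.of_le (F := fun p => ‖p.1‖) ⟨measurable_fst.norm, fun c => (hν.ex c).comp_fst π⟩
          (hF.comp measurable_swap) fun p => hb p.2 p.1
      have a1 := lse_prod (ζ d) e1
      rw [← Measure.prod_swap, lse_map measurable_swap _ hF] at a1
      have a2 := (lse_prod (ζ d) e2).symm.trans a1
      have hL : LG fun u => lse π (ζ d) fun e => X ζ ν (Φ e) d u :=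
        ⟨measurable_lse (ζ d) (F := fun u e => X ζ ν (Φ e) d u) (h1.comp measurable_swap), C,
          fun u => by
            have := abs_lse_sub_le (h.z.nn d) (EInt.const (ν := π) 0) (hbm d u).eint
              (b := C * (1 + ‖u‖)) (ae_of_all _ fun e => by rw [sub_zero]; exact h2 e u)
            rwa [lse_const, sub_zero] at this⟩
      have e3 := hL.eint hν w
      have a3 := lse_mono (h.z.nn d) (e3.add (EInt.const c)) ((h.lgX d).eint hν w)
        fun z => ih (w + z)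
      rw [lse_add_const e3.integrable (e3.2 _)] at a3
      exact (add_le_add_left ((lse_mono_zeta (h.z.nn _) (h.z.anti d.le_succ)
        (hbm (d + 1) w).eint).trans a2.ge) c).trans a3
  refine le_trans (add_le_add_left ?_ c) (key d w)
  refine le_trans ?_ (mean_le_lse (h.z.nn d) (hbm d w).integrable ((hbm d w).eint.2 _))
  simpa using integral_mono_ae (integrable_const B) (hbm d w).integrable hB

end Vale.Agent.P157
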