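import Vale.Agent.P157.Defs

/-! # From uniform one sided coordinate expansions to derivatives along segments -/

namespace Vale.Agent.P157

namespace OrthAux

open Function Filter Topology

variable {κ : Type} [DecidableEq κ] {J : Finset κ} {φ : (κ → ℝ) → ℝ} {D : κ → (κ → ℝ) → ℝ}
  {K : ℝ}

/-- Two points of the orthant which agree off `J` and are `δ` close. -/
structure Cl (J : Finset κ) (δ : ℝ) (s s' : κ → ℝ) : Prop where
  l : ∀ k, 0 ≤ s k
  r : ∀ k, 0 ≤ s' k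
  off : ∀ k, k ∉ J → s' k = s k
  near : ∀ k, |s' k - s k| ≤ δ

theorem update_nonneg {s : κ → ℝ} (hs : ∀ k, 0 ≤ s k) (k : κ) {a : ℝ} (ha : 0 ≤ a) :
    ∀ j, 0 ≤ update s k a j := by
  intro j
  by_cases h : j = k
  · subst h; simpa using ha
  · simpa [h] using hs j

theorem Cl.mix {δ : ℝ} {s s' : κ → ℝ} (h : Cl J δ s s') (T : Finset κ) :
    Cl J δ s (T.piecewise s' s) := by
  refine ⟨h.l, fun k => ?_, fun k hk => ?_, fun k => ?_⟩ <;> by_cases hT : k ∈ T
  · simpa [hT] using h.r k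
  · simpa [hT] using h.l k
  · simpa [hT] using h.off k hk
  · simp [hT]
  · simpa [hT] using h.near k
  · simpa [hT] using (abs_nonneg _).trans (h.near k)

theorem Cl.piecewise_J {δ : ℝ} {s s' : κ → ℝ} (h : Cl J δ s s') : J.piecewise s' s = s' := by
  funext k
  by_cases hk : k ∈ J
  · simp [hk]
  · simp [hk, h.off k hk]

theorem Cl.upd {δ : ℝ} {s s' : κ → ℝ} (h : Cl J δ s s') (k : κ) {a : ℝ} (ha : 0 ≤ a) :
    Cl J δ (update s k (s k + a)) (update s' k (s' k + a)) := by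
  refine ⟨update_nonneg h.l k (add_nonneg (h.l k) ha), update_nonneg h.r k (add_nonneg (h.r k) ha),
    fun j hj => ?_, fun j => ?_⟩ <;> by_cases hjk : j = k
  · subst hjk; simp [h.off j hj]
  · simp [hjk, h.off j hj]
  · subst hjk; simpa using h.near j
  · simpa [hjk] using h.near j

section

variable (hD : ∀ s : κ → ℝ, (∀ k, 0 ≤ s k) → ∀ k ∈ J, |D k s| ≤ K)
  (hφ : ∀ s : κ → ℝ, (∀ k, 0 ≤ s k) → ∀ k ∈ J, ∀ h : ℝ, 0 ≤ h → h ≤ 1 →
    |φ (Function.update s k (s k + h)) - φ s - h * D k s| ≤ K * (h * √h))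
include hφ

/-- One coordinate step in either direction. -/
theorem one_step {s : κ → ℝ} (hs : ∀ k, 0 ≤ s k) {k : κ} (hk : k ∈ J) {a : ℝ} (ha : 0 ≤ a)
    (h1 : |a - s k| ≤ 1) : ∃ s₀ : κ → ℝ, (s₀ = s ∨ s₀ = update s k a) ∧
      |φ (update s k a) - φ s - (a - s k) * D k s₀| ≤ K * (|a - s k| * √|a - s k|) := by
  rcases le_total (s k) a with h | h
  · have h2 := hφ s hs k hk (a - s k) (sub_nonneg.2 h) ((le_abs_self _).trans h1)
    rw [add_sub_cancel] at h2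
    rw [abs_of_nonneg (sub_nonneg.2 h)]
    exact ⟨s, Or.inl rfl, h2⟩
  · rw [abs_sub_comm] at h1
    have h2 := hφ _ (update_nonneg hs k ha) k hk (s k - a) (sub_nonneg.2 h)
      ((le_abs_self _).trans h1)
    rw [update_self, add_sub_cancel, update_idem, update_eq_self] at h2
    refine ⟨_, Or.inr rfl, ?_⟩
    rw [abs_sub_comm a, abs_of_nonneg (sub_nonneg.2 h), ← abs_neg]
    refine le_trans (le_of_eq ?_) h2
    congr 1
    ring

include hD

theorem lip {δ : ℝ} (hδ : δ ≤ 1) {s s' : κ → ℝ} (h : Cl J δ s s') :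
    |φ s' - φ s| ≤ J.card * (2 * K * δ) := by
  have key : ∀ T : Finset κ, T ⊆ J → |φ (T.piecewise s' s) - φ s| ≤ T.card * (2 * K * δ) := by
    intro T
    induction T using Finset.induction_on with
    | empty => simp
    | insert k T hkT ih =>
      intro hT
      have hk : k ∈ J := hT (Finset.mem_insert_self _ _)
      have h1 := ih ((Finset.subset_insert _ _).trans hT)
      have hK : 0 ≤ K := (abs_nonneg _).trans (hD s h.l k hk)
      have h2 : T.piecewise s' s k = s k := Finset.piecewise_eq_of_notMem _ _ _ hkT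
      have h3 := h.near k
      obtain ⟨s₀, h4, h5⟩ := one_step hφ (h.mix T).r hk (h.r k) (by rw [h2]; exact h3.trans hδ)
      rw [h2] at h5
      have h6 : |D k s₀| ≤ K := by
        rcases h4 with rfl | rfl
        · exact hD _ (h.mix T).r k hk
        · exact hD _ (update_nonneg (h.mix T).r k (h.r k)) k hk
      have h7 : √|s' k - s k| ≤ 1 := Real.sqrt_le_one.2 (h3.trans hδ)
      have h8 : |(s' k - s k) * D k s₀| ≤ δ * K := by
        rw [abs_mul]
        exact mul_le_mul h3 h6 (abs_nonneg _) ((abs_nonneg _).trans h3)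
      have h9 : K * (|s' k - s k| * √|s' k - s k|) ≤ K * δ :=
        mul_le_mul_of_nonneg_left ((mul_le_of_le_one_right (abs_nonneg _) h7).trans h3) hK
      rw [Finset.piecewise_insert, Finset.card_insert_of_notMem hkT]
      rw [abs_le] at h1 h5 h8 ⊢
      push_cast
      constructor <;> linarith [h1.1, h1.2, h5.1, h5.2, h8.1, h8.2]
  have h1 := key J subset_rfl
  rwa [h.piecewise_J] at h1

theorem modulus {ε : ℝ} (hε : 0 < ε) : ∃ δ : ℝ, 0 < δ ∧ δ ≤ 1 ∧ K * √δ ≤ ε ∧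
    ∀ s s' : κ → ℝ, Cl J δ s s' → ∀ k ∈ J, |D k s' - D k s| ≤ ε := by
  have h0 : Tendsto (fun h : ℝ => K * √h) (𝓝[>] 0) (𝓝 0) := by
    have h1 : Continuous fun h : ℝ => K * √h := by fun_prop
    simpa using (h1.tendsto 0).mono_left nhdsWithin_le_nhds
  have hI : ∀ᶠ h : ℝ in 𝓝[>] 0, 0 < h ∧ h ≤ 1 := Ioc_mem_nhdsGT (zero_lt_one' ℝ)
  obtain ⟨h, ⟨hh, hh1⟩, hh2⟩ := (hI.and
    (h0.eventually (Iic_mem_nhds (show 0 < ε / 4 by positivity)))).exists
  have h1 : Tendsto (fun δ : ℝ => J.card * (2 * K * δ)) (𝓝[>] 0) (𝓝 0) := by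
    have h1 : Continuous fun δ : ℝ => J.card * (2 * K * δ) := by fun_prop
    simpa using (h1.tendsto 0).mono_left nhdsWithin_le_nhds
  obtain ⟨δ, ⟨hδ, hδ1⟩, hδ2, hδ3⟩ := (hI.and
    ((h0.eventually (Iic_mem_nhds hε)).and
      (h1.eventually (Iic_mem_nhds (show 0 < ε * h / 4 by positivity))))).exists
  refine ⟨δ, hδ, hδ1, hδ2, fun s s' hc k hk => ?_⟩
  have a1 := hφ s hc.l k hk h hh.le hh1
  have a2 := hφ s' hc.r k hk h hh.le hh1
  have a3 := (lip hD hφ hδ1 hc).trans hδ3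
  have a4 := (lip hD hφ hδ1 (hc.upd k hh.le)).trans hδ3
  have a5 : K * (h * √h) ≤ ε * h / 4 := by
    have := mul_le_mul_of_nonneg_left (show K * √h ≤ ε / 4 from hh2) hh.le
    linarith
  refine le_of_mul_le_mul_left ?_ hh
  rw [← abs_of_pos hh, ← abs_mul, abs_of_pos hh]
  rw [abs_le] at a1 a2 a3 a4 ⊢
  constructor <;> linarith [a1.1, a1.2, a2.1, a2.2, a3.1, a3.2, a4.1, a4.2]

theorem expand {ε : ℝ} (hε : 0 < ε) : ∃ δ : ℝ, 0 < δ ∧ ∀ s s' : κ → ℝ, Cl J δ s s' →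
    |φ s' - φ s - ∑ k ∈ J, (s' k - s k) * D k s| ≤ ε * ∑ k ∈ J, |s' k - s k| := by
  obtain ⟨δ, hδ, hδ1, hδ2, hm⟩ := modulus hD hφ (half_pos hε)
  refine ⟨δ, hδ, fun s s' h => ?_⟩
  have key : ∀ T : Finset κ, T ⊆ J → |φ (T.piecewise s' s) - φ s -
      ∑ k ∈ T, (s' k - s k) * D k s| ≤ ε * ∑ k ∈ T, |s' k - s k| := by
    intro T
    induction T using Finset.induction_on with
    | empty => simp
    | insert k T hkT ih =>
      intro hT
      have hk : k ∈ J := hT (Finset.mem_insert_self _ _)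
      have h1 := ih ((Finset.subset_insert _ _).trans hT)
      have hK : 0 ≤ K := (abs_nonneg _).trans (hD s h.l k hk)
      have h2 : T.piecewise s' s k = s k := Finset.piecewise_eq_of_notMem _ _ _ hkT
      have h3 := h.near k
      obtain ⟨s₀, h4, h5⟩ := one_step hφ (h.mix T).r hk (h.r k) (by rw [h2]; exact h3.trans hδ1)
      rw [h2] at h5
      have h6 : |D k s₀ - D k s| ≤ ε / 2 := by
        rcases h4 with rfl | rfl
        · exact hm _ _ (h.mix T) k hk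
        · rw [← Finset.piecewise_insert]
          exact hm _ _ (h.mix _) k hk
      have h7 : K * √|s' k - s k| ≤ ε / 2 :=
        (mul_le_mul_of_nonneg_left (Real.sqrt_le_sqrt h3) hK).trans hδ2
      have h8 : |(s' k - s k) * (D k s₀ - D k s)| ≤ |s' k - s k| * (ε / 2) := by
        rw [abs_mul]
        exact mul_le_mul_of_nonneg_left h6 (abs_nonneg _)
      have h9 := mul_le_mul_of_nonneg_left h7 (abs_nonneg (s' k - s k))
      rw [Finset.piecewise_insert, Finset.sum_insert hkT, Finset.sum_insert hkT]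
      rw [abs_le] at h1 h5 h8 ⊢
      constructor <;> linarith [h1.1, h1.2, h5.1, h5.2, h8.1, h8.2]
  have h1 := key J subset_rfl
  rwa [h.piecewise_J] at h1

end

theorem cl_line {s u : κ → ℝ} (hs : ∀ k, 0 ≤ s k) (hsu : ∀ k, 0 ≤ s k + u k)
    (hu : ∀ k, k ∉ J → u k = 0) {t : ℝ} (ht : t ∈ Set.Icc (0 : ℝ) 1) {δ : ℝ} (hδ : 0 < δ) :
    ∀ᶠ t' in 𝓝[Set.Icc (0 : ℝ) 1] t, Cl J δ (s + t • u) (s + t' • u) := by
  have h0 : ∀ r ∈ Set.Icc (0 : ℝ) 1, ∀ k, 0 ≤ (s + r • u) k := by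
    intro r hr k
    have h1 := mul_nonneg hr.1 (hsu k)
    have h2 := mul_nonneg (sub_nonneg.2 hr.2) (hs k)
    simp only [Pi.add_apply, Pi.smul_apply, smul_eq_mul]
    linarith
  have h1 : Continuous fun r : ℝ => |r - t| * ∑ k ∈ J, |u k| := by fun_prop
  have h2 : ∀ᶠ r in 𝓝 t, |r - t| * ∑ k ∈ J, |u k| ≤ δ :=
    (h1.tendsto t).eventually (Iic_mem_nhds (by simpa using hδ))
  filter_upwards [self_mem_nhdsWithin, mem_nhdsWithin_of_mem_nhds h2] with r hr h3
  refine ⟨h0 t ht, h0 r hr, fun k hk => by simp [hu k hk], fun k => ?_⟩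
  by_cases hk : k ∈ J
  · have h4 : (s + r • u) k - (s + t • u) k = (r - t) * u k := by
      simp only [Pi.add_apply, Pi.smul_apply, smul_eq_mul]
      ring
    rw [h4, abs_mul]
    exact (mul_le_mul_of_nonneg_left (Finset.single_le_sum (f := fun k => |u k|)
      (fun _ _ => abs_nonneg _) hk) (abs_nonneg _)).trans h3
  · simpa [hu k hk] using hδ.le

end OrthAux

open OrthAux in
theorem orth {κ : Type} [DecidableEq κ] (J : Finset κ) (φ : (κ → ℝ) → ℝ)
    (D : κ → (κ → ℝ) → ℝ) (K : ℝ)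
    (hD : ∀ s : κ → ℝ, (∀ k, 0 ≤ s k) → ∀ k ∈ J, |D k s| ≤ K)
    (hφ : ∀ s : κ → ℝ, (∀ k, 0 ≤ s k) → ∀ k ∈ J, ∀ h : ℝ, 0 ≤ h → h ≤ 1 →
      |φ (Function.update s k (s k + h)) - φ s - h * D k s| ≤ K * (h * √h))
    (s u : κ → ℝ) (hs : ∀ k, 0 ≤ s k) (hsu : ∀ k, 0 ≤ s k + u k) (hu : ∀ k, k ∉ J → u k = 0) :
    (∀ t ∈ Set.Icc (0 : ℝ) 1, HasDerivWithinAt (fun t : ℝ => φ (s + t • u))
      (∑ k ∈ J, u k * D k (s + t • u)) (Set.Icc 0 1) t) ∧
    ∀ k ∈ J, ContinuousOn (fun t : ℝ => D k (s + t • u)) (Set.Icc 0 1) := by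
  constructor
  · intro t ht
    rw [hasDerivWithinAt_iff_isLittleO, Asymptotics.isLittleO_iff]
    intro c hc
    have hA : 0 ≤ ∑ k ∈ J, |u k| := Finset.sum_nonneg fun _ _ => abs_nonneg _
    obtain ⟨δ, hδ, h⟩ := expand hD hφ (show 0 < c / (∑ k ∈ J, |u k| + 1) by positivity)
    filter_upwards [cl_line hs hsu hu ht hδ] with r hr
    have h1 := h _ _ hr
    have h2 : ∀ k, (s + r • u) k - (s + t • u) k = (r - t) * u k := by
      intro k
      simp only [Pi.add_apply, Pi.smul_apply, smul_eq_mul]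
      ring
    simp only [h2, abs_mul, mul_assoc, ← Finset.mul_sum] at h1
    rw [Real.norm_eq_abs, Real.norm_eq_abs, smul_eq_mul]
    refine h1.trans ?_
    rw [div_mul_eq_mul_div, div_le_iff₀ (by positivity)]
    have h3 := mul_nonneg hc.le (abs_nonneg (r - t))
    nlinarith
  · intro k hk t ht
    rw [ContinuousWithinAt, Metric.tendsto_nhds]
    intro ε hε
    obtain ⟨δ, hδ, -, -, h⟩ := modulus hD hφ (half_pos hε)
    filter_upwards [cl_line hs hsu hu ht hδ] with r hr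
    exact (h _ _ hr k hk).trans_lt (half_lt_self hε)

theorem le_of_derivWithin {φ D : ℝ → ℝ} {κ : ℝ}
    (h : ∀ t ∈ Set.Icc (0 : ℝ) 1, HasDerivWithinAt φ (D t) (Set.Icc 0 1) t)
    (hD : ∀ t ∈ Set.Icc (0 : ℝ) 1, D t ≤ κ) : φ 1 - φ 0 ≤ κ := by
  obtain ⟨c, hc, h1⟩ := exists_hasDerivAt_eq_slope φ D zero_lt_one
    (fun t ht => (h t ht).continuousWithinAt)
    fun t ht => (h t (Set.Ioo_subset_Icc_self ht)).hasDerivAt (Icc_mem_nhds ht.1 ht.2)
  have h2 := hD c (Set.Ioo_subset_Icc_self hc)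
  rw [h1] at h2
  simpa using h2

theorem ge_of_derivWithin {φ D : ℝ → ℝ} {κ : ℝ}
    (h : ∀ t ∈ Set.Icc (0 : ℝ) 1, HasDerivWithinAt φ (D t) (Set.Icc 0 1) t)
    (hD : ∀ t ∈ Set.Icc (0 : ℝ) 1, κ ≤ D t) : κ ≤ φ 1 - φ 0 := by
  obtain ⟨c, hc, h1⟩ := exists_hasDerivAt_eq_slope φ D zero_lt_one
    (fun t ht => (h t ht).continuousWithinAt)
    fun t ht => (h t (Set.Ioo_subset_Icc_self ht)).hasDerivAt (Icc_mem_nhds ht.1 ht.2)
  have h2 := hD c (Set.Ioo_subset_Icc_self hc)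
  rw [h1] at h2
  simpa using h2

end Vale.Agent.P157
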