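import Vale.Agent.P157.Gauss

/-! # Splitting off one coordinate; link with the recursion of the statement -/

namespace Vale.Agent.P157

open MeasureTheory ProbabilityTheory

theorem X_option {ι : Type} [Fintype ι] {ζ : ℕ → ℝ} (hζ : Zok ζ) (s : ℕ → Option ι → ℝ)
    {Ψ : (ι → ℝ) → ℝ} (hΨ : LG Ψ) {ψ : ℝ → ℝ} (hψ : LG ψ) (d : ℕ) (w : Option ι → ℝ) :
    X ζ (gvs s) (fun u => Ψ (fun i => u (some i)) + ψ (u none)) d w
      = X ζ (gvs fun j i => s j (some i)) Ψ d (fun i => w (some i))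
        + X ζ (g1s fun j => s j none) ψ d (w none) := by
  let L : (Option ι → ℝ) →+ (ι → ℝ) × ℝ :=
    { toFun := fun z => ((fun i => z (some i)), z none)
      map_zero' := rfl
      map_add' := fun _ _ => rfl }
  have hL : Measurable L :=
    (measurable_pi_lambda _ fun i => measurable_pi_apply (some i)).prodMk
      (measurable_pi_apply none)
  have h1 := X_push (ζ := ζ) (ν := gvs s)
    (Ψ := fun u => Ψ (fun i => u (some i)) + ψ (u none)) L hL 0
    (ν' := fun j => (gvs (fun j i => s j (some i)) j).prod (g1s (fun j => s j none) j))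
    (fun j => by unfold gvs g1s; infer_instance)
    (Ψ' := fun u : (ι → ℝ) × ℝ => Ψ u.1 + ψ u.2)
    ((hΨ.1.comp measurable_fst).add (hψ.1.comp measurable_snd))
    (fun u => by rw [add_zero]; rfl) (d := d) (fun j _ => gauss_opt (s j)) w
  rw [h1, add_zero, X_prod (cas_gvs hζ _ hΨ) (cas_g1s hζ _ hψ)]
  rfl

/-- Change of variables by selecting, relabelling and padding coordinates. -/
theorem X_sel {ι κ : Type} [Fintype ι] [Fintype κ] (e : κ → Option ι)
    (he : ∀ k l i, e k = some i → e l = some i → k = l) (ζ : ℕ → ℝ) (s : ℕ → ι → ℝ)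
    (s' : ℕ → κ → ℝ) {Ψ' : (κ → ℝ) → ℝ} (hΨ' : Measurable Ψ') {d : ℕ}
    (hs : ∀ j, j < d → ∀ k, s' j k = (e k).elim 0 (s j)) :
    X ζ (gvs s) (fun u => Ψ' fun k => (e k).elim 0 u) d 0 = X ζ (gvs s') Ψ' d 0 := by
  let L : (ι → ℝ) →+ (κ → ℝ) :=
    { toFun := fun z k => (e k).elim 0 z
      map_zero' := by
        funext k
        cases e k <;> rfl
      map_add' := fun z z' => by
        funext k
        simp only [Pi.add_apply]
        cases e k
        · exact (add_zero _).symm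
        · rfl }
  have hL : Measurable L := by
    refine measurable_pi_lambda _ fun k => ?_
    show Measurable fun z : ι → ℝ => (e k).elim 0 z
    cases e k
    · exact measurable_const
    · exact measurable_pi_apply _
  have h1 := X_push (ζ := ζ) (ν := gvs s) (Ψ := fun u => Ψ' fun k => (e k).elim 0 u) L hL 0
    (ν' := gvs s') (fun j => by unfold gvs; infer_instance) hΨ'
    (fun u => by rw [add_zero]; rfl) (d := d)
    (fun j hj => (gauss_sel e he (s j)).trans (congrArg gv (funext (hs j hj)).symm)) 0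
  rw [h1, map_zero, add_zero]

/-- Change of variables by a matrix. -/
theorem X_lin {ι κ : Type} [Fintype ι] [Fintype κ] [DecidableEq κ] (M : κ → ι → ℝ) (ζ : ℕ → ℝ)
    {s : ℕ → ι → ℝ} (hs : ∀ j i, 0 ≤ s j i) (s' : ℕ → κ → ℝ) {Ψ' : (κ → ℝ) → ℝ}
    (hΨ' : Measurable Ψ') {d : ℕ}
    (h : ∀ j, j < d → ∀ k l, ∑ i, s j i * (M k i * M l i) = if k = l then s' j k else 0) :
    X ζ (gvs s) (fun u => Ψ' fun k => ∑ i, M k i * u i) d 0 = X ζ (gvs s') Ψ' d 0 := by
  let L : (ι → ℝ) →+ (κ → ℝ) :=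
    { toFun := fun z k => ∑ i, M k i * z i
      map_zero' := by
        funext k
        simp only [Pi.zero_apply, mul_zero, Finset.sum_const_zero]
      map_add' := fun z z' => by
        funext k
        simp only [Pi.add_apply, mul_add, Finset.sum_add_distrib] }
  have hL : Measurable L :=
    measurable_pi_lambda _ fun k => Finset.measurable_sum _ fun i _ =>
      (measurable_pi_apply i).const_mul _
  have h1 := X_push (ζ := ζ) (ν := gvs s) (Ψ := fun u => Ψ' fun k => ∑ i, M k i * u i) L hL 0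
    (ν' := gvs s') (fun j => by unfold gvs; infer_instance) hΨ'
    (fun u => by rw [add_zero]; rfl) (d := d)
    (fun j hj => gauss_lin M (hs j) (h j hj)) 0
  rw [h1, map_zero, add_zero]

theorem step_eq_T (m s : ℝ) {f : ℝ → ℝ} (hf : Measurable f) : step m s f = T m (g1 s) f := by
  funext x
  rw [T, g1_eq_map, lse_map (measurable_const_mul _) m (F := fun z => f (x + z))
    (hf.comp (measurable_const_add x))]
  rfl

theorem parisi_eq_X (ζ c : ℕ → ℝ) {f : ℝ → ℝ} (hf : Measurable f) (d : ℕ) :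
    parisi ζ c f d = X ζ (g1s (dq c)) f d := by
  induction d with
  | zero => rfl
  | succ d ih =>
    rw [parisi, ih, step_eq_T _ _
      (measurable_X (fun j => by unfold g1s; infer_instance) hf d)]
    rfl

theorem psi_eq_X (n : ℕ) (ζ c : ℕ → ℝ) {f : ℝ → ℝ} (hf : Measurable f) :
    psi n ζ c f = X ζ (g1s (dq c)) f (n + 1) 0 := by
  rw [psi, parisi_eq_X ζ c hf]

theorem psi_cum (n : ℕ) (ζ v : ℕ → ℝ) {f : ℝ → ℝ} (hf : Measurable f) :
    psi n ζ (cum n v) f = X ζ (g1s v) f (n + 1) 0 := by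
  rw [psi_eq_X n ζ _ hf]
  exact congrFun (X_congr fun j hj => ⟨rfl, congrArg g1 (dq_cum n v (Nat.lt_succ_iff.1 hj))⟩) 0

theorem psi_add_cum (n : ℕ) (ζ c v : ℕ → ℝ) {f : ℝ → ℝ} (hf : Measurable f) :
    psi n ζ (c + cum n v) f = X ζ (g1s fun d => dq c d + v d) f (n + 1) 0 := by
  have h : ∀ j, j < n + 1 → dq (c + cum n v) j = dq c j + v j := fun j hj => by
    rw [← dq_cum n v (Nat.lt_succ_iff.1 hj)]
    simp only [dq, Pi.add_apply]
    ring
  rw [psi_eq_X n ζ _ hf]
  exact congrFun (X_congr fun j hj => ⟨rfl, congrArg g1 (h j hj)⟩) 0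

theorem abs_psi_le {n : ℕ} {ζ : ℕ → ℝ} (hζ : Zok ζ) (c : ℕ → ℝ) {f : ℝ → ℝ} (hf : Measurable f)
    {K : ℝ} (hK : ∀ x, |f x| ≤ K) : |psi n ζ c f| ≤ K := by
  have key : ∀ d x, |X ζ (g1s (dq c)) f d x| ≤ K := by
    intro d
    induction d with
    | zero => exact hK
    | succ d ih =>
      intro x
      have hm : Measurable (X ζ (g1s (dq c)) f d) :=
        measurable_X (fun j => by unfold g1s; infer_instance) hf d
      have hb : BM fun z => X ζ (g1s (dq c)) f d (x + z) :=
        ⟨hm.comp (measurable_const_add x), K, fun z => ih _⟩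
      have h1 := abs_lse_sub_le (ν := g1 (dq c d)) (hζ.nn d) (EInt.const 0) hb.eint (b := K)
        (Filter.Eventually.of_forall fun z => by rw [sub_zero]; exact ih _)
      rw [lse_const, sub_zero] at h1
      exact h1
  rw [psi_eq_X n ζ c hf]
  exact key _ _

theorem lg_lc : LG lc := by
  refine ⟨Real.measurable_log.comp Real.continuous_cosh.measurable, 1, fun x => ?_⟩
  have h1 : Real.cosh x ≤ Real.exp |x| := by
    have a1 := Real.exp_le_exp.2 (le_abs_self x)
    have a2 := Real.exp_le_exp.2 (neg_le_abs x)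
    rw [Real.cosh_eq]
    linarith
  have h2 : lc x ≤ |x| := (Real.log_le_iff_le_exp (Real.cosh_pos x)).2 h1
  have h3 : 0 ≤ lc x := Real.log_nonneg (Real.one_le_cosh x)
  rw [abs_of_nonneg h3, Real.norm_eq_abs]
  linarith

/-- Abel summation against an antitone nonnegative sequence. -/
theorem abel_le {n : ℕ} {a p : ℕ → ℝ} {η L : ℝ} (hη : 0 ≤ η)
    (ha : ∀ d, 1 ≤ d → d ≤ n → ∑ k ∈ Finset.range d, a k ≤ η)
    (hp : ∀ k, 1 ≤ k → k < n → p (k + 1) ≤ p k) (hp0 : ∀ k, 1 ≤ k → k ≤ n → 0 ≤ p k)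
    (hL : p 1 ≤ L) (hL0 : 0 ≤ L) : ∑ k ∈ Finset.range n, a k * p (k + 1) ≤ η * L := by
  have key : ∀ m, 1 ≤ m → m ≤ n → ∑ k ∈ Finset.range m, a k * p (k + 1)
      ≤ η * (p 1 - p m) + (∑ k ∈ Finset.range m, a k) * p m := by
    intro m hm
    induction m, hm using Nat.le_induction with
    | base =>
      intro _
      simp only [Finset.sum_range_one, zero_add, sub_self, mul_zero, le_refl]
    | succ m hm ih =>
      intro hn
      have h1 := ih (by omega)
      have h2 := mul_nonneg (sub_nonneg.2 (ha m hm (by omega))) (sub_nonneg.2 (hp m hm hn))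
      rw [Finset.sum_range_succ, Finset.sum_range_succ]
      linarith
  rcases Nat.eq_zero_or_pos n with h0 | h0
  · rw [h0, Finset.sum_range_zero]
    exact mul_nonneg hη hL0
  · have h1 := key n h0 le_rfl
    have h2 := mul_le_mul_of_nonneg_right (ha n h0 le_rfl) (hp0 n h0 le_rfl)
    have h3 := mul_le_mul_of_nonneg_left hL hη
    linarith

theorem abel_abs_le {n : ℕ} {a p : ℕ → ℝ} {η L : ℝ} (hη : 0 ≤ η)
    (ha : ∀ d, 1 ≤ d → d ≤ n → |∑ k ∈ Finset.range d, a k| ≤ η)
    (hp : ∀ k, 1 ≤ k → k < n → p (k + 1) ≤ p k) (hp0 : ∀ k, 1 ≤ k → k ≤ n → 0 ≤ p k)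
    (hL : p 1 ≤ L) (hL0 : 0 ≤ L) : |∑ k ∈ Finset.range n, a k * p (k + 1)| ≤ η * L := by
  have h1 := abel_le hη (fun d h h' => (abs_le.1 (ha d h h')).2) hp hp0 hL hL0
  have h2 := abel_le (a := fun k => -a k) hη (fun d h h' => by
    have := (abs_le.1 (ha d h h')).1
    rw [Finset.sum_neg_distrib]
    linarith) hp hp0 hL hL0
  simp only [neg_mul, Finset.sum_neg_distrib] at h2
  exact abs_le.2 ⟨by linarith, h1⟩

/-- Exchange of the level sum and the overlap sum. -/
theorem sum_dq_mul {n : ℕ} {c : ℕ → ℝ} (hc : c (n + 1) = 0) (B : ℝ) (r : ℕ → ℝ) :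
    ∑ d ∈ Finset.range (n + 1), dq c d * (B - ∑ k ∈ Finset.range d, r k)
      = c 0 * B - ∑ k ∈ Finset.range n, c (k + 1) * r k := by
  have key : ∀ m, ∑ d ∈ Finset.range (m + 1), dq c d * (B - ∑ k ∈ Finset.range d, r k)
      = c 0 * B - ∑ k ∈ Finset.range m, c (k + 1) * r k
        - c (m + 1) * (B - ∑ k ∈ Finset.range m, r k) := by
    intro m
    induction m with
    | zero =>
      simp only [zero_add, Finset.sum_range_one, Finset.sum_range_zero, dq]
      ring
    | succ m ih =>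
      rw [Finset.sum_range_succ, ih, Finset.sum_range_succ r,
        Finset.sum_range_succ fun k => c (k + 1) * r k, dq]
      ring
  rw [key, hc, zero_mul, sub_zero]

/-- The penalty in terms of the cumulative path. -/
theorem pen_eq (n : ℕ) (ζ q θ : ℕ → ℝ) :
    ∑ d ∈ Finset.Icc 1 n, θ d ^ 2 * (1 - QQ ζ q d)
      = cum n (sq0 θ) 0 - pairing n ζ (cum n (sq0 θ)) q := by
  have h1 := sum_dq_mul (n := n) (c := cum n (sq0 θ))
    (by rw [cum, Finset.Ico_self, Finset.sum_empty]) 1 fun k => (ζ k - ζ (k + 1)) * q (k + 1)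
  have h2 : ∑ d ∈ Finset.Icc 1 n, θ d ^ 2 * (1 - QQ ζ q d)
      = ∑ d ∈ Finset.Icc 1 n, dq (cum n (sq0 θ)) d * (1 - QQ ζ q d) :=
    Finset.sum_congr rfl fun d hd => by
      have := Finset.mem_Icc.1 hd
      rw [dq_cum n _ this.2, sq0, if_neg (by omega)]
  have h3 : ∑ d ∈ Finset.Icc 1 n, dq (cum n (sq0 θ)) d * (1 - QQ ζ q d)
      = ∑ d ∈ Finset.range (n + 1), dq (cum n (sq0 θ)) d * (1 - QQ ζ q d) := by
    refine Finset.sum_subset (fun d hd => ?_) fun d hd hd' => ?_
    · have := Finset.mem_Icc.1 hd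
      exact Finset.mem_range.2 (by omega)
    · have h4 := Finset.mem_range.1 hd
      have h5 : d = 0 := by
        by_contra h6
        exact hd' (Finset.mem_Icc.2 ⟨by omega, by omega⟩)
      rw [dq_cum n _ (by omega), sq0, if_pos h5, zero_mul]
  rw [h2, h3, ← mul_one (cum n (sq0 θ) 0), pairing]
  refine h1.trans (congrArg _ (Finset.sum_congr rfl fun k _ => ?_))
  ring

end Vale.Agent.P157
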