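import Vale.Agent.P157.Small
import Vale.Agent.P157.Orth
import Vale.Agent.P157.Tensor

/-! # Gaussian interpolation formula for cascades -/

namespace Vale.Agent.P157

open MeasureTheory ProbabilityTheory

namespace DerivAux

variable {W : Type} [NormedAddCommGroup W] [NormedSpace ℝ W] [MeasurableSpace W] [BorelSpace W]
  [SecondCountableTopology W]

theorem jc_mono {K : ℝ} (hK : 0 ≤ K) : Monotone fun d => jc^[d] K := by
  have h0 : ∀ d, 0 ≤ jc^[d] K := fun d => by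
    induction d with
    | zero => exact hK
    | succ d ih =>
      rw [Function.iterate_succ_apply']
      exact ih.trans (le_jc ih)
  refine monotone_nat_of_le_succ fun d => ?_
  rw [Function.iterate_succ_apply']
  exact le_jc (h0 d)

omit [NormedSpace ℝ W] in
theorem Exbb_congr {ζ : ℕ → ℝ} {ν ν' : ℕ → Measure W} {Ψ : W → ℝ} {n d : ℕ} (hd : d ≤ n)
    (h : ∀ j, j < n → ν j = ν' j) (m a : W → ℝ) :
    Ex ζ ν Ψ d (bb ζ ν Ψ m a d) n = Ex ζ ν' Ψ d (bb ζ ν' Ψ m a d) n := by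
  have h1 : ∀ j, j < d → ζ j = ζ j ∧ ν j = ν' j := fun j hj => ⟨rfl, h j (hj.trans_le hd)⟩
  have e : bb ζ ν Ψ m a d = bb ζ ν' Ψ m a d := by
    funext w
    rw [bb, bb, aa_congr h1, Ex_congr h1]
  rw [e, Ex_congr fun j hj => ⟨rfl, h j hj⟩]

theorem Exbb_eq {ζ : ℕ → ℝ} {ν : ℕ → Measure W} {Ψ : W → ℝ} {n d : ℕ} (hd : d < n)
    (m a : W → ℝ) : Ex ζ ν Ψ d (bb ζ ν Ψ m a d) n = Ex ζ ν Ψ (d + 1)
      (fun u => aa ζ ν Ψ m a (d + 1) u + ζ d * Ex ζ ν Ψ 0 m (d + 1) u ^ 2) n := by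
  rw [← Ex_tower d.le_succ hd]
  congr 1
  funext w
  exact bb_pre m a d w

theorem gen {ι : Type} [Fintype ι] [DecidableEq ι] (v : ι → W) (ν : (ι → ℝ) → Measure W)
    (hν : ∀ s, Noise (ν s))
    (hc : ∀ s : ι → ℝ, (∀ i, 0 ≤ s i) → ∀ (i : ι) (h : ℝ), 0 ≤ h →
      ν (Function.update s i (s i + h)) = (line (v i) h).conv (ν s))
    {ζ : ℕ → ℝ} (hζ : Zok ζ) {Ψ : W → ℝ} (hΨ : LG Ψ) {m a : ι → W → ℝ} {K : ℝ}
    (hj : ∀ i, DJet Ψ (v i) (m i) (a i) K) (s u : ℕ → ι → ℝ)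
    (hs : ∀ d i, 0 ≤ s d i) (hsu : ∀ d i, 0 ≤ s d i + u d i) (n : ℕ) (w : W) :
    (∀ t ∈ Set.Icc (0 : ℝ) 1,
      HasDerivWithinAt (fun t : ℝ => X ζ (fun d => ν ((s + t • u) d)) Ψ n w)
      ((∑ d ∈ Finset.range n, ∑ i, u d i * Ex ζ (fun d => ν ((s + t • u) d)) Ψ d
        (bb ζ (fun d => ν ((s + t • u) d)) Ψ (m i) (a i) d) n w) / 2) (Set.Icc 0 1) t) ∧
    ∀ d, d < n → ∀ i, ContinuousOn (fun t : ℝ => Ex ζ (fun d => ν ((s + t • u) d)) Ψ d
        (bb ζ (fun d => ν ((s + t • u) d)) Ψ (m i) (a i) d) n w) (Set.Icc 0 1) := by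
  set N : (ℕ × ι → ℝ) → ℕ → Measure W := fun σ d => ν fun i => σ (d, i) with hN
  have hcas : ∀ σ, Cas ζ (N σ) Ψ := fun σ => ⟨hζ, fun d => hν _, hΨ⟩
  obtain ⟨C, hC0, hC⟩ := one_step (jc^[n] K)
  have hjet : ∀ σ d i, d < n → DJet (X ζ (N σ) Ψ (d + 1)) (v i) (Ex ζ (N σ) Ψ 0 (m i) (d + 1))
      (aa ζ (N σ) Ψ (m i) (a i) (d + 1)) (jc^[n] K) := fun σ d i hd =>
    ((hcas σ).jetX (hj i) (d + 1)).mono (jc_mono (hj i).K0 hd)
  obtain ⟨h1, h2⟩ := orth (Finset.range n ×ˢ Finset.univ) (fun σ => X ζ (N σ) Ψ n w)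
    (fun k σ => Ex ζ (N σ) Ψ k.1 (bb ζ (N σ) Ψ (m k.2) (a k.2) k.1) n w / 2)
    (jc^[n] K + jc^[n] K ^ 2 + C)
    (fun σ _ k hk => by
      have hd : k.1 < n := Finset.mem_range.1 (Finset.mem_product.1 hk).1
      have hJ := hjet σ k.1 k.2 hd
      have h0 := hJ.K0
      have h3 : |Ex ζ (N σ) Ψ k.1 (bb ζ (N σ) Ψ (m k.2) (a k.2) k.1) n w| ≤
          jc^[n] K + jc^[n] K ^ 2 := by
        rw [Exbb_eq hd]
        refine abs_Ex_le _ (fun y => (abs_add_le _ _).trans (add_le_add (hJ.ba y) ?_)) n w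
        rw [abs_mul, abs_of_nonneg (hζ.nn _), abs_pow]
        exact (mul_le_of_le_one_left (by positivity) (hζ.le_one _)).trans
          (pow_le_pow_left₀ (abs_nonneg _) (hJ.bm y) 2)
      rw [abs_div, abs_two]
      linarith [abs_nonneg (Ex ζ (N σ) Ψ k.1 (bb ζ (N σ) Ψ (m k.2) (a k.2) k.1) n w)])
    (fun σ hσ k hk h h0 h1 => by
      obtain ⟨d, i⟩ := k
      have hd : d < n := Finset.mem_range.1 (Finset.mem_product.1 hk).1
      have hJ := hjet σ d i hd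
      have e : N (Function.update σ (d, i) (σ (d, i) + h)) =
          Function.update (N σ) d ((line (v i) h).conv (N σ d)) := by
        funext j
        by_cases hjd : j = d
        · subst hjd
          rw [Function.update_self, hN]
          refine Eq.trans ?_ (hc _ (fun i => hσ (j, i)) i h h0)
          refine congrArg ν (funext fun i' => ?_)
          by_cases hi : i' = i
          · subst hi
            simp
          · simp [hi]
        · rw [Function.update_of_ne hjd, hN]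
          refine congrArg ν (funext fun i' => ?_)
          simp [hjd]
      have h3 := hC W ζ (N σ) Ψ (hcas σ) d n hd (v i) _ _ hJ h h0 h1 w
      rw [← Exbb_eq hd, ← e] at h3
      have h4 : 0 ≤ (jc^[n] K + jc^[n] K ^ 2) * (h * √h) :=
        mul_nonneg (by linarith [hJ.K0, sq_nonneg (jc^[n] K)]) (by positivity)
      rw [← mul_div_assoc, mul_div_right_comm]
      linarith)
    (fun k => s k.1 k.2) (fun k => if k.1 < n then u k.1 k.2 else 0) (fun k => hs _ _)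
    (fun k => by
      split_ifs
      · exact hsu _ _
      · simpa using hs _ _)
    (fun k hk => if_neg fun h => hk (Finset.mem_product.2
      ⟨Finset.mem_range.2 h, Finset.mem_univ _⟩))
  have e : ∀ (t : ℝ) (j : ℕ), j < n → N ((fun k : ℕ × ι => s k.1 k.2) +
      t • fun k : ℕ × ι => if k.1 < n then u k.1 k.2 else 0) j = ν ((s + t • u) j) := by
    intro t j hj
    refine congrArg ν (funext fun i => ?_)
    simp [hj]
  refine ⟨fun t ht => ?_, fun d hd i => ?_⟩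
  · have h3 := h1 t ht
    simp only [fun t => X_congr (ζ := ζ) (ζ' := ζ) (Ψ := Ψ) fun j hj => ⟨rfl, e t j hj⟩] at h3
    refine h3.congr_deriv ?_
    rw [Finset.sum_product, Finset.sum_div]
    refine Finset.sum_congr rfl fun d hd => ?_
    rw [Finset.sum_div]
    refine Finset.sum_congr rfl fun i _ => ?_
    have hd' := Finset.mem_range.1 hd
    simp only [if_pos hd']
    rw [Exbb_congr hd'.le (e t), mul_div_assoc]
  · have h3 := (h2 (d, i) (Finset.mem_product.2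
      ⟨Finset.mem_range.2 hd, Finset.mem_univ _⟩)).mul (continuousOn_const (c := 2))
    refine h3.congr fun t _ => ?_
    simp only [Pi.mul_apply]
    rw [Exbb_congr hd.le (e t), div_mul_cancel₀ _ two_ne_zero]

end DerivAux

theorem deriv_X {ι : Type} [Fintype ι] [DecidableEq ι] {ζ : ℕ → ℝ} (hζ : Zok ζ)
    {Ψ : (ι → ℝ) → ℝ} (hΨ : LG Ψ) {m a : ι → (ι → ℝ) → ℝ} {K : ℝ}
    (hj : ∀ i, DJet Ψ (Pi.single i 1) (m i) (a i) K) (s u : ℕ → ι → ℝ)
    (hs : ∀ d i, 0 ≤ s d i) (hsu : ∀ d i, 0 ≤ s d i + u d i) (n : ℕ) (w : ι → ℝ) :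
    ∀ t ∈ Set.Icc (0 : ℝ) 1, HasDerivWithinAt (fun t : ℝ => X ζ (gvs (s + t • u)) Ψ n w)
      ((∑ d ∈ Finset.range n, ∑ i, u d i *
        Ex ζ (gvs (s + t • u)) Ψ d (bb ζ (gvs (s + t • u)) Ψ (m i) (a i) d) n w) / 2)
      (Set.Icc 0 1) t :=
  (DerivAux.gen (fun i => Pi.single i (1 : ℝ)) gv noise_gv
    (fun _ hs i _ hh => gv_conv_line hs i hh) hζ hΨ hj s u hs hsu n w).1

theorem deriv_X1 {ζ : ℕ → ℝ} (hζ : Zok ζ) {f m a : ℝ → ℝ} (hf : LG f) {K : ℝ}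
    (hj : DJet f 1 m a K) (v u : ℕ → ℝ) (hv : ∀ d, 0 ≤ v d) (hvu : ∀ d, 0 ≤ v d + u d)
    (n : ℕ) (x : ℝ) :
    (∀ t ∈ Set.Icc (0 : ℝ) 1, HasDerivWithinAt (fun t : ℝ => X ζ (g1s (v + t • u)) f n x)
      ((∑ d ∈ Finset.range n, u d *
        Ex ζ (g1s (v + t • u)) f d (bb ζ (g1s (v + t • u)) f m a d) n x) / 2)
      (Set.Icc 0 1) t) ∧
    ∀ d, d < n → ContinuousOn
      (fun t : ℝ => Ex ζ (g1s (v + t • u)) f d (bb ζ (g1s (v + t • u)) f m a d) n x)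
      (Set.Icc 0 1) := by
  obtain ⟨h1, h2⟩ := DerivAux.gen (ι := Unit) (fun _ => (1 : ℝ)) (fun s => g1 (s ()))
    (fun s => noise_g1 _) (fun s hs i h hh => by
      rw [line_one, ← g1_conv (hs ()) hh]
      simp) hζ hf (m := fun _ => m) (a := fun _ => a) (fun _ => hj) (fun d _ => v d)
      (fun d _ => u d) (fun d _ => hv d) (fun d _ => hvu d) n x
  refine ⟨fun t ht => ?_, fun d hd => h2 d hd ()⟩
  have h3 := h1 t ht
  simp only [Finset.univ_unique, Finset.sum_singleton] at h3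
  exact h3

/-- Sub-Gaussian bound for a function with a bounded weighted gradient. -/
theorem sub_gaussian {ι : Type} [Fintype ι] [DecidableEq ι] {ζ : ℝ} (h0 : 0 ≤ ζ) (h1 : ζ ≤ 1)
    {Ψ : (ι → ℝ) → ℝ} (hΨ : LG Ψ) {m a : ι → (ι → ℝ) → ℝ} {K : ℝ}
    (hj : ∀ i, DJet Ψ (Pi.single i 1) (m i) (a i) K) {s : ι → ℝ} (hs : ∀ i, 0 ≤ s i) {L2 : ℝ}
    (hL : ∀ w, ∑ i, s i * m i w ^ 2 ≤ L2) (w : ι → ℝ) :
    T ζ (gv s) Ψ w ≤ T 0 (gv s) Ψ w + ζ * L2 / 2 := by
  set z : ℕ → ℝ := fun d => if d = 0 then ζ else 0 with hz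
  set s0 : ℕ → ι → ℝ := fun d => if d = 0 then 0 else s with hs0
  set u : ℕ → ι → ℝ := fun d => if d = 0 then s else -s with hu
  have hzok : Zok z := ⟨antitone_nat_of_succ_le fun d => by
    by_cases hd : d = 0 <;> simp [hz, hd, h0], fun d => by
    by_cases hd : d = 0 <;> simp [hz, hd, h0], by simpa [hz] using h1⟩
  have hd := deriv_X hzok hΨ hj s0 u (fun d i => by
    by_cases hd : d = 0 <;> simp [hs0, hd, hs i]) (fun d i => by
    by_cases hd : d = 0 <;> simp [hs0, hu, hd, hs i]) 2 w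
  have key := le_of_derivWithin (κ := ζ * L2 / 2) hd fun t _ => by
    have hc := cas_gvs hzok (s0 + t • u) hΨ
    have f0 := fun i => hc.bb_formula (hj i).bm_m (hj i).bm_a (Nat.zero_le 2) w
    have f1 := fun i => hc.bb_formula (hj i).bm_m (hj i).bm_a (Nat.le_succ 1) w
    have b1 : ∀ i, Ex z (gvs (s0 + t • u)) Ψ 1
        (fun y => Ex z (gvs (s0 + t • u)) Ψ 0 (m i) 1 y ^ 2) 2 w ≤
        Ex z (gvs (s0 + t • u)) Ψ 0 (fun y => m i y ^ 2) 2 w := fun i => by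
      rw [← Ex_tower (k := 0) (l := 1) (d := 2) (Nat.zero_le 1) (Nat.le_succ 1)]
      exact hc.Ex_mono 1 ((hc.bmEx 0 (hj i).bm_m 1).pow 2) (hc.bmEx 0 ((hj i).bm_m.pow 2) 1)
        (fun y => hc.sq_Ex_le 0 (hj i).bm_m 1 y) 2 w
    have b2 : ∑ i, s i * Ex z (gvs (s0 + t • u)) Ψ 0 (fun y => m i y ^ 2) 2 w ≤ L2 := by
      simp only [← Ex_const_mul]
      rw [← hc.Ex_sum 0 _ fun i _ => ((hj i).bm_m.pow 2).const_mul (s i), ← hc.Ex_const 0 L2 2 w]
      exact hc.Ex_mono 0 (BM.sum _ fun i _ => ((hj i).bm_m.pow 2).const_mul (s i)) (BM.const _)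
        hL 2 w
    have b3 := mul_le_mul_of_nonneg_left ((Finset.sum_le_sum fun i _ =>
      mul_le_mul_of_nonneg_left (b1 i) (hs i)).trans b2) h0
    rw [Finset.sum_range_succ, Finset.sum_range_one, ← Finset.sum_add_distrib]
    refine div_le_div_of_nonneg_right (le_trans (le_of_eq ?_) b3) two_pos.le
    rw [Finset.mul_sum]
    refine Finset.sum_congr rfl fun i _ => ?_
    rw [f0, f1]
    simp only [hu, hz, Finset.range_zero, Finset.sum_empty, Finset.sum_range_one, if_true,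
      zero_add, one_ne_zero, if_false, Pi.neg_apply]
    ring
  have e0 : gv (0 : ι → ℝ) = Measure.dirac 0 := gv_of_nonpos fun _ => le_rfl
  have e1 : X z (gvs (s0 + (1 : ℝ) • u)) Ψ 2 w = T ζ (gv s) Ψ w := by
    simp [X, gvs, hs0, hu, hz, e0, T_dirac]
  have e2 : X z (gvs (s0 + (0 : ℝ) • u)) Ψ 2 w = T 0 (gv s) Ψ w := by
    simp [X, gvs, hs0, hz, e0, T_dirac]
  rw [e1, e2] at key
  linarith

end Vale.Agent.P157
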