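import Vale.Agent.P157.Deriv

/-! # Monotonicity in `|x|` for one dimensional cascades -/

namespace Vale.Agent.P157

open MeasureTheory ProbabilityTheory

theorem EN.le_of_abs_le {g : ℝ → ℝ} (h : EN g) {x y : ℝ} (hxy : |x| ≤ |y|) : g x ≤ g y := by
  have e : ∀ t, g |t| = g t := fun t => by
    rcases abs_choice t with h1 | h1
    · rw [h1]
    · rw [h1, h.1]
  rw [← e x, ← e y]
  exact h.2 (abs_nonneg x) (abs_nonneg y) hxy

/-- Chebyshev's association inequality. -/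
theorem cheb {Ω : Type} [MeasurableSpace Ω] (ν : Measure Ω) [IsProbabilityMeasure ν]
    {F G : Ω → ℝ} (hF : Integrable F ν) (hG : Integrable G ν)
    (hFG : Integrable (fun ω => F ω * G ω) ν) (h : ∀ ω ω', 0 ≤ (F ω - F ω') * (G ω - G ω')) :
    (∫ ω, F ω ∂ν) * ∫ ω, G ω ∂ν ≤ ∫ ω, F ω * G ω ∂ν := by
  set a := ∫ ω, F ω ∂ν with ha
  set b := ∫ ω, G ω ∂ν with hb
  set c := ∫ ω, F ω * G ω ∂ν with hc
  have h1 : ∀ ω, b * F ω + a * G ω ≤ F ω * G ω + c := fun ω => by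
    have h2 : ∫ ω', (F ω * G ω' + G ω * F ω') ∂ν ≤ ∫ ω', (F ω * G ω + F ω' * G ω') ∂ν :=
      integral_mono ((hG.const_mul _).add (hF.const_mul _)) ((integrable_const _).add hFG)
        fun ω' => by
          have := h ω ω'
          simp only
          linarith
    rw [integral_add (hG.const_mul _) (hF.const_mul _), integral_add (integrable_const _) hFG,
      integral_const_mul, integral_const_mul, integral_const, probReal_univ, one_smul] at h2
    linarith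
  have h3 : ∫ ω, (b * F ω + a * G ω) ∂ν ≤ ∫ ω, (F ω * G ω + c) ∂ν :=
    integral_mono ((hF.const_mul _).add (hG.const_mul _)) (hFG.add (integrable_const _)) h1
  rw [integral_add (hF.const_mul _) (hG.const_mul _), integral_add hFG (integrable_const _),
    integral_const_mul, integral_const_mul, integral_const, probReal_univ, one_smul] at h3
  linarith

namespace MlrAux

theorem int_exp_mul {Ω : Type} [MeasurableSpace Ω] {ν : Measure Ω} {A g : Ω → ℝ} (hA : EInt ν A)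
    (hg : EInt ν g) : Integrable (fun ω => Real.exp (A ω) * g ω) ν := by
  refine ((hA.add hg.abs).2 1).mono' (hA.1.exp.mul hg.1).aestronglyMeasurable
    (ae_of_all _ fun ω => ?_)
  rw [Real.norm_eq_abs, abs_mul, abs_of_pos (Real.exp_pos _), one_mul, Real.exp_add]
  exact mul_le_mul_of_nonneg_left (by linarith [Real.add_one_le_exp |g ω|]) (Real.exp_pos _).le

theorem comono {D g : ℝ → ℝ} (hD : EN D) (hg : EN g) (y y' : ℝ) :
    0 ≤ (D y - D y') * (g y - g y') := by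
  rcases le_total |y| |y'| with h | h
  · exact mul_nonneg_of_nonpos_of_nonpos (sub_nonpos.2 (hD.le_of_abs_le h))
      (sub_nonpos.2 (hg.le_of_abs_le h))
  · exact mul_nonneg (sub_nonneg.2 (hD.le_of_abs_le h)) (sub_nonneg.2 (hg.le_of_abs_le h))

theorem EN_smul {D : ℝ → ℝ} (hD : EN D) {c : ℝ} (hc : 0 ≤ c) : EN fun y => c * D y :=
  ⟨fun y => by simp only [hD.1 y], fun _ ha _ hb h => mul_le_mul_of_nonneg_left (hD.2 ha hb h) hc⟩

theorem eint0 (v : ℝ) {Ψ : ℝ → ℝ} (h : LG Ψ) : EInt (g1 v) Ψ := by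
  simpa only [zero_add] using h.eint (noise_g1 v) 0

theorem eint_lin (v c : ℝ) : EInt (g1 v) fun y => c * y :=
  EInt.const_mul ⟨measurable_id, fun c => integrable_exp_mul_gaussianReal c⟩ c

theorem eint_lc (v c : ℝ) : EInt (g1 v) fun y => lc (c * y) := by
  refine (eint_lin v c).of_le (lg_lc.1.comp (measurable_const_mul c)) (C := 0) (D := 2)
    fun y => ?_
  have := djet_lc.lip 0 (c * y)
  simpa [lc] using this

theorem tanh_mono : Monotone Real.tanh :=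
  monotone_of_hasDerivAt_nonneg JetAux.hasDerivAt_tanh fun x => sub_nonneg.2 (JetAux.tanh_sq_le x)

theorem tanh_nonneg {x : ℝ} (h : 0 ≤ x) : 0 ≤ Real.tanh x := Real.tanh_zero ▸ tanh_mono h

theorem monoOn {f f' : ℝ → ℝ} (h : ∀ x, HasDerivAt f (f' x) x) (h0 : ∀ x, 0 ≤ x → 0 ≤ f' x) :
    MonotoneOn f (Set.Ici 0) :=
  monotoneOn_of_hasDerivWithinAt_nonneg (convex_Ici 0)
    (fun x _ => (h x).continuousAt.continuousWithinAt) (fun x _ => (h x).hasDerivWithinAt)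
    fun x hx => h0 x (interior_subset hx)

theorem jet_deriv {Ψ m a : ℝ → ℝ} {K : ℝ} (h : DJet Ψ 1 m a K) (x : ℝ) :
    HasDerivAt Ψ (m x) x ∧ HasDerivAt m (a x) x := by
  have h1 := h.hasDerivAt 0 x
  have h2 := h.hasDerivAt_m 0 x
  simp only [zero_add, smul_eq_mul, mul_one] at h1 h2
  exact ⟨h1, h2⟩

theorem lc_neg (x : ℝ) : lc (-x) = lc x := by rw [lc, lc, Real.cosh_neg]

theorem EN_lc_sub {a a' : ℝ} (h0 : 0 ≤ a) (h : a ≤ a') :
    EN fun y => lc (a' * y) - lc (a * y) := by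
  refine ⟨fun y => by simp only [mul_neg, lc_neg], ?_⟩
  have d : ∀ c y : ℝ, HasDerivAt (fun y => lc (c * y)) (Real.tanh (c * y) * c) y := fun c y => by
    have := ((jet_deriv djet_lc (c * y)).1).comp y ((hasDerivAt_id' y).const_mul c)
    rwa [mul_one] at this
  refine monoOn (fun y => (d a' y).fun_sub (d a y)) fun y hy => sub_nonneg.2 ?_
  exact mul_le_mul (tanh_mono (mul_le_mul_of_nonneg_right h hy)) h h0
    (tanh_nonneg (mul_nonneg (h0.trans h) hy))

theorem odd_nonneg {m : ℝ → ℝ} (hodd : ∀ x, m (-x) = -m x) (hm : Monotone m) {x : ℝ}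
    (hx : 0 ≤ x) : 0 ≤ m x := by
  have h0 := hodd 0
  rw [neg_zero] at h0
  have := hm hx
  linarith

theorem shift_sym {v : ℝ} (hv : 0 < v) (x : ℝ) {A g w : ℝ → ℝ} (hA : EInt (g1 v) A)
    (hg : EInt (g1 v) g) (hAe : ∀ y, A (-y) = A y) {ε : ℝ} (hge : ∀ y, g (-y) = ε * g y)
    (hw : ∀ t, Real.exp t + ε * Real.exp (-t) = 2 * (Real.cosh t * w t)) :
    ∫ z, Real.exp (A (x + z)) * g (x + z) ∂(g1 v) = Real.exp (-(x ^ 2 / (2 * v))) *
      ∫ y, Real.exp (1 * (A y + lc (x / v * y))) * (g y * w (x / v * y)) ∂(g1 v) := by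
  have h1 := cameron_martin_one hv x (F := fun y => Real.exp (A y) * g y) (hA.1.exp.mul hg.1)
  set H : ℝ → ℝ := fun z => Real.exp (A z + x / v * z) * g z with hH
  have iH : Integrable H (g1 v) := int_exp_mul (hA.add (eint_lin v (x / v))) hg
  have mp : MeasurePreserving (fun z : ℝ => -z) (g1 v) (g1 v) := ⟨measurable_neg, g1_map_neg v⟩
  have iH' : Integrable (fun z => H (-z)) (g1 v) := mp.integrable_comp_of_integrable iH
  have h2 : ∫ z, H (-z) ∂(g1 v) = ∫ z, H z ∂(g1 v) := by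
    rw [← integral_map measurable_neg.aemeasurable (by rw [g1_map_neg]; exact iH.1), g1_map_neg]
  have h3 : ∫ z, (H z + H (-z)) ∂(g1 v) =
      ∫ y, 2 * (Real.exp (1 * (A y + lc (x / v * y))) * (g y * w (x / v * y))) ∂(g1 v) := by
    refine integral_congr_ae (ae_of_all _ fun y => ?_)
    simp only [hH, hAe, hge, one_mul, Real.exp_add, lc, Real.exp_log (Real.cosh_pos _), mul_neg]
    linear_combination Real.exp (A y) * g y * hw (x / v * y)
  rw [integral_add iH iH', h2, integral_const_mul] at h3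
  have h4 : ∫ z, H z ∂(g1 v) =
      ∫ y, Real.exp (1 * (A y + lc (x / v * y))) * (g y * w (x / v * y)) ∂(g1 v) := by linarith
  rw [h1, ← h4, ← integral_const_mul]
  refine integral_congr_ae (ae_of_all _ fun z => ?_)
  simp only [hH, Real.exp_add, sub_eq_add_neg]
  rw [show x * z / v = x / v * z by ring]
  ring

theorem P_rep {v : ℝ} (hv : 0 < v) (ζ x : ℝ) {Ψ g w : ℝ → ℝ} (hΨ : LG Ψ) (hg : LG g)
    (h : ∀ y, Ψ (-y) = Ψ y) {ε : ℝ} (hge : ∀ y, g (-y) = ε * g y)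
    (hw : ∀ t, Real.exp t + ε * Real.exp (-t) = 2 * (Real.cosh t * w t)) :
    P ζ (g1 v) Ψ g x =
      gexp (g1 v) 1 (fun y => ζ * Ψ y + lc (x / v * y)) fun y => g y * w (x / v * y) := by
  have hA := (eint0 v hΨ).const_mul ζ
  have hAe : ∀ y, ζ * Ψ (-y) = ζ * Ψ y := fun y => by rw [h]
  have h1 := shift_sym hv x hA (eint0 v hg) hAe hge hw
  have h2 := shift_sym hv x hA (EInt.const 1) hAe (ε := 1) (w := fun _ => 1) (fun _ => by simp)
    fun t => by rw [Real.cosh_eq]; ring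
  simp only [mul_one] at h2
  rw [P, gexp_eq, gexp_eq, h1, h2, mul_div_mul_left _ _ (Real.exp_pos _).ne']

theorem T_bound {ζ : ℝ} (hζ : 0 ≤ ζ) (v : ℝ) {Ψ : ℝ → ℝ} (hΨ : LG Ψ) {K : ℝ}
    (hK : ∀ w t, |Ψ (w + t) - Ψ w| ≤ K * |t|) : ∃ C, ∀ x, |T ζ (g1 v) Ψ x - Ψ x| ≤ C := by
  have e1 : ∀ c : ℝ, EInt (g1 v) fun z => c * |z| := fun c =>
    EInt.const_mul ⟨measurable_norm, (noise_g1 v).ex⟩ c
  refine ⟨|lse (g1 v) ζ (fun z => K * |z|)| + |lse (g1 v) ζ (fun z => -K * |z|)|, fun x => ?_⟩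
  have a1 := lse_mono hζ (hΨ.eint (noise_g1 v) x) ((e1 K).add (EInt.const (Ψ x)))
    fun z => by linarith [(abs_le.1 (hK x z)).2]
  have a2 := lse_mono hζ ((e1 (-K)).add (EInt.const (Ψ x))) (hΨ.eint (noise_g1 v) x)
    fun z => by linarith [(abs_le.1 (hK x z)).1]
  rw [lse_add_const (e1 _).integrable ((e1 _).2 ζ)] at a1 a2
  rw [T, abs_le]
  constructor
  · linarith [abs_nonneg (lse (g1 v) ζ fun z => K * |z|),
      neg_abs_le (lse (g1 v) ζ fun z => -K * |z|)]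
  · linarith [le_abs_self (lse (g1 v) ζ fun z => K * |z|),
      abs_nonneg (lse (g1 v) ζ fun z => -K * |z|)]

end MlrAux

open MlrAux

/-- A tilt that favours large values of `r` increases averages of nondecreasing functions
of `r`. -/
theorem gexp_le_of_comono {Ω : Type} [MeasurableSpace Ω] (ν : Measure Ω) [IsProbabilityMeasure ν]
    {F F' g : Ω → ℝ} (hF : EInt ν F) (hF' : EInt ν F') (hg : EInt ν g)
    (h : ∀ ω ω', 0 ≤ ((F' ω - F ω) - (F' ω' - F ω')) * (g ω - g ω')) :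
    gexp ν 1 F g ≤ gexp ν 1 F' g := by
  have := hF.prob_tilted 1
  have hD := hF.tilted ((hF'.sub hF).const_mul 1) 1
  have hg' := hF.tilted hg 1
  have i1 : Integrable (fun ω => Real.exp (1 * (F' ω - F ω))) (ν.tilted fun ω => 1 * F ω) :=
    (hF.tilted (hF'.sub hF) 1).2 1
  have h1 := cheb _ i1 hg'.integrable (int_exp_mul hD hg') fun ω ω' => by
    have h2 := h ω ω'
    simp only [one_mul]
    rcases lt_trichotomy (F' ω - F ω) (F' ω' - F ω') with c | c | c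
    · exact mul_nonneg_of_nonpos_of_nonpos (sub_nonpos.2 (Real.exp_le_exp.2 c.le))
        (nonpos_of_mul_nonneg_right h2 (sub_neg.2 c))
    · rw [c, sub_self, zero_mul]
    · exact mul_nonneg (sub_nonneg.2 (Real.exp_le_exp.2 c.le))
        (nonneg_of_mul_nonneg_right h2 (sub_pos.2 c))
  have h3 := gexp_change 1 hF hF' g
  have h4 := gexp_change 1 hF hF' fun _ => 1
  rw [gexp_const 1 hF'] at h4
  simp only [mul_comm (g _)] at h3
  simp only [one_mul (Real.exp _)] at h4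
  have h5 := mul_le_mul_of_nonneg_right h1
    (Real.exp_pos (-(1 * (lse ν 1 F' - lse ν 1 F)))).le
  rw [h3]
  refine le_trans (le_of_eq ?_) h5
  rw [mul_right_comm]
  exact (one_mul _).symm.trans (congrArg (· * gexp ν 1 F g) h4)

theorem gexp_eq_one {Ω : Type} [MeasurableSpace Ω] (ν : Measure Ω) (ζ : ℝ) (F g : Ω → ℝ) :
    gexp ν ζ F g = gexp ν 1 (fun ω => ζ * F ω) g := by
  simp only [gexp, one_mul]

theorem T_even (ζ v : ℝ) {Ψ : ℝ → ℝ} (hm : Measurable Ψ) (h : ∀ x, Ψ (-x) = Ψ x) (x : ℝ) :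
    T ζ (g1 v) Ψ (-x) = T ζ (g1 v) Ψ x := by
  have := lse_map (ν := g1 v) measurable_neg ζ (hm.comp (measurable_const_add (-x)))
  simp only [Function.comp_def, ← neg_add, h] at this
  rw [g1_map_neg] at this
  exact this

theorem P_even (ζ v : ℝ) {Ψ g : ℝ → ℝ} (hm : Measurable Ψ) (hg : Measurable g)
    (h : ∀ x, Ψ (-x) = Ψ x) (h' : ∀ x, g (-x) = g x) (x : ℝ) :
    P ζ (g1 v) Ψ g (-x) = P ζ (g1 v) Ψ g x := by
  have := gexp_map (ν := g1 v) measurable_neg ζ (hm.comp (measurable_const_add (-x)))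
    (hg.comp (measurable_const_add (-x)))
  simp only [Function.comp_def, ← neg_add, h, h'] at this
  rw [g1_map_neg] at this
  exact this

theorem P_odd (ζ v : ℝ) {Ψ g : ℝ → ℝ} (hm : Measurable Ψ) (hg : Measurable g)
    (h : ∀ x, Ψ (-x) = Ψ x) (h' : ∀ x, g (-x) = -g x) (x : ℝ) :
    P ζ (g1 v) Ψ g (-x) = -P ζ (g1 v) Ψ g x := by
  have := gexp_map (ν := g1 v) measurable_neg ζ (hm.comp (measurable_const_add (-x)))
    (hg.comp (measurable_const_add (-x)))
  simp only [Function.comp_def, ← neg_add, h, h'] at this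
  rw [g1_map_neg] at this
  exact this.trans (integral_neg _)

/-- The tilted kernel preserves even functions that are nondecreasing in `|x|`. -/
theorem P_EN (ζ v : ℝ) {Ψ g : ℝ → ℝ} (hΨ : LG Ψ) (h : ∀ x, Ψ (-x) = Ψ x) (hg : LG g)
    (hEN : EN g) : EN (P ζ (g1 v) Ψ g) := by
  rcases le_or_gt v 0 with hv | hv
  · rwa [g1_of_nonpos hv, P_dirac]
  refine ⟨P_even ζ v hΨ.1 hg.1 h hEN.1, fun x hx x' _ hxx => ?_⟩
  have e : ∀ x, P ζ (g1 v) Ψ g x = gexp (g1 v) 1 (fun y => ζ * Ψ y + lc (x / v * y)) g :=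
    fun x => by
      simpa only [mul_one] using P_rep hv ζ x hΨ hg h (ε := 1) (w := fun _ => 1)
        (fun y => by rw [hEN.1, one_mul]) fun t => by rw [Real.cosh_eq]; ring
  have hA := (eint0 v hΨ).const_mul ζ
  rw [e, e]
  refine gexp_le_of_comono _ (hA.add (eint_lc v _)) (hA.add (eint_lc v _)) (eint0 v hg)
    fun y y' => ?_
  simpa only [add_sub_add_left_eq_sub] using
    comono (EN_lc_sub (div_nonneg hx hv.le) (div_le_div_of_nonneg_right hxx hv.le)) hEN y y'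

theorem P_le_P_of_EN {ζ : ℝ} (hζ : 0 ≤ ζ) (v : ℝ) {Ψ Ψ' g : ℝ → ℝ} (hΨ : LG Ψ) (hΨ' : LG Ψ')
    (hd : EN fun x => Ψ' x - Ψ x) (hg : LG g) (hEN : EN g) (x : ℝ) :
    P ζ (g1 v) Ψ g x ≤ P ζ (g1 v) Ψ' g x := by
  rw [P, P, gexp_eq_one, gexp_eq_one _ ζ]
  refine gexp_le_of_comono _ ((hΨ.eint (noise_g1 v) x).const_mul ζ)
    ((hΨ'.eint (noise_g1 v) x).const_mul ζ) (hg.eint (noise_g1 v) x) fun z z' => ?_
  simpa only [mul_sub] using comono (EN_smul hd hζ) hEN (x + z) (x + z')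

theorem P_le_P_zeta {ζ' ζ : ℝ} (h : ζ' ≤ ζ) (v : ℝ) {Ψ g : ℝ → ℝ} (hΨ : LG Ψ) (hE : EN Ψ)
    (hg : LG g) (hEN : EN g) (x : ℝ) : P ζ' (g1 v) Ψ g x ≤ P ζ (g1 v) Ψ g x := by
  rw [P, P, gexp_eq_one, gexp_eq_one _ ζ]
  refine gexp_le_of_comono _ ((hΨ.eint (noise_g1 v) x).const_mul ζ')
    ((hΨ.eint (noise_g1 v) x).const_mul ζ) (hg.eint (noise_g1 v) x) fun z z' => ?_
  simpa only [← sub_mul] using comono (EN_smul hE (sub_nonneg.2 h)) hEN (x + z) (x + z')

theorem T_sub_T_EN {ζ : ℝ} (hζ : 0 ≤ ζ) (v : ℝ) {Ψ Ψ' : ℝ → ℝ} (hΨ : LG Ψ)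
    (h : ∀ x, Ψ (-x) = Ψ x) (hΨ' : LG Ψ') (hd : EN fun x => Ψ' x - Ψ x)
    (hb : BM fun x => Ψ' x - Ψ x) : EN fun x => T ζ (g1 v) Ψ' x - T ζ (g1 v) Ψ x := by
  have h' : ∀ x, Ψ' (-x) = Ψ' x := fun x => by
    have := hd.1 x
    simp only [h] at this
    linarith
  have e : ∀ x, T ζ (g1 v) Ψ' x - T ζ (g1 v) Ψ x =
      lse ((g1 v).tilted fun z => ζ * Ψ (x + z)) ζ fun z => Ψ' (x + z) - Ψ (x + z) := fun x =>
    lse_sub ζ (hΨ.eint (noise_g1 v) x) (hΨ'.eint (noise_g1 v) x)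
  refine ⟨fun x => by simp only [T_even ζ v hΨ.1 h, T_even ζ v hΨ'.1 h'], fun x hx y hy hxy => ?_⟩
  simp only [e]
  rcases hζ.eq_or_lt with h0 | h0
  · simp only [lse, if_pos h0.symm]
    exact (P_EN ζ v hΨ h hb.lg hd).2 hx hy hxy
  · have hE : EN fun x => Real.exp (ζ * (Ψ' x - Ψ x)) :=
      ⟨fun x => by simp only [h, h'], fun a ha b hb' hab =>
        Real.exp_le_exp.2 ((EN_smul hd hζ).2 ha hb' hab)⟩
    have h1 := (P_EN ζ v hΨ h (hb.const_mul ζ).exp.lg hE).2 hx hy hxy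
    have e2 : ∀ x, P ζ (g1 v) Ψ (fun x => Real.exp (ζ * (Ψ' x - Ψ x))) x = Real.exp (ζ *
        lse ((g1 v).tilted fun z => ζ * Ψ (x + z)) ζ fun z => Ψ' (x + z) - Ψ (x + z)) := fun x => by
      have := (hΨ.eint (noise_g1 v) x).prob_tilted ζ
      exact (exp_mul_lse (((hΨ.eint (noise_g1 v) x).tilted
        ((hΨ'.sub hΨ).eint (noise_g1 v) x) ζ).2 ζ)).symm
    rw [e2, e2, Real.exp_le_exp] at h1
    exact le_of_mul_le_mul_left h1 h0

/-- Dependence on the exponent, for an even function with odd nondecreasing derivative. -/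
theorem T_zeta_EN {ζ' ζ : ℝ} (h0 : 0 ≤ ζ') (h : ζ' ≤ ζ) (h1 : ζ ≤ 1) (v : ℝ) {Ψ m a : ℝ → ℝ}
    (hΨ : LG Ψ) (hE : EN Ψ) {K : ℝ} (hj : DJet Ψ 1 m a K) (hodd : ∀ x, m (-x) = -m x)
    (hmono : Monotone m) :
    (EN fun x => T ζ (g1 v) Ψ x - T ζ' (g1 v) Ψ x) ∧
      BM fun x => T ζ (g1 v) Ψ x - T ζ' (g1 v) Ψ x := by
  have hζ := h0.trans h
  constructor
  · refine ⟨fun x => by simp only [T_even _ v hΨ.1 hE.1], ?_⟩
    refine monoOn (fun x => (jet_deriv (hj.step hζ h1 (noise_g1 v) hΨ) x).1.fun_sub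
      (jet_deriv (hj.step h0 (h.trans h1) (noise_g1 v) hΨ) x).1) fun x hx => sub_nonneg.2 ?_
    rcases le_or_gt v 0 with hv | hv
    · rw [g1_of_nonpos hv, P_dirac, P_dirac]
    have hw : ∀ t, Real.exp t + -1 * Real.exp (-t) = 2 * (Real.cosh t * Real.tanh t) := fun t => by
      rw [Real.tanh_eq_sinh_div_cosh, mul_div_cancel₀ _ (Real.cosh_pos t).ne', Real.sinh_eq]
      ring
    have ho : ∀ y, m (-y) = -1 * m y := fun y => by rw [hodd, neg_one_mul]
    have hc : 0 ≤ x / v := div_nonneg hx hv.le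
    have hg : EN fun y => m y * Real.tanh (x / v * y) :=
      ⟨fun y => by simp only [hodd, mul_neg, Real.tanh_neg, neg_mul, neg_neg], fun a ha b hb hab =>
        mul_le_mul (hmono hab) (tanh_mono (mul_le_mul_of_nonneg_left hab hc))
          (tanh_nonneg (mul_nonneg hc ha)) (odd_nonneg hodd hmono hb)⟩
    have hB : BM fun y => m y * Real.tanh (x / v * y) := hj.bm_m.mul
      ⟨djet_lc.mm.comp (measurable_const_mul _), 2, fun y => djet_lc.bm _⟩
    rw [P_rep hv ζ' x hΨ hj.bm_m.lg hE.1 ho hw, P_rep hv ζ x hΨ hj.bm_m.lg hE.1 ho hw]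
    refine gexp_le_of_comono _ (((eint0 v hΨ).const_mul _).add (eint_lc v _))
      (((eint0 v hΨ).const_mul _).add (eint_lc v _)) hB.eint fun y y' => ?_
    simpa only [add_sub_add_right_eq_sub, ← sub_mul] using
      comono (EN_smul hE (sub_nonneg.2 h)) hg y y'
  · have hK : ∀ w t, |Ψ (w + t) - Ψ w| ≤ K * |t| := fun w t => by
      simpa only [smul_eq_mul, mul_one] using hj.lip w t
    obtain ⟨C, hC⟩ := T_bound hζ v hΨ hK
    obtain ⟨C', hC'⟩ := T_bound h0 v hΨ hK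
    refine ⟨(measurable_T _ _ hΨ.1).sub (measurable_T _ _ hΨ.1), C + C', fun x => ?_⟩
    beta_reduce
    rw [← sub_sub_sub_cancel_right _ _ (Ψ x)]
    exact (abs_sub _ _).trans (add_le_add (hC x) (hC' x))

/-- Structure of the cascade started from `log cosh`. -/
theorem lc_structure {ζ : ℕ → ℝ} (hζ : Zok ζ) (v : ℕ → ℝ) (d : ℕ) :
    EN (X ζ (g1s v) lc d) ∧
    (∀ x, Ex ζ (g1s v) lc 0 Real.tanh d (-x) = -Ex ζ (g1s v) lc 0 Real.tanh d x) ∧
    Monotone (Ex ζ (g1s v) lc 0 Real.tanh d) ∧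
    EN fun x => Ex ζ (g1s v) lc 0 Real.tanh d x ^ 2 := by
  have hc := cas_g1s hζ v lg_lc
  have hj := hc.jetX djet_lc
  have h1 : ∀ d x, X ζ (g1s v) lc d (-x) = X ζ (g1s v) lc d x := by
    intro d
    induction d with
    | zero => exact lc_neg
    | succ d ih => exact T_even _ _ (hc.lgX d).1 ih
  have h2 : ∀ d x, Ex ζ (g1s v) lc 0 Real.tanh d (-x) = -Ex ζ (g1s v) lc 0 Real.tanh d x := by
    intro d
    induction d with
    | zero => exact Real.tanh_neg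
    | succ d ih =>
      rw [Ex_succ (Nat.zero_le d)]
      exact P_odd _ _ (hc.lgX d).1 (hj d).mm (h1 d) ih
  have h3 : ∀ d x, 0 ≤ aa ζ (g1s v) lc Real.tanh (fun x => 1 - Real.tanh x ^ 2) d x := by
    intro d
    induction d with
    | zero => exact fun x => sub_nonneg.2 (JetAux.tanh_sq_le x)
    | succ d ih =>
      intro x
      have hF := (hc.lgX d).eint (hc.noise d) x
      have := (hc.noise d).prob
      have bm := ChainAux.shift (hj d).bm_m x
      have ba := ChainAux.shift (hj d).bm_a x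
      have a1 := sq_gexp_le (ζ d) hF bm.eint
      have a2 := gexp_mono (ζ d) hF ((bm.pow 2).const_mul (ζ d)).eint
        (ba.add ((bm.pow 2).const_mul (ζ d))).eint fun z => le_add_of_nonneg_left (ih _)
      rw [gexp_const_mul] at a2
      rw [aa, Ex_succ (Nat.zero_le d)]
      exact sub_nonneg.2 ((mul_le_mul_of_nonneg_left a1 (hζ.nn d)).trans a2)
  have h4 : Monotone (Ex ζ (g1s v) lc 0 Real.tanh d) :=
    monotone_of_hasDerivAt_nonneg (fun x => (jet_deriv (hj d) x).2) (h3 d)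
  refine ⟨⟨h1 d, monoOn (fun x => (jet_deriv (hj d) x).1) fun x hx => odd_nonneg (h2 d) h4 hx⟩,
    h2 d, h4, fun x => by simp only [h2, neg_sq], fun a ha b _ hab => ?_⟩
  exact pow_le_pow_left₀ (odd_nonneg (h2 d) h4 ha) (h4 hab) 2

end Vale.Agent.P157
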