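import Vale.Agent.P157.Smooth
import Vale.Agent.P157.Mlr
import Vale.Agent.P157.Quad

/-! # The soft constraint reproduces the Crisanti-Sommers term -/

namespace Vale.Agent.P157

open MeasureTheory ProbabilityTheory

namespace F0Aux

theorem lg_id : LG fun u : ℝ => u :=
  ⟨measurable_id, 1, fun w => by rw [Real.norm_eq_abs]; linarith⟩

theorem bm_T {ζ : ℝ} (hζ : 0 ≤ ζ) (v : ℝ) {Ψ : ℝ → ℝ} (h : BM Ψ) : BM (T ζ (g1 v) Ψ) := by
  obtain ⟨C, hC⟩ := h.2
  refine ⟨measurable_T ζ _ h.1, C, fun w => ?_⟩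
  have := abs_lse_sub_le (ν := g1 v) hζ (EInt.const 0) (h.lg.eint (noise_g1 v) w) (b := C)
    (ae_of_all _ fun z => by rw [sub_zero]; exact hC _)
  rwa [lse_const, sub_zero] at this

theorem en_T {ζ : ℝ} (hζ : 0 ≤ ζ) (v : ℝ) {Ψ : ℝ → ℝ} (h : BM Ψ) (he : EN fun x => -Ψ x) :
    EN fun x => -T ζ (g1 v) Ψ x := by
  have h1 := T_sub_T_EN hζ v (Ψ := Ψ) (Ψ' := fun _ => 0) h.lg
    (fun x => neg_injective (he.1 x)) (BM.const 0).lg (by simpa only [zero_sub] using he)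
    ((BM.const 0).sub h)
  have h2 : ∀ x, T ζ (g1 v) (fun _ : ℝ => (0 : ℝ)) x = 0 := fun x => lse_const ζ 0
  simpa only [h2, zero_sub] using h1

theorem int_quartic {v : ℝ} (hv : 0 ≤ v) (c x : ℝ) :
    ∫ z, ((x + z) ^ 4 + 6 * c * (x + z) ^ 2 + 3 * c ^ 2) ∂(g1 v)
      = x ^ 4 + 6 * (c + v) * x ^ 2 + 3 * (c + v) ^ 2 := by
  have hE : EInt (g1 v) fun z => z := by simpa using lg_id.eint (noise_g1 v) 0
  have i1 := hE.integrable
  have i2 := hE.integrable_pow 2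
  have i3 := hE.integrable_pow 3
  have i4 := hE.integrable_pow 4
  have e : ∀ z : ℝ, (x + z) ^ 4 + 6 * c * (x + z) ^ 2 + 3 * c ^ 2
      = (x ^ 4 + 6 * c * x ^ 2 + 3 * c ^ 2) + (4 * x ^ 3 + 12 * c * x) * z
        + (6 * x ^ 2 + 6 * c) * z ^ 2 + 4 * x * z ^ 3 + z ^ 4 := fun z => by ring
  have j0 : Integrable (fun _ : ℝ => x ^ 4 + 6 * c * x ^ 2 + 3 * c ^ 2) (g1 v) :=
    integrable_const _
  have j1 := j0.fun_add (i1.const_mul (4 * x ^ 3 + 12 * c * x))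
  have j2 := j1.fun_add (i2.const_mul (6 * x ^ 2 + 6 * c))
  have j3 := j2.fun_add (i3.const_mul (4 * x))
  simp only [e]
  rw [integral_add j3 i4, integral_add j2 (i3.const_mul _), integral_add j1 (i2.const_mul _),
    integral_add j0 (i1.const_mul _), integral_const_mul, integral_const_mul, integral_const_mul,
    integral_id_g1, integral_sq_g1 hv, integral_cube_g1, integral_four_g1 hv, integral_const,
    probReal_univ, one_smul]
  ring

/-- One step of the induction. -/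
theorem step_le {ζ v δ c C A : ℝ} (hζ : 0 ≤ ζ) (hv : 0 ≤ v) (hδ : 0 < δ) (hc : 0 ≤ c)
    (hA : 0 ≤ A) {Ψ : ℝ → ℝ} (h : BM Ψ) (he : EN fun x => -Ψ x)
    (hle : ∀ x, Ψ x ≤ x ^ 2 / (2 * -δ) + C + A * (x ^ 4 + 6 * c * x ^ 2 + 3 * c ^ 2)) (x : ℝ) :
    T ζ (g1 v) Ψ x ≤ x ^ 2 / (2 * -(δ + ζ * v)) + (C + qcost ζ v (-δ))
      + A * (x ^ 4 + 6 * (c + v) * x ^ 2 + 3 * (c + v) ^ 2) := by
  have hF : EInt (g1 v) fun z => Ψ (x + z) := h.lg.eint (noise_g1 v) x
  have hI : EInt (g1 v) fun z => x + z := lg_id.eint (noise_g1 v) x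
  have hp := hF.prob_tilted ζ
  have hT := hF.tilted hI ζ
  have hzv : 0 ≤ ζ * v := mul_nonneg hζ hv
  have hG' : Integrable (fun z => Real.exp (ζ * ((x + z) ^ 2 / (2 * -δ) + C))) (g1 v) := by
    refine (integrable_const (Real.exp (ζ * C))).mono' (by fun_prop) (ae_of_all _ fun z => ?_)
    rw [Real.norm_of_nonneg (Real.exp_pos _).le, Real.exp_le_exp]
    refine mul_le_mul_of_nonneg_left ?_ hζ
    have : (x + z) ^ 2 / (2 * -δ) ≤ 0 :=
      div_nonpos_of_nonneg_of_nonpos (sq_nonneg _) (by linarith)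
    linarith
  have hG : Integrable (fun z => (x + z) ^ 2 / (2 * -δ) + C)
      ((g1 v).tilted fun z => ζ * Ψ (x + z)) :=
    ((hT.integrable_pow 2).div_const _).fun_add (integrable_const _)
  have h1 := gexp_le_lse_sub' hζ hF hG' hG
  have h2 := T_quad hζ hv (D := -δ) (by nlinarith) C x
  have hQ : ∀ (μ : Measure ℝ) [IsProbabilityMeasure μ], (EInt μ fun z => x + z) →
      Integrable (fun z => (x + z) ^ 4 + 6 * c * (x + z) ^ 2 + 3 * c ^ 2) μ := fun μ _ hμ =>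
    ((hμ.integrable_pow 4).fun_add ((hμ.integrable_pow 2).const_mul _)).fun_add
      (integrable_const _)
  have h3 : -(A * gexp (g1 v) ζ (fun z => Ψ (x + z))
        fun z => (x + z) ^ 4 + 6 * c * (x + z) ^ 2 + 3 * c ^ 2)
      ≤ gexp (g1 v) ζ (fun z => Ψ (x + z))
        fun z => (x + z) ^ 2 / (2 * -δ) + C - Ψ (x + z) := by
    rw [← neg_mul, ← gexp_const_mul]
    refine integral_mono ((hQ _ hT).const_mul _) (hG.sub (hF.tilted hF ζ).integrable)
      fun z => ?_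
    have := hle (x + z)
    simp only
    linarith
  have h4 : gexp (g1 v) ζ (fun z => Ψ (x + z))
        (fun z => (x + z) ^ 4 + 6 * c * (x + z) ^ 2 + 3 * c ^ 2)
      ≤ x ^ 4 + 6 * (c + v) * x ^ 2 + 3 * (c + v) ^ 2 := by
    have hpos : 0 < ∫ z, Real.exp (ζ * Ψ (x + z)) ∂(g1 v) := integral_exp_pos (hF.2 ζ)
    have hi := (integrable_tilted_iff (hF.2 ζ) _).1 (hQ _ hT)
    have h5 := cheb (g1 v) (F := fun z => -Real.exp (ζ * Ψ (x + z)))
      (G := fun z => (x + z) ^ 4 + 6 * c * (x + z) ^ 2 + 3 * c ^ 2) (hF.2 ζ).neg (hQ _ hI)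
      (by simpa only [smul_eq_mul, neg_mul] using hi.fun_neg) fun z z' => by
        have key : ∀ a b : ℝ, |a| ≤ |b| → -Real.exp (ζ * Ψ a) ≤ -Real.exp (ζ * Ψ b) ∧
            a ^ 4 + 6 * c * a ^ 2 + 3 * c ^ 2 ≤ b ^ 4 + 6 * c * b ^ 2 + 3 * c ^ 2 := by
          intro a b hab
          have k1 := he.le_of_abs_le hab
          have k2 : a ^ 2 ≤ b ^ 2 := sq_le_sq.2 hab
          refine ⟨neg_le_neg (Real.exp_le_exp.2 (mul_le_mul_of_nonneg_left (by linarith) hζ)), ?_⟩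
          nlinarith [sq_nonneg a, mul_le_mul_of_nonneg_left k2 hc]
        rcases le_total |x + z| |x + z'| with k | k
        · obtain ⟨k1, k2⟩ := key _ _ k
          exact mul_nonneg_of_nonpos_of_nonpos (sub_nonpos.2 k1) (sub_nonpos.2 k2)
        · obtain ⟨k1, k2⟩ := key _ _ k
          exact mul_nonneg (sub_nonneg.2 k1) (sub_nonneg.2 k2)
    simp only [neg_mul, integral_neg] at h5
    rw [int_quartic hv] at h5
    rw [gexp_eq, div_le_iff₀ hpos]
    linarith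
  have h6 := mul_le_mul_of_nonneg_left h4 hA
  unfold T at h2 ⊢
  rw [show -(δ + ζ * v) = -δ - ζ * v by ring]
  linarith

theorem csDelta_succ (ζ q : ℕ → ℝ) (d : ℕ) :
    csDelta ζ q (d + 1) = csDelta ζ q d + ζ d * dq q d := Finset.sum_range_succ _ _

theorem X_le {n : ℕ} {ζ q : ℕ → ℝ} (hζ : Zok ζ) (hq : CAdm n q) (h0 : q 0 = 1)
    {η R : ℝ} (hη : 0 < η) (hR : 0 < R) (d : ℕ) :
    BM (X ζ (g1s (dq q)) (f0 η R) d) ∧ (EN fun x => -X ζ (g1s (dq q)) (f0 η R) d x) ∧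
    0 ≤ csDelta ζ q d ∧
    ∀ x, X ζ (g1s (dq q)) (f0 η R) d x ≤ x ^ 2 / (2 * -(η + csDelta ζ q d))
      + ∑ k ∈ Finset.range d, qcost (ζ k) (dq q k) (-(η + csDelta ζ q k))
      + 1 / (8 * η ^ 2 * R) * (x ^ 4 + 6 * (1 - q d) * x ^ 2 + 3 * (1 - q d) ^ 2) := by
  induction d with
  | zero =>
    refine ⟨⟨measurable_f0 η R, R, fun x => ?_⟩, ⟨fun x => congrArg Neg.neg (f0_neg η R x),
      fun x hx y hy hxy => neg_le_neg (f0_anti hη hR ?_)⟩, by simp [csDelta], fun x => ?_⟩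
    · obtain ⟨a1, a2, -⟩ := f0_bounds hη hR x
      exact abs_le.2 ⟨a1, a2.trans hR.le⟩
    · rwa [abs_of_nonneg hx, abs_of_nonneg hy]
    · refine (f0_bounds hη hR x).2.2.2.trans (le_of_eq ?_)
      simp only [csDelta, Finset.range_zero, Finset.sum_empty, h0]
      field_simp
      ring
  | succ d ih =>
    obtain ⟨h1, h2, h3, h4⟩ := ih
    have hv := hq.dq_nonneg d
    have hc : 0 ≤ 1 - q d := by
      have := hq.anti (Nat.zero_le d)
      linarith
    refine ⟨bm_T (hζ.nn d) _ h1, en_T (hζ.nn d) _ h1 h2, ?_, fun x => ?_⟩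
    · rw [csDelta_succ]
      exact add_nonneg h3 (mul_nonneg (hζ.nn d) hv)
    · refine (step_le (hζ.nn d) hv (by linarith) hc (by positivity) h1 h2 h4 x).trans
        (le_of_eq ?_)
      rw [Finset.sum_range_succ, csDelta_succ, ← add_assoc η,
        show 1 - q (d + 1) = 1 - q d + dq q d by unfold dq; ring]

theorem csDelta_shr {ζ q : ℕ → ℝ} (hz : ζ 0 = 1) (h0 : q 0 = 1) {η : ℝ} (hη : 0 < η) (d : ℕ) :
    csDelta ζ (shr η q) (d + 1) = (η + csDelta ζ q (d + 1)) / (1 + η) := by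
  have h1 : (1 + η) ≠ 0 := by positivity
  induction d with
  | zero =>
    simp only [csDelta, zero_add, Finset.range_one, Finset.sum_singleton, shr, hz, h0, if_true,
      one_ne_zero, if_false]
    field_simp
    ring
  | succ d ih =>
    rw [csDelta_succ, ih, csDelta_succ ζ q (d + 1)]
    simp only [dq, shr, Nat.succ_ne_zero, if_false]
    field_simp
    ring

end F0Aux

open F0Aux

theorem psi_f0_le {n : ℕ} {ζ q : ℕ → ℝ} (hζ : ZAdm n ζ) (hq : CAdm n q) (h0 : q 0 = 1)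
    {η R : ℝ} (hη : 0 < η) (hR : 0 < R) :
    psi n ζ q (f0 η R) ≤ -sphereS n ζ (shr η q) + Real.log η / 2 + 3 / (8 * η ^ 2 * R) := by
  have hX := fun d => X_le hζ.zok hq h0 hη hR d
  have hδ : ∀ d, 0 < η + csDelta ζ q d := fun d => by linarith [(hX d).2.2.1]
  have h1 : (0 : ℝ) < 1 + η := by positivity
  rw [psi_eq_X n ζ q (measurable_f0 η R)]
  refine ((hX (n + 1)).2.2.2 0).trans ?_
  obtain ⟨m, rfl⟩ : ∃ m, n = m + 1 := ⟨n - 1, by have := hζ.one_le; omega⟩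
  have hq0 : q (m + 1 + 1) = 0 := hq.zero _ (Nat.lt_succ_self _)
  have e0 : qcost (ζ 0) (dq q 0) (-(η + csDelta ζ q 0))
      = (Real.log η - Real.log (η + csDelta ζ q 1)) / 2 := by
    have a1 : -(η + csDelta ζ q 0) - ζ 0 * dq q 0 = -(η + csDelta ζ q 1) := by
      rw [csDelta_succ ζ q 0]; ring
    have a2 : csDelta ζ q 0 = 0 := by simp [csDelta]
    rw [qcost, if_neg (by rw [hζ.z0]; exact one_ne_zero), a1, neg_div_neg_eq, a2, add_zero,
      Real.log_div hη.ne' (hδ 1).ne', hζ.z0, mul_one]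
  have e1 : ∀ k ∈ Finset.range m, qcost (ζ (k + 1)) (dq q (k + 1)) (-(η + csDelta ζ q (k + 1)))
      = -((ζ (1 + k))⁻¹ * Real.log (csDelta ζ (shr η q) (1 + k + 1)
        / csDelta ζ (shr η q) (1 + k))) / 2 := by
    intro k hk
    have hz : 0 < ζ (k + 1) := hζ.pos (by have := Finset.mem_range.1 hk; omega)
    have a1 : -(η + csDelta ζ q (k + 1)) - ζ (k + 1) * dq q (k + 1)
        = -(η + csDelta ζ q (k + 1 + 1)) := by
      rw [csDelta_succ ζ q (k + 1)]; ring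
    rw [qcost, if_neg hz.ne', a1, neg_div_neg_eq, add_comm 1 k, csDelta_shr hζ.z0 h0 hη,
      csDelta_shr hζ.z0 h0 hη, div_div_div_cancel_right₀ h1.ne',
      Real.log_div (hδ _).ne' (hδ _).ne', Real.log_div (hδ _).ne' (hδ _).ne']
    field_simp
    ring
  have e2 : qcost (ζ (m + 1)) (dq q (m + 1)) (-(η + csDelta ζ q (m + 1)))
      = -(shr η q (m + 1) / csDelta ζ (shr η q) (m + 1)) / 2 := by
    have := (hδ (m + 1)).ne'
    rw [qcost, if_pos (hζ.zn _ le_rfl), csDelta_shr hζ.z0 h0 hη, shr, if_neg (Nat.succ_ne_zero m),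
      div_div_div_cancel_right₀ h1.ne', dq, hq0]
    field_simp
    ring
  have e3 : Real.log (csDelta ζ (shr η q) 1)
      = Real.log (η + csDelta ζ q 1) - Real.log (1 + η) := by
    rw [← Real.log_div (hδ 1).ne' h1.ne']
    exact congrArg Real.log (csDelta_shr hζ.z0 h0 hη 0)
  have e4 : 0 ≤ Real.log (1 + η) := Real.log_nonneg (by linarith)
  rw [Finset.sum_range_succ, Finset.sum_range_succ', Finset.sum_congr rfl e1, e0, e2, sphereS,
    Finset.sum_Ico_eq_sum_range, Nat.add_sub_cancel, e3, hq0, ← Finset.sum_div,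
    Finset.sum_neg_distrib]
  have e5 : 1 / (8 * η ^ 2 * R) * ((0 : ℝ) ^ 4 + 6 * (1 - 0) * 0 ^ 2 + 3 * (1 - 0) ^ 2)
      = 3 / (8 * η ^ 2 * R) := by ring
  have e6 : (0 : ℝ) ^ 2 / (2 * -(η + csDelta ζ q (m + 1 + 1))) = 0 := by simp
  rw [e5, e6]
  linarith

end Vale.Agent.P157
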