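import Vale.Agent.P157.Concave

/-! # Refining the grid of exponents -/

namespace Vale.Agent.P157

open MeasureTheory ProbabilityTheory

/-- Inserting the value `z` after position `i`. -/
def insAt (i : ℕ) (z : ℝ) (u : ℕ → ℝ) (d : ℕ) : ℝ :=
  if d ≤ i then u d else if d = i + 1 then z else u (d - 1)

namespace InsertAux

theorem ins_le {i d : ℕ} (z : ℝ) (u : ℕ → ℝ) (h : d ≤ i) : insAt i z u d = u d := by
  unfold insAt
  rw [if_pos h]

theorem ins_mid (i : ℕ) (z : ℝ) (u : ℕ → ℝ) : insAt i z u (i + 1) = z := by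
  unfold insAt
  rw [if_neg (by omega), if_pos rfl]

theorem ins_gt {i d : ℕ} (z : ℝ) (u : ℕ → ℝ) (h : i < d) : insAt i z u (d + 1) = u d := by
  unfold insAt
  rw [if_neg (by omega), if_neg (by omega), Nat.add_sub_cancel]

theorem dbl_le {i d : ℕ} (u : ℕ → ℝ) (h : d ≤ i + 1) : insAt i (u (i + 1)) u d = u d := by
  rcases Nat.lt_or_ge i d with h1 | h1
  · obtain rfl : d = i + 1 := by omega
    exact ins_mid _ _ _
  · exact ins_le _ _ h1

theorem sum_ins {F G : ℕ → ℝ} {i n : ℕ} (hi : i < n) (h1 : ∀ k, k < i → F k = G k)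
    (h2 : ∀ k, i < k → F (k + 1) = G k) :
    ∑ k ∈ Finset.range (n + 1), F k
      = ∑ k ∈ Finset.range n, G k - G i + F i + F (i + 1) := by
  induction n, hi using Nat.le_induction with
  | base =>
    rw [Finset.sum_range_succ, Finset.sum_range_succ, Finset.sum_range_succ,
      Finset.sum_congr rfl fun k hk => h1 k (Finset.mem_range.1 hk)]
    ring
  | succ m hm ih =>
    rw [Finset.sum_range_succ, ih, Finset.sum_range_succ, h2 m (by omega)]
    ring

theorem step_zero (m : ℝ) (Ψ : ℝ → ℝ) : step m 0 Ψ = Ψ := by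
  funext x
  unfold step
  split_ifs with hm
  · simp
  · simp only [Real.sqrt_zero, zero_mul, add_zero, integral_const, probReal_univ, one_smul,
      Real.log_exp]
    field_simp

theorem parisi_low (i : ℕ) (z : ℝ) (ζ c : ℕ → ℝ) (f : ℝ → ℝ) {d : ℕ} (hd : d ≤ i + 1) :
    parisi (insAt i z ζ) (insAt i (c (i + 1)) c) f d = parisi ζ c f d := by
  induction d with
  | zero => rfl
  | succ d ih =>
    rw [parisi, parisi, ih (by omega), ins_le z ζ (by omega), dbl_le c (by omega),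
      dbl_le c hd]

theorem parisi_high (i : ℕ) (z : ℝ) (ζ c : ℕ → ℝ) (f : ℝ → ℝ) {d : ℕ} (hd : i + 1 ≤ d) :
    parisi (insAt i z ζ) (insAt i (c (i + 1)) c) f (d + 1) = parisi ζ c f d := by
  induction d, hd using Nat.le_induction with
  | base =>
    rw [parisi, parisi_low i z ζ c f le_rfl, ins_mid, ins_mid,
      ins_gt (c (i + 1)) c (Nat.lt_succ_self i), sub_self, step_zero]
  | succ d hd ih =>
    rw [parisi, ih, ins_gt z ζ (by omega), ins_gt (c (i + 1)) c (by omega),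
      ins_gt (c (i + 1)) c (by omega), parisi]

theorem psi_ins {n i : ℕ} (hi : i < n) (z : ℝ) (ζ c : ℕ → ℝ) (f : ℝ → ℝ) :
    psi (n + 1) (insAt i z ζ) (insAt i (c (i + 1)) c) f = psi n ζ c f := by
  unfold psi
  rw [parisi_high i z ζ c f (by omega)]

theorem zadm_ins {n : ℕ} {ζ : ℕ → ℝ} (h : ZAdm n ζ) {i : ℕ} (hi : i < n) {z : ℝ}
    (hz1 : ζ (i + 1) < z) (hz2 : z < ζ i) : ZAdm (n + 1) (insAt i z ζ) := by
  refine ⟨by rw [ins_le z ζ (Nat.zero_le i), h.z0], fun d hd => ?_, fun d hd => ?_⟩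
  · rcases lt_trichotomy d i with h1 | rfl | h1
    · rw [ins_le z ζ (by omega), ins_le z ζ h1.le]
      exact h.zlt d (by omega)
    · rw [ins_mid, ins_le z ζ le_rfl]
      exact hz2
    · rcases Nat.lt_or_ge (i + 1) d with h2 | h2
      · obtain ⟨e, rfl⟩ : ∃ e, d = e + 1 := ⟨d - 1, by omega⟩
        rw [ins_gt z ζ h1, ins_gt z ζ (by omega)]
        exact h.zlt e (by omega)
      · obtain rfl : d = i + 1 := by omega
        rw [ins_gt z ζ h1, ins_mid]
        exact hz1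
  · obtain ⟨e, rfl⟩ : ∃ e, d = e + 1 := ⟨d - 1, by omega⟩
    rw [ins_gt z ζ (by omega)]
    exact h.zn e (by omega)

theorem cadm_ins {n : ℕ} {c : ℕ → ℝ} (h : CAdm n c) {i : ℕ} (hi : i < n) :
    CAdm (n + 1) (insAt i (c (i + 1)) c) := by
  refine ⟨antitone_nat_of_succ_le fun d => ?_, fun d hd => ?_⟩
  · rcases Nat.lt_or_ge i d with h1 | h1
    · rw [ins_gt _ c h1]
      rcases Nat.lt_or_ge (i + 1) d with h2 | h2
      · obtain ⟨e, rfl⟩ : ∃ e, d = e + 1 := ⟨d - 1, by omega⟩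
        rw [ins_gt _ c (by omega)]
        exact h.anti (Nat.le_succ e)
      · rw [dbl_le c h2]
    · rw [dbl_le c (by omega), dbl_le c (by omega)]
      exact h.anti (Nat.le_succ d)
  · obtain ⟨e, rfl⟩ : ∃ e, d = e + 1 := ⟨d - 1, by omega⟩
    rw [ins_gt _ c (by omega)]
    exact h.zero e (by omega)

theorem adm_ins {n : ℕ} {ζ q : ℕ → ℝ} (h : Adm n ζ q) {i : ℕ} (hi : i < n) {z : ℝ}
    (hz1 : ζ (i + 1) < z) (hz2 : z < ζ i) :
    Adm (n + 1) (insAt i z ζ) (insAt i (q (i + 1)) q) := by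
  have hz := zadm_ins h.zadm hi hz1 hz2
  have hc := cadm_ins h.cadm hi
  exact ⟨hz.z0, hz.zlt, hz.zn, by rw [dbl_le q (Nat.zero_le _), h.q0],
    by rw [dbl_le q (by omega)]; exact h.q1, hc.anti, hc.zero⟩

theorem cs_low (i : ℕ) (z : ℝ) (ζ q : ℕ → ℝ) {d : ℕ} (hd : d ≤ i + 1) :
    csDelta (insAt i z ζ) (insAt i (q (i + 1)) q) d = csDelta ζ q d := by
  unfold csDelta
  refine Finset.sum_congr rfl fun k hk => ?_
  have hk' := Finset.mem_range.1 hk
  rw [ins_le z ζ (by omega), dbl_le q (by omega), dbl_le q (by omega)]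

theorem cs_high (i : ℕ) (z : ℝ) (ζ q : ℕ → ℝ) {d : ℕ} (hd : i < d) :
    csDelta (insAt i z ζ) (insAt i (q (i + 1)) q) (d + 1) = csDelta ζ q d := by
  unfold csDelta
  rw [sum_ins (G := fun k => ζ k * (q k - q (k + 1))) hd]
  · rw [ins_le z ζ le_rfl, dbl_le q (Nat.le_succ i), dbl_le q le_rfl,
      ins_gt _ q (Nat.lt_succ_self i)]
    ring
  · intro k hk
    rw [ins_le z ζ hk.le, dbl_le q (by omega), dbl_le q (by omega)]
  · intro k hk
    rw [ins_gt z ζ hk, ins_gt _ q hk, ins_gt _ q (by omega)]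

theorem sphereS_ins {n i : ℕ} (hi : i < n) (z : ℝ) (ζ q : ℕ → ℝ) :
    sphereS (n + 1) (insAt i z ζ) (insAt i (q (i + 1)) q) = sphereS n ζ q := by
  unfold sphereS
  rw [cs_low i z ζ q (d := 1) (by omega), cs_high i z ζ q hi, ins_gt _ q hi,
    Finset.sum_Ico_eq_sub _ (by omega : 1 ≤ n + 1), Finset.sum_Ico_eq_sub _ (by omega : 1 ≤ n),
    sum_ins (G := fun d => (ζ d)⁻¹ * Real.log (csDelta ζ q (d + 1) / csDelta ζ q d)) hi]
  · have h0 : Real.log (csDelta ζ q (i + 1) / csDelta ζ q (i + 1)) = 0 := by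
      rcases eq_or_ne (csDelta ζ q (i + 1)) 0 with h | h
      · rw [h, div_zero, Real.log_zero]
      · rw [div_self h, Real.log_one]
    rw [Finset.sum_range_one, Finset.sum_range_one, ins_le z ζ (Nat.zero_le i),
      cs_low i z ζ q (d := 0 + 1) (by omega), cs_low i z ζ q (d := 0) (by omega),
      ins_le z ζ le_rfl, cs_high i z ζ q (Nat.lt_succ_self i),
      cs_low i z ζ q (d := i + 1) le_rfl, cs_low i z ζ q (d := i) (by omega), h0]
    ring
  · intro k hk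
    rw [ins_le z ζ hk.le, cs_low i z ζ q (by omega), cs_low i z ζ q (by omega)]
  · intro k hk
    rw [ins_gt z ζ hk, cs_high i z ζ q hk, cs_high i z ζ q (by omega)]

theorem pairing_ins {n i : ℕ} (hi : i < n) (z : ℝ) (ζ p q : ℕ → ℝ) :
    pairing (n + 1) (insAt i z ζ) (insAt i (p (i + 1)) p) (insAt i (q (i + 1)) q)
      = pairing n ζ p q := by
  unfold pairing
  rw [sum_ins (G := fun k => (ζ k - ζ (k + 1)) * (p (k + 1) * q (k + 1))) hi]
  · rw [ins_le z ζ le_rfl, ins_mid, ins_mid, ins_mid, ins_gt z ζ (Nat.lt_succ_self i),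
      ins_gt _ p (Nat.lt_succ_self i), ins_gt _ q (Nat.lt_succ_self i)]
    ring
  · intro k hk
    rw [ins_le z ζ hk.le, ins_le z ζ (by omega), dbl_le p (by omega), dbl_le q (by omega)]
  · intro k hk
    rw [ins_gt z ζ hk, ins_gt z ζ (by omega), ins_gt _ p (by omega), ins_gt _ q (by omega)]

theorem pairing_two {m i : ℕ} (hi : i + 1 < m) (ζ : ℕ → ℝ) {p p2 r : ℕ → ℝ}
    (hr : r (i + 1 + 1) = r (i + 1)) (hp : ∀ k, k ≠ i → k ≠ i + 1 → p (k + 1) = p2 (k + 1))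
    (hs : (ζ i - ζ (i + 1)) * p (i + 1) + (ζ (i + 1) - ζ (i + 1 + 1)) * p (i + 1 + 1)
      = (ζ i - ζ (i + 1)) * p2 (i + 1) + (ζ (i + 1) - ζ (i + 1 + 1)) * p2 (i + 1 + 1)) :
    pairing m ζ p r = pairing m ζ p2 r := by
  unfold pairing
  rw [← sub_eq_zero, ← Finset.sum_sub_distrib,
    Finset.sum_eq_add_of_mem i (i + 1) (Finset.mem_range.2 (by omega)) (Finset.mem_range.2 hi)
      (by omega)]
  · rw [hr]
    linear_combination r (i + 1) * hs
  · intro k _ hk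
    rw [hp k hk.1 hk.2, sub_self]

/-- Merging the positions `i + 1` and `i + 2` of a path into the value `a`. -/
def merge (i : ℕ) (a : ℝ) (p : ℕ → ℝ) (d : ℕ) : ℝ :=
  if d ≤ i then p d else if d = i + 1 then a else p (d + 1)

theorem merge_le {i d : ℕ} (a : ℝ) (p : ℕ → ℝ) (h : d ≤ i) : merge i a p d = p d := by
  unfold merge
  rw [if_pos h]

theorem merge_mid (i : ℕ) (a : ℝ) (p : ℕ → ℝ) : merge i a p (i + 1) = a := by
  unfold merge
  rw [if_neg (by omega), if_pos rfl]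

theorem merge_gt {i d : ℕ} (a : ℝ) (p : ℕ → ℝ) (h : i + 1 < d) : merge i a p d = p (d + 1) := by
  unfold merge
  rw [if_neg (by omega), if_neg (by omega)]

theorem cadm_merge {n i : ℕ} (hi : i < n) {p : ℕ → ℝ} (hp : CAdm (n + 1) p) {a : ℝ}
    (ha1 : a ≤ p (i + 1)) (ha2 : p (i + 1 + 1) ≤ a) : CAdm n (merge i a p) := by
  refine ⟨antitone_nat_of_succ_le fun d => ?_, fun d hd => ?_⟩
  · rcases lt_trichotomy d i with h1 | rfl | h1
    · rw [merge_le a p (by omega), merge_le a p h1.le]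
      exact hp.anti (Nat.le_succ d)
    · rw [merge_mid, merge_le a p le_rfl]
      exact ha1.trans (hp.anti (Nat.le_succ d))
    · rw [merge_gt a p (by omega)]
      rcases Nat.lt_or_ge (i + 1) d with h2 | h2
      · rw [merge_gt a p h2]
        exact hp.anti (Nat.le_succ _)
      · obtain rfl : d = i + 1 := by omega
        rw [merge_mid]
        exact (hp.anti (Nat.le_succ _)).trans ha2
  · rw [merge_gt a p (by omega)]
    exact hp.zero _ (by omega)

theorem isingS_ins {n : ℕ} {ζ q : ℕ → ℝ} (h : Adm n ζ q) {i : ℕ} (hi : i < n) {z : ℝ}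
    (hz1 : ζ (i + 1) < z) (hz2 : z < ζ i) :
    isingS (n + 1) (insAt i z ζ) (insAt i (q (i + 1)) q) ≤ isingS n ζ q := by
  unfold isingS
  refine csSup_le (isingObj_nonempty _ _ _) ?_
  rintro y ⟨p, hpa, hpz, rfl⟩
  have hp : CAdm (n + 1) p := ⟨hpa, hpz⟩
  have hD : 0 < ζ i - ζ (i + 1) := by linarith
  have hp12 : p (i + 1 + 1) ≤ p (i + 1) := hpa (Nat.le_succ _)
  obtain ⟨a, ha⟩ : ∃ a : ℝ,
      (ζ i - ζ (i + 1)) * a = (ζ i - z) * p (i + 1) + (z - ζ (i + 1)) * p (i + 1 + 1) :=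
    ⟨((ζ i - z) * p (i + 1) + (z - ζ (i + 1)) * p (i + 1 + 1)) / (ζ i - ζ (i + 1)),
      mul_div_cancel₀ _ hD.ne'⟩
  have ha1 : a ≤ p (i + 1) := by
    refine le_of_mul_le_mul_left ?_ hD
    rw [ha]
    nlinarith [mul_nonneg (sub_nonneg.2 hz1.le) (sub_nonneg.2 hp12)]
  have ha2 : p (i + 1 + 1) ≤ a := by
    refine le_of_mul_le_mul_left ?_ hD
    rw [ha]
    nlinarith [mul_nonneg (sub_nonneg.2 hz2.le) (sub_nonneg.2 hp12)]
  have hm := cadm_merge hi hp ha1 ha2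
  set pb := merge i a p with hpb
  have hh := cadm_ins hm hi
  set ph := insAt i (pb (i + 1)) pb with hph
  have hz := zadm_ins h.zadm hi hz1 hz2
  have e1 : ph (i + 1) = a := by rw [hph, ins_mid, hpb, merge_mid]
  have e2 : ph (i + 1 + 1) = a := by
    rw [hph, ins_gt _ pb (Nat.lt_succ_self i), hpb, merge_mid]
  have e0 : pb 0 = p 0 := merge_le a p (Nat.zero_le i)
  have e0' : ph 0 = p 0 := by rw [hph, ins_le _ pb (Nat.zero_le i), e0]
  have hpair : ∀ r : ℕ → ℝ, r (i + 1 + 1) = r (i + 1) →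
      pairing (n + 1) (insAt i z ζ) p r = pairing (n + 1) (insAt i z ζ) ph r := by
    intro r hr
    refine pairing_two (i := i) (by omega) _ hr (fun k hk1 hk2 => ?_) ?_
    · rcases Nat.lt_or_ge k i with h1 | h1
      · rw [hph, ins_le _ pb (by omega), hpb, merge_le a p (by omega)]
      · rw [hph, ins_gt _ pb (by omega), hpb, merge_gt a p (by omega)]
    · rw [e1, e2, ins_le z ζ le_rfl, ins_mid, ins_gt z ζ (Nat.lt_succ_self i)]
      linear_combination (-1 : ℝ) * ha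
  have hq : qt (n + 1) (insAt i z ζ) ph (i + 1 + 1) = qt (n + 1) (insAt i z ζ) ph (i + 1) := by
    unfold qt
    rw [if_neg (by omega), if_pos (by omega), if_neg (by omega), if_pos (by omega)]
    exact rho1_succ_of_zero _ _ _ (by omega) (e1.trans e2.symm)
  have ht := lc_tangent hz hh hp
  rw [hpair _ hq, e0'] at ht
  have hpsi : psi (n + 1) (insAt i z ζ) ph lc = psi n ζ pb lc := psi_ins hi z ζ pb lc
  have hq2 : pairing (n + 1) (insAt i z ζ) p (insAt i (q (i + 1)) q) = pairing n ζ pb q := by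
    rw [hpair _ (by rw [ins_gt _ q (Nat.lt_succ_self i), ins_mid])]
    exact pairing_ins hi z ζ pb q
  refine le_trans ?_ (le_csSup (isingObj_bdd h) ⟨pb, hm.anti, hm.zero, rfl⟩)
  change psi (n + 1) (insAt i z ζ) p lc - p 0 / 2
      + pairing (n + 1) (insAt i z ζ) p (insAt i (q (i + 1)) q) / 2
    ≤ psi n ζ pb lc - pb 0 / 2 + pairing n ζ pb q / 2
  rw [hq2, e0]
  linarith

end InsertAux

theorem insert_one {n : ℕ} {ζ q : ℕ → ℝ} (h : Adm n ζ q) {i : ℕ} (hi : i < n) {z : ℝ}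
    (hz1 : ζ (i + 1) < z) (hz2 : z < ζ i) :
    Adm (n + 1) (insAt i z ζ) (insAt i (q (i + 1)) q) ∧
    (∀ f : ℝ → ℝ, psi (n + 1) (insAt i z ζ) (insAt i (q (i + 1)) q) f = psi n ζ q f) ∧
    sphereS (n + 1) (insAt i z ζ) (insAt i (q (i + 1)) q) = sphereS n ζ q ∧
    isingS (n + 1) (insAt i z ζ) (insAt i (q (i + 1)) q) ≤ isingS n ζ q :=
  ⟨InsertAux.adm_ins h hi hz1 hz2, fun f => InsertAux.psi_ins hi z ζ q f,
    InsertAux.sphereS_ins hi z ζ q, InsertAux.isingS_ins h hi hz1 hz2⟩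

namespace InsertAux

theorem sq_sum_ins {n i : ℕ} (hi : i < n) (ζ : ℕ → ℝ) :
    ∑ k ∈ Finset.range (n + 1), (insAt i ((ζ i + ζ (i + 1)) / 2) ζ k
        - insAt i ((ζ i + ζ (i + 1)) / 2) ζ (k + 1)) ^ 2
      = ∑ k ∈ Finset.range n, (ζ k - ζ (k + 1)) ^ 2 - (ζ i - ζ (i + 1)) ^ 2 / 2 := by
  rw [sum_ins (G := fun k => (ζ k - ζ (k + 1)) ^ 2) hi]
  · rw [ins_le _ ζ le_rfl, ins_mid, ins_gt _ ζ (Nat.lt_succ_self i)]
    ring
  · intro k hk
    rw [ins_le _ ζ hk.le, ins_le _ ζ (by omega)]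
  · intro k hk
    rw [ins_gt _ ζ hk, ins_gt _ ζ (by omega)]

theorem refine_aux {η : ℝ} (hη : 0 < η) (N : ℕ) :
    ∀ {n : ℕ} {ζ q : ℕ → ℝ}, Adm n ζ q →
      ∑ k ∈ Finset.range n, (ζ k - ζ (k + 1)) ^ 2 < N * (η ^ 2 / 2) →
    ∃ n' ζ' q', Adm n' ζ' q' ∧ (∀ k, k < n' → ζ' k - ζ' (k + 1) ≤ η) ∧
      (∀ f : ℝ → ℝ, psi n' ζ' q' f = psi n ζ q f) ∧ sphereS n' ζ' q' = sphereS n ζ q ∧
      isingS n' ζ' q' ≤ isingS n ζ q := by
  induction N with
  | zero =>
    intro n ζ q _ hs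
    rw [Nat.cast_zero, zero_mul] at hs
    exact absurd hs (not_lt.2 (Finset.sum_nonneg fun k _ => sq_nonneg _))
  | succ N ih =>
    intro n ζ q h hs
    by_cases hall : ∀ k, k < n → ζ k - ζ (k + 1) ≤ η
    · exact ⟨n, ζ, q, h, hall, fun _ => rfl, rfl, le_rfl⟩
    · obtain ⟨i, hi, hlt⟩ : ∃ i, i < n ∧ η < ζ i - ζ (i + 1) := by
        by_contra hc
        exact hall fun k hk => not_lt.1 fun hk' => hc ⟨k, hk, hk'⟩
      obtain ⟨h1, h2, h3, h4⟩ := insert_one h hi (z := (ζ i + ζ (i + 1)) / 2) (by linarith)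
        (by linarith)
      obtain ⟨n', ζ', q', k1, k2, k3, k4, k5⟩ := ih h1 (by
        rw [sq_sum_ins hi]
        push_cast at hs
        nlinarith)
      exact ⟨n', ζ', q', k1, k2, fun f => (k3 f).trans (h2 f), k4.trans h3, k5.trans h4⟩

end InsertAux

theorem refine_grid {n : ℕ} {ζ q : ℕ → ℝ} (h : Adm n ζ q) {η : ℝ} (hη : 0 < η) :
    ∃ n' ζ' q', Adm n' ζ' q' ∧ (∀ k, k < n' → ζ' k - ζ' (k + 1) ≤ η) ∧
      (∀ f : ℝ → ℝ, psi n' ζ' q' f = psi n ζ q f) ∧ sphereS n' ζ' q' = sphereS n ζ q ∧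
      isingS n' ζ' q' ≤ isingS n ζ q := by
  have hp : 0 < η ^ 2 / 2 := by positivity
  obtain ⟨N, hN⟩ := exists_nat_gt ((∑ k ∈ Finset.range n, (ζ k - ζ (k + 1)) ^ 2) / (η ^ 2 / 2))
  exact InsertAux.refine_aux hη N h ((div_lt_iff₀ hp).1 hN)

namespace InsertAux

theorem adm_one : Adm 1 (fun d => if d = 0 then 1 else 0) (fun d => if d = 0 then 1 else 0) := by
  refine ⟨by simp, fun d hd => ?_, fun d hd => if_neg (by omega), by simp, by simp,
    antitone_nat_of_succ_le fun d => ?_, fun d hd => if_neg (by omega)⟩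
  · obtain rfl : d = 0 := by omega
    simp
  · rw [if_neg (Nat.succ_ne_zero d)]
    split_ifs <;> norm_num

end InsertAux

theorem exists_grid {η : ℝ} (hη : 0 < η) :
    ∃ n ζ, ZAdm n ζ ∧ ∀ k, k < n → ζ k - ζ (k + 1) ≤ η := by
  obtain ⟨n, ζ, q, h, hk, -⟩ := refine_grid InsertAux.adm_one hη
  exact ⟨n, ζ, h.zadm, hk⟩

theorem exists_adm : ∃ n ζ q, Adm n ζ q := ⟨_, _, _, InsertAux.adm_one⟩

end Vale.Agent.P157
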