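import Vale.Agent.P157.Polar
import Vale.Agent.P157.IsingB

/-! # Link with the pressures of the statement -/

namespace Vale.Agent.P157

open MeasureTheory ProbabilityTheory

namespace LinkAux

/-- Energy with pattern dependent potentials. -/
noncomputable def en {M N : ℕ} (F : Fin M → ℝ → ℝ) (g : Fin M × Fin N → ℝ) (x : Sph (Fin N)) : ℝ :=
  ∑ a : Fin M, F a ((∑ i : Fin N, g (a, i) * x.1 i) / √(N : ℝ))

theorem measurable_row {M N : ℕ} (a : Fin M) :
    Measurable fun p : (Fin M × Fin N → ℝ) × Sph (Fin N) =>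
      (∑ i : Fin N, p.1 (a, i) * p.2.1 i) / √(N : ℝ) := by
  refine Measurable.div_const (Finset.measurable_sum _ fun i _ => ?_) _
  exact ((measurable_pi_apply _).comp measurable_fst).mul
    ((measurable_sph_coord i).comp measurable_snd)

theorem measurable_en {M N : ℕ} {F : Fin M → ℝ → ℝ} (hF : ∀ a, Measurable (F a)) :
    Measurable (Function.uncurry (en (N := N) F)) := by
  change Measurable fun p : (Fin M × Fin N → ℝ) × Sph (Fin N) =>
    ∑ a : Fin M, F a ((∑ i : Fin N, p.1 (a, i) * p.2.1 i) / √(N : ℝ))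
  exact Finset.measurable_sum _ fun a _ => (hF a).comp (measurable_row a)

theorem abs_en {M N : ℕ} {F : Fin M → ℝ → ℝ} {b : ℝ} (hb : ∀ a x, |F a x| ≤ b)
    (g : Fin M × Fin N → ℝ) (x : Sph (Fin N)) : |en F g x| ≤ M * b := by
  refine (Finset.abs_sum_le_sum_abs _ _).trans ?_
  refine (Finset.sum_le_sum fun a _ => hb a _).trans ?_
  simp

theorem lse_one {Ω : Type} [MeasurableSpace Ω] (μ : Measure Ω) (F : Ω → ℝ) :
    lse μ 1 F = Real.log (∫ x, Real.exp (F x) ∂μ) := by
  simp [lse]

theorem abs_lse_le {Ω : Type} [MeasurableSpace Ω] (μ : Measure Ω) [IsProbabilityMeasure μ]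
    {F : Ω → ℝ} (hF : Measurable F) {b : ℝ} (hb : ∀ x, |F x| ≤ b) : |lse μ 1 F| ≤ b := by
  have h := abs_lse_sub_le (ν := μ) zero_le_one (EInt.const 0) (BM.eint ⟨hF, b, hb⟩) (b := b)
    (Filter.Eventually.of_forall fun x => by simpa using hb x)
  rwa [lse_const, sub_zero] at h

theorem patterns_eq (M N : ℕ) : patterns M N = gv fun _ : Fin M × Fin N => (1 : ℝ) := by
  unfold patterns gv
  simp only [g1_one]

/-- Free energy with pattern dependent potentials. -/
noncomputable def fr {M N : ℕ} (μ : Measure (Sph (Fin N))) (F : Fin M → ℝ → ℝ) : ℝ :=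
  ∫ g, lse μ 1 (en F g) ∂(gv fun _ : Fin M × Fin N => (1 : ℝ))

theorem Fr_eq {N : ℕ} (μ : Measure (Sph (Fin N))) (f : ℝ → ℝ) (M : ℕ) :
    Fr μ f M = fr μ fun _ : Fin M => f := by
  unfold Fr fr
  rw [patterns_eq]
  simp only [lse_one]
  rfl

theorem one {Ω Z : Type} [MeasurableSpace Ω] [MeasurableSpace Z] (μ : Measure Ω)
    [IsProbabilityMeasure μ] (ν : Measure Z) [IsProbabilityMeasure ν] {E : Ω → ℝ} (hE : BM E)
    {u v : Z → Ω → ℝ} (hu : Measurable (Function.uncurry u))
    (hv : Measurable (Function.uncurry v)) {b I : ℝ} (hub : ∀ z x, |u z x| ≤ b)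
    (hvb : ∀ z x, |v z x| ≤ b) (hI : ∀ x, ∫ z, |u z x - v z x| ∂ν ≤ I) :
    ∫ z, (lse μ 1 (fun x => E x + u z x) - lse μ 1 fun x => E x + v z x) ∂ν
      ≤ Real.exp (2 * b) * I := by
  have hEe : EInt μ E := hE.eint
  have := hEe.prob_tilted 1
  have bu : ∀ z, BM (u z) := fun z => ⟨hu.of_uncurry_left, b, hub z⟩
  have bv : ∀ z, BM (v z) := fun z => ⟨hv.of_uncurry_left, b, hvb z⟩
  have h1 : ∀ z, (lse μ 1 (fun x => E x + u z x) - lse μ 1 fun x => E x + v z x)
      ≤ Real.exp (2 * b) * gexp μ 1 E fun x => |u z x - v z x| := by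
    intro z
    have e1 : EInt μ fun x => E x + u z x := (hE.add (bu z)).eint
    have e2 : EInt μ fun x => E x + v z x := (hE.add (bv z)).eint
    have a1 := gexp_le_lse_sub zero_le_one e1 e2
    have a2 := abs_gexp_le_gexp_abs (ν := μ) 1 (fun x => E x + u z x)
      fun x => E x + v z x - (E x + u z x)
    have a3 := gexp_le_exp_mul (ν := μ) zero_le_one hEe e1 (b := b)
      (g := fun x => |u z x - v z x|)
      (Filter.Eventually.of_forall fun x => by simpa using hub z x)
      ((bu z).sub (bv z)).abs.integrable fun x => abs_nonneg _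
    have a4 : (fun x => |E x + v z x - (E x + u z x)|) = fun x => |u z x - v z x| := by
      funext x; rw [abs_sub_comm]; congr 1; ring
    rw [a4] at a2
    rw [mul_one] at a3
    have := neg_abs_le (gexp μ 1 (fun x => E x + u z x) fun x => E x + v z x - (E x + u z x))
    linarith
  have hb2 : BM fun p : Z × Ω => |u p.1 p.2 - v p.1 p.2| :=
    (BM.sub ⟨hu, b, fun p => hub p.1 p.2⟩ ⟨hv, b, fun p => hvb p.1 p.2⟩).abs
  have hint : Integrable (Function.uncurry fun z x => |u z x - v z x|)
      (ν.prod (μ.tilted fun x => 1 * E x)) := hb2.integrable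
  obtain ⟨C, hC⟩ := hE.2
  have m1 : Measurable fun z => lse μ 1 fun x => E x + u z x :=
    measurable_lse 1 ((hE.1.comp measurable_snd).add hu)
  have m2 : Measurable fun z => lse μ 1 fun x => E x + v z x :=
    measurable_lse 1 ((hE.1.comp measurable_snd).add hv)
  have i1 : Integrable (fun z => lse μ 1 fun x => E x + u z x) ν :=
    BM.integrable ⟨m1, C + b, fun z => abs_lse_le μ (hE.add (bu z)).1 fun x =>
      (abs_add_le _ _).trans (add_le_add (hC x) (hub z x))⟩
  have i2 : Integrable (fun z => lse μ 1 fun x => E x + v z x) ν :=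
    BM.integrable ⟨m2, C + b, fun z => abs_lse_le μ (hE.add (bv z)).1 fun x =>
      (abs_add_le _ _).trans (add_le_add (hC x) (hvb z x))⟩
  refine (integral_mono (i1.sub i2) (hint.integral_prod_left.const_mul _) h1).trans ?_
  rw [integral_const_mul]
  refine mul_le_mul_of_nonneg_left ?_ (Real.exp_pos _).le
  have := integral_integral_swap hint
  simp only [Function.uncurry_apply_pair]
  rw [this]
  refine (integral_mono hint.integral_prod_right (integrable_const I) hI).trans ?_
  rw [integral_const, probReal_univ, one_smul]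

theorem gv_mix {ι : Type} [Fintype ι] (p : ι → Prop) [DecidablePred p] :
    ((gv fun _ : ι => (1 : ℝ)).prod (gv fun _ : ι => (1 : ℝ))).map
      (fun z : (ι → ℝ) × (ι → ℝ) => fun i => if p i then z.2 i else z.1 i)
      = gv fun _ : ι => (1 : ℝ) := by
  have h1 := gauss_sum (ι := ι) (κ := ι) fun _ => (1 : ℝ)
  have h2 := gauss_sel (ι := ι ⊕ ι) (κ := ι)
    (fun k => some (if p k then Sum.inr k else Sum.inl k)) (by
      intro k l i hk hl
      have := hk.trans hl.symm
      by_cases h : p k <;> by_cases h' : p l <;> simp [h, h'] at this <;> exact this) fun _ => (1 : ℝ)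
  have hm : Measurable fun z : (ι → ℝ) × (ι → ℝ) => fun i => if p i then z.2 i else z.1 i := by
    refine measurable_pi_lambda _ fun i => ?_
    split_ifs <;> fun_prop
  rw [← h1, Measure.map_map hm (by fun_prop)]
  simp only [Option.elim] at h2
  rw [← h2]
  congr 1
  funext z k
  simp only [Function.comp]
  split_ifs <;> rfl

theorem row_law {M N : ℕ} (hN : 1 ≤ N) (a : Fin M) (x : Sph (Fin N)) :
    (gv fun _ : Fin M × Fin N => (1 : ℝ)).map
      (fun g => (∑ i : Fin N, g (a, i) * x.1 i) / √(N : ℝ)) = gaussianReal 0 1 := by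
  have hN' : (0 : ℝ) < N := by exact_mod_cast hN
  have h := gauss_form (s := fun _ : Fin M × Fin N => (1 : ℝ)) (fun _ => zero_le_one)
    fun k => if k.1 = a then x.1 k.2 / √(N : ℝ) else 0
  have e1 : ∑ k : Fin M × Fin N, (1 : ℝ) * (if k.1 = a then x.1 k.2 / √(N : ℝ) else 0) ^ 2 = 1 := by
    rw [Fintype.sum_prod_type, Finset.sum_eq_single a (fun b _ hb => by simp [hb]) (by simp)]
    simp only [if_true, one_mul, div_pow, Real.sq_sqrt hN'.le, ← Finset.sum_div, x.2,
      Fintype.card_fin]
    exact div_self hN'.ne'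
  rw [e1, g1_one] at h
  rw [← h]
  congr 1
  funext g
  rw [Fintype.sum_prod_type, Finset.sum_eq_single a (fun b _ hb => by simp [hb]) (by simp),
    Finset.sum_div]
  exact Finset.sum_congr rfl fun i _ => by simp only [if_true]; ring

theorem swap_inner {M N : ℕ} (hN : 1 ≤ N) (μ : Measure (Sph (Fin N))) [IsProbabilityMeasure μ]
    {F G : Fin M → ℝ → ℝ} (hF : ∀ a, Measurable (F a)) (hG : ∀ a, Measurable (G a)) {b : ℝ}
    (hFb : ∀ a x, |F a x| ≤ b) (hGb : ∀ a x, |G a x| ≤ b) (a : Fin M)
    (h : ∀ c, c ≠ a → F c = G c) (z : Fin M × Fin N → ℝ) :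
    ∫ z', (lse μ 1 (en F fun i => if i.1 = a then z' i else z i)
        - lse μ 1 (en G fun i => if i.1 = a then z' i else z i))
        ∂(gv fun _ : Fin M × Fin N => (1 : ℝ))
      ≤ Real.exp (2 * b) * ∫ z, |F a z - G a z| ∂(gaussianReal 0 1) := by
  have split : ∀ (H : Fin M → ℝ → ℝ) (z' : Fin M × Fin N → ℝ),
      en H (fun i => if i.1 = a then z' i else z i) = fun x =>
        ∑ c ∈ Finset.univ.erase a, H c ((∑ i : Fin N, z (c, i) * x.1 i) / √(N : ℝ))
          + H a ((∑ i : Fin N, z' (a, i) * x.1 i) / √(N : ℝ)) := by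
    intro H z'
    funext x
    unfold en
    rw [← Finset.sum_erase_add _ _ (Finset.mem_univ a)]
    simp only [if_true]
    congr 1
    refine Finset.sum_congr rfl fun c hc => ?_
    simp only [if_neg (Finset.ne_of_mem_erase hc)]
  have e2 : ∀ x : Sph (Fin N),
      ∑ c ∈ Finset.univ.erase a, G c ((∑ i : Fin N, z (c, i) * x.1 i) / √(N : ℝ))
        = ∑ c ∈ Finset.univ.erase a, F c ((∑ i : Fin N, z (c, i) * x.1 i) / √(N : ℝ)) :=
    fun x => Finset.sum_congr rfl fun c hc => by rw [h c (Finset.ne_of_mem_erase hc)]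
  simp only [split, e2]
  have mE : ∀ c : Fin M, Measurable fun x : Sph (Fin N) =>
      (∑ i : Fin N, z (c, i) * x.1 i) / √(N : ℝ) := fun c =>
    (Finset.measurable_sum _ fun i _ => (measurable_sph_coord i).const_mul _).div_const _
  have mR : ∀ x : Sph (Fin N), Measurable fun g : Fin M × Fin N → ℝ =>
      (∑ i : Fin N, g (a, i) * x.1 i) / √(N : ℝ) := fun x =>
    (Finset.measurable_sum _ fun i _ => (measurable_pi_apply (a, i)).mul_const _).div_const _
  have bE : BM fun x : Sph (Fin N) =>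
      ∑ c ∈ Finset.univ.erase a, F c ((∑ i : Fin N, z (c, i) * x.1 i) / √(N : ℝ)) :=
    BM.sum _ fun c _ => ⟨(hF c).comp (mE c), b, fun x => hFb c _⟩
  have hu : Measurable (Function.uncurry fun (z' : Fin M × Fin N → ℝ) (x : Sph (Fin N)) =>
      F a ((∑ i : Fin N, z' (a, i) * x.1 i) / √(N : ℝ))) := (hF a).comp (measurable_row a)
  have hv : Measurable (Function.uncurry fun (z' : Fin M × Fin N → ℝ) (x : Sph (Fin N)) =>
      G a ((∑ i : Fin N, z' (a, i) * x.1 i) / √(N : ℝ))) := (hG a).comp (measurable_row a)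
  refine one μ _ bE hu hv (fun _ _ => hFb a _) (fun _ _ => hGb a _) fun x => le_of_eq ?_
  have hd : Measurable fun z => |F a z - G a z| := ((hF a).sub (hG a)).abs
  rw [← row_law hN a x, integral_map (mR x).aemeasurable hd.aestronglyMeasurable]

theorem fr_swap {M N : ℕ} (hN : 1 ≤ N) (μ : Measure (Sph (Fin N))) [IsProbabilityMeasure μ]
    {F G : Fin M → ℝ → ℝ} (hF : ∀ a, Measurable (F a)) (hG : ∀ a, Measurable (G a)) {b : ℝ}
    (hFb : ∀ a x, |F a x| ≤ b) (hGb : ∀ a x, |G a x| ≤ b) (a : Fin M)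
    (h : ∀ c, c ≠ a → F c = G c) :
    fr μ F - fr μ G ≤ Real.exp (2 * b) * ∫ z, |F a z - G a z| ∂(gaussianReal 0 1) := by
  have bF : BM fun g : Fin M × Fin N → ℝ => lse μ 1 (en F g) :=
    ⟨measurable_lse 1 (measurable_en hF), M * b, fun g =>
      abs_lse_le μ (measurable_en hF).of_uncurry_left (abs_en hFb g)⟩
  have bG : BM fun g : Fin M × Fin N → ℝ => lse μ 1 (en G g) :=
    ⟨measurable_lse 1 (measurable_en hG), M * b, fun g =>
      abs_lse_le μ (measurable_en hG).of_uncurry_left (abs_en hGb g)⟩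
  have bD := bF.sub bG
  unfold fr
  rw [← integral_sub bF.integrable bG.integrable]
  have hm : Measurable fun z : (Fin M × Fin N → ℝ) × (Fin M × Fin N → ℝ) =>
      fun i : Fin M × Fin N => if i.1 = a then z.2 i else z.1 i := by
    refine measurable_pi_lambda _ fun i => ?_
    split_ifs <;> fun_prop
  obtain ⟨C, hC⟩ := bD.2
  have bD' : BM fun z : (Fin M × Fin N → ℝ) × (Fin M × Fin N → ℝ) =>
      lse μ 1 (en F fun i => if i.1 = a then z.2 i else z.1 i)
        - lse μ 1 (en G fun i => if i.1 = a then z.2 i else z.1 i) :=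
    ⟨bD.1.comp hm, C, fun z => hC _⟩
  have e := integral_map (μ := (gv fun _ : Fin M × Fin N => (1 : ℝ)).prod
    (gv fun _ : Fin M × Fin N => (1 : ℝ))) hm.aemeasurable bD.1.aestronglyMeasurable
  rw [gv_mix fun k : Fin M × Fin N => k.1 = a] at e
  rw [e, integral_prod _ bD'.integrable]
  refine (integral_mono bD'.integrable.integral_prod_left (integrable_const
    (Real.exp (2 * b) * ∫ z, |F a z - G a z| ∂(gaussianReal 0 1)))
    fun z => swap_inner hN μ hF hG hFb hGb a h z).trans ?_
  rw [integral_const, probReal_univ, one_smul]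

theorem X_flat {ι : Type} [Fintype ι] (ζ : ℕ → ℝ) (s : ℕ → ι → ℝ) (Ψ : (ι → ℝ) → ℝ) {n : ℕ}
    (h : ∀ d, d < n → ∀ i, s d i ≤ 0) : X ζ (gvs s) Ψ n = Ψ := by
  induction n with
  | zero => rfl
  | succ n ih =>
    rw [X_succ, ih fun d hd => h d (by omega)]
    have : gvs s n = Measure.dirac 0 := gv_of_nonpos (h n (by omega))
    rw [this, T_dirac]

end LinkAux

open LinkAux

theorem fr_eq_vs {N : ℕ} (μ : Measure (Sph (Fin N))) [IsProbabilityMeasure μ] {f : ℝ → ℝ}
    (hf : Measurable f) {n : ℕ} {ζ : ℕ → ℝ} (hn : ζ n = 0) (M : ℕ) :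
    Fr μ f M = VS μ (fun _ => f) M ζ n 0 0 := by
  have hm : Measurable (gtop μ (uH (S := Fin N) fun _ : Fin M => f)) := by
    refine measurable_lse 1 ?_
    refine Measurable.add (Finset.measurable_sum _ fun a _ => hf.comp (measurable_arg a)) ?_
    exact Finset.measurable_sum _ fun i _ => ((measurable_pi_apply _).comp measurable_fst).mul
      ((measurable_sph_coord i).comp measurable_snd)
  rw [Fr_eq]
  unfold VS Val fr
  rw [X_succ, X_flat]
  swap
  · intro d hd c
    rcases c with ⟨a, i⟩ | i | a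
    · simp [cprof, prof, hd.ne]
    · simp [cprof, prof, sq0]
    · simp [cprof, prof, sq0]
  have hT : ∀ (ν : Measure (Co (Fin M) (Fin N) → ℝ)) (Ψ : (Co (Fin M) (Fin N) → ℝ) → ℝ),
      T (ζ n) ν Ψ 0 = ∫ z, Ψ z ∂ν := by
    intro ν Ψ
    simp [T, lse, hn]
  rw [hT]
  simp only [gvs]
  have h2 := gauss_sel (ι := Co (Fin M) (Fin N)) (κ := Fin M × Fin N)
    (fun k => some (.inl k)) (by
      intro k l i hk hl
      simpa using hk.trans hl.symm) fun _ => (1 : ℝ)
  simp only [Option.elim] at h2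
  have hq : Measurable fun (η : Co (Fin M) (Fin N) → ℝ) (i : Co (Fin M) (Fin N)) =>
      √(cprof (Fin M) (Fin N) n 0 0 n i) * η i :=
    measurable_pi_lambda _ fun i => (measurable_pi_apply i).const_mul _
  rw [gv_eq_map (cprof (Fin M) (Fin N) n 0 0 n),
    integral_map hq.aemeasurable hm.aestronglyMeasurable, ← h2,
    integral_map (measurable_pi_lambda _ fun k => measurable_pi_apply _).aemeasurable
      (measurable_lse 1 (measurable_en fun _ => hf)).aestronglyMeasurable]
  refine integral_congr_ae (Filter.Eventually.of_forall fun z => ?_)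
  simp only [gtop]
  congr 1
  funext x
  simp only [en, uH, arg, cprof, prof, sq0, if_true, Pi.zero_apply, Fintype.card_fin]
  have : (if n = 0 then (0 : ℝ) else 0 ^ 2) = 0 := by split_ifs <;> simp
  simp only [this, Real.sqrt_zero, zero_mul, Finset.sum_const_zero, add_zero, Real.sqrt_inv,
    Finset.sum_div]
  refine Finset.sum_congr rfl fun a _ => ?_
  congr 1
  exact Finset.sum_congr rfl fun i _ => by ring

theorem abs_fr_le {N : ℕ} (μ : Measure (Sph (Fin N))) [IsProbabilityMeasure μ] {f : ℝ → ℝ}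
    (hf : Measurable f) {b : ℝ} (hb : ∀ x, |f x| ≤ b) (M : ℕ) : |Fr μ f M| ≤ M * b := by
  rw [Fr_eq]
  unfold fr
  have := norm_integral_le_of_norm_le_const (μ := gv fun _ : Fin M × Fin N => (1 : ℝ))
    (f := fun g => lse μ 1 (en (fun _ : Fin M => f) g)) (C := M * b)
    (Filter.Eventually.of_forall fun g => abs_lse_le μ
      (measurable_en fun _ => hf).of_uncurry_left (abs_en (fun _ => hb) g))
  simpa using this

theorem fr_L1 {N : ℕ} (hN : 1 ≤ N) (μ : Measure (Sph (Fin N))) [IsProbabilityMeasure μ]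
    {f g : ℝ → ℝ} (hf : Measurable f) (hg : Measurable g) {b : ℝ} (hfb : ∀ x, |f x| ≤ b)
    (hgb : ∀ x, |g x| ≤ b) (M : ℕ) :
    |Fr μ f M - Fr μ g M| ≤ M * (Real.exp (4 * b) * ∫ z, |f z - g z| ∂(gaussianReal 0 1)) := by
  have hb : 0 ≤ b := (abs_nonneg _).trans (hfb 0)
  have hI : 0 ≤ ∫ z, |f z - g z| ∂(gaussianReal 0 1) := integral_nonneg fun _ => abs_nonneg _
  have key : ∀ T : Finset (Fin M),
      |fr μ (fun _ : Fin M => f) - fr μ fun a => if a ∈ T then g else f|
        ≤ T.card * (Real.exp (2 * b) * ∫ z, |f z - g z| ∂(gaussianReal 0 1)) := by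
    have m : ∀ (T : Finset (Fin M)) (a : Fin M), Measurable (if a ∈ T then g else f) := by
      intro T a; split_ifs; exacts [hg, hf]
    have bd : ∀ (T : Finset (Fin M)) (a : Fin M) (x : ℝ), |(if a ∈ T then g else f) x| ≤ b := by
      intro T a x; split_ifs; exacts [hgb x, hfb x]
    intro T
    induction T using Finset.induction_on with
    | empty => simp
    | insert a T ha ih =>
      have h1 := fr_swap hN μ (m T) (m (insert a T)) (bd T) (bd (insert a T)) a
        fun c hc => by simp [hc]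
      have h2 := fr_swap hN μ (m (insert a T)) (m T) (bd (insert a T)) (bd T) a
        fun c hc => by simp [hc]
      simp only [if_neg ha, Finset.mem_insert_self, if_true] at h1 h2
      simp only [abs_sub_comm (g _)] at h2
      rw [Finset.card_insert_of_notMem ha]
      push_cast
      rw [abs_le] at ih ⊢
      constructor <;> linarith [ih.1, ih.2]
  have h := key Finset.univ
  simp only [Finset.mem_univ, if_true, Finset.card_univ, Fintype.card_fin] at h
  rw [Fr_eq, Fr_eq]
  refine h.trans ?_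
  gcongr
  linarith

theorem ising_pressure_eq {f : ℝ → ℝ} (hf : Measurable f) (M N : ℕ) :
    ∫ g, isingPressure f M N g ∂(patterns M N) = (N : ℝ)⁻¹ * Fr (ising (Fin N)) f M := by
  unfold isingPressure Fr
  rw [integral_const_mul]
  congr 2
  funext g
  have hm : Measurable fun x : Sph (Fin N) => Real.exp (energy f g x.1) :=
    ((measurable_en (M := M) (N := N) (F := fun _ => f) fun _ => hf).of_uncurry_left (x := g)).exp
  rw [integral_ising hm]
  have : (2 : ℝ) ^ Fintype.card (Fin N) = 2 ^ N := by rw [Fintype.card_fin]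
  rw [this]
  rfl

theorem sphere_pressure_eq {f : ℝ → ℝ} (hf : Measurable f) (M N : ℕ) :
    ∫ g, spherePressure f M N g ∂(patterns M N) = (N : ℝ)⁻¹ * Fr (sph (Fin N)) f M := by
  unfold spherePressure Fr
  rw [integral_const_mul]
  congr 2
  funext g
  have hm : Measurable fun x : Sph (Fin N) => Real.exp (energy f g x.1) :=
    ((measurable_en (M := M) (N := N) (F := fun _ => f) fun _ => hf).of_uncurry_left (x := g)).exp
  unfold sph
  rw [integral_map measurable_ofUnit.aemeasurable hm.aestronglyMeasurable]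
  simp only [ofUnit, Fintype.card_fin]

end Vale.Agent.P157
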