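import Vale.Agent.P157.SC
import Vale.Agent.P157.Unif

/-! # Self-consistency of the overlap path -/

namespace Vale.Agent.P157

open MeasureTheory ProbabilityTheory Filter Topology

namespace SelfCAux

theorem uH_shift {A S : Type} [Fintype A] [Fintype S] [DecidableEq A] [DecidableEq S]
    (f : A → ℝ → ℝ) (i : S) (w : Co A S → ℝ) (t : ℝ) (x : Sph S) :
    uH f (w + t • (Pi.single (.inr (.inl i)) 1 : Co A S → ℝ)) x = uH f w x + t * x.1 i := by
  have h1 : ∀ a, arg (w + t • (Pi.single (.inr (.inl i)) 1 : Co A S → ℝ)) x.1 a = arg w x.1 a := by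
    intro a
    simp [arg]
  simp only [uH, h1, Pi.add_apply, Pi.smul_apply, smul_eq_mul, add_mul, Finset.sum_add_distrib,
    add_assoc]
  congr 2
  rw [Finset.sum_eq_single i (fun j _ hj => by simp [hj]) (by simp)]
  simp

theorem gvs_bump {A S : Type} [Fintype A] [Fintype S] [DecidableEq A] [DecidableEq S] (n : ℕ)
    {g : A → S → ℝ} {x : ℕ → S → ℝ} {y : ℕ → A → ℝ} (hg : ∀ a i, 0 ≤ g a i)
    (hx : ∀ d i, 0 ≤ x d i) (hy : ∀ d a, 0 ≤ y d a) (i : S) (d : ℕ) {σ : ℝ} (hσ : 0 ≤ σ) :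
    gvs (prof n g (fun d' j => x d' j + if d' = d ∧ j = i then σ else 0) y) =
      Function.update (gvs (prof n g x y)) d
        ((line (Pi.single (.inr (.inl i)) 1 : Co A S → ℝ) σ).conv (gvs (prof n g x y) d)) := by
  funext d'
  by_cases h : d' = d
  · subst h
    rw [Function.update_self]
    unfold gvs
    rw [← gv_conv_line (prof_nonneg n hg hx hy d') _ hσ]
    congr 1
    funext c
    rcases c with ⟨a, j⟩ | j | a
    · simp [prof]
    · by_cases hj : j = i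
      · subst hj
        simp [prof]
      · simp [prof, hj]
    · simp [prof]
  · rw [Function.update_of_ne h]
    unfold gvs
    congr 1
    funext c
    rcases c with ⟨a, j⟩ | j | a <;> simp [prof, h]

theorem sum_Db {A S : Type} [Fintype A] [Fintype S] [DecidableEq A] [DecidableEq S]
    {f f1 f2 : A → ℝ → ℝ} {K : ℝ} (μ : Measure (Sph S)) [IsProbabilityMeasure μ] {ζ : ℕ → ℝ}
    (hζ : Zok ζ) (hf : ∀ a, Sm (f a) (f1 a) (f2 a) K) (s : ℕ → Co A S → ℝ) (n d : ℕ) :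
    ∑ i, Db ζ (gvs s) μ (uH f) (fun _ x => x.1 i) (fun _ _ => 0) n d =
      Fintype.card S - QQ ζ (rho ζ (gvs s) μ (uH f) (fun j _ x => x.1 j) n) d := by
  simp only [Db, zero_add, Finset.sum_sub_distrib, EG_sum_sq μ hζ hf, QQ, rho, Finset.mul_sum]
  rw [Finset.sum_comm]

theorem QQ_mem {n : ℕ} {ζ q : ℕ → ℝ} (hζ : Zok ζ) (hq : CAdm n q) (hq0 : q 0 = 1) (d : ℕ) :
    0 ≤ QQ ζ q d ∧ QQ ζ q d ≤ 1 := by
  have h1 : ∀ k, 0 ≤ ζ k - ζ (k + 1) := fun k => sub_nonneg.2 (hζ.anti (Nat.le_succ k))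
  refine ⟨Finset.sum_nonneg fun k _ => mul_nonneg (h1 k) (hq.nonneg _), ?_⟩
  have h2 : QQ ζ q d ≤ ∑ k ∈ Finset.range d, (ζ k - ζ (k + 1)) :=
    Finset.sum_le_sum fun k _ =>
      mul_le_of_le_one_right (h1 k) (hq0 ▸ hq.anti (Nat.zero_le (k + 1)))
  rw [Finset.sum_range_sub'] at h2
  linarith [hζ.le1, hζ.nn d]

theorem cum_add (n : ℕ) (u v : ℕ → ℝ) : cum n (u + v) = cum n u + cum n v := by
  funext k
  simp [cum, Finset.sum_add_distrib]

theorem sum_update_le {n : ℕ} {θm Θ y : ℝ} {θ : ℕ → ℝ} (hΘ : 0 ≤ Θ) (hθ : Fld n θm Θ θ)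
    (hy : |y| ≤ 1) (d : ℕ) {a : ℝ} (ha : |a - θ d| ≤ |y|) :
    ∑ j ∈ Finset.range (n + 1), sq0 (Function.update θ d a) j ≤
      ∑ j ∈ Finset.range (n + 1), sq0 θ j + (2 * Θ + 2) := by
  have h1 : ∀ j ∈ Finset.range (n + 1), sq0 (Function.update θ d a) j ≤
      sq0 θ j + if j = d then 2 * Θ + 2 else 0 := by
    intro j hj
    by_cases h : j = d
    · subst h
      by_cases h0 : j = 0
      · simp only [sq0, h0, if_true]
        linarith
      · have h2 := (hθ j (Nat.one_le_iff_ne_zero.2 h0)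
          (Nat.lt_succ_iff.1 (Finset.mem_range.1 hj))).2
        have h3 : (a - θ j) ^ 2 ≤ 1 := by
          rw [← sq_abs]
          exact pow_le_one₀ (abs_nonneg _) (ha.trans hy)
        simp only [sq0, h0, if_false, if_true, Function.update_self]
        nlinarith [sq_nonneg (a - 2 * θ j), sq_nonneg (θ j)]
    · simp [sq0, h]
  refine (Finset.sum_le_sum h1).trans ?_
  rw [Finset.sum_add_distrib, Finset.sum_ite_eq']
  split_ifs <;> linarith

theorem final {E Cu1 Cu2 σ N δ η V0 V1 P0 P1 r Q Qt τ : ℝ} (hσ : 0 < σ) (hN : 0 < N)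
    (hδ : 2 ≤ δ * N) (hη : 0 ≤ η) (hQ0 : 0 ≤ Q) (hQ1 : Q ≤ 1) (h1 : |V1 - V0 - (P1 - P0)| ≤ 2 * E)
    (h2 : |P1 - P0 - σ / 2 * (1 - Qt)| ≤ Cu2 * (σ * √σ))
    (h3 : |(N + 1) * (V1 - V0) - σ / 2 * (N + 1 - r)| ≤ (N + 1) * (Cu1 * (σ * √σ)))
    (h4 : |N + 1 - r - τ| ≤ δ / 2 * N) (h5 : |N - N * Q - τ| ≤ η * N) :
    |Q - Qt| ≤ 4 * E / σ + 2 * (Cu1 + Cu2) * √σ + (δ + η) := by
  have hN1 : 0 < N + 1 := by linarith
  obtain ⟨D, hD⟩ : ∃ D, N + 1 - r = (N + 1) * D := ⟨(N + 1 - r) / (N + 1), by field_simp⟩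
  have hδ0 : 0 ≤ δ := by
    by_contra h
    nlinarith
  rw [hD] at h3 h4
  have h6 : |V1 - V0 - σ / 2 * D| ≤ Cu1 * (σ * √σ) := by
    refine le_of_mul_le_mul_left ?_ hN1
    rw [← abs_of_pos hN1, ← abs_mul, abs_of_pos hN1]
    refine le_trans (le_of_eq ?_) h3
    congr 1
    ring
  have h7 : |D - (1 - Q)| ≤ δ + η := by
    refine le_of_mul_le_mul_left ?_ hN1
    rw [← abs_of_pos hN1, ← abs_mul, abs_of_pos hN1]
    rw [abs_le] at h4 h5 ⊢
    constructor <;> nlinarith [h4.1, h4.2, h5.1, h5.2]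
  have h8 : |D - (1 - Qt)| ≤ 4 * E / σ + 2 * (Cu1 + Cu2) * √σ := by
    refine le_of_mul_le_mul_left ?_ hσ
    rw [← abs_of_pos hσ, ← abs_mul, abs_of_pos hσ, mul_add, mul_div_cancel₀ _ hσ.ne']
    rw [abs_le] at h1 h2 h6 ⊢
    constructor <;> linarith [h1.1, h1.2, h2.1, h2.2, h6.1, h6.2]
  rw [abs_le] at h7 h8 ⊢
  constructor <;> linarith [h7.1, h7.2, h8.1, h8.2]

end SelfCAux

open SelfCAux in
theorem selfc : ∃ Cu : ℝ, 0 ≤ Cu ∧ ∀ (n : ℕ) (ζ : ℕ → ℝ) (me K A0 Θ θm : ℝ),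
    Reg n ζ me K A0 Θ θm → ∀ δ : ℝ, 0 < δ →
    ∀ᶠ k in 𝓝[>] (0 : ℝ), ∀ᶠ y in 𝓝[>] (0 : ℝ), ∀ᶠ N : ℕ in atTop,
      ∀ (S : Type) [Fintype S] [DecidableEq S] (F F1 F2 : ℕ → ℝ → ℝ) (m : ℕ)
        (θ θ' τ τ' q p : ℕ → ℝ) (η : ℝ),
        Fintype.card S = N → (m : ℝ) ≤ A0 * N → (∀ a, Sm (F a) (F1 a) (F2 a) K) →
        Fld n θm Θ θ → Fld n θm Θ θ' → CAdm n q → q 0 = 1 → CAdm n p → p 0 ≤ A0 * K ^ 2 →
        ∑ d ∈ Finset.range (n + 1), sq0 θ d + 1 ≤ Θ → 0 ≤ η →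
        SD (fun t => VS (ising S) F m ζ n t θ') θ τ y (k * y * N) n →
        SD (fun t => VS (ising S) F m ζ n θ t) θ' τ' y (k * y * N) n →
        (∀ d, 1 ≤ d → d ≤ n → |N - N * QQ ζ q d - τ d / θ d| ≤ η * N) →
        (∀ d, 1 ≤ d → d ≤ n →
          |N * (QQ ζ p d - QQ ζ p 1) - (τ' 1 / θ' 1 - τ' d / θ' d)| ≤ η * N) →
        ∀ σ : ℝ, 0 < σ → σ ≤ 1 → ∀ d, 1 ≤ d → d ≤ n →
          |QQ ζ q d - QQ ζ (qt n ζ (p + cum n (sq0 θ))) d|
            ≤ 80 * (1 + A0 * K ^ 2) * (me + δ + η) / σ + Cu * √σ + (δ + η) := by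
  obtain ⟨Cu1, hCu1, hu1⟩ := unif
  obtain ⟨Cu2, hCu2, hu2⟩ := unif_lc
  refine ⟨2 * (Cu1 + Cu2), by positivity, fun n ζ me K A0 Θ θm hR δ hδ => ?_⟩
  have hζ := hR.z.zok
  have hn := hR.z.one_le
  have htwo : Tendsto (fun k : ℝ => 2 * k) (𝓝[>] 0) (𝓝[>] 0) := by
    refine tendsto_nhdsWithin_iff.2 ⟨?_, ?_⟩
    · have h1 : Continuous fun k : ℝ => 2 * k := by fun_prop
      simpa using (h1.tendsto 0).mono_left nhdsWithin_le_nhds
    · filter_upwards [self_mem_nhdsWithin] with k hk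
      exact mul_pos two_pos (Set.mem_Ioi.1 hk)
  filter_upwards [sc hR hδ, htwo.eventually (goodX hR (half_pos hδ)), self_mem_nhdsWithin]
    with k hsc hg hk
  filter_upwards [hsc, hg, Ioc_mem_nhdsGT (zero_lt_one' ℝ)] with y hsc hg hy
  have hky : 0 < k * y := mul_pos hk hy.1
  filter_upwards [hsc, hg, eventually_ge_atTop 1,
    (tendsto_natCast_atTop_atTop.const_mul_atTop hδ).eventually_ge_atTop (2 : ℝ),
    (tendsto_natCast_atTop_atTop.const_mul_atTop hky).eventually_ge_atTop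
      (2 * (A0 * K ^ 2 + (Θ + (2 * Θ + 2)) / 2))] with N hsc hg hN hδN hkN
  intro S _ _ F F1 F2 m θ θ' τ τ' q p η hS hm hF hθ hθ' hq hq0 hp hp0 hΘ hη h1 h2 h3 h4 σ hσ hσ1
    d hd hdn
  have hN' : (1 : ℝ) ≤ N := by exact_mod_cast hN
  have hSne : Nonempty S := Fintype.card_pos_iff.1 (by omega)
  have hcard : (Fintype.card (Option S) : ℝ) = N + 1 := by
    rw [Fintype.card_option, hS]
    push_cast
    rfl
  have hf : ∀ a : Fin m, Sm (F a) (F1 a) (F2 a) K := fun a => hF a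
  have a0 := hsc S F F1 F2 m θ θ' τ τ' q p (sq0 θ) η hS hm hF hθ hθ' hq hq0 hp hp0
    (sq0_nonneg θ) (by linarith) hη h1 h2 h3 h4
  have a1 := hsc S F F1 F2 m θ θ' τ τ' q p (sq0 θ + Pi.single d σ) η hS hm hF hθ hθ' hq hq0 hp hp0
    (fun j => add_nonneg (sq0_nonneg θ j) (by
      rw [Pi.single_apply]
      split_ifs
      · exact hσ.le
      · exact le_rfl))
    (by
      simp only [Pi.add_apply, Finset.sum_add_distrib, Finset.sum_pi_single']
      split_ifs <;> linarith) hη h1 h2 h3 h4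
  rw [cum_add, ← add_assoc] at a1
  have a2 := hu2 n ζ _ hR.z (hp.add (cadm_cum n (sq0_nonneg θ))) d hdn σ hσ.le hσ1
  have hg0 : (0 : ℝ) ≤ (Fintype.card (Option S) : ℝ)⁻¹ := by positivity
  have hH : HG (uH (S := Option S) fun a : Fin m => F a) :=
    hg_uH (fun a => (hf a).meas) fun a => (hf a).bd
  have a3 : ∀ i : Option S, |VSo S F m ζ n θ θ' (sq0 θ + Pi.single d σ) -
      VSo S F m ζ n θ θ' (sq0 θ) - σ / 2 * Db ζ (gvs (cprof (Fin m) (Option S) n θ θ'))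
        (ising (Option S)) (uH fun a : Fin m => F a) (fun _ x => x.1 i) (fun _ _ => 0) n d| ≤
      Cu1 * (σ * √σ) := by
    intro i
    have b1 := hu1 (Co (Fin m) (Option S) → ℝ) (Sph (Option S)) (ising (Option S)) ζ
      (gvs (cprof (Fin m) (Option S) n θ θ')) (uH fun a : Fin m => F a) (fun x => x.1 i)
      (Pi.single (.inr (.inl i)) 1) hζ hR.z.z0 (fun _ => noise_gv _) hH
      ⟨measurable_sph_coord i, √(Fintype.card (Option S)), fun x =>
        Real.abs_le_sqrt (sph_sq_le x i)⟩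
      (ising_ae.mono fun x hx => (sq_le_one_iff_abs_le_one _).1 (hx i).le)
      (uH_shift _ i) n d hdn σ hσ.le hσ1
    have b2 : VSo S F m ζ n θ θ' (sq0 θ + Pi.single d σ) =
        Val (ising (Option S)) (fun a : Fin m => F a) ζ
          (prof n (fun _ _ => (Fintype.card (Option S) : ℝ)⁻¹)
            (fun d' j => sq0 θ d' + if d' = d ∧ j = i then σ else 0) fun d _ => sq0 θ' d) n := by
      unfold VSo
      conv_lhs => rw [← ising_reindex (Equiv.swap i none)]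
      rw [val_reindex _ (Equiv.refl (Fin m)) (Equiv.swap i none) fun a => (hf a).meas]
      congr 2
      · funext _ _
        rw [hcard, hS]
      · funext d' j
        by_cases hj : j = i
        · subst hj
          simp [Pi.single_apply]
        · have h5 : Equiv.swap i none j ≠ none := by
            intro h6
            exact hj ((Equiv.swap i none).injective (h6.trans (Equiv.swap_apply_left _ _).symm))
          obtain ⟨l, hl⟩ := Option.ne_none_iff_exists'.1 h5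
          simp [hl, hj]
    rw [b2, vso_eq, Val, gvs_bump n (fun _ _ => hg0) (fun d _ => sq0_nonneg θ d)
      (fun d _ => sq0_nonneg θ' d) i d hσ.le]
    exact b1
  have a4 : |(N + 1) * (VSo S F m ζ n θ θ' (sq0 θ + Pi.single d σ) -
      VSo S F m ζ n θ θ' (sq0 θ)) - σ / 2 * (N + 1 -
        QQ ζ (rho ζ (gvs (cprof (Fin m) (Option S) n θ θ')) (ising (Option S))
          (uH fun a : Fin m => F a) (fun j _ x => x.1 j) n) d)| ≤
      (N + 1) * (Cu1 * (σ * √σ)) := by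
    have b1 := (Finset.abs_sum_le_sum_abs _ Finset.univ).trans
      (Finset.sum_le_sum fun i _ => a3 i)
    rw [Finset.sum_sub_distrib, ← Finset.mul_sum, sum_Db _ hζ hf, Finset.sum_const,
      Finset.sum_const, Finset.card_univ, nsmul_eq_mul, nsmul_eq_mul] at b1
    rw [← hcard]
    exact b1
  have hSD : SD (fun t => VS (ising (Option S)) F m ζ n t θ') θ τ y (2 * k * y * N) n := by
    refine (h1.of_close (C := A0 * K ^ 2 + (Θ + (2 * Θ + 2)) / 2) fun j a ha => ?_).mono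
      (by linarith)
    have b1 := vst_crude (S := S) hζ hR.z.z0 hF (hS ▸ hm) n (Function.update θ j a) θ'
      (sq0_nonneg (Function.update θ j a)) zero_le_one le_rfl
    rw [vst_one, vso_eq] at b1
    have b2 := sum_update_le hR.Θ0 hθ (by rw [abs_of_pos hy.1]; exact hy.2) j ha
    exact b1.trans (by linarith)
  have hn0 : n ≠ 0 := by omega
  have a5 := (hg (Fin m) (Option S) (Option S) (Function.Embedding.refl _) (ising (Option S))
    (fun a => F a) (fun a => F1 a) (fun a => F2 a) (fun _ _ => (Fintype.card (Option S) : ℝ)⁻¹)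
    (fun θ d _ => sq0 θ d) (fun d _ => sq0 θ' d) θ τ (by rw [hcard]; linarith) (by simpa using hm)
    hf (fun _ _ => ⟨hg0, by
      rw [hcard, le_div_iff₀ (by linarith), inv_mul_le_iff₀ (by linarith)]
      linarith⟩) fam_refl (fun _ => by rw [sq0, if_neg hn0]; exact (hθ n hn le_rfl).2)
    (fun d _ => sq0_nonneg θ' d) (fun _ => by rw [sq0, if_neg hn0]; exact (hθ' n hn le_rfl).2)
    hθ hSD).2 d hd hdn
  have a6 : (fun (_ : Co (Fin m) (Option S) → ℝ) (x : Sph (Option S)) =>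
      ∑ j, x.1 (Function.Embedding.refl (Option S) j) ^ 2) = fun _ _ => (N : ℝ) + 1 := by
    funext _ x
    exact x.2.trans hcard
  rw [a6, EG, GE_const hH hζ] at a5
  swap
  · exact fun _ => noise_gv _
  have a7 := QQ_mem hζ hq hq0 d
  refine (final (E := 20 * (1 + A0 * K ^ 2) * (me + δ + η)) hσ (by linarith) hδN hη a7.1 a7.2 ?_
    a2 a4 a5 (h3 d hd hdn)).trans (le_of_eq (by ring))
  rw [abs_le] at a0 a1 ⊢
  constructor <;> linarith [a0.1, a0.2, a1.1, a1.2]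

end Vale.Agent.P157
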