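import Vale.Agent.P157.PC
import Vale.Agent.P157.SelfC
import Vale.Agent.P157.PsiLip
import Vale.Agent.P157.Insert
import Vale.Agent.P157.Avg
import Vale.Agent.P157.Link

/-! # The lower bound on the cube -/

namespace Vale.Agent.P157

open MeasureTheory ProbabilityTheory Filter Topology

namespace LBI

theorem ev_shift {p : ℕ → Prop} (h : ∀ᶠ N in atTop, p N) : ∀ᶠ N in atTop, ∀ a, p (N + a) := by
  obtain ⟨N0, h0⟩ := eventually_atTop.1 h
  exact eventually_atTop.2 ⟨N0, fun N hN a => h0 _ (by omega)⟩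

theorem sum_sq0 (n : ℕ) (θ : ℕ → ℝ) :
    ∑ d ∈ Finset.range (n + 1), sq0 θ d = ∑ d ∈ Finset.Icc 1 n, θ d ^ 2 := by
  induction n with
  | zero => simp [sq0]
  | succ n ih =>
    rw [Finset.sum_range_succ, ih, Finset.sum_Icc_succ_top (by omega)]
    simp [sq0]

theorem cum_zero (n : ℕ) (θ : ℕ → ℝ) : cum n (sq0 θ) 0 = ∑ d ∈ Finset.Icc 1 n, θ d ^ 2 := by
  rw [← sum_sq0, cum, Finset.range_eq_Ico]

theorem sum_sq_le {n : ℕ} {θ : ℕ → ℝ} {ε : ℝ} (hε : 0 < ε)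
    (h : ∀ d, 1 ≤ d → d ≤ n → ε ≤ θ d ∧ θ d ≤ 2 * ε) :
    ∑ d ∈ Finset.Icc 1 n, θ d ^ 2 ≤ 4 * n * ε ^ 2 := by
  have : ∑ d ∈ Finset.Icc 1 n, θ d ^ 2 ≤ ∑ _d ∈ Finset.Icc 1 n, 4 * ε ^ 2 := by
    refine Finset.sum_le_sum fun d hd => ?_
    obtain ⟨h1, h2⟩ := h d (Finset.mem_Icc.1 hd).1 (Finset.mem_Icc.1 hd).2
    nlinarith
  simp only [Finset.sum_const, Nat.card_Icc, Nat.add_sub_cancel, nsmul_eq_mul] at this
  linarith

theorem sum_sq_update {n : ℕ} (θ : ℕ → ℝ) (d : ℕ) (a : ℝ) :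
    ∑ j ∈ Finset.Icc 1 n, Function.update θ d a j ^ 2 ≤ ∑ j ∈ Finset.Icc 1 n, θ j ^ 2 + a ^ 2 := by
  have h1 : ∀ j ∈ Finset.Icc 1 n,
      Function.update θ d a j ^ 2 ≤ θ j ^ 2 + if j = d then a ^ 2 else 0 := by
    intro j _
    by_cases hj : j = d
    · subst hj; simp [sq_nonneg]
    · simp [hj]
  refine (Finset.sum_le_sum h1).trans ?_
  rw [Finset.sum_add_distrib, Finset.sum_ite_eq']
  split_ifs
  · exact le_rfl
  · nlinarith [sq_nonneg a]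

/-- Crude closeness after adding `a` spins. -/
theorem spins_close {ζ : ℕ → ℝ} (hζ : Zok ζ) (hz : ζ 0 = 1) {F F1 F2 : ℕ → ℝ → ℝ} {K : ℝ}
    (hF : ∀ a, Sm (F a) (F1 a) (F2 a) K) {A0 : ℝ} (hA : 0 ≤ A0) {N m : ℕ} (hN : 1 ≤ N)
    (hm : (m : ℝ) ≤ A0 * N) (n : ℕ) (θ θ' : ℕ → ℝ) (hθ : ∑ d ∈ Finset.Icc 1 n, θ d ^ 2 ≤ 4)
    (a : ℕ) :
    |VS (ising (Fin (N + a))) F m ζ n θ θ' - VS (ising (Fin N)) F m ζ n θ θ'|
      ≤ a * (A0 * K ^ 2 + 2) := by
  induction a with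
  | zero => simp
  | succ a ih =>
    have h1 := vs_ising_succ_sub hζ hz hF (A0 := A0) (N := N + a) (m := m) (by omega)
      (hm.trans (mul_le_mul_of_nonneg_left (by push_cast; linarith [Nat.cast_nonneg (α := ℝ) a]) hA))
      n θ θ'
    rw [sum_sq0] at h1
    have h2 := abs_sub_le (VS (ising (Fin (N + a + 1))) F m ζ n θ θ')
      (VS (ising (Fin (N + a))) F m ζ n θ θ') (VS (ising (Fin N)) F m ζ n θ θ')
    push_cast
    change |VS (ising (Fin (N + a + 1))) F m ζ n θ θ' - _| ≤ _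
    linarith

theorem telescope {u : ℕ → ℝ} {c : ℝ} (k : ℕ) (h : ∀ a, a < k → c ≤ u (a + 1) - u a) :
    k * c ≤ u k - u 0 := by
  induction k with
  | zero => simp
  | succ k ih =>
    have h1 := ih fun a ha => h a (by omega)
    have h2 := h k (by omega)
    push_cast
    linarith

theorem floor_step {α : ℝ} (hα : 0 < α) (N Kb : ℕ) :
    ∃ j : ℕ, ⌊α * (N + Kb : ℕ)⌋₊ = ⌊α * N⌋₊ + j ∧ |(j : ℝ) - α * Kb| ≤ 1 := by
  have hle : ⌊α * N⌋₊ ≤ ⌊α * (N + Kb : ℕ)⌋₊ :=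
    Nat.floor_le_floor (mul_le_mul_of_nonneg_left (by push_cast; linarith [Nat.cast_nonneg (α := ℝ) Kb]) hα.le)
  obtain ⟨j, hj⟩ := Nat.exists_eq_add_of_le hle
  refine ⟨j, hj, ?_⟩
  have h1 : (⌊α * N⌋₊ : ℝ) ≤ α * N := Nat.floor_le (by positivity)
  have h2 : α * N < ⌊α * N⌋₊ + 1 := Nat.lt_floor_add_one _
  have h3 : (⌊α * (N + Kb : ℕ)⌋₊ : ℝ) ≤ α * (N + Kb : ℕ) := Nat.floor_le (by positivity)
  have h4 : α * (N + Kb : ℕ) < ⌊α * (N + Kb : ℕ)⌋₊ + 1 := Nat.lt_floor_add_one _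
  rw [hj] at h3 h4
  push_cast at h3 h4
  rw [abs_le]
  constructor <;> nlinarith

/-- Spin field strengths of a parameter vector. -/
def th (ϑ : Bool × ℕ → ℝ) (b : Bool) (d : ℕ) : ℝ := ϑ (b, d)

theorem th_update_same (ϑ : Bool × ℕ → ℝ) (b : Bool) (d : ℕ) (a : ℝ) :
    th (Function.update ϑ (b, d) a) b = Function.update (th ϑ b) d a := by
  funext j
  by_cases hj : j = d
  · subst hj; simp [th]
  · simp [th, hj]

theorem th_update_ne (ϑ : Bool × ℕ → ℝ) {b b' : Bool} (h : b' ≠ b) (d : ℕ) (a : ℝ) :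
    th (Function.update ϑ (b, d) a) b' = th ϑ b' := by
  funext j
  simp [th, h]

theorem box_th {n : ℕ} {ε : ℝ} {ϑ : Bool × ℕ → ℝ}
    (h : Box (Finset.univ ×ˢ Finset.Icc 1 n) ε ϑ) (b : Bool) :
    ∀ d, 1 ≤ d → d ≤ n → ε ≤ th ϑ b d ∧ th ϑ b d ≤ 2 * ε := fun d h1 h2 =>
  h (b, d) (by simp [h1, h2])

theorem fld_of {n : ℕ} {ε : ℝ} (hε : 0 < ε) (hε1 : ε ≤ 1 / 2) {θ : ℕ → ℝ}
    (h : ∀ d, 1 ≤ d → d ≤ n → ε ≤ θ d ∧ θ d ≤ 2 * ε) : Fld n ε 2 θ := fun d h1 h2 => by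
  obtain ⟨h3, h4⟩ := h d h1 h2
  exact ⟨h3, by nlinarith⟩

set_option maxHeartbeats 2000000 in
/-- One block of spins and patterns, for fixed parameters. -/
theorem block {f f1 f2 : ℝ → ℝ} {K : ℝ} (hf : Sm f f1 f2 K) {α : ℝ} (hα : 0 < α)
    {I : ℝ} (hI : ∀ n ζ q, Adm n ζ q → I ≤ α * psi n ζ q f + isingS n ζ q) :
    ∃ Cu : ℝ, 0 ≤ Cu ∧ ∀ (n : ℕ) (ζ : ℕ → ℝ) (t ε : ℝ) (Kb : ℕ), 0 < t → t ≤ 1 → ε ≤ 1 / 2 →
      4 * n * ε ^ 2 ≤ t → Reg n ζ (t ^ 2) K α 2 ε →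
      ∀ᶠ k in 𝓝[>] (0 : ℝ), ∀ᶠ y in 𝓝[>] (0 : ℝ), ∀ᶠ N : ℕ in atTop, ∀ θ θ' τ τ' : ℕ → ℝ,
        (∀ d, 1 ≤ d → d ≤ n → ε ≤ θ d ∧ θ d ≤ 2 * ε) →
        (∀ d, 1 ≤ d → d ≤ n → ε ≤ θ' d ∧ θ' d ≤ 2 * ε) →
        SD (fun s => VS (ising (Fin N)) (fun _ => f) ⌊α * N⌋₊ ζ n s θ') θ τ y (k * y * N / 2) n →
        SD (fun s => VS (ising (Fin N)) (fun _ => f) ⌊α * N⌋₊ ζ n θ s) θ' τ' y (k * y * N / 2) n →
        Kb * (I - (80 * (1 + α * K ^ 2) * t ^ 2
              + α * K ^ 2 * (320 * (1 + α * K ^ 2) * t + Cu * √t + 3 * t ^ 2) / 2)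
            - (α + 1) * (9 * K ^ 2 * t ^ 2 + (K + K ^ 2) * t / 2
              + K ^ 2 * (2 * t + (320 * (1 + α * K ^ 2) * t + Cu * √t + 3 * t ^ 2)) / 2)) - K
          ≤ VS (ising (Fin (N + Kb))) (fun _ => f) ⌊α * (N + Kb : ℕ)⌋₊ ζ n θ θ'
            - VS (ising (Fin N)) (fun _ => f) ⌊α * N⌋₊ ζ n θ θ' := by
  obtain ⟨Cu, hCu, hself⟩ := selfc
  refine ⟨Cu, hCu, fun n ζ t ε Kb ht ht1 hε1 hnε hR => ?_⟩
  have hK : 0 ≤ K := hR.K0
  have hε : 0 < ε := hR.θm0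
  have hζ := hR.z
  have hzok := hζ.zok
  have hn1 := hζ.one_le
  have ht2 : 0 < t ^ 2 := by positivity
  have hF : ∀ a : ℕ, Sm ((fun _ : ℕ => f) a) ((fun _ : ℕ => f1) a) ((fun _ : ℕ => f2) a) K :=
    fun _ => hf
  filter_upwards [baseQ hR ht2, baseP hR ht2, hself n ζ _ K α 2 ε hR _ ht2, sc hR ht2, pc hR ht2,
    self_mem_nhdsWithin] with k h1 h2 h3 h4 h5 hk
  have hk0 : 0 < k := hk
  have hyε : ∀ᶠ y in 𝓝[>] (0 : ℝ), y < ε := nhdsWithin_le_nhds (Iio_mem_nhds hε)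
  filter_upwards [h1, h2, h3, h4, h5, self_mem_nhdsWithin, hyε] with y h1 h2 h3 h4 h5 hy hyε
  have hy0 : 0 < y := hy
  have hbig : ∀ c : ℝ, ∀ r : ℝ, 0 < r → ∀ᶠ N : ℕ in atTop, c ≤ r * N := fun c r hr =>
    (tendsto_natCast_atTop_atTop.const_mul_atTop hr).eventually_ge_atTop c
  filter_upwards [h1, h2, h3, ev_shift h4, ev_shift h5, eventually_ge_atTop 1,
    hbig (2 * (Kb * (α * K ^ 2 + 2) + (α * Kb + 1) * K)) (k * y / 2) (by positivity),
    hbig (Kb * (1 + α * K ^ 2)) (t ^ 2) ht2] with N h1 h2 h3 h4 h5 hN1 hb1 hb2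
  intro θ θ' τ τ' hθ hθ' hSD hSD'
  set M := ⌊α * N⌋₊ with hM
  have hN0 : (0 : ℝ) < N := by exact_mod_cast hN1
  have hMN : (M : ℝ) ≤ α * N := Nat.floor_le (by positivity)
  have hfθ := fld_of hε hε1 hθ
  have hfθ' := fld_of hε hε1 hθ'
  have hsθ := (sum_sq_le hε hθ).trans hnε
  have hsθ' := (sum_sq_le hε hθ').trans hnε
  have hkyN : 0 ≤ k * y * N := by positivity
  have hcard : Fintype.card (Fin N) = N := Fintype.card_fin N
  obtain ⟨q, hq, hq0, hqτ⟩ := h1 (Fin N) (ising (Fin N)) _ _ _ M θ θ' τ hcard hMN hF hfθ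
    (hfθ' n hn1 le_rfl).2 (hSD.mono (by linarith))
  obtain ⟨p, hp, hp0, hpτ⟩ := h2 (Fin N) (ising (Fin N)) _ _ _ M θ θ' τ' hcard hMN hF
    (hfθ n hn1 le_rfl).2 hfθ' (hSD'.mono (by linarith))
  have hαK : 0 ≤ α * K ^ 2 := by positivity
  -- hypotheses on `q`, `p` at a larger size
  have hqa : ∀ a : ℕ, a ≤ Kb → ∀ d, 1 ≤ d → d ≤ n →
      |((N + a : ℕ) : ℝ) - (N + a : ℕ) * QQ ζ q d - τ d / θ d| ≤ 2 * t ^ 2 * (N + a : ℕ) := by
    intro a ha d hd hdn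
    have h6 := abs_le.1 (hqτ d hd hdn)
    have h7 := QQ_bounds hzok hq d
    rw [hq0] at h7
    have ha0 : (0 : ℝ) ≤ a := Nat.cast_nonneg a
    have ha1 : (a : ℝ) ≤ Kb := by exact_mod_cast ha
    have h8 : 0 ≤ a * (1 - QQ ζ q d) := mul_nonneg ha0 (by linarith)
    have h9 : a * (1 - QQ ζ q d) ≤ a := by nlinarith
    have h10 : (Kb : ℝ) ≤ Kb * (1 + α * K ^ 2) := by nlinarith
    have h11 : 0 ≤ t ^ 2 * a := by positivity
    push_cast
    rw [abs_le]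
    constructor <;> nlinarith
  have hpa : ∀ a : ℕ, a ≤ Kb → ∀ d, 1 ≤ d → d ≤ n →
      |((N + a : ℕ) : ℝ) * (QQ ζ p d - QQ ζ p 1) - (τ' 1 / θ' 1 - τ' d / θ' d)|
        ≤ 2 * t ^ 2 * (N + a : ℕ) := by
    intro a ha d hd hdn
    have h6 := abs_le.1 (hpτ d hd hdn)
    have h7 := QQ_bounds hzok hp d
    have h7' := QQ_bounds hzok hp 1
    have ha0 : (0 : ℝ) ≤ a := Nat.cast_nonneg a
    have ha1 : (a : ℝ) ≤ Kb := by exact_mod_cast ha
    have h8 : |a * (QQ ζ p d - QQ ζ p 1)| ≤ Kb * (1 + α * K ^ 2) := by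
      rw [abs_mul, abs_of_nonneg ha0]
      refine mul_le_mul ha1 (abs_le.2 ⟨by linarith, by linarith⟩) (abs_nonneg _) (by linarith)
    have h9 := abs_le.1 h8
    have h11 : 0 ≤ t ^ 2 * a := by positivity
    push_cast
    rw [abs_le]
    constructor <;> nlinarith
  -- second differences at a larger size
  have hupd : ∀ d a', 1 ≤ d → d ≤ n → |a' - θ d| ≤ |y| →
      ∑ j ∈ Finset.Icc 1 n, Function.update θ d a' j ^ 2 ≤ 4 := by
    intro d a' hd hdn ha'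
    refine (sum_sq_update θ d a').trans ?_
    rw [abs_of_pos hy0] at ha'
    obtain ⟨h6, h7⟩ := abs_le.1 ha'
    obtain ⟨h8, h9⟩ := hθ d hd hdn
    nlinarith
  have hclose : ∀ (a j : ℕ) (s s' : ℕ → ℝ), ∑ d ∈ Finset.Icc 1 n, s d ^ 2 ≤ 4 →
      |VS (ising (Fin (N + a))) (fun _ => f) (M + j) ζ n s s'
        - VS (ising (Fin N)) (fun _ => f) M ζ n s s'| ≤ a * (α * K ^ 2 + 2) + j * K := by
    intro a j s s' hs
    have h6 := spins_close hzok hζ.z0 hF hα.le hN1 hMN n s s' hs a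
    have h7 := vs_add_sub (ising (Fin (N + a))) hzok (F := fun _ => f) (fun _ => hf.meas)
      (fun _ => hf.bd) M j n s s'
    have h8 := abs_sub_le (VS (ising (Fin (N + a))) (fun _ => f) (M + j) ζ n s s')
      (VS (ising (Fin (N + a))) (fun _ => f) M ζ n s s') (VS (ising (Fin N)) (fun _ => f) M ζ n s s')
    linarith
  have hκ : ∀ a j : ℕ, a ≤ Kb → (j : ℝ) ≤ α * Kb + 1 →
      k * y * N / 2 + 2 * (a * (α * K ^ 2 + 2) + j * K) ≤ k * y * (N + a : ℕ) := by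
    intro a j ha hj
    have ha1 : (a : ℝ) ≤ Kb := by exact_mod_cast ha
    have h6 : a * (α * K ^ 2 + 2) ≤ Kb * (α * K ^ 2 + 2) :=
      mul_le_mul_of_nonneg_right ha1 (by linarith)
    have h7 : j * K ≤ (α * Kb + 1) * K := mul_le_mul_of_nonneg_right hj hK
    have h8 : 0 ≤ k * y * a := by positivity
    push_cast
    nlinarith
  have hSDa : ∀ a j : ℕ, a ≤ Kb → (j : ℝ) ≤ α * Kb + 1 →
      SD (fun s => VS (ising (Fin (N + a))) (fun _ => f) (M + j) ζ n s θ') θ τ y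
        (k * y * (N + a : ℕ)) n := by
    intro a j ha hj d hd hdn
    have h6 : SD (fun s => VS (ising (Fin N)) (fun _ => f) M ζ n s θ') θ τ y (k * y * N / 2) n :=
      hSD
    have h7 := h6 d hd hdn
    have e1 := abs_le.1 (hclose a j (Function.update θ d (θ d + y)) θ'
      (hupd d _ hd hdn (by simp)))
    have e2 := abs_le.1 (hclose a j (Function.update θ d (θ d - y)) θ'
      (hupd d _ hd hdn (by simp)))
    have e3 := abs_le.1 (hclose a j θ θ' (by linarith))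
    have e4 := hκ a j ha hj
    dsimp only at h7 ⊢
    constructor <;> linarith [h7.1, h7.2]
  have hSDa' : ∀ a : ℕ, a ≤ Kb →
      SD (fun s => VS (ising (Fin (N + a))) (fun _ => f) M ζ n θ s) θ' τ' y
        (k * y * (N + a : ℕ)) n := by
    intro a ha
    refine (hSD'.of_close (C := a * (α * K ^ 2 + 2) + (0 : ℕ) * K) fun d a' _ => ?_).mono
      (hκ a 0 ha (by push_cast; positivity))
    exact hclose a 0 θ _ (by linarith)
  -- self-consistency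
  set P := p + cum n (sq0 θ) with hP
  set η1 : ℝ := 320 * (1 + α * K ^ 2) * t + Cu * √t + 3 * t ^ 2 with hη1
  have hη10 : 0 ≤ η1 := by positivity
  have hsc : ∀ d, 1 ≤ d → d ≤ n → |QQ ζ q d - QQ ζ (qt n ζ P) d| ≤ η1 := by
    intro d hd hdn
    have h6 := h3 (Fin N) _ _ _ M θ θ' τ τ' q p (2 * t ^ 2) hcard hMN hF hfθ hfθ' hq hq0 hp hp0
      (by rw [sum_sq0]; linarith) (by positivity) (hSD.mono (by linarith))
      (hSD'.mono (by linarith)) (by simpa using hqa 0 (Nat.zero_le _))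
      (by simpa using hpa 0 (Nat.zero_le _)) t ht ht1 d hd hdn
    refine h6.trans (le_of_eq ?_)
    rw [hη1]
    field_simp
    ring
  set q' := shr t (qt n ζ P) with hq'
  have hqt := cadm_qt (n := n) hzok P
  have hqt0 : qt n ζ P 0 = 1 := by simp [qt]
  have hadm : Adm n ζ q' := adm_shr hζ hqt hqt0 ht
  have hconj := ising_conj hζ hp (cadm_cum n (sq0_nonneg θ)) hη10 ht hsc
  -- spin steps
  have hspin : ∀ a, a < Kb → isingS n ζ q' - (80 * (1 + α * K ^ 2) * t ^ 2 + α * K ^ 2 * η1 / 2)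
      ≤ VS (ising (Fin (N + (a + 1)))) (fun _ => f) M ζ n θ θ'
        - VS (ising (Fin (N + a))) (fun _ => f) M ζ n θ θ' := by
    intro a ha
    have h6 := h4 a (Fin (N + a)) _ _ _ M θ θ' τ τ' q p (sq0 θ) (2 * t ^ 2) (Fintype.card_fin _)
      (hMN.trans (mul_le_mul_of_nonneg_left
        (by push_cast; linarith [Nat.cast_nonneg (α := ℝ) a]) hα.le))
      hF hfθ hfθ' hq hq0 hp hp0 (sq0_nonneg θ) (by rw [sum_sq0]; linarith) (by positivity)
      (by simpa using hSDa a 0 ha.le (by push_cast; positivity)) (hSDa' a ha.le)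
      (hqa a ha.le) (hpa a ha.le)
    rw [vso_eq, vs_ising_option (fun _ => hf.meas)] at h6
    have h7 := (abs_le.1 h6).1
    have h8 : p 0 * η1 ≤ α * K ^ 2 * η1 := mul_le_mul_of_nonneg_right hp0 hη10
    change _ ≤ VS (ising (Fin (N + a + 1))) (fun _ => f) M ζ n θ θ' - _
    linarith
  -- pattern steps
  obtain ⟨j, hj, hjα⟩ := floor_step hα N Kb
  have hjα' := abs_le.1 hjα
  have hpsi : psi n ζ q' f - ((K + K ^ 2) * t / 2 + K ^ 2 * (2 * t + η1) / 2)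
      ≤ psi n ζ (q + cum n (sq0 θ')) f := by
    have hc := cadm_cum n (sq0_nonneg θ')
    have h6 := psi_lip hζ hf (hq.add hc) hadm.cadm (η := 2 * t + η1) (by positivity) (by
      intro d hd hdn
      have e1 := abs_le.1 (hsc d hd hdn)
      have e2 := abs_le.1 (abs_QQ_shr hζ hqt hqt0 ht d)
      have e3 := QQ_bounds hzok hc d
      rw [cum_zero] at e3
      rw [QQ_add, abs_le]
      constructor <;> linarith)
    have h7 : |(q + cum n (sq0 θ')) 0 - q' 0| ≤ t := by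
      rw [hadm.q0, Pi.add_apply, hq0, cum_zero, add_sub_cancel_left,
        abs_of_nonneg (Finset.sum_nonneg fun _ _ => sq_nonneg _)]
      exact hsθ'
    have h8 : (K + K ^ 2) * |(q + cum n (sq0 θ')) 0 - q' 0| ≤ (K + K ^ 2) * t :=
      mul_le_mul_of_nonneg_left h7 (by positivity)
    have h9 := (abs_le.1 h6).1
    linarith
  have hpat : ∀ b, b < j → psi n ζ q' f
      - (9 * K ^ 2 * t ^ 2 + (K + K ^ 2) * t / 2 + K ^ 2 * (2 * t + η1) / 2)
      ≤ VS (ising (Fin (N + Kb))) (fun _ => f) (M + (b + 1)) ζ n θ θ'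
        - VS (ising (Fin (N + Kb))) (fun _ => f) (M + b) ζ n θ θ' := by
    intro b hb
    have hb' : (b : ℝ) ≤ j := by exact_mod_cast hb.le
    have hm : ((M + b : ℕ) : ℝ) ≤ α * (N + Kb : ℕ) := by
      have e1 : (⌊α * (N + Kb : ℕ)⌋₊ : ℝ) ≤ α * (N + Kb : ℕ) := Nat.floor_le (by positivity)
      rw [hj] at e1
      push_cast at e1 ⊢
      linarith
    have h6 := (h5 Kb (Fin (N + Kb)) (ising _) _ _ _ (M + b) θ θ' τ q (2 * t ^ 2)
      (Fintype.card_fin _) hm hF hfθ (hfθ' n hn1 le_rfl).2 hq hq0 (by positivity)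
      (hSDa Kb b le_rfl (by linarith))).2 (fun d hd hdn => by
        have := abs_le.1 (hqa Kb le_rfl d hd hdn)
        linarith)
    change _ ≤ VS (ising (Fin (N + Kb))) (fun _ => f) (M + b + 1) ζ n θ θ' - _
    linarith
  have hT1 := telescope (u := fun a => VS (ising (Fin (N + a))) (fun _ => f) M ζ n θ θ') Kb hspin
  have hT2 := telescope (u := fun b => VS (ising (Fin (N + Kb))) (fun _ => f) (M + b) ζ n θ θ')
    j hpat
  have hψ := abs_le.1 (abs_psi_le (n := n) hzok q' hf.meas hf.bd)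
  have hIq := hI n ζ q' hadm
  rw [hj]
  set eP : ℝ := 9 * K ^ 2 * t ^ 2 + (K + K ^ 2) * t / 2 + K ^ 2 * (2 * t + η1) / 2 with heP
  have heP0 : 0 ≤ eP := by positivity
  set eS : ℝ := 80 * (1 + α * K ^ 2) * t ^ 2 + α * K ^ 2 * η1 / 2 with heS
  have hKb0 : (0 : ℝ) ≤ Kb := Nat.cast_nonneg _
  have e1 : α * Kb * psi n ζ q' f - K ≤ j * psi n ζ q' f := by
    have : |((j : ℝ) - α * Kb) * psi n ζ q' f| ≤ 1 * K := by
      rw [abs_mul]
      exact mul_le_mul hjα (abs_le.2 hψ) (abs_nonneg _) zero_le_one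
    have := (abs_le.1 this).1
    linarith
  have e2 : j * eP ≤ Kb * ((α + 1) * eP) := by
    rcases Nat.eq_zero_or_pos Kb with h0 | h0
    · have hj0 : j = 0 := by
        have : ⌊α * (N + Kb : ℕ)⌋₊ = ⌊α * N⌋₊ := by rw [h0]; simp
        omega
      simp [hj0, h0]
    · have h1 : (1 : ℝ) ≤ Kb := by exact_mod_cast h0
      have : (j : ℝ) ≤ Kb * (α + 1) := by nlinarith
      calc j * eP ≤ Kb * (α + 1) * eP := mul_le_mul_of_nonneg_right this heP0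
        _ = _ := by ring
  have e3 : Kb * I ≤ Kb * (α * psi n ζ q' f + isingS n ζ q') := mul_le_mul_of_nonneg_left hIq hKb0
  simp only [Nat.add_zero] at hT1 hT2
  nlinarith

end LBI

theorem lb_ising_smooth {f f1 f2 : ℝ → ℝ} {K : ℝ} (hf : Sm f f1 f2 K) {α : ℝ} (hα : 0 < α)
    {I : ℝ} (hI : ∀ n ζ q, Adm n ζ q → I ≤ α * psi n ζ q f + isingS n ζ q) {δ : ℝ}
    (hδ : 0 < δ) : ∀ᶠ N : ℕ in atTop, (I - δ) * N ≤ Fr (ising (Fin N)) f ⌊α * N⌋₊ := by
  obtain ⟨Cu, hCu, hblock⟩ := LBI.block hf hα hI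
  have hK : 0 ≤ K := hf.jet.K0
  have hF : ∀ a : ℕ, Sm ((fun _ : ℕ => f) a) ((fun _ : ℕ => f1) a) ((fun _ : ℕ => f2) a) K :=
    fun _ => hf
  -- choice of the small parameter
  set E : ℝ → ℝ := fun t => (80 * (1 + α * K ^ 2) * t ^ 2
      + α * K ^ 2 * (320 * (1 + α * K ^ 2) * t + Cu * √t + 3 * t ^ 2) / 2)
    + (α + 1) * (9 * K ^ 2 * t ^ 2 + (K + K ^ 2) * t / 2
      + K ^ 2 * (2 * t + (320 * (1 + α * K ^ 2) * t + Cu * √t + 3 * t ^ 2)) / 2)
    + (t / 2 + α * (K + K ^ 2) * t / 2) with hE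
  have hEc : Continuous E := by rw [hE]; fun_prop
  have hE0 : E 0 = 0 := by simp [hE]
  have hev : ∀ᶠ t in 𝓝[>] (0 : ℝ), E t < δ / 4 ∧ t < 1 ∧ 0 < t := by
    have h1 : ∀ᶠ t in 𝓝 (0 : ℝ), E t < δ / 4 :=
      hEc.continuousAt.eventually_lt continuousAt_const (by rw [hE0]; positivity)
    have h2 : ∀ᶠ t in 𝓝 (0 : ℝ), t < 1 := Iio_mem_nhds one_pos
    filter_upwards [nhdsWithin_le_nhds h1, nhdsWithin_le_nhds h2, self_mem_nhdsWithin]
      with t a b c using ⟨a, b, c⟩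
  obtain ⟨t, hEt, ht1, ht⟩ := hev.exists
  obtain ⟨n, ζ, hζ, hmesh⟩ := exists_grid (η := (t ^ 2) ^ 2) (by positivity)
  have hzok := hζ.zok
  have hn1 := hζ.one_le
  set ε : ℝ := t / (2 * (n + 1)) with hεdef
  have hn0 : (0 : ℝ) ≤ n := Nat.cast_nonneg n
  have hε : 0 < ε := by positivity
  have hεt : ε * (2 * (n + 1)) = t := by rw [hεdef]; field_simp
  have hε1 : ε ≤ 1 / 2 := by nlinarith
  have hnε : 4 * n * ε ^ 2 ≤ t := by nlinarith
  obtain ⟨Kb, hKb⟩ := exists_nat_ge (4 * K / δ + 1)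
  have hKδ : 0 ≤ 4 * K / δ := by positivity
  have hKb1 : 1 ≤ Kb := by
    have : (1 : ℝ) ≤ Kb := by linarith
    exact_mod_cast this
  have hKb2 : K ≤ Kb * (δ / 4) := by
    have h1 : 4 * K / δ ≤ Kb := by linarith
    rw [div_le_iff₀ hδ] at h1
    linarith
  have hR : Reg n ζ (t ^ 2) K α 2 ε :=
    ⟨hζ, by positivity, by nlinarith, hmesh, hK, hα.le, by norm_num, hε⟩
  set δ0 : ℝ := t / 2 + α * (K + K ^ 2) * t / 2 with hδ0
  set V : ℕ → (Bool × ℕ → ℝ) → ℝ := fun N ϑ =>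
    VS (ising (Fin N)) (fun _ => f) ⌊α * N⌋₊ ζ n (LBI.th ϑ true) (LBI.th ϑ false) with hV
  have hfl : ∀ N : ℕ, (⌊α * N⌋₊ : ℝ) ≤ α * N := fun N => Nat.floor_le (by positivity)
  have hKK : 0 ≤ K + K ^ 2 := by positivity
  have hmain := avg_lower (Finset.univ ×ˢ Finset.Icc 1 n : Finset (Bool × ℕ)) hε hKb1
    ((1 + α * (K + K ^ 2)) * (3 * ε)) (K * Real.exp (4 * K) * α)
    (Kb * (α * K ^ 2 + 2) + (α * Kb + 1) * K) (I - δ / 2 + δ0) δ0 V V
    (fun N => Fr (ising (Fin N)) f ⌊α * N⌋₊) ?_ ?_ ?_ ?_ ?_ (half_pos hδ)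
  · filter_upwards [hmain] with N hN
    refine le_trans (le_of_eq ?_) hN
    ring
  · refine Eventually.of_forall fun N ϑ _ j _ a b ha1 ha2 hb1 hb2 => ?_
    have hN0 : (0 : ℝ) ≤ N := Nat.cast_nonneg N
    have hsq : |a ^ 2 - b ^ 2| ≤ 6 * ε * |a - b| := by
      rw [show a ^ 2 - b ^ 2 = (a + b) * (a - b) by ring, abs_mul]
      exact mul_le_mul_of_nonneg_right (abs_le.2 ⟨by linarith, by linarith⟩) (abs_nonneg _)
    have hab : 0 ≤ ε * |a - b| := by positivity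
    obtain ⟨bb, d⟩ := j
    cases bb
    · simp only [hV, LBI.th_update_same, LBI.th_update_ne ϑ (show true ≠ false by simp)]
      refine (vs_lip_y _ hzok hζ.z0 hF _ n _ _ d a b).trans ?_
      have h1 : (⌊α * N⌋₊ : ℝ) * (K + K ^ 2) * |a ^ 2 - b ^ 2|
          ≤ α * N * (K + K ^ 2) * (6 * ε * |a - b|) :=
        mul_le_mul (mul_le_mul_of_nonneg_right (hfl N) hKK) hsq (abs_nonneg _) (by positivity)
      have h2 : 0 ≤ N * (ε * |a - b|) := by positivity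
      linarith
    · simp only [hV, LBI.th_update_same, LBI.th_update_ne ϑ (show false ≠ true by simp)]
      refine (vs_lip_x _ hzok hζ.z0 hF _ n _ _ d a b).trans ?_
      rw [Fintype.card_fin]
      have h1 : (N : ℝ) * |a ^ 2 - b ^ 2| ≤ N * (6 * ε * |a - b|) :=
        mul_le_mul_of_nonneg_left hsq hN0
      have h2 : 0 ≤ α * (K + K ^ 2) * N * (ε * |a - b|) := by positivity
      linarith
  · refine Eventually.of_forall fun N ϑ hϑ j hj y hy0 hy => ?_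
    have hN0 : (0 : ℝ) ≤ N := Nat.cast_nonneg N
    obtain ⟨bb, d⟩ := j
    have hd : 1 ≤ d ∧ d ≤ n := by simpa using hj
    have hlt : y < LBI.th ϑ bb d := by
      have := (LBI.box_th hϑ bb d hd.1 hd.2).1
      linarith
    have hc0 : 0 ≤ K * Real.exp (4 * K) * α * N * y ^ 2 := by positivity
    cases bb
    · simp only [sd2, hV, LBI.th_update_same, LBI.th_update_ne ϑ (show true ≠ false by simp)]
      refine le_trans ?_ (vs_sd_y _ hzok hF _ n _ _ hd.1 hd.2 hy0.le hlt)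
      have h1 : K * y ^ 2 * (Real.exp (4 * K) * ⌊α * N⌋₊) ≤ K * y ^ 2 * (Real.exp (4 * K) * (α * N)) :=
        mul_le_mul_of_nonneg_left (mul_le_mul_of_nonneg_left (hfl N) (Real.exp_pos _).le)
          (by positivity)
      linarith
    · simp only [sd2, hV, LBI.th_update_same, LBI.th_update_ne ϑ (show false ≠ true by simp)]
      exact le_trans (by linarith) (vs_sd_x _ hzok hF _ n _ _ hd.1 hd.2 hy0.le hlt)
  · filter_upwards [hblock n ζ t ε Kb ht ht1.le hε1 hnε hR] with k h1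
    filter_upwards [h1, self_mem_nhdsWithin] with y h1 hy
    filter_upwards [h1] with N h1 ϑ hϑ hsd
    have hy0 : 0 < y := hy
    obtain ⟨τ, hτ⟩ := sd_of_second (U := fun s => VS (ising (Fin N)) (fun _ => f) ⌊α * N⌋₊ ζ n s
      (LBI.th ϑ false)) (θ := LBI.th ϑ true) (κ := k * y * N / 2) (n := n) hy0 (fun d h1 h2 => by
        have := hsd (true, d) (by simp [h1, h2])
        simp only [sd2, hV, LBI.th_update_same,
          LBI.th_update_ne ϑ (show false ≠ true by simp)] at this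
        exact le_trans this (le_of_eq (by ring)))
    obtain ⟨τ', hτ'⟩ := sd_of_second (U := fun s => VS (ising (Fin N)) (fun _ => f) ⌊α * N⌋₊ ζ n
      (LBI.th ϑ true) s) (θ := LBI.th ϑ false) (κ := k * y * N / 2) (n := n) hy0 (fun d h1 h2 => by
        have := hsd (false, d) (by simp [h1, h2])
        simp only [sd2, hV, LBI.th_update_same,
          LBI.th_update_ne ϑ (show true ≠ false by simp)] at this
        exact le_trans this (le_of_eq (by ring)))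
    have h2 := h1 _ _ τ τ' (LBI.box_th hϑ true) (LBI.box_th hϑ false) hτ hτ'
    refine le_trans ?_ h2
    have h3 : (Kb : ℝ) * (E t) ≤ Kb * (δ / 4) :=
      mul_le_mul_of_nonneg_left hEt.le (Nat.cast_nonneg _)
    simp only [hE] at h3
    rw [hδ0]
    linarith
  · filter_upwards [eventually_ge_atTop 1] with N hN ϑ hϑ
    obtain ⟨j, hj, hjα⟩ := LBI.floor_step hα N Kb
    have hs : ∑ d ∈ Finset.Icc 1 n, LBI.th ϑ true d ^ 2 ≤ 4 :=
      ((LBI.sum_sq_le hε (LBI.box_th hϑ true)).trans hnε).trans (by linarith)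
    have h6 := abs_le.1 (LBI.spins_close hzok hζ.z0 hF hα.le hN (hfl N) n _ (LBI.th ϑ false) hs Kb)
    have h7 := abs_le.1 (vs_add_sub (ising (Fin (N + Kb))) hzok (F := fun _ => f)
      (fun _ => hf.meas) (fun _ => hf.bd) ⌊α * N⌋₊ j n (LBI.th ϑ true) (LBI.th ϑ false))
    have h8 : j * K ≤ (α * Kb + 1) * K :=
      mul_le_mul_of_nonneg_right (by linarith [(abs_le.1 hjα).2]) hK
    simp only [hV]
    rw [hj]
    linarith [h6.1, h7.1]
  · refine Eventually.of_forall fun N ϑ hϑ => ?_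
    have hN0 : (0 : ℝ) ≤ N := Nat.cast_nonneg N
    have h1 := vs_field_le (ising (Fin N)) hzok hζ.z0 hF ⌊α * N⌋₊ n (LBI.th ϑ true)
      (LBI.th ϑ false)
    rw [← fr_eq_vs _ hf.meas (hζ.zn n le_rfl), Fintype.card_fin] at h1
    have h2 := (LBI.sum_sq_le hε (LBI.box_th hϑ true)).trans hnε
    have h3 := (LBI.sum_sq_le hε (LBI.box_th hϑ false)).trans hnε
    have h4 : (N : ℝ) * ∑ d ∈ Finset.Icc 1 n, LBI.th ϑ true d ^ 2 ≤ N * t :=
      mul_le_mul_of_nonneg_left h2 hN0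
    have h5 : (⌊α * N⌋₊ : ℝ) * (K + K ^ 2) * ∑ d ∈ Finset.Icc 1 n, LBI.th ϑ false d ^ 2
        ≤ α * N * (K + K ^ 2) * t :=
      mul_le_mul (mul_le_mul_of_nonneg_right (hfl N) hKK) h3
        (Finset.sum_nonneg fun _ _ => sq_nonneg _) (by positivity)
    simp only [hV, hδ0]
    linarith

end Vale.Agent.P157
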