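import Vale.Agent.P157.Slab
import Vale.Agent.P157.F0
import Vale.Agent.P157.LBising

/-! # The lower bound on the sphere -/

namespace Vale.Agent.P157

open MeasureTheory ProbabilityTheory Filter Topology

namespace LBS

/-- The first `M` potentials are `u`, the others are `v`. -/
def mix (M : ℕ) {β : Type} (u v : β) (a : ℕ) : β := if a < M then u else v

theorem mix_lt {M : ℕ} {β : Type} (u v : β) {a : ℕ} (h : a < M) : mix M u v a = u := by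
  simp [mix, h]

theorem mix_add (M : ℕ) {β : Type} (u v : β) (a : ℕ) : mix M u v (M + a) = v := by
  simp [mix]

theorem sum_mix (M a : ℕ) (u v : ℝ) :
    ∑ b ∈ Finset.range (M + a), mix M u v b ^ 2 = M * u ^ 2 + a * v ^ 2 := by
  induction a with
  | zero =>
    rw [Nat.add_zero, Finset.sum_congr rfl fun b hb => by rw [mix_lt u v (Finset.mem_range.1 hb)]]
    simp
  | succ a ih =>
    rw [← add_assoc, Finset.sum_range_succ, ih, mix_add]
    push_cast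
    ring

theorem add_cum_zero (n : ℕ) (q : ℕ → ℝ) : q + cum n (sq0 0) = q := by
  funext k
  simp [cum, sq0]

theorem prob_fin {N : ℕ} (hN : 1 ≤ N) : IsProbabilityMeasure (sph (Fin N)) := by
  have : Nonempty (Fin N) := ⟨⟨0, hN⟩⟩
  infer_instance

/-- Removing `Kb` dimensions by soft constraints. -/
theorem slabs {f f1 f2 g1 g2 : ℝ → ℝ} {K K0 η R ℓ α : ℝ} (hf : Sm f f1 f2 K)
    (hg : Sm (f0 η R) g1 g2 K0) (hKK : K ≤ K0) (hα : 0 < α) {n : ℕ} {ζ : ℕ → ℝ}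
    {N Kb : ℕ} (hbig : Kb * K0 ^ 2 ≤ (N : ℝ)) (θ : ℕ → ℝ)
    (h : ∀ a : ℕ, ∀ (F F1 F2 : ℕ → ℝ → ℝ) (k : ℕ → ℝ) (m : ℕ),
      (∀ b, Sm (F b) (F1 b) (F2 b) K0) → F m = f0 η R → (∀ b z, |F1 b z| ≤ k b) →
      ∑ b ∈ Finset.range m, k b ^ 2 ≤ (α * K ^ 2 + 1) * ((N + a : ℕ) + 1) →
      VS (sph (Fin (N + a))) F m ζ n θ 0 + ℓ ≤ VS (sph (Fin (N + a + 1))) F (m + 1) ζ n θ 0) :
    VS (sph (Fin N)) (fun _ => f) ⌊α * N⌋₊ ζ n θ 0 + Kb * ℓ
      ≤ VS (sph (Fin (N + Kb))) (mix ⌊α * N⌋₊ f (f0 η R)) (⌊α * N⌋₊ + Kb) ζ n θ 0 := by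
  set M := ⌊α * N⌋₊ with hM
  have hMN : (M : ℝ) ≤ α * N := Nat.floor_le (by positivity)
  have hG : ∀ b, Sm (mix M f (f0 η R) b) (mix M f1 g1 b) (mix M f2 g2 b) K0 := by
    intro b
    unfold mix
    split_ifs
    · exact hf.mono hKK
    · exact hg
  have hk : ∀ b z, |mix M f1 g1 b z| ≤ mix M K K0 b := by
    intro b z
    unfold mix
    split_ifs
    · exact hf.jet.bm z
    · exact hg.jet.bm z
  have hT := LBI.telescope (c := ℓ)
    (u := fun a => VS (sph (Fin (N + a))) (mix M f (f0 η R)) (M + a) ζ n θ 0) Kb (fun a ha => by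
      have ha' : (a : ℝ) ≤ Kb := by exact_mod_cast ha.le
      have ha0 : (0 : ℝ) ≤ a := Nat.cast_nonneg a
      have h1 := h a _ _ _ (mix M K K0) (M + a) hG (mix_add M _ _ a) hk (by
        rw [sum_mix]
        have e1 : (M : ℝ) * K ^ 2 ≤ α * N * K ^ 2 := mul_le_mul_of_nonneg_right hMN (sq_nonneg _)
        have e2 : (a : ℝ) * K0 ^ 2 ≤ Kb * K0 ^ 2 := mul_le_mul_of_nonneg_right ha' (sq_nonneg _)
        have e3 : 0 ≤ α * K ^ 2 * (a + 1) := by positivity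
        push_cast
        linarith)
      change ℓ ≤ VS (sph (Fin (N + a + 1))) _ (M + a + 1) ζ n θ 0 - _
      linarith)
  have h0 : VS (sph (Fin N)) (mix M f (f0 η R)) M ζ n θ 0
      = VS (sph (Fin N)) (fun _ => f) M ζ n θ 0 := by
    unfold VS
    congr 1
    funext a
    exact mix_lt _ _ a.2
  simp only [Nat.add_zero] at hT
  linarith

set_option maxHeartbeats 1000000 in
/-- Pattern steps from the base system with `N + Kb` spins. -/
theorem block {f f1 f2 g1 g2 : ℝ → ℝ} {K K0 η R α : ℝ} (hf : Sm f f1 f2 K)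
    (hg : Sm (f0 η R) g1 g2 K0) (hKK : K ≤ K0) (hα : 0 < α) (hη : 0 < η) (hRp : 0 < R) {I : ℝ}
    (hI : ∀ n ζ q, Adm n ζ q → I ≤ α * psi n ζ q f + sphereS n ζ q) {n : ℕ} {ζ : ℕ → ℝ}
    {t ε : ℝ} (ht : 0 < t) (hε1 : ε ≤ 1 / 2) (hR : Reg n ζ t K0 (α + 1) 2 ε) {Kb : ℕ}
    (hKb : 1 ≤ Kb) :
    ∀ᶠ k in 𝓝[>] (0 : ℝ), ∀ᶠ y in 𝓝[>] (0 : ℝ), ∀ᶠ N : ℕ in atTop, ∀ θ τ : ℕ → ℝ,
      (∀ d, 1 ≤ d → d ≤ n → ε ≤ θ d ∧ θ d ≤ 2 * ε) →
      SD (fun s => VS (sph (Fin (N + Kb))) (fun _ => f) ⌊α * N⌋₊ ζ n s 0) θ τ y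
        (k * y * N / 2) n →
      Kb * (I - Real.log η / 2 - 3 / (8 * η ^ 2 * R) - 8 * K0 ^ 2 * t
          - (α + 1) * (8 * K0 ^ 2 * t + K ^ 2 * η / 2)) - K
        ≤ VS (sph (Fin (N + Kb))) (fun _ => f) ⌊α * (N + Kb : ℕ)⌋₊ ζ n θ 0
          - VS (sph (Fin (N + Kb))) (mix ⌊α * N⌋₊ f (f0 η R)) (⌊α * N⌋₊ + Kb) ζ n θ 0 := by
  have hK : 0 ≤ K := hf.jet.K0
  have hK0 : 0 ≤ K0 := hR.K0
  have hε : 0 < ε := hR.θm0
  have hζ := hR.z
  have hzok := hζ.zok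
  have hF : ∀ a : ℕ, Sm ((fun _ : ℕ => f) a) ((fun _ : ℕ => f1) a) ((fun _ : ℕ => f2) a) K0 :=
    fun _ => hf.mono hKK
  filter_upwards [baseQ hR ht, pc hR ht, self_mem_nhdsWithin] with k h1 h5 hk
  have hk0 : 0 < k := hk
  filter_upwards [h1, h5, self_mem_nhdsWithin] with y h1 h5 hy
  have hy0 : 0 < y := hy
  have hbig : ∀ c : ℝ, ∀ r : ℝ, 0 < r → ∀ᶠ N : ℕ in atTop, c ≤ r * N := fun c r hr =>
    (tendsto_natCast_atTop_atTop.const_mul_atTop hr).eventually_ge_atTop c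
  filter_upwards [LBI.ev_shift h1, LBI.ev_shift h5,
    hbig (2 * (((α + 1) * Kb + 1) * K0)) (k * y / 2) (by positivity)] with N h1 h5 hb1
  intro θ τ hθ hSD
  set M := ⌊α * N⌋₊ with hM
  have := prob_fin (N := N + Kb) (by omega)
  have hN0 : (0 : ℝ) ≤ N := Nat.cast_nonneg N
  have hKb0 : (1 : ℝ) ≤ Kb := by exact_mod_cast hKb
  have hMN : (M : ℝ) ≤ α * N := Nat.floor_le (by positivity)
  have hfθ := LBI.fld_of hε hε1 hθ
  have hkyN : 0 ≤ k * y * N := by positivity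
  have hkyK : 0 ≤ k * y * Kb := by positivity
  have hαKb : 0 ≤ α * Kb := by positivity
  have h02 : (0 : ℕ → ℝ) n ^ 2 ≤ 2 := by simp
  have hG : ∀ b, Sm (mix M f (f0 η R) b) (mix M f1 g1 b) (mix M f2 g2 b) K0 := by
    intro b
    unfold mix
    split_ifs
    · exact hf.mono hKK
    · exact hg
  have h0 : ∀ s, VS (sph (Fin (N + Kb))) (mix M f (f0 η R)) M ζ n s 0
      = VS (sph (Fin (N + Kb))) (fun _ => f) M ζ n s 0 := by
    intro s
    unfold VS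
    congr 1
    funext a
    exact mix_lt _ _ a.2
  obtain ⟨q, hq, hq0, hqτ⟩ := h1 Kb (Fin (N + Kb)) (sph _) _ _ _ M θ 0 τ (Fintype.card_fin _)
    (by push_cast; linarith) hF hfθ h02 (hSD.mono (by push_cast; linarith))
  have hκ : ∀ b : ℕ, (b : ℝ) ≤ (α + 1) * Kb + 1 →
      k * y * N / 2 + 2 * (b * K0) ≤ k * y * (N + Kb : ℕ) := by
    intro b hb
    have h7 : b * K0 ≤ ((α + 1) * Kb + 1) * K0 := mul_le_mul_of_nonneg_right hb hK0
    push_cast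
    linarith
  obtain ⟨j, hj, hjα⟩ := LBI.floor_step hα N Kb
  have hjα' := abs_le.1 hjα
  set q' := shr η q with hq'
  have hadm : Adm n ζ q' := adm_shr hζ hq hq0 hη
  have hpsi : psi n ζ q' f - K ^ 2 * η / 2 ≤ psi n ζ q f := by
    have h6 := psi_lip hζ hf hq hadm.cadm hη.le fun d _ _ => abs_QQ_shr hζ hq hq0 hη d
    rw [hadm.q0, hq0, sub_self, abs_zero] at h6
    have h9 := (abs_le.1 h6).1
    linarith
  have hpat : ∀ b, b < j → psi n ζ q' f - (8 * K0 ^ 2 * t + K ^ 2 * η / 2)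
      ≤ VS (sph (Fin (N + Kb))) (fun _ => f) (M + (b + 1)) ζ n θ 0
        - VS (sph (Fin (N + Kb))) (fun _ => f) (M + b) ζ n θ 0 := by
    intro b hb
    have hb' : (b : ℝ) ≤ j := by exact_mod_cast hb.le
    have h6 := (h5 Kb (Fin (N + Kb)) (sph _) _ _ _ (M + b) θ 0 τ q t
      (Fintype.card_fin _) (by push_cast; linarith) hF hfθ h02 hq hq0 ht.le
      ((hSD.of_close (C := b * K0) fun d a' _ => vs_add_sub _ hzok (F := fun _ => f)
        (fun _ => hf.meas) (fun a => (hF a).bd) M b n _ 0).mono (hκ b (by linarith)))).2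
      (fun d hd hdn => by
        have := abs_le.1 (hqτ d hd hdn)
        linarith)
    rw [add_cum_zero] at h6
    change _ ≤ VS (sph (Fin (N + Kb))) (fun _ => f) (M + b + 1) ζ n θ 0 - _
    linarith
  have hcon : ∀ b, b < Kb → -(psi n ζ q (f0 η R) + 8 * K0 ^ 2 * t)
      ≤ -VS (sph (Fin (N + Kb))) (mix M f (f0 η R)) (M + (b + 1)) ζ n θ 0
        - -VS (sph (Fin (N + Kb))) (mix M f (f0 η R)) (M + b) ζ n θ 0 := by
    intro b hb
    have hb' : (b : ℝ) ≤ Kb := by exact_mod_cast hb.le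
    have h6 := (h5 Kb (Fin (N + Kb)) (sph _) _ _ _ (M + b) θ 0 τ q t
      (Fintype.card_fin _) (by push_cast; linarith) hG hfθ h02 hq hq0 ht.le
      ((hSD.of_close (C := b * K0) fun d a' _ => by
        have := vs_add_sub (sph (Fin (N + Kb))) hzok (fun a => (hG a).meas)
          (fun a => (hG a).bd) M b n (Function.update θ d a') 0
        rwa [h0] at this).mono (hκ b (by linarith)))).1
      (fun d hd hdn => by
        have := abs_le.1 (hqτ d hd hdn)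
        linarith)
    rw [add_cum_zero, mix_add] at h6
    change _ ≤ -VS (sph (Fin (N + Kb))) (mix M f (f0 η R)) (M + b + 1) ζ n θ 0 - _
    linarith
  have hT1 := LBI.telescope
    (u := fun b => -VS (sph (Fin (N + Kb))) (mix M f (f0 η R)) (M + b) ζ n θ 0) Kb hcon
  have hT2 := LBI.telescope
    (u := fun b => VS (sph (Fin (N + Kb))) (fun _ => f) (M + b) ζ n θ 0) j hpat
  have hψ := abs_le.1 (abs_psi_le (n := n) hzok q' hf.meas hf.bd)
  have hIq := hI n ζ q' hadm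
  have hf0 := psi_f0_le hζ hq hq0 hη hRp
  rw [hj]
  set eP : ℝ := 8 * K0 ^ 2 * t + K ^ 2 * η / 2 with heP
  have heP0 : 0 ≤ eP := by positivity
  have e1 : α * Kb * psi n ζ q' f - K ≤ j * psi n ζ q' f := by
    have : |((j : ℝ) - α * Kb) * psi n ζ q' f| ≤ 1 * K := by
      rw [abs_mul]
      exact mul_le_mul hjα (abs_le.2 hψ) (abs_nonneg _) zero_le_one
    have := (abs_le.1 this).1
    linarith
  have e2 : j * eP ≤ Kb * (α + 1) * eP := mul_le_mul_of_nonneg_right (by linarith) heP0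
  have e3 : Kb * I ≤ Kb * (α * psi n ζ q' f + sphereS n ζ q') :=
    mul_le_mul_of_nonneg_left hIq (by linarith)
  have e4 : Kb * psi n ζ q (f0 η R)
      ≤ Kb * (-sphereS n ζ q' + Real.log η / 2 + 3 / (8 * η ^ 2 * R)) :=
    mul_le_mul_of_nonneg_left hf0 (by linarith)
  simp only [Nat.add_zero, h0] at hT1 hT2
  linarith

end LBS

theorem lb_sphere_smooth {f f1 f2 : ℝ → ℝ} {K : ℝ} (hf : Sm f f1 f2 K) {α : ℝ} (hα : 0 < α)
    {I : ℝ} (hI : ∀ n ζ q, Adm n ζ q → I ≤ α * psi n ζ q f + sphereS n ζ q) {δ : ℝ}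
    (hδ : 0 < δ) : ∀ᶠ N : ℕ in atTop, (I - δ) * N ≤ Fr (sph (Fin N)) f ⌊α * N⌋₊ := by
  have hK : 0 ≤ K := hf.jet.K0
  have hF : ∀ a : ℕ, Sm ((fun _ : ℕ => f) a) ((fun _ : ℕ => f1) a) ((fun _ : ℕ => f2) a) K :=
    fun _ => hf
  have hsmall : ∀ c : ℝ, ∀ᶠ t in 𝓝[>] (0 : ℝ), c * t < δ / 16 ∧ t < 1 ∧ 0 < t := by
    intro c
    have h1 : ∀ᶠ t in 𝓝 (0 : ℝ), c * t < δ / 16 :=
      (show Continuous fun t : ℝ => c * t by fun_prop).continuousAt.eventually_lt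
        continuousAt_const (by simpa using hδ)
    have h2 : ∀ᶠ t in 𝓝 (0 : ℝ), t < 1 := Iio_mem_nhds one_pos
    filter_upwards [nhdsWithin_le_nhds h1, nhdsWithin_le_nhds h2, self_mem_nhdsWithin]
      with t a b c using ⟨a, b, c⟩
  obtain ⟨η', hη'1, hη'2, hη'0⟩ := (hsmall (α * K ^ 2 + 1)).exists
  obtain ⟨η, hslab, hη1, -, hη⟩ :=
    ((slab hη'0 hη'2.le (show 0 < δ / 16 by positivity)).and (hsmall ((α + 1) * K ^ 2))).exists
  set R : ℝ := 6 / (η ^ 2 * δ) with hRdef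
  have hR0 : 0 < R := by positivity
  have hR1 : 3 / (8 * η ^ 2 * R) = δ / 16 := by rw [hRdef]; field_simp; norm_num
  obtain ⟨g1, g2, K1, hg'⟩ := sm_f0 hη hR0
  set K0 := max K K1 with hK0def
  have hKK : K ≤ K0 := le_max_left _ _
  have hg : Sm (f0 η R) g1 g2 K0 := hg'.mono (le_max_right _ _)
  have hK0 : 0 ≤ K0 := hK.trans hKK
  obtain ⟨t, hEt, ht1, ht⟩ := (hsmall (8 * K0 ^ 2 * (α + 2) + 1 / 2)).exists
  obtain ⟨n, ζ, hζ, hmesh⟩ := exists_grid (η := t ^ 2) (by positivity)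
  have hzok := hζ.zok
  have hn1 := hζ.one_le
  set ε : ℝ := t / (2 * (n + 1)) with hεdef
  have hn0 : (0 : ℝ) ≤ n := Nat.cast_nonneg n
  have hε : 0 < ε := by positivity
  have hεt : ε * (2 * (n + 1)) = t := by rw [hεdef]; field_simp
  have hε1 : ε ≤ 1 / 2 := by nlinarith
  have hnε : 4 * n * ε ^ 2 ≤ t := by nlinarith
  obtain ⟨Kb, hKb⟩ := exists_nat_ge (16 * K / δ + 1)
  have hKδ : 0 ≤ 16 * K / δ := by positivity
  have hKb1 : 1 ≤ Kb := by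
    have : (1 : ℝ) ≤ Kb := by linarith
    exact_mod_cast this
  have hKb2 : K ≤ Kb * (δ / 16) := by
    have h1 : 16 * K / δ ≤ Kb := by linarith
    rw [div_le_iff₀ hδ] at h1
    linarith
  have hKb0 : (0 : ℝ) ≤ Kb := Nat.cast_nonneg _
  have hR : Reg n ζ t K0 (α + 1) 2 ε :=
    ⟨hζ, ht, ht1.le, hmesh, hK0, by positivity, by norm_num, hε⟩
  set ℓ : ℝ := Real.log η / 2 - δ / 16 - η' ^ 2 * (α * K ^ 2 + 1) / 2 with hℓ
  have hslabs : ∀ᶠ N : ℕ in atTop, ∀ θ : ℕ → ℝ,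
      VS (sph (Fin N)) (fun _ => f) ⌊α * N⌋₊ ζ n θ 0 + Kb * ℓ
        ≤ VS (sph (Fin (N + Kb))) (LBS.mix ⌊α * N⌋₊ f (f0 η R)) (⌊α * N⌋₊ + Kb) ζ n θ 0 := by
    filter_upwards [LBI.ev_shift (hslab R hR0),
      tendsto_natCast_atTop_atTop.eventually_ge_atTop (Kb * K0 ^ 2 : ℝ)] with N h1 h2 θ
    refine LBS.slabs hf hg hKK hα h2 θ fun a F F1 F2 k m e1 e2 e3 e4 => ?_
    have := h1 a n ζ F F1 F2 K0 _ k m θ hζ e1 e2 e3 e4
    rw [hℓ]
    linarith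
  set V : ℕ → (ℕ → ℝ) → ℝ := fun N θ => VS (sph (Fin N)) (fun _ => f) ⌊α * N⌋₊ ζ n θ 0 with hV
  set U : ℕ → (ℕ → ℝ) → ℝ := fun N θ =>
    VS (sph (Fin (N + Kb))) (fun _ => f) ⌊α * N⌋₊ ζ n θ 0 with hU
  have hbox : ∀ θ : ℕ → ℝ, Box (Finset.Icc 1 n) ε θ →
      ∀ d, 1 ≤ d → d ≤ n → ε ≤ θ d ∧ θ d ≤ 2 * ε := fun θ h d h1 h2 =>
    h d (Finset.mem_Icc.2 ⟨h1, h2⟩)
  have hmain := avg_lower (Finset.Icc 1 n) hε hKb1 (6 * ε) 0
    ((α * Kb + 1) * K + Kb * K0 - Kb * ℓ) (I - δ / 2 + t / 2) (t / 2) V U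
    (fun N => Fr (sph (Fin N)) f ⌊α * N⌋₊) ?_ ?_ ?_ ?_ ?_ (half_pos hδ)
  · filter_upwards [hmain] with N hN
    refine le_trans (le_of_eq ?_) hN
    ring
  · filter_upwards [eventually_ge_atTop Kb] with N hN θ _ d _ a b ha1 ha2 hb1 hb2
    have := LBS.prob_fin (N := N + Kb) (by omega)
    have hN' : (Kb : ℝ) ≤ N := by exact_mod_cast hN
    have hsq : |a ^ 2 - b ^ 2| ≤ 6 * ε * |a - b| := by
      rw [show a ^ 2 - b ^ 2 = (a + b) * (a - b) by ring, abs_mul]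
      exact mul_le_mul_of_nonneg_right (abs_le.2 ⟨by linarith, by linarith⟩) (abs_nonneg _)
    refine (vs_lip_x _ hzok hζ.z0 hF _ n _ _ d a b).trans ?_
    rw [Fintype.card_fin]
    have h1 : ((N + Kb : ℕ) : ℝ) * |a ^ 2 - b ^ 2| ≤ (2 * N) * (6 * ε * |a - b|) :=
      mul_le_mul (by push_cast; linarith) hsq (abs_nonneg _) (by positivity)
    linarith
  · refine Eventually.of_forall fun N θ hθ d hd y hy0 hy => ?_
    have := LBS.prob_fin (N := N + Kb) (by omega)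
    have hd' := Finset.mem_Icc.1 hd
    have hlt : y < θ d := by
      have := (hθ d hd).1
      linarith
    simpa [sd2, hU] using vs_sd_x (sph (Fin (N + Kb))) hzok hF ⌊α * N⌋₊ n θ 0 hd'.1 hd'.2 hy0.le hlt
  · filter_upwards [LBS.block hf hg hKK hα hη hR0 hI ht hε1 hR hKb1] with k h1
    filter_upwards [h1, self_mem_nhdsWithin] with y h1 hy
    filter_upwards [h1, hslabs] with N h1 h3 θ hθ hsd
    have hy0 : 0 < y := hy
    obtain ⟨τ, hτ⟩ := sd_of_second (U := U N) (θ := θ) (κ := k * y * N / 2) (n := n) hy0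
      (fun d h1 h2 => le_trans (hsd d (Finset.mem_Icc.2 ⟨h1, h2⟩)) (le_of_eq (by ring)))
    have h2 := h1 θ τ (hbox θ hθ) hτ
    have h4 := h3 θ
    have e1 : η' ^ 2 * (α * K ^ 2 + 1) / 2 ≤ δ / 16 := by
      have : 0 ≤ (α * K ^ 2 + 1) * η' := by positivity
      nlinarith
    have e2 : (I - δ / 2 + t / 2) + δ / 16 ≤ (I - Real.log η / 2 - 3 / (8 * η ^ 2 * R)
        - 8 * K0 ^ 2 * t - (α + 1) * (8 * K0 ^ 2 * t + K ^ 2 * η / 2)) + ℓ := by
      rw [hR1, hℓ]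
      have : 0 ≤ (α + 1) * K ^ 2 * η := by positivity
      linarith
    have e3 := mul_le_mul_of_nonneg_left e2 hKb0
    simp only [hV]
    linarith
  · filter_upwards [hslabs] with N h3 θ hθ
    have := LBS.prob_fin (N := N + Kb) (by omega)
    obtain ⟨j, hj, hjα⟩ := LBI.floor_step hα N Kb
    have h7 := abs_le.1 (vs_add_sub (sph (Fin (N + Kb))) hzok (F := fun _ => f)
      (fun _ => hf.meas) (fun _ => hf.bd) ⌊α * N⌋₊ j n θ 0)
    have hG : ∀ b, Sm (LBS.mix ⌊α * N⌋₊ f (f0 η R) b) (LBS.mix ⌊α * N⌋₊ f1 g1 b)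
        (LBS.mix ⌊α * N⌋₊ f2 g2 b) K0 := by
      intro b
      unfold LBS.mix
      split_ifs
      · exact hf.mono hKK
      · exact hg
    have h9 := abs_le.1 (vs_add_sub (sph (Fin (N + Kb))) hzok (fun a => (hG a).meas)
      (fun a => (hG a).bd) ⌊α * N⌋₊ Kb n θ 0)
    have h0 : VS (sph (Fin (N + Kb))) (LBS.mix ⌊α * N⌋₊ f (f0 η R)) ⌊α * N⌋₊ ζ n θ 0
        = VS (sph (Fin (N + Kb))) (fun _ => f) ⌊α * N⌋₊ ζ n θ 0 := by
      unfold VS
      congr 1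
      funext a
      exact LBS.mix_lt _ _ a.2
    have h8 : j * K ≤ (α * Kb + 1) * K :=
      mul_le_mul_of_nonneg_right (by linarith [(abs_le.1 hjα).2]) hK
    have h4 := h3 θ
    simp only [hV]
    rw [hj]
    linarith [h7.1, h9.2]
  · filter_upwards [eventually_ge_atTop 1] with N hN θ hθ
    have := LBS.prob_fin hN
    have hN0 : (0 : ℝ) ≤ N := Nat.cast_nonneg N
    have h1 := vs_field_le (sph (Fin N)) hzok hζ.z0 hF ⌊α * N⌋₊ n θ 0
    rw [← fr_eq_vs _ hf.meas (hζ.zn n le_rfl), Fintype.card_fin] at h1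
    have h2 := (LBI.sum_sq_le hε (hbox θ hθ)).trans hnε
    have h4 : (N : ℝ) * ∑ d ∈ Finset.Icc 1 n, θ d ^ 2 ≤ N * t :=
      mul_le_mul_of_nonneg_left h2 hN0
    simp only [Pi.zero_apply, ne_eq, OfNat.ofNat_ne_zero, not_false_eq_true, zero_pow,
      Finset.sum_const_zero, mul_zero, zero_div, add_zero] at h1
    simp only [hV]
    linarith

end Vale.Agent.P157
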