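import Vale.Agent.P157.Polar
import Vale.Agent.P157.Quad

/-! # Upper bound for the pure field system on the sphere -/

namespace Vale.Agent.P157

open MeasureTheory ProbabilityTheory Filter Topology

theorem sub_gauss1 {b : ℝ} (hb : 0 < b) (a : ℝ) :
    Integrable (fun z => Real.exp (a * z - (b - 1) * z ^ 2 / 2)) (g1 1) ∧
      ∫ z, Real.exp (a * z - (b - 1) * z ^ 2 / 2) ∂(g1 1)
        = Real.exp (a ^ 2 / (2 * b) - Real.log b / 2) := by
  by_cases h : b = 1
  · subst h
    have e : (fun z : ℝ => Real.exp (a * z - (1 - 1) * z ^ 2 / 2)) = fun z => Real.exp (a * z) := by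
      funext z
      simp
    rw [e]
    refine ⟨integrable_exp_mul_gaussianReal a, ?_⟩
    have h1 := congrFun (mgf_fun_id_gaussianReal (μ := 0) (v := (1 : ℝ).toNNReal)) a
    rw [mgf] at h1
    rw [g1, h1]
    simp
  · have hc : (1 - b) ≠ 0 := fun h' => h (by linarith)
    have hc1 : (1 - b) * 1 < 1 := by linarith
    have e : (fun z : ℝ => Real.exp (a * z - (b - 1) * z ^ 2 / 2)) = fun z =>
        Real.exp (-((1 - b) * (a / (1 - b)) ^ 2 / 2)) *
          Real.exp ((1 - b) * (a / (1 - b) + z) ^ 2 / 2) := by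
      funext z
      rw [← Real.exp_add]
      congr 1
      field_simp
      ring
    rw [e]
    refine ⟨(integrable_exp_quad zero_le_one hc1 _).const_mul _, ?_⟩
    rw [integral_const_mul, integral_exp_quad zero_le_one hc1, ← Real.exp_add]
    congr 1
    have e2 : 1 - (1 - b) * 1 = b := by ring
    rw [e2]
    field_simp
    ring

theorem sub_gauss {S : Type} [Fintype S] {b : ℝ} (hb : 0 < b) (w : S → ℝ) :
    Integrable (fun y : S → ℝ => Real.exp (∑ i, w i * y i - (b - 1) * (∑ i, y i ^ 2) / 2))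
        (gv fun _ : S => (1 : ℝ)) ∧
      ∫ y : S → ℝ, Real.exp (∑ i, w i * y i - (b - 1) * (∑ i, y i ^ 2) / 2)
          ∂(gv fun _ : S => (1 : ℝ))
        = Real.exp ((∑ i, w i ^ 2) / (2 * b) - Fintype.card S * Real.log b / 2) := by
  have e : (fun y : S → ℝ => Real.exp (∑ i, w i * y i - (b - 1) * (∑ i, y i ^ 2) / 2)) =
      fun y => ∏ i, Real.exp (w i * y i - (b - 1) * y i ^ 2 / 2) := by
    funext y
    rw [← Real.exp_sum, Finset.sum_sub_distrib, Finset.mul_sum, Finset.sum_div]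
  rw [e, gv]
  refine ⟨Integrable.fintype_prod (f := fun i z => Real.exp (w i * z - (b - 1) * z ^ 2 / 2))
    fun i => (sub_gauss1 hb (w i)).1, ?_⟩
  rw [integral_fintype_prod_eq_prod fun i z => Real.exp (w i * z - (b - 1) * z ^ 2 / 2)]
  simp only [(sub_gauss1 hb _).2]
  rw [← Real.exp_sum, Finset.sum_sub_distrib, Finset.sum_div, Finset.sum_const, Finset.card_univ,
    nsmul_eq_mul, mul_div_assoc]

theorem sub_chi_mean {S : Type} [Fintype S] [Nonempty S] :
    1 - (Fintype.card S : ℝ)⁻¹ ≤ ∫ R, R / √(Fintype.card S : ℝ) ∂(chi S) := by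
  set N : ℝ := (Fintype.card S : ℝ) with hN
  have hN0 : 0 < N := by rw [hN]; exact_mod_cast Fintype.card_pos
  have h1 : Integrable (fun R : ℝ => R) (chi S) := by simpa using integrable_chi_pow (S := S) 1
  have h2 := integrable_chi_pow (S := S) 2
  have h4 := integrable_chi_pow (S := S) 4
  have hv : Integrable (fun R : ℝ => (R ^ 2 - N) ^ 2) (chi S) := by
    have e : (fun R : ℝ => (R ^ 2 - N) ^ 2) = fun R => R ^ 4 - 2 * N * R ^ 2 + N ^ 2 := by
      funext R
      ring
    rw [e]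
    exact (h4.sub (h2.const_mul _)).add (integrable_const _)
  have hA : Integrable (fun R : ℝ => 1 / 2 + (2 * N)⁻¹ * R ^ 2) (chi S) :=
    (integrable_const _).add (h2.const_mul _)
  have hI : ∫ R, (1 / 2 + (2 * N)⁻¹ * R ^ 2 - (2 * N ^ 2)⁻¹ * (R ^ 2 - N) ^ 2) ∂(chi S)
      = 1 - N⁻¹ := by
    rw [integral_sub hA (hv.const_mul _), integral_add (integrable_const _) (h2.const_mul _),
      integral_const_mul, integral_const_mul, integral_chi_sq, hN, integral_chi_var, ← hN]
    simp only [integral_const, probReal_univ, smul_eq_mul, one_mul]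
    field_simp
    ring
  rw [← hI]
  refine integral_mono_ae (hA.sub (hv.const_mul _)) (h1.div_const _) ?_
  filter_upwards [chi_pos (S := S)] with R hR
  have hs : 0 < √N := Real.sqrt_pos.2 hN0
  have hR' : R = R / √N * √N := (div_mul_cancel₀ R hs.ne').symm
  set ρ := R / √N with hρ
  have hρ0 : 0 ≤ ρ := div_nonneg hR.le hs.le
  have hR2 : R ^ 2 = ρ ^ 2 * N := by rw [hR', mul_pow, Real.sq_sqrt hN0.le]
  have e : 1 / 2 + (2 * N)⁻¹ * R ^ 2 - (2 * N ^ 2)⁻¹ * (R ^ 2 - N) ^ 2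
      = ρ - (ρ - 1) ^ 2 * (ρ * (ρ + 2)) / 2 := by
    rw [hR2]
    field_simp
    ring
  rw [e]
  have : 0 ≤ (ρ - 1) ^ 2 * (ρ * (ρ + 2)) / 2 := by positivity
  linarith

theorem sph_top_le {S : Type} [Fintype S] [Nonempty S] (hS : 2 ≤ Fintype.card S) {b : ℝ}
    (hb : 0 < b) (w : S → ℝ) :
    Real.log (∫ x, Real.exp (∑ i, w i * x.1 i) ∂(sph S))
      ≤ (∑ i, w i ^ 2) / (2 * (b * (1 - (Fintype.card S : ℝ)⁻¹) ^ 2))
        + Fintype.card S * (b - 1 - Real.log b) / 2 := by
  classical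
  set N : ℝ := (Fintype.card S : ℝ) with hN
  have hN2 : 2 ≤ N := by rw [hN]; exact_mod_cast hS
  have hN0 : 0 < N := by linarith
  have hsN : 0 < √N := Real.sqrt_pos.2 hN0
  set r : ℝ := 1 - N⁻¹ with hr
  have hr0 : 0 < r := by
    have : N⁻¹ < 1 := inv_lt_one_of_one_lt₀ (by linarith)
    linarith
  set s : Sph S → ℝ := fun x => ∑ i, w i * x.1 i with hs
  have hsm : Measurable s :=
    Finset.measurable_sum _ fun i _ => (measurable_sph_coord i).const_mul _
  set B : ℝ := ∑ i, |w i| * √N with hB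
  have hsB : ∀ x, |s x| ≤ B := fun x => by
    refine (Finset.abs_sum_le_sum_abs _ _).trans (Finset.sum_le_sum fun i _ => ?_)
    rw [abs_mul]
    exact mul_le_mul_of_nonneg_left (Real.abs_le_sqrt (sph_sq_le x i)) (abs_nonneg _)
  have hE : Integrable (fun x => Real.exp (s x)) (sph S) := by
    refine Integrable.of_bound hsm.exp.aestronglyMeasurable (Real.exp B) (ae_of_all _ fun x => ?_)
    rw [Real.norm_eq_abs, abs_of_pos (Real.exp_pos _)]
    exact Real.exp_le_exp.2 ((le_abs_self _).trans (hsB x))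
  have hE1 : Integrable (fun x => Real.exp (s x) * s x) (sph S) := by
    refine Integrable.of_bound (hsm.exp.mul hsm).aestronglyMeasurable (Real.exp B * B)
      (ae_of_all _ fun x => ?_)
    rw [Real.norm_eq_abs, abs_mul, abs_of_pos (Real.exp_pos _)]
    exact mul_le_mul (Real.exp_le_exp.2 ((le_abs_self _).trans (hsB x))) (hsB x) (abs_nonneg _)
      (Real.exp_pos _).le
  change Real.log (∫ x, Real.exp (s x) ∂(sph S)) ≤ _
  set Z : ℝ := ∫ x, Real.exp (s x) ∂(sph S) with hZ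
  have hlog : 0 ≤ b - 1 - Real.log b := by linarith [Real.log_le_sub_one_of_pos hb]
  have hw : 0 ≤ (∑ i, w i ^ 2) / (2 * (b * r ^ 2)) :=
    div_nonneg (Finset.sum_nonneg fun i _ => sq_nonneg _) (by positivity)
  rcases le_total Z 1 with hZ1 | hZ1
  · have h0 : 0 ≤ Z := integral_nonneg fun x => (Real.exp_pos _).le
    have h1 := Real.log_nonpos h0 hZ1
    have h2 : 0 ≤ N * (b - 1 - Real.log b) / 2 := by positivity
    linarith
  set A : ℝ := ∫ x, Real.exp (s x) * s x ∂(sph S) with hA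
  have hA0 : 0 ≤ A := by
    have h1 : ∫ x, (Real.exp (s x) - 1) ∂(sph S) ≤ A := by
      refine integral_mono (hE.sub (integrable_const _)) hE1 fun x => ?_
      have h2 := Real.add_one_le_exp (-s x)
      have h3 : Real.exp (s x) * Real.exp (-s x) = 1 := by rw [← Real.exp_add]; simp
      have h4 := mul_le_mul_of_nonneg_left h2 (Real.exp_pos (s x)).le
      dsimp only
      nlinarith
    rw [integral_sub hE (integrable_const _)] at h1
    simp only [integral_const, probReal_univ, smul_eq_mul, one_mul] at h1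
    linarith
  obtain ⟨hG1, hG2⟩ := sub_gauss hb fun i => w i / r
  have hφ : Measurable fun p : Sph S × ℝ => fun i => p.2 / √N * p.1.1 i :=
    measurable_pi_lambda _ fun i =>
      (measurable_snd.div_const _).mul ((measurable_sph_coord i).comp measurable_fst)
  rw [← polar] at hG1 hG2
  rw [integral_map hφ.aemeasurable hG1.aestronglyMeasurable] at hG2
  have hG3 := (integrable_map_measure hG1.aestronglyMeasurable hφ.aemeasurable).1 hG1
  set c : ℝ := -((b - 1) * N / 2) with hc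
  have h1 : Integrable (fun R : ℝ => R) (chi S) := by simpa using integrable_chi_pow (S := S) 1
  have h2 := integrable_chi_pow (S := S) 2
  have ht : Integrable (fun R : ℝ => R / √N / r - 1) (chi S) :=
    ((h1.div_const _).div_const _).sub (integrable_const _)
  have hu : Integrable (fun R : ℝ => 1 - c - (b - 1) / 2 * R ^ 2) (chi S) :=
    (integrable_const _).sub (h2.const_mul _)
  have hP1 := hE.mul_prod hu
  have hP2 := hE1.mul_prod ht
  have hle : ∫ p : Sph S × ℝ, Real.exp c * (Real.exp (s p.1) * (1 - c - (b - 1) / 2 * p.2 ^ 2)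
      + Real.exp (s p.1) * s p.1 * (p.2 / √N / r - 1)) ∂((sph S).prod (chi S))
      ≤ Real.exp ((∑ i, (w i / r) ^ 2) / (2 * b) - N * Real.log b / 2) := by
    rw [← hG2]
    refine integral_mono ((hP1.add hP2).const_mul _) hG3 fun p => ?_
    have e1 : ∑ i, w i / r * (p.2 / √N * p.1.1 i) = p.2 / √N / r * s p.1 := by
      rw [hs, Finset.mul_sum]
      exact Finset.sum_congr rfl fun i _ => by ring
    have e2 : ∑ i, (p.2 / √N * p.1.1 i) ^ 2 = p.2 ^ 2 := by
      simp only [mul_pow, ← Finset.mul_sum, p.1.2, div_pow]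
      rw [Real.sq_sqrt hN0.le, ← hN]
      field_simp
    dsimp only
    rw [e1, e2]
    have h3 := Real.add_one_le_exp ((p.2 / √N / r - 1) * s p.1 - (b - 1) * p.2 ^ 2 / 2 - c)
    have e3 : p.2 / √N / r * s p.1 - (b - 1) * p.2 ^ 2 / 2
        = c + (s p.1 + ((p.2 / √N / r - 1) * s p.1 - (b - 1) * p.2 ^ 2 / 2 - c)) := by ring
    rw [e3, Real.exp_add, Real.exp_add]
    refine mul_le_mul_of_nonneg_left ?_ (Real.exp_pos c).le
    have h4 := mul_le_mul_of_nonneg_left h3 (Real.exp_pos (s p.1)).le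
    refine le_trans (le_of_eq ?_) h4
    ring
  rw [integral_const_mul, integral_add hP1 hP2,
    integral_prod_mul (fun x => Real.exp (s x)) fun R : ℝ => 1 - c - (b - 1) / 2 * R ^ 2,
    integral_prod_mul (fun x => Real.exp (s x) * s x) fun R : ℝ => R / √N / r - 1] at hle
  have i1 : ∫ R, (1 - c - (b - 1) / 2 * R ^ 2) ∂(chi S) = 1 := by
    rw [integral_sub (integrable_const _) (h2.const_mul _), integral_const_mul, integral_chi_sq]
    simp only [integral_const, probReal_univ, smul_eq_mul, one_mul]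
    rw [hc]
    ring
  have i2 : 0 ≤ ∫ R, (R / √N / r - 1) ∂(chi S) := by
    rw [integral_sub ((h1.div_const _).div_const _) (integrable_const _), integral_div]
    simp only [integral_const, probReal_univ, smul_eq_mul, one_mul]
    have h5 : r ≤ ∫ R, R / √N ∂(chi S) := sub_chi_mean
    have h6 := (one_le_div hr0).2 h5
    linarith
  rw [i1, ← hZ, ← hA] at hle
  have h7 : Real.exp c * Z ≤ Real.exp ((∑ i, (w i / r) ^ 2) / (2 * b) - N * Real.log b / 2) := by
    refine le_trans (mul_le_mul_of_nonneg_left ?_ (Real.exp_pos c).le) hle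
    have := mul_nonneg hA0 i2
    linarith
  have h8 := Real.log_le_log (by positivity) h7
  rw [Real.log_mul (Real.exp_pos c).ne' (by positivity), Real.log_exp, Real.log_exp] at h8
  have e4 : (∑ i, (w i / r) ^ 2) / (2 * b) = (∑ i, w i ^ 2) / (2 * (b * r ^ 2)) := by
    simp only [div_pow, ← Finset.sum_div]
    field_simp
  rw [e4, hc] at h8
  linarith

theorem sph_field_le {n : ℕ} {ζ q : ℕ → ℝ} (h : Adm n ζ q) {δ : ℝ} (hδ : 0 < δ) :
    ∀ᶠ N : ℕ in atTop, ∀ (F : ℕ → ℝ → ℝ) (θ θ' : ℕ → ℝ),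
      VS (sph (Fin N)) F 0 ζ n θ θ'
        - N * (∑ d ∈ Finset.Icc 1 n, θ d ^ 2 * (1 - QQ ζ q d)) / 2
        ≤ N * (sphereS n ζ q + δ) := by
  obtain ⟨C, c, hc, hco⟩ := coercive h
  have hζ := h.zadm.zok
  have hn := h.zadm.one_le
  have hΔ := csDelta_pos h hn
  set Θ : ℝ := max 0 ((C - sphereS n ζ q) / c) with hΘ
  set Dn : ℝ := (csDelta ζ q n)⁻¹ with hDn
  have hDn0 : 0 < Dn := inv_pos.2 hΔ
  have hlim : Tendsto (fun N : ℕ => (Dn + Θ) * (((1 - (N : ℝ)⁻¹) ^ 2)⁻¹ - 1)) atTop (𝓝 0) := by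
    have h1 : Tendsto (fun N : ℕ => (1 - (N : ℝ)⁻¹) ^ 2) atTop (𝓝 ((1 - 0) ^ 2)) :=
      (tendsto_const_nhds.sub tendsto_inv_atTop_nhds_zero_nat).pow 2
    have h2 := ((h1.inv₀ (by norm_num)).sub_const 1).const_mul (Dn + Θ)
    simpa using h2
  filter_upwards [eventually_ge_atTop 2, hlim.eventually (gt_mem_nhds hδ)] with N hN2 hNδ F θ θ'
  have : Nonempty (Fin N) := ⟨⟨0, by omega⟩⟩
  have hN0 : (0 : ℝ) ≤ N := Nat.cast_nonneg N
  have hcard : (Fintype.card (Fin N) : ℝ) = N := by rw [Fintype.card_fin]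
  rcases le_total Θ (∑ d ∈ Finset.Icc 1 n, θ d ^ 2) with hbig | hsmall
  · have h1 := hco (Fin N) (sph (Fin N)) F θ θ'
    rw [hcard] at h1
    refine h1.trans (mul_le_mul_of_nonneg_left ?_ hN0)
    have h2 : (C - sphereS n ζ q) / c ≤ ∑ d ∈ Finset.Icc 1 n, θ d ^ 2 :=
      (le_max_right _ _).trans hbig
    rw [div_le_iff₀ hc] at h2
    linarith
  set v : ℕ → ℝ := sq0 θ with hv
  have hv0 : v 0 = 0 := by simp [hv, sq0]
  have hvd : ∀ d, 1 ≤ d → v d = θ d ^ 2 := fun d hd => by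
    rw [hv, sq0, if_neg (by omega)]
  have hvn : ∀ d, 0 ≤ v d := fun d => by
    rw [hv, sq0]
    split_ifs
    · exact le_rfl
    · exact sq_nonneg _
  set D : ℕ → ℝ := fun d => Dn + ∑ k ∈ Finset.Ico d n, ζ k * v k with hD
  have hDs : ∀ d, d < n + 1 → D (d + 1) = D d - ζ d * v d := fun d hd => by
    rcases Nat.lt_succ_iff_lt_or_eq.1 hd with hd | rfl
    · simp only [hD]
      rw [Finset.sum_eq_sum_Ico_succ_bot hd]
      ring
    · simp [hD, h.zn d le_rfl]
  have hDn1 : D (n + 1) = Dn := by simp [hD]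
  have hDnn : D n = Dn := by simp [hD]
  have hD0 : Dn ≤ D 0 :=
    le_add_of_nonneg_right (Finset.sum_nonneg fun k _ => mul_nonneg (hζ.nn k) (hvn k))
  have hD0' : D 0 ≤ Dn + Θ := by
    have h1 : ∑ k ∈ Finset.Ico 0 n, ζ k * v k ≤ ∑ k ∈ Finset.Icc 1 n, θ k ^ 2 := by
      rw [Finset.sum_eq_sum_Ico_succ_bot (by omega : 0 < n), hv0, mul_zero, zero_add]
      refine le_trans (Finset.sum_le_sum fun k hk => ?_)
        (Finset.sum_le_sum_of_subset_of_nonneg Finset.Ico_subset_Icc_self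
          fun k _ _ => sq_nonneg (θ k))
      rw [← hvd k (Finset.mem_Ico.1 hk).1]
      exact mul_le_of_le_one_left (hvn k) ((hζ.anti (Nat.zero_le k)).trans hζ.le1)
    simp only [hD]
    linarith
  have hD0p : 0 < D 0 := hDn0.trans_le hD0
  set r : ℝ := 1 - (N : ℝ)⁻¹ with hr
  have hN2' : (2 : ℝ) ≤ N := by exact_mod_cast hN2
  have hr0 : 0 < r := by
    have : (N : ℝ)⁻¹ < 1 := inv_lt_one_of_one_lt₀ (by linarith)
    linarith
  have hr1 : r ≤ 1 := by
    have : 0 ≤ (N : ℝ)⁻¹ := inv_nonneg.2 hN0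
    linarith
  set b : ℝ := D 0 / r ^ 2 with hb
  have hb0 : 0 < b := div_pos hD0p (pow_pos hr0 2)
  have hbr : b * r ^ 2 = D 0 := div_mul_cancel₀ _ (pow_pos hr0 2).ne'
  have hq := quad_bound (S := Fin N) hζ hvn hDs (by rw [hDn1]; exact hDn0)
    (lg_field (sph (Fin N))) (c := N * (b - 1 - Real.log b) / 2) (fun w => by
      have h1 := sph_top_le (S := Fin N) (by rw [Fintype.card_fin]; exact hN2) hb0 w
      refine h1.trans (le_of_eq ?_)
      rw [hcard, ← hr, hbr]) 0
  have ht := cs_tangent h hvn hv0 hDs hDnn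
  rw [vs_zero]
  simp only [hcard, Pi.zero_apply, ne_eq, OfNat.ofNat_ne_zero, not_false_eq_true, zero_pow,
    Finset.sum_const_zero, zero_div, zero_add] at hq
  have e1 : ∑ d ∈ Finset.Icc 1 n, v d * (1 - QQ ζ q d)
      = ∑ d ∈ Finset.Icc 1 n, θ d ^ 2 * (1 - QQ ζ q d) :=
    Finset.sum_congr rfl fun d hd => by rw [hvd d (Finset.mem_Icc.1 hd).1]
  rw [e1] at ht
  have hr2 : r ^ 2 ≤ 1 := pow_le_one₀ hr0.le hr1
  have hbD : D 0 ≤ b := by
    rw [hb, le_div_iff₀ (pow_pos hr0 2)]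
    exact mul_le_of_le_one_right hD0p.le hr2
  have hlog : Real.log (D 0) ≤ Real.log b := Real.log_le_log hD0p hbD
  have hri : 0 ≤ (r ^ 2)⁻¹ - 1 := by
    have := (one_le_inv₀ (pow_pos hr0 2)).2 hr2
    linarith
  have hbδ : b - D 0 ≤ δ := by
    have h1 : b - D 0 = D 0 * ((r ^ 2)⁻¹ - 1) := by rw [hb, div_eq_mul_inv]; ring
    have h2 := mul_le_mul_of_nonneg_right hD0' hri
    linarith
  have h3 : (b - 1 - Real.log b) / 2
      + ∑ d ∈ Finset.range (n + 1), qcost (ζ d) (v d) (D d)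
      - (∑ d ∈ Finset.Icc 1 n, θ d ^ 2 * (1 - QQ ζ q d)) / 2 ≤ sphereS n ζ q + δ := by
    linarith
  have h4 := mul_le_mul_of_nonneg_left h3 hN0
  linarith

end Vale.Agent.P157
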