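import Vale.Agent.P157.UB
import Vale.Agent.P157.SphUB
import Vale.Agent.P157.LBsph
import Vale.Agent.P157.LBising

/-! # Assembly -/

namespace Vale.Agent.P157

open MeasureTheory ProbabilityTheory Filter Topology

namespace FinalAux

theorem ub_refined (μ : ∀ N : ℕ, Measure (Sph (Fin N)))
    (hμ : ∀ N, 1 ≤ N → IsProbabilityMeasure (μ N)) (Sf : ℕ → (ℕ → ℝ) → (ℕ → ℝ) → ℝ)
    (hre : ∀ n ζ q, Adm n ζ q → ∀ η : ℝ, 0 < η → ∃ n' ζ' q', Adm n' ζ' q' ∧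
      (∀ k, k < n' → ζ' k - ζ' (k + 1) ≤ η) ∧ (∀ f : ℝ → ℝ, psi n' ζ' q' f = psi n ζ q f) ∧
      Sf n' ζ' q' ≤ Sf n ζ q)
    (hS : ∀ n ζ q, Adm n ζ q → ∀ (F : ℕ → ℝ → ℝ) (δ : ℝ), 0 < δ → ∀ᶠ N : ℕ in atTop,
      ∀ θ : ℕ → ℝ, VS (μ N) F 0 ζ n θ 0
        - N * (∑ d ∈ Finset.Icc 1 n, θ d ^ 2 * (1 - QQ ζ q d)) / 2 ≤ N * (Sf n ζ q + δ))
    {g g1 g2 : ℝ → ℝ} {K : ℝ} (hg : Sm g g1 g2 K) {α : ℝ} (hα : 0 < α) {n : ℕ} {ζ q : ℕ → ℝ}
    (h : Adm n ζ q) {δ : ℝ} (hδ : 0 < δ) :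
    ∀ᶠ N : ℕ in atTop, Fr (μ N) g ⌊α * N⌋₊ ≤ N * (α * psi n ζ q g + Sf n ζ q + δ) := by
  have hK : 0 ≤ 6 * α * K ^ 2 := by positivity
  set me : ℝ := min 1 (δ / 2 / (6 * α * K ^ 2 + 1)) with hme
  have hme0 : 0 < me := lt_min one_pos (by positivity)
  have hme1 : me ≤ 1 := min_le_left _ _
  have hme2 : 6 * α * K ^ 2 * me ≤ δ / 2 := by
    have h1 : me ≤ δ / 2 / (6 * α * K ^ 2 + 1) := min_le_right _ _
    have h2 : me * (6 * α * K ^ 2 + 1) ≤ δ / 2 := by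
      rwa [le_div_iff₀ (by positivity)] at h1
    nlinarith
  obtain ⟨n', ζ', q', h', hmesh, hpsi, hle⟩ := hre n ζ q h (me ^ 2) (by positivity)
  have := ub_smooth μ hμ hg hα h' hme0 hme1 hmesh (Sb := Sf n' ζ' q')
    (fun δ' hδ' => hS n' ζ' q' h' _ δ' hδ') (half_pos hδ)
  filter_upwards [this] with N hN
  refine hN.trans (mul_le_mul_of_nonneg_left ?_ (Nat.cast_nonneg _))
  rw [hpsi]
  linarith

theorem limit (μ : ∀ N : ℕ, Measure (Sph (Fin N)))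
    (hμ : ∀ N, 1 ≤ N → IsProbabilityMeasure (μ N)) (Sf : ℕ → (ℕ → ℝ) → (ℕ → ℝ) → ℝ)
    {α : ℝ} (hα : 0 < α)
    (hUB : ∀ g g1 g2 K, Sm g g1 g2 K → ∀ n ζ q, Adm n ζ q → ∀ δ : ℝ, 0 < δ →
      ∀ᶠ N : ℕ in atTop, Fr (μ N) g ⌊α * N⌋₊ ≤ N * (α * psi n ζ q g + Sf n ζ q + δ))
    (hLB : ∀ g g1 g2 K, Sm g g1 g2 K → ∀ I : ℝ,
      (∀ n ζ q, Adm n ζ q → I ≤ α * psi n ζ q g + Sf n ζ q) → ∀ δ : ℝ, 0 < δ →
      ∀ᶠ N : ℕ in atTop, (I - δ) * N ≤ Fr (μ N) g ⌊α * N⌋₊)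
    {f : ℝ → ℝ} (hf : Measurable f) {b : ℝ} (hb : ∀ x, |f x| ≤ b) :
    ∃ L, Tendsto (fun N : ℕ => (N : ℝ)⁻¹ * Fr (μ N) f ⌊α * N⌋₊) atTop (𝓝 L) ∧
      IsGLB {y | ∃ n ζ q, Adm n ζ q ∧ y = α * psi n ζ q f + Sf n ζ q} L := by
  have hb0 : 0 ≤ b := (abs_nonneg _).trans (hb 0)
  have hb1 : ∀ x, |f x| ≤ b + 1 := fun x => (hb x).trans (by linarith)
  set E : ℝ := Real.exp (4 * (b + 1)) with hE
  have hE0 : 0 < E := Real.exp_pos _
  have hE2 : Real.exp (2 * (b + 1)) ≤ E := Real.exp_le_exp.2 (by linarith)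
  -- approximation package
  have happ : ∀ δ : ℝ, 0 < δ → ∃ g g1 g2 K, Sm g g1 g2 K ∧
      (∀ n ζ q, Adm n ζ q → |α * psi n ζ q f - α * psi n ζ q g| ≤ δ) ∧
      ∀ N : ℕ, 1 ≤ N → |Fr (μ N) f ⌊α * N⌋₊ - Fr (μ N) g ⌊α * N⌋₊| ≤ N * δ := by
    intro δ hδ
    obtain ⟨g, g1, g2, K, hg, hgb, hL1⟩ := exists_smooth hf hb (ε := δ / (α * E)) (by positivity)
    have hI0 : 0 ≤ ∫ z, |f z - g z| ∂(gaussianReal 0 1) := integral_nonneg fun _ => abs_nonneg _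
    have hkey : α * (E * ∫ z, |f z - g z| ∂(gaussianReal 0 1)) ≤ δ := by
      have := mul_le_mul_of_nonneg_left hL1 (show 0 ≤ α * E by positivity)
      rw [mul_div_cancel₀ _ (by positivity : α * E ≠ 0)] at this
      linarith
    refine ⟨g, g1, g2, K, hg, fun n ζ q h => ?_, fun N hN => ?_⟩
    · have h1 := psi_L1 h.zadm.zok h.cadm h.q0 hf hg.meas hb1 hgb
      rw [← mul_sub, abs_mul, abs_of_pos hα]
      refine le_trans (mul_le_mul_of_nonneg_left (h1.trans ?_) hα.le) hkey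
      exact mul_le_mul_of_nonneg_right hE2 hI0
    · haveI := hμ N hN
      have h1 := fr_L1 hN (μ N) hf hg.meas hb1 hgb ⌊α * N⌋₊
      have h2 : (⌊α * N⌋₊ : ℝ) ≤ α * N := Nat.floor_le (by positivity)
      refine h1.trans ?_
      calc (⌊α * N⌋₊ : ℝ) * (E * ∫ z, |f z - g z| ∂(gaussianReal 0 1))
          ≤ α * N * (E * ∫ z, |f z - g z| ∂(gaussianReal 0 1)) :=
            mul_le_mul_of_nonneg_right h2 (by positivity)
        _ = N * (α * (E * ∫ z, |f z - g z| ∂(gaussianReal 0 1))) := by ring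
        _ ≤ N * δ := mul_le_mul_of_nonneg_left hkey (Nat.cast_nonneg _)
  have hUBf : ∀ n ζ q, Adm n ζ q → ∀ δ : ℝ, 0 < δ → ∀ᶠ N : ℕ in atTop,
      (N : ℝ)⁻¹ * Fr (μ N) f ⌊α * N⌋₊ ≤ α * psi n ζ q f + Sf n ζ q + δ := by
    intro n ζ q h δ hδ
    obtain ⟨g, g1, g2, K, hg, h1, h2⟩ := happ (δ / 3) (by positivity)
    filter_upwards [hUB g g1 g2 K hg n ζ q h (δ / 3) (by positivity), eventually_ge_atTop 1]
      with N hN hN1
    have hN0 : (0 : ℝ) < N := by exact_mod_cast hN1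
    have h3 := (abs_le.1 (h2 N hN1)).2
    have h4 := (abs_le.1 (h1 n ζ q h)).1
    rw [inv_mul_le_iff₀ hN0]
    nlinarith
  set T : Set ℝ := {y | ∃ n ζ q, Adm n ζ q ∧ y = α * psi n ζ q f + Sf n ζ q} with hT
  have hne : T.Nonempty := by
    obtain ⟨n, ζ, q, h⟩ := exists_adm
    exact ⟨_, n, ζ, q, h, rfl⟩
  have hbdd : BddBelow T := by
    refine ⟨-(α * b) - 1, ?_⟩
    rintro y ⟨n, ζ, q, h, rfl⟩
    obtain ⟨N, hN, hN1⟩ := ((hUBf n ζ q h 1 one_pos).and (eventually_ge_atTop 1)).exists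
    haveI := hμ N hN1
    have hN0 : (0 : ℝ) < N := by exact_mod_cast hN1
    have h1 := (abs_le.1 (abs_fr_le (μ N) hf hb ⌊α * N⌋₊)).1
    have h2 : (⌊α * N⌋₊ : ℝ) ≤ α * N := Nat.floor_le (by positivity)
    have h3 : -(α * b) ≤ (N : ℝ)⁻¹ * Fr (μ N) f ⌊α * N⌋₊ := by
      rw [le_inv_mul_iff₀ hN0]
      nlinarith
    linarith
  have hglb : IsGLB T (sInf T) := isGLB_csInf hne hbdd
  refine ⟨sInf T, ?_, hglb⟩
  rw [Metric.tendsto_nhds]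
  intro ε hε
  obtain ⟨y, ⟨n, ζ, q, h, rfl⟩, hy⟩ := exists_lt_of_csInf_lt hne
    (show sInf T < sInf T + ε / 4 by linarith)
  obtain ⟨g, g1, g2, K, hg, h1, h2⟩ := happ (ε / 4) (by positivity)
  have hI : ∀ n ζ q, Adm n ζ q → sInf T - ε / 4 ≤ α * psi n ζ q g + Sf n ζ q := by
    intro n ζ q h
    have h3 : sInf T ≤ α * psi n ζ q f + Sf n ζ q := hglb.1 ⟨n, ζ, q, h, rfl⟩
    have h4 := (abs_le.1 (h1 n ζ q h)).2
    linarith
  filter_upwards [hUBf n ζ q h (ε / 4) (by positivity),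
    hLB g g1 g2 K hg _ hI (ε / 4) (by positivity), eventually_ge_atTop 1] with N hU hL hN1
  have hN0 : (0 : ℝ) < N := by exact_mod_cast hN1
  have h3 := (abs_le.1 (h2 N hN1)).1
  have h4 : sInf T - 3 * (ε / 4) ≤ (N : ℝ)⁻¹ * Fr (μ N) f ⌊α * N⌋₊ := by
    rw [le_inv_mul_iff₀ hN0]
    nlinarith
  rw [Real.dist_eq, abs_lt]
  constructor <;> linarith

end FinalAux

theorem ising_limit {α : ℝ} (hα : 0 < α) {f : ℝ → ℝ} (hf : Measurable f) {b : ℝ}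
    (hb : ∀ x, |f x| ≤ b) :
    ∃ L, Tendsto (fun N : ℕ => ∫ g, isingPressure f ⌊α * N⌋₊ N g ∂(patterns ⌊α * N⌋₊ N))
        atTop (𝓝 L) ∧
      IsGLB {y | ∃ n ζ q, Adm n ζ q ∧ y = α * psi n ζ q f + isingS n ζ q} L := by
  have hμ : ∀ N : ℕ, 1 ≤ N → IsProbabilityMeasure (ising (Fin N)) := fun _ _ => inferInstance
  have := FinalAux.limit (fun N => ising (Fin N)) hμ isingS hα
    (fun g g1 g2 K hg n ζ q h δ hδ => FinalAux.ub_refined (fun N => ising (Fin N)) hμ isingS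
      (fun n ζ q h η hη => by
        obtain ⟨n', ζ', q', h1, h2, h3, _, h5⟩ := refine_grid h hη
        exact ⟨n', ζ', q', h1, h2, h3, h5⟩)
      (fun n ζ q h F δ hδ => Eventually.of_forall fun N θ => by
        refine (ising_field_le h N F θ 0).trans ?_
        exact mul_le_mul_of_nonneg_left (by linarith) (Nat.cast_nonneg _))
      hg hα h hδ)
    (fun g g1 g2 K hg I hI δ hδ => lb_ising_smooth hg hα hI hδ) hf hb
  simpa only [ising_pressure_eq hf] using this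

theorem sphere_limit {α : ℝ} (hα : 0 < α) {f : ℝ → ℝ} (hf : Measurable f) {b : ℝ}
    (hb : ∀ x, |f x| ≤ b) :
    ∃ L, Tendsto (fun N : ℕ => ∫ g, spherePressure f ⌊α * N⌋₊ N g ∂(patterns ⌊α * N⌋₊ N))
        atTop (𝓝 L) ∧
      IsGLB {y | ∃ n ζ q, Adm n ζ q ∧ y = α * psi n ζ q f + sphereS n ζ q} L := by
  have hμ : ∀ N : ℕ, 1 ≤ N → IsProbabilityMeasure (sph (Fin N)) := fun N hN => by
    haveI : Nonempty (Fin N) := ⟨⟨0, hN⟩⟩
    infer_instance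
  have := FinalAux.limit (fun N => sph (Fin N)) hμ sphereS hα
    (fun g g1 g2 K hg n ζ q h δ hδ => FinalAux.ub_refined (fun N => sph (Fin N)) hμ sphereS
      (fun n ζ q h η hη => by
        obtain ⟨n', ζ', q', h1, h2, h3, h4, _⟩ := refine_grid h hη
        exact ⟨n', ζ', q', h1, h2, h3, h4.le⟩)
      (fun n ζ q h F δ hδ => (sph_field_le h hδ).mono fun N hN θ => hN F θ 0)
      hg hα h hδ)
    (fun g g1 g2 K hg I hI δ hδ => lb_sphere_smooth hg hα hI hδ) hf hb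
  simpa only [sphere_pressure_eq hf] using this

end Vale.Agent.P157
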