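import Vale.Agent.P157.Gibbs

/-! # Second derivatives are controlled by the increment of the gradient martingale -/

namespace Vale.Agent.P157

open MeasureTheory ProbabilityTheory

namespace FishAux

theorem cov_sq_le {Ω : Type} [MeasurableSpace Ω] (π : Measure Ω) [IsProbabilityMeasure π]
    {m ρ : Ω → ℝ} (hm : BM m) (h1 : Integrable ρ π) (h2 : Integrable (fun z => ρ z ^ 2) π)
    (hρ : ∫ z, ρ z ∂π = 1) :
    (∫ z, m z * ρ z ∂π - ∫ z, m z ∂π) ^ 2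
      ≤ (∫ z, m z ^ 2 ∂π - (∫ z, m z ∂π) ^ 2) * (∫ z, ρ z ^ 2 ∂π - 1) := by
  obtain ⟨C, hC⟩ := hm.2
  have i1 : Integrable m π := hm.integrable
  have i2 : Integrable (fun z => m z ^ 2) π := (hm.pow 2).integrable
  have i3 : Integrable (fun z => m z * ρ z) π :=
    h1.bdd_mul hm.1.aestronglyMeasurable (Filter.Eventually.of_forall hC)
  have key : ∀ x : ℝ, 0 ≤ (∫ z, m z ^ 2 ∂π - (∫ z, m z ∂π) ^ 2) * (x * x)
      + 2 * (∫ z, m z * ρ z ∂π - ∫ z, m z ∂π) * x + (∫ z, ρ z ^ 2 ∂π - 1) := by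
    intro x
    set M := ∫ z, m z ∂π with hM
    have e : ∀ z, (x * (m z - M) + (ρ z - 1)) ^ 2 = (x ^ 2 * m z ^ 2 + 2 * x * (m z * ρ z))
        + ((-(2 * x ^ 2 * M) - 2 * x) * m z + ρ z ^ 2)
        + ((-(2 * x * M) - 2) * ρ z + (x * M + 1) ^ 2) := fun z => by ring
    have h0 : 0 ≤ ∫ z, (x * (m z - M) + (ρ z - 1)) ^ 2 ∂π := integral_nonneg fun z => sq_nonneg _
    have j1 := (i2.const_mul (x ^ 2)).fun_add (i3.const_mul (2 * x))
    have j2 := (i1.const_mul (-(2 * x ^ 2 * M) - 2 * x)).fun_add h2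
    have j3 := (h1.const_mul (-(2 * x * M) - 2)).fun_add (integrable_const ((x * M + 1) ^ 2))
    simp only [e] at h0
    rw [integral_add (j1.fun_add j2) j3, integral_add j1 j2,
      integral_add (i2.const_mul _) (i3.const_mul _), integral_add (i1.const_mul _) h2,
      integral_add (h1.const_mul _) (integrable_const _)] at h0
    simp only [integral_const_mul, integral_const, probReal_univ, one_smul, hρ, ← hM] at h0
    nlinarith
  have := discrim_le_zero key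
  rw [discrim] at this
  nlinarith

variable {ι : Type} [Fintype ι] {ζ : ℝ} {s v : ι → ℝ} {h : ℝ} {Ψ : (ι → ℝ) → ℝ}

/-- The Cameron-Martin density. -/
noncomputable def dens (v : ι → ℝ) (h t : ℝ) (z : ι → ℝ) : ℝ :=
  Real.exp (t / h * ∑ i, v i * z i - t ^ 2 / (2 * h))

theorem dens_sq (hh : 0 < h) (t : ℝ) (z : ι → ℝ) :
    dens v h t z ^ 2 = dens v h (2 * t) z * Real.exp (t ^ 2 / h) := by
  rw [dens, dens, ← Real.exp_nat_mul, ← Real.exp_add]
  congr 1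
  field_simp
  push_cast
  ring

theorem int_dens (hΨ : LG Ψ) (w : ι → ℝ) (t : ℝ) :
    Integrable (dens v h t) ((gv s).tilted fun z => ζ * Ψ (w + z)) := by
  have hL : LG fun z : ι → ℝ => ∑ i, v i * z i := by
    refine ⟨by fun_prop, ∑ i, |v i|, fun z => ?_⟩
    refine (Finset.abs_sum_le_sum_abs _ _).trans ?_
    rw [Finset.sum_mul]
    refine Finset.sum_le_sum fun i _ => ?_
    rw [abs_mul]
    refine mul_le_mul_of_nonneg_left ?_ (abs_nonneg _)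
    have := norm_le_pi_norm z i
    rw [Real.norm_eq_abs] at this
    linarith
  have h1 := (((hΨ.eint (noise_gv s) w).tilted (hL.eint (noise_gv s) 0) ζ).2 (t / h)).mul_const
    (Real.exp (-(t ^ 2 / (2 * h))))
  refine h1.congr (Filter.Eventually.of_forall fun z => ?_)
  simp only [zero_add, dens, sub_eq_add_neg, Real.exp_add]

theorem shift (hh : 0 < h) (hv : ∀ i, v i ≠ 0 → s i = h) (hv1 : ∑ i, v i ^ 2 = 1) (hΨ : LG Ψ)
    {g : (ι → ℝ) → ℝ} (hg : Measurable g) (w : ι → ℝ) (t : ℝ) :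
    P ζ (gv s) Ψ g (w + t • v) * Real.exp (ζ * T ζ (gv s) Ψ (w + t • v))
      = (∫ z, g (w + z) * dens v h t z ∂((gv s).tilted fun z => ζ * Ψ (w + z)))
        * Real.exp (ζ * T ζ (gv s) Ψ w) := by
  have hZ : ∀ u, Real.exp (ζ * T ζ (gv s) Ψ u) = ∫ z, Real.exp (ζ * Ψ (u + z)) ∂(gv s) :=
    fun u => exp_mul_lse ((hΨ.eint (noise_gv s) u).2 ζ)
  have hm := hΨ.1
  have cm := cameron_martin (s := s) (v := t • v) hh
    (fun i hi => hv i fun h0 => hi (by simp [h0]))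
    (F := fun z => Real.exp (ζ * Ψ (w + z)) * g (w + z)) (by fun_prop)
  have e1 := gexp_eq (ν := gv s) ζ (fun z => Ψ (w + z)) fun z => g (w + z) * dens v h t z
  rw [gexp] at e1
  rw [e1, P, gexp_eq, ← hZ, ← hZ, div_mul_cancel₀ _ (Real.exp_pos _).ne',
    div_mul_cancel₀ _ (Real.exp_pos _).ne']
  refine Eq.trans (integral_congr_ae (Filter.Eventually.of_forall fun z => ?_))
    (cm.trans (integral_congr_ae (Filter.Eventually.of_forall fun z => ?_)))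
  · simp only [add_assoc, add_comm z]
  · simp only [Pi.smul_apply, smul_eq_mul, mul_pow, ← Finset.mul_sum, hv1, mul_assoc, dens,
      mul_one]
    congr 3
    ring

theorem finite_step (hh : 0 < h) (hv : ∀ i, v i ≠ 0 → s i = h) (hv1 : ∑ i, v i ^ 2 = 1)
    (hΨ : LG Ψ) {m : (ι → ℝ) → ℝ} (hm : BM m) (w : ι → ℝ) (t : ℝ) :
    (P ζ (gv s) Ψ m (w + t • v) - P ζ (gv s) Ψ m w) ^ 2
      ≤ (P ζ (gv s) Ψ (fun u => m u ^ 2) w - P ζ (gv s) Ψ m w ^ 2)
        * (Real.exp (ζ * (T ζ (gv s) Ψ (w + (2 * t) • v) - 2 * T ζ (gv s) Ψ (w + t • v)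
            + T ζ (gv s) Ψ w) + t ^ 2 / h) - 1) := by
  have := (hΨ.eint (noise_gv s) w).prob_tilted ζ
  have one : ∀ r : ℝ, Real.exp (ζ * T ζ (gv s) Ψ (w + r • v))
      = (∫ z, dens v h r z ∂((gv s).tilted fun z => ζ * Ψ (w + z)))
        * Real.exp (ζ * T ζ (gv s) Ψ w) := by
    intro r
    have := shift (ζ := ζ) hh hv hv1 hΨ (g := fun _ => 1) measurable_const w r
    rwa [P, gexp_const ζ (hΨ.eint (noise_gv s) _), one_mul, funext fun z => one_mul _] at this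
  have hmw : BM fun z => m (w + z) := by
    obtain ⟨h1, C, hC⟩ := hm
    exact ⟨by fun_prop, C, fun z => hC _⟩
  set Z0 := Real.exp (ζ * T ζ (gv s) Ψ w) with hZ0
  set Z1 := Real.exp (ζ * T ζ (gv s) Ψ (w + t • v)) with hZ1
  have p0 : 0 < Z0 := Real.exp_pos _
  have p1 : 0 < Z1 := Real.exp_pos _
  have hsq : ∀ z, (dens v h t z * (Z0 / Z1)) ^ 2
      = dens v h (2 * t) z * (Real.exp (t ^ 2 / h) * (Z0 / Z1) ^ 2) := fun z => by
    rw [mul_pow, dens_sq hh, mul_assoc]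
  have key := cov_sq_le ((gv s).tilted fun z => ζ * Ψ (w + z)) hmw
    (ρ := fun z => dens v h t z * (Z0 / Z1)) ((int_dens hΨ w t).mul_const _)
    (by simp only [hsq]; exact (int_dens hΨ w _).mul_const _)
    (by rw [integral_mul_const, ← mul_div_assoc, ← one t, div_self p1.ne'])
  have e1 : ∫ z, m (w + z) * (dens v h t z * (Z0 / Z1)) ∂((gv s).tilted fun z => ζ * Ψ (w + z))
      = P ζ (gv s) Ψ m (w + t • v) := by
    simp only [← mul_assoc]
    rw [integral_mul_const, ← mul_div_assoc, ← shift hh hv hv1 hΨ hm.1 w t,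
      mul_div_cancel_right₀ _ p1.ne']
  have e2 : ∫ z, (dens v h t z * (Z0 / Z1)) ^ 2 ∂((gv s).tilted fun z => ζ * Ψ (w + z))
      = Real.exp (ζ * (T ζ (gv s) Ψ (w + (2 * t) • v) - 2 * T ζ (gv s) Ψ (w + t • v)
            + T ζ (gv s) Ψ w) + t ^ 2 / h) := by
    simp only [hsq]
    have e3 : ζ * (T ζ (gv s) Ψ (w + (2 * t) • v) - 2 * T ζ (gv s) Ψ (w + t • v)
        + T ζ (gv s) Ψ w) + t ^ 2 / h = ζ * T ζ (gv s) Ψ (w + (2 * t) • v) + ζ * T ζ (gv s) Ψ w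
          + t ^ 2 / h - ζ * T ζ (gv s) Ψ (w + t • v) - ζ * T ζ (gv s) Ψ (w + t • v) := by ring
    rw [integral_mul_const, e3, Real.exp_sub, Real.exp_sub, Real.exp_add, Real.exp_add,
      one (2 * t), ← hZ0, ← hZ1]
    field_simp
  rw [e1, e2] at key
  exact key

open Filter Topology in
theorem limit {D φ : ℝ → ℝ} {V a c K : ℝ} (hV : 0 ≤ V)
    (h : ∀ t, D t ^ 2 ≤ V * (Real.exp (φ t) - 1)) (hD : ∀ t, |D t - t * a| ≤ K * t ^ 2)
    (hφ : ∀ t, |φ t - t ^ 2 * c| ≤ K * |t| ^ 3) : a ^ 2 ≤ V * c := by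
  have t0 : Tendsto (fun t : ℝ => t) (𝓝[>] 0) (𝓝 0) := tendsto_nhdsWithin_of_tendsto_nhds tendsto_id
  have tK : Tendsto (fun t : ℝ => K * t) (𝓝[>] 0) (𝓝 0) := by simpa using t0.const_mul K
  have l1 : Tendsto (fun t => D t / t) (𝓝[>] 0) (𝓝 a) := by
    rw [tendsto_iff_norm_sub_tendsto_zero]
    refine squeeze_zero' (Eventually.of_forall fun _ => norm_nonneg _) ?_ tK
    filter_upwards [self_mem_nhdsWithin] with t (ht : 0 < t)
    rw [Real.norm_eq_abs, div_sub' ht.ne', abs_div, abs_of_pos ht, div_le_iff₀ ht]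
    exact (hD t).trans (le_of_eq (by ring))
  have l2 : Tendsto (fun t => φ t / t ^ 2) (𝓝[>] 0) (𝓝 c) := by
    rw [tendsto_iff_norm_sub_tendsto_zero]
    refine squeeze_zero' (Eventually.of_forall fun _ => norm_nonneg _) ?_ tK
    filter_upwards [self_mem_nhdsWithin] with t (ht : 0 < t)
    have ht2 : 0 < t ^ 2 := by positivity
    rw [Real.norm_eq_abs, div_sub' ht2.ne', abs_div, abs_of_pos ht2, div_le_iff₀ ht2]
    exact (hφ t).trans (le_of_eq (by rw [abs_of_pos ht]; ring))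
  have l3 : Tendsto (fun t => |t ^ 2 * (φ t / t ^ 2)|) (𝓝[>] 0) (𝓝 0) := by
    simpa using ((t0.pow 2).mul l2).abs
  have l4 : Tendsto (fun t => V * (φ t / t ^ 2 + t ^ 2 * (φ t / t ^ 2) ^ 2)) (𝓝[>] 0)
      (𝓝 (V * c)) := by
    simpa using (l2.add ((t0.pow 2).mul (l2.pow 2))).const_mul V
  refine le_of_tendsto_of_tendsto (l1.pow 2) l4 ?_
  filter_upwards [self_mem_nhdsWithin, l3.eventually_lt_const one_pos] with t (ht : 0 < t) h1
  have ht2 : 0 < t ^ 2 := by positivity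
  rw [mul_div_cancel₀ _ ht2.ne'] at h1
  have h2 := (abs_le.1 (Real.abs_exp_sub_one_sub_id_le h1.le)).2
  have h3 : D t ^ 2 ≤ V * (φ t + φ t ^ 2) :=
    (h t).trans (mul_le_mul_of_nonneg_left (by linarith) hV)
  have e : V * (φ t / t ^ 2 + t ^ 2 * (φ t / t ^ 2) ^ 2) = V * (φ t + φ t ^ 2) / t ^ 2 := by
    field_simp
  rw [e, div_pow]
  exact div_le_div_of_nonneg_right h3 ht2.le

theorem P_var_nonneg (hΨ : LG Ψ) {m : (ι → ℝ) → ℝ} (hm : BM m) (w : ι → ℝ) :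
    0 ≤ P ζ (gv s) Ψ (fun u => m u ^ 2) w - P ζ (gv s) Ψ m w ^ 2 := by
  have hmw : BM fun z => m (w + z) := by
    obtain ⟨h1, C, hC⟩ := hm
    exact ⟨by fun_prop, C, fun z => hC _⟩
  exact sub_nonneg.2 (sq_gexp_le ζ (hΨ.eint (noise_gv s) w) hmw.eint)

theorem var_comb {Ω β : Type} [MeasurableSpace Ω] [Fintype β] (π : Measure Ω)
    [IsProbabilityMeasure π] {g : β → Ω → ℝ} (hg : ∀ j, BM (g j)) {c : β → ℝ}
    (hc : ∑ j, c j ^ 2 = 1) :
    ∫ z, (∑ j, c j * g j z) ^ 2 ∂π - (∫ z, ∑ j, c j * g j z ∂π) ^ 2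
      ≤ ∫ z, ∑ j, g j z ^ 2 ∂π - ∑ j, (∫ z, g j z ∂π) ^ 2 := by
  have var : ∀ f : Ω → ℝ, BM f →
      ∫ z, f z ^ 2 ∂π - (∫ z, f z ∂π) ^ 2 = ∫ z, (f z - ∫ y, f y ∂π) ^ 2 ∂π := by
    intro f hf
    have e : ∀ z, (f z - ∫ y, f y ∂π) ^ 2
        = f z ^ 2 + (-(2 * ∫ y, f y ∂π) * f z + (∫ y, f y ∂π) ^ 2) := fun z => by ring
    simp only [e]
    rw [integral_add (hf.pow 2).integrable
      ((hf.integrable.const_mul _).fun_add (integrable_const _)),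
      integral_add (hf.integrable.const_mul _) (integrable_const _)]
    simp only [integral_const_mul, integral_const, probReal_univ, one_smul]
    ring
  have hb : BM fun z => ∑ j, c j * g j z := BM.sum _ fun j _ => (hg j).const_mul _
  have hb2 : ∀ j, BM fun z => (g j z - ∫ y, g j y ∂π) ^ 2 := fun j =>
    ((hg j).sub (BM.const _)).pow 2
  rw [var _ hb, integral_finsetSum _ fun j _ => ((hg j).pow 2).integrable,
    ← Finset.sum_sub_distrib, Finset.sum_congr rfl fun j _ => var _ (hg j),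
    ← integral_finsetSum _ fun j _ => (hb2 j).integrable]
  refine integral_mono ((hb.sub (BM.const _)).pow 2).integrable
    (BM.sum _ fun j _ => hb2 j).integrable fun z => ?_
  have h1 := Finset.sum_mul_sq_le_sq_mul_sq Finset.univ c fun j => g j z - ∫ y, g j y ∂π
  rw [hc, one_mul] at h1
  refine le_trans (le_of_eq ?_) h1
  simp only [integral_finsetSum _ fun j _ => ((hg j).const_mul (c j)).integrable,
    integral_const_mul, mul_sub, Finset.sum_sub_distrib]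

omit [Fintype ι] in
theorem blk_apply {β : Type} [DecidableEq ι] [Fintype β] (e : β ↪ ι) (c : β → ℝ) (j : β) :
    blk e c (e j) = c j := by
  classical
  simp [blk]

theorem blk_sq {β : Type} [DecidableEq ι] [Fintype β] (e : β ↪ ι) (c : β → ℝ) :
    ∑ i, blk e c i ^ 2 = ∑ j, c j ^ 2 := by
  have : ∀ i, blk e c i ^ 2 = ∑ j, if e j = i then c j * blk e c i else 0 := fun i => by
    rw [sq]
    nth_rewrite 1 [blk]
    simp [Finset.sum_mul]
  simp only [this]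
  rw [Finset.sum_comm]
  simp [blk_apply, sq]

theorem quad {a V z θ : ℝ} (hV : 0 ≤ V) (hz : 0 ≤ z) (hθ : 0 < θ)
    (h : a ^ 2 ≤ V * (z * a + 1 / θ ^ 2)) : a ≤ z * V + √V / θ := by
  by_contra hc
  rw [not_le] at hc
  have h1 : (√V / θ) ^ 2 = V * (1 / θ ^ 2) := by rw [div_pow, Real.sq_sqrt hV]; ring
  have h2 : 0 ≤ √V / θ := by positivity
  have h3 : 0 ≤ z * V := by positivity
  nlinarith

end FishAux

open FishAux

theorem fisher {ι : Type} [Fintype ι] {ζ : ℝ} (h0 : 0 ≤ ζ) (h1 : ζ ≤ 1) {s v : ι → ℝ} {h : ℝ}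
    (hh : 0 < h) (hv : ∀ i, v i ≠ 0 → s i = h) (hv1 : ∑ i, v i ^ 2 = 1)
    {Ψ m a : (ι → ℝ) → ℝ} (hΨ : LG Ψ) {K : ℝ} (hj : DJet Ψ v m a K) (w : ι → ℝ) :
    (P ζ (gv s) Ψ (fun u => a u + ζ * m u ^ 2) w - ζ * P ζ (gv s) Ψ m w ^ 2) ^ 2
      ≤ (P ζ (gv s) Ψ (fun u => m u ^ 2) w - P ζ (gv s) Ψ m w ^ 2)
        * (ζ * (P ζ (gv s) Ψ (fun u => a u + ζ * m u ^ 2) w - ζ * P ζ (gv s) Ψ m w ^ 2)
          + 1 / h) := by
  have hs := hj.step h0 h1 (noise_gv s) hΨ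
  have hK := hs.K0
  refine limit (K := 10 * jc K) (P_var_nonneg hΨ hj.bm_m w)
    (finite_step hh hv hv1 hΨ hj.bm_m w) (fun t => ?_) fun t => ?_
  · exact (hs.m_taylor w t).trans (by nlinarith [sq_nonneg t])
  · have a1 := abs_le.1 (hs.tay w t)
    have a2 := abs_le.1 (hs.tay w (2 * t))
    rw [abs_mul, abs_two] at a2
    set A := P ζ (gv s) Ψ (fun u => a u + ζ * m u ^ 2) w - ζ * P ζ (gv s) Ψ m w ^ 2
    have e : ζ * (T ζ (gv s) Ψ (w + (2 * t) • v) - 2 * T ζ (gv s) Ψ (w + t • v)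
        + T ζ (gv s) Ψ w) + t ^ 2 / h - t ^ 2 * (ζ * A + 1 / h)
        = ζ * (T ζ (gv s) Ψ (w + (2 * t) • v) - 2 * T ζ (gv s) Ψ (w + t • v)
          + T ζ (gv s) Ψ w - t ^ 2 * A) := by ring
    rw [e, abs_mul, abs_of_nonneg h0]
    refine (mul_le_of_le_one_left (abs_nonneg _) h1).trans (abs_le.2 ⟨?_, ?_⟩)
    · linarith [a1.2, a2.1]
    · linarith [a1.1, a2.2]

/-- The conditional variance of every unit combination of the block gradient is small. -/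
theorem cond_var_le {ι β : Type} [Fintype ι] [DecidableEq ι] [Fintype β] {Ω : Type}
    [MeasurableSpace Ω] (μ : Measure Ω) [IsProbabilityMeasure μ] {ζ : ℕ → ℝ} (hζ : Zok ζ)
    (hz : ζ 0 = 1) {H : (ι → ℝ) → Ω → ℝ} {h1 h2 : ι → (ι → ℝ) → Ω → ℝ} (hJ : HJ H h1 h2)
    {e : β ↪ ι} {K b Λ : ℝ} (hB : Blk H h1 e K b Λ) (s : ℕ → ι → ℝ) (l : ℕ) (hl : 0 < ζ l)
    {θ : ℝ} (hθ : 0 < θ) (hs : ∀ j, s l (e j) = θ ^ 2) (c : β → ℝ) (hc : ∑ j, c j ^ 2 = 1)
    (w : ι → ℝ) :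
    GE ζ (gvs s) μ H (fun w x => (∑ j, c j * h1 (e j) w x) ^ 2) (l + 1) w
        - GE ζ (gvs s) μ H (fun w x => ∑ j, c j * h1 (e j) w x) (l + 1) w ^ 2
      ≤ (Ex ζ (gvs s) (gtop μ H) l (fun u => ∑ j, GE ζ (gvs s) μ H (h1 (e j)) l u ^ 2) (l + 1) w
          - ∑ j, GE ζ (gvs s) μ H (h1 (e j)) (l + 1) w ^ 2) + (√Λ / θ + K) / ζ l := by
  obtain ⟨a, K', hF, hK⟩ := hB.dir c
  rw [hc, mul_one] at hK
  obtain ⟨K1, hK1⟩ := hJ.jet
  have hν : ∀ d, Noise (gvs s d) := fun d => noise_gv (s d)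
  have hcas : Cas ζ (gvs s) (gtop μ H) := hJ.hg.cas hζ hν
  have hj := hcas.jetX (jet_gtop hJ.hg hF) l
  have hv : ∀ i, blk e c i ≠ 0 → s l i = θ ^ 2 := by
    intro i hi
    obtain ⟨j, _, hj⟩ := Finset.exists_ne_zero_of_sum_ne_zero hi
    have : e j = i := by
      by_contra h
      exact hj (if_neg h)
    rw [← this, hs]
  have hf := fisher (hζ.nn l) (hζ.le_one l) (pow_pos hθ 2) hv ((blk_sq e c).trans hc)
    (hcas.lgX l) hj w
  have hq := quad (P_var_nonneg (hcas.lgX l) hj.bm_m w) (hζ.nn l) hθ hf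
  have hb := Bp_ge (μ := μ) hJ.hg hζ hν hz hF.bm2_m hF.bm2_a hK l w
  have hE : ∀ φ : (ι → ℝ) → ℝ, Ex ζ (gvs s) (gtop μ H) l φ (l + 1)
      = P (ζ l) (gv (s l)) (X ζ (gvs s) (gtop μ H) l) φ := fun φ => by
    rw [Ex_succ le_rfl, Ex_of_le le_rfl]; rfl
  have hG : ∀ g : (ι → ℝ) → Ω → ℝ, GE ζ (gvs s) μ H g (l + 1)
      = P (ζ l) (gv (s l)) (X ζ (gvs s) (gtop μ H) l) (GE ζ (gvs s) μ H g l) := fun g =>
    Ex_succ (Nat.zero_le l) _
  have hbm : ∀ j, BM2 (h1 (e j)) := fun j => (hK1 (e j)).bm2_m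
  have hlin : GE ζ (gvs s) μ H (fun w x => ∑ j, c j * h1 (e j) w x) l
      = fun u => ∑ j, c j * GE ζ (gvs s) μ H (h1 (e j)) l u := by
    funext u
    rw [GE_sum hJ.hg hζ hν _ fun j _ => (hbm j).const_mul (c j)]
    simp only [GE_const_mul]
  have := ((hcas.lgX l).eint (noise_gv (s l)) w).prob_tilted (ζ l)
  have hgb : ∀ j, BM fun z => GE ζ (gvs s) μ H (h1 (e j)) l (w + z) := fun j => by
    obtain ⟨h1, C, hC⟩ := bm_GE (μ := μ) hJ.hg hζ hν (hbm j) l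
    exact ⟨by fun_prop, C, fun z => hC _⟩
  have hvar := var_comb ((gv (s l)).tilted fun z => ζ l * X ζ (gvs s) (gtop μ H) l (w + z)) hgb hc
  have hΛ : Ex ζ (gvs s) (gtop μ H) l (fun u => ∑ j, GE ζ (gvs s) μ H (h1 (e j)) l u ^ 2) (l + 1) w
      ≤ Λ := by
    refine le_trans (hcas.Ex_mono l (BM.sum _ fun j _ => (bm_GE hJ.hg hζ hν (hbm j) l).pow 2)
      (BM.const Λ) (fun u => sum_sq_GE_le hJ.hg hζ hν hbm hB.lam l u) _ _) ?_
    exact (hcas.Ex_const l Λ _ _).le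
  have hnn : 0 ≤ ∑ j, GE ζ (gvs s) μ H (h1 (e j)) (l + 1) w ^ 2 :=
    Finset.sum_nonneg fun j _ => sq_nonneg _
  set V := P (ζ l) (gv (s l)) (X ζ (gvs s) (gtop μ H) l)
      (fun u => GE ζ (gvs s) μ H (fun w x => ∑ j, c j * h1 (e j) w x) l u ^ 2) w
    - P (ζ l) (gv (s l)) (X ζ (gvs s) (gtop μ H) l)
      (GE ζ (gvs s) μ H (fun w x => ∑ j, c j * h1 (e j) w x) l) w ^ 2 with hV
  have hV1 : V ≤ Ex ζ (gvs s) (gtop μ H) l
      (fun u => ∑ j, GE ζ (gvs s) μ H (h1 (e j)) l u ^ 2) (l + 1) w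
        - ∑ j, GE ζ (gvs s) μ H (h1 (e j)) (l + 1) w ^ 2 := by
    rw [hV, hlin, hE]
    simp only [hG]
    exact hvar
  have hq' : Bp ζ (gvs s) μ H (fun w x => ∑ j, c j * h1 (e j) w x) a l w
      - ζ l * GE ζ (gvs s) μ H (fun w x => ∑ j, c j * h1 (e j) w x) (l + 1) w ^ 2
      ≤ ζ l * V + √V / θ := by
    rw [Bp, hE, hG]
    exact hq
  have hsq : √V / θ ≤ √Λ / θ :=
    div_le_div_of_nonneg_right (Real.sqrt_le_sqrt (by linarith)) hθ.le
  rw [← sub_le_iff_le_add', le_div_iff₀ hl]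
  nlinarith [mul_le_mul_of_nonneg_left hV1 hl.le]

end Vale.Agent.P157
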