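import Vale.Agent.P157.Casc

/-! # Gaussian measures -/

namespace Vale.Agent.P157

open MeasureTheory ProbabilityTheory

variable {ι : Type} [Fintype ι]

namespace GaussAux

theorem g1_max (v : ℝ) : g1 (max v 0) = g1 v := by
  unfold g1
  congr 1
  ext
  simp

theorem gv_max (s : ι → ℝ) : (gv fun i => max (s i) 0) = gv s := by
  simp only [gv, g1_max]

theorem cf_g1 (v : ℝ) (L : StrongDual ℝ ℝ) :
    charFunDual (g1 v) L = Complex.exp (-((max v 0 * L 1 ^ 2 / 2 : ℝ) : ℂ)) := by
  have h1 : charFunDual (g1 v) L = charFun (g1 v) (L 1) := by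
    rw [charFunDual_apply, charFun_apply_real]
    refine integral_congr_ae (ae_of_all _ fun x => ?_)
    have : L x = L 1 * x := by
      rw [mul_comm, ← smul_eq_mul, ← map_smul, smul_eq_mul, mul_one]
    simp only [this, Complex.ofReal_mul]
  rw [h1, g1, charFun_gaussianReal, Real.coe_toNNReal']
  congr 1
  push_cast
  ring

theorem cf_gv [DecidableEq ι] (s : ι → ℝ) (L : StrongDual ℝ (ι → ℝ)) :
    charFunDual (gv s) L =
      Complex.exp (-((∑ i, max (s i) 0 * L (Pi.single i 1) ^ 2 / 2 : ℝ) : ℂ)) := by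
  rw [gv, charFunDual_pi]
  simp only [cf_g1]
  rw [← Complex.exp_sum, Complex.ofReal_sum, Finset.sum_neg_distrib]
  rfl

theorem dual_apply [DecidableEq ι] (L : StrongDual ℝ (ι → ℝ)) (x : ι → ℝ) :
    L x = ∑ k, x k * L (Pi.single k 1) := by
  conv_lhs => rw [← Finset.univ_sum_single x]
  rw [map_sum]
  refine Finset.sum_congr rfl fun k _ => ?_
  rw [← smul_eq_mul, ← map_smul, ← Pi.single_smul, smul_eq_mul, mul_one]

/-- A linear form as a continuous linear map. -/
noncomputable def form (c : ι → ℝ) : (ι → ℝ) →L[ℝ] ℝ :=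
  ∑ i, c i • ContinuousLinearMap.proj (R := ℝ) (φ := fun _ : ι => ℝ) i

theorem form_apply (c z : ι → ℝ) : form c z = ∑ i, c i * z i := by
  simp [form]

theorem form_single [DecidableEq ι] (c : ι → ℝ) (i : ι) : form c (Pi.single i 1) = c i := by
  simp [form_apply, Pi.single_apply]

theorem mgf_g1 {v : ℝ} (hv : 0 ≤ v) : mgf id (g1 v) = fun t => Real.exp (v * t ^ 2 / 2) := by
  rw [g1, mgf_id_gaussianReal, Real.coe_toNNReal _ hv]
  simp

theorem deriv_step (v : ℝ) {p p' : ℝ → ℝ} (hp : ∀ t, HasDerivAt p (p' t) t) :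
    deriv (fun t => p t * Real.exp (v * t ^ 2 / 2)) =
      fun t => (p' t + v * t * p t) * Real.exp (v * t ^ 2 / 2) := by
  funext t
  have h1 := (((hasDerivAt_pow 2 t).const_mul v).div_const 2).exp
  refine ((hp t).fun_mul h1).deriv.trans ?_
  norm_num
  ring

theorem moments {v : ℝ} (hv : 0 ≤ v) :
    ∫ z, z ^ 2 ∂(g1 v) = v ∧ ∫ z, z ^ 4 ∂(g1 v) = 3 * v ^ 2 := by
  have h0 : (0 : ℝ) ∈ interior (integrableExpSet id (g1 v)) := by simp [g1]
  have e0 : mgf id (g1 v) = fun t => 1 * Real.exp (v * t ^ 2 / 2) := by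
    simp only [mgf_g1 hv, one_mul]
  have e1 : iteratedDeriv 1 (mgf id (g1 v)) = fun t => (v * t) * Real.exp (v * t ^ 2 / 2) := by
    rw [iteratedDeriv_one, e0, deriv_step v fun t => hasDerivAt_const t 1]
    simp
  have e2 : iteratedDeriv 2 (mgf id (g1 v)) =
      fun t => (v + v ^ 2 * t ^ 2) * Real.exp (v * t ^ 2 / 2) := by
    rw [iteratedDeriv_succ, e1, deriv_step v fun t => (hasDerivAt_id' t).const_mul v]
    funext t
    ring
  have e3 : iteratedDeriv 3 (mgf id (g1 v)) =
      fun t => (3 * v ^ 2 * t + v ^ 3 * t ^ 3) * Real.exp (v * t ^ 2 / 2) := by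
    rw [iteratedDeriv_succ, e2,
      deriv_step v fun t => ((hasDerivAt_pow 2 t).const_mul (v ^ 2)).const_add v]
    funext t
    norm_num
    ring
  have e4 : iteratedDeriv 4 (mgf id (g1 v)) 0 = 3 * v ^ 2 := by
    rw [iteratedDeriv_succ, e3, deriv_step v fun t =>
      ((hasDerivAt_id' t).const_mul (3 * v ^ 2)).fun_add ((hasDerivAt_pow 3 t).const_mul (v ^ 3))]
    simp
  have a2 := iteratedDeriv_mgf_zero h0 2
  have a4 := iteratedDeriv_mgf_zero h0 4
  rw [e2] at a2
  rw [e4] at a4
  constructor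
  · simpa using a2.symm
  · simpa using a4.symm

theorem shift_one {h : ℝ} (hh : 0 < h) (x : ℝ) :
    (g1 h).map (fun z => z + x) = (g1 h).withDensity
      fun z => ENNReal.ofReal (Real.exp (x * z / h - x ^ 2 / (2 * h))) := by
  have hρ : Measurable fun z : ℝ => ENNReal.ofReal (Real.exp (x * z / h - x ^ 2 / (2 * h))) := by
    fun_prop
  have hη : h.toNNReal ≠ 0 := by simpa using hh
  rw [g1, gaussianReal_map_add_const, gaussianReal_of_var_ne_zero _ hη,
    gaussianReal_of_var_ne_zero _ hη, ← withDensity_mul _ (measurable_gaussianPDF _ _) hρ]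
  congr 1
  funext z
  rw [Pi.mul_apply, gaussianPDF, gaussianPDF, ← ENNReal.ofReal_mul (gaussianPDFReal_nonneg _ _ _),
    gaussianPDFReal, gaussianPDFReal, mul_assoc _ (Real.exp _), ← Real.exp_add,
    Real.coe_toNNReal _ hh.le]
  congr 3
  field_simp
  ring

theorem pi_density (μ ν : ι → Measure ℝ) [∀ i, IsProbabilityMeasure (μ i)]
    [∀ i, IsProbabilityMeasure (ν i)] (ρ : ι → ℝ → ENNReal) (hρ : ∀ i, Measurable (ρ i))
    (h : ∀ i, ν i = (μ i).withDensity (ρ i)) :
    Measure.pi ν = (Measure.pi μ).withDensity fun z => ∏ i, ρ i (z i) := by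
  refine Measure.pi_eq fun t ht => ?_
  have hm : ∀ i, Measurable ((t i).indicator (ρ i)) := fun i => (hρ i).indicator (ht i)
  have key := lintegral_prod_eq_prod_lintegral_of_indepFun Finset.univ _
    (iIndepFun_pi (μ := μ) fun i => (hm i).aemeasurable)
    fun i => (hm i).comp (measurable_pi_apply i)
  rw [withDensity_apply _ (MeasurableSet.univ_pi ht),
    ← lintegral_indicator (MeasurableSet.univ_pi ht)]
  refine Eq.trans (lintegral_congr fun z => ?_) (key.trans (Finset.prod_congr rfl fun i _ => ?_))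
  · by_cases hz : z ∈ Set.univ.pi t
    · rw [Set.indicator_of_mem hz]
      exact Finset.prod_congr rfl fun i _ => (Set.indicator_of_mem (hz i trivial) _).symm
    · rw [Set.indicator_of_notMem hz]
      obtain ⟨i, hi⟩ : ∃ i, z i ∉ t i := by simpa using hz
      exact (Finset.prod_eq_zero (Finset.mem_univ i) (Set.indicator_of_notMem hi _)).symm
  · rw [h i, withDensity_apply _ (ht i), ← lintegral_indicator (ht i)]
    exact (measurePreserving_eval μ i).lintegral_comp (hm i)

end GaussAux

open GaussAux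

theorem g1_one : g1 1 = gaussianReal 0 1 := by simp [g1]

theorem g1_of_nonpos {v : ℝ} (h : v ≤ 0) : g1 v = Measure.dirac 0 := by
  rw [g1, Real.toNNReal_of_nonpos h, gaussianReal_zero_var]

theorem g1_eq_map (v : ℝ) : g1 v = (gaussianReal 0 1).map fun z => √v * z := by
  rw [gaussianReal_map_const_mul, mul_zero, mul_one, g1]
  congr 1
  ext
  simp [Real.sq_sqrt']

theorem g1_map_neg (v : ℝ) : (g1 v).map (fun z => -z) = g1 v := by
  rw [g1, gaussianReal_map_neg, neg_zero]

theorem integral_exp_g1 {v : ℝ} (hv : 0 ≤ v) (c : ℝ) :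
    ∫ z, Real.exp (c * z) ∂(g1 v) = Real.exp (v * c ^ 2 / 2) :=
  congrFun (mgf_g1 hv) c

theorem integral_id_g1 (v : ℝ) : ∫ z, z ∂(g1 v) = 0 := integral_id_gaussianReal

theorem integral_sq_g1 {v : ℝ} (hv : 0 ≤ v) : ∫ z, z ^ 2 ∂(g1 v) = v := (moments hv).1

theorem integral_cube_g1 (v : ℝ) : ∫ z, z ^ 3 ∂(g1 v) = 0 := by
  have h : ∫ z, z ^ 3 ∂((g1 v).map fun z => -z) = ∫ z, (-z) ^ 3 ∂(g1 v) :=
    integral_map (by fun_prop) (by fun_prop)
  have e : ∀ z : ℝ, (-z) ^ 3 = -z ^ 3 := fun z => by ring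
  simp only [g1_map_neg, e, integral_neg] at h
  linarith

theorem integral_four_g1 {v : ℝ} (hv : 0 ≤ v) : ∫ z, z ^ 4 ∂(g1 v) = 3 * v ^ 2 := (moments hv).2

theorem noise_g1 (v : ℝ) : Noise (g1 v) := by
  refine ⟨inferInstance, fun c => ?_⟩
  refine ((integrable_exp_mul_gaussianReal c).add (integrable_exp_mul_gaussianReal (-c))).mono'
    (by fun_prop) (ae_of_all _ fun z => ?_)
  rw [Real.norm_of_nonneg (Real.exp_pos _).le, Real.norm_eq_abs, Pi.add_apply]
  rcases abs_cases z with ⟨h, _⟩ | ⟨h, _⟩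
  · rw [h]
    exact le_add_of_nonneg_right (Real.exp_pos _).le
  · rw [h, mul_neg, neg_mul]
    exact le_add_of_nonneg_left (Real.exp_pos _).le

theorem noise_gv (s : ι → ℝ) : Noise (gv s) := by
  refine ⟨inferInstance, fun c => ?_⟩
  refine (Integrable.fintype_prod fun i => (noise_g1 (s i)).ex |c|).mono'
    (by fun_prop) (ae_of_all _ fun z => ?_)
  rw [Real.norm_of_nonneg (Real.exp_pos _).le, ← Real.exp_sum, ← Finset.mul_sum]
  refine Real.exp_le_exp.2 (mul_le_mul (le_abs_self c) ?_ (norm_nonneg _) (abs_nonneg _))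
  exact (pi_norm_le_iff_of_nonneg (Finset.sum_nonneg fun i _ => norm_nonneg _)).2 fun i =>
    Finset.single_le_sum (f := fun i => ‖z i‖) (fun i _ => norm_nonneg _) (Finset.mem_univ i)

theorem noise_line {W : Type} [NormedAddCommGroup W] [NormedSpace ℝ W] [MeasurableSpace W]
    [BorelSpace W] [SecondCountableTopology W] (v : W) (h : ℝ) : Noise (line v h) := by
  have hm : Measurable fun t : ℝ => t • v := by fun_prop
  refine ⟨Measure.isProbabilityMeasure_map hm.aemeasurable, fun c => ?_⟩
  rw [line, integrable_map_measure (by fun_prop) hm.aemeasurable]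
  refine ((noise_g1 h).ex (c * ‖v‖)).congr (ae_of_all _ fun t => ?_)
  simp only [Function.comp_apply, norm_smul]
  congr 1
  ring

theorem cas_gvs {ζ : ℕ → ℝ} (hζ : Zok ζ) (s : ℕ → ι → ℝ) {Ψ : (ι → ℝ) → ℝ} (hΨ : LG Ψ) :
    Cas ζ (gvs s) Ψ := ⟨hζ, fun d => noise_gv (s d), hΨ⟩

theorem cas_g1s {ζ : ℕ → ℝ} (hζ : Zok ζ) (v : ℕ → ℝ) {f : ℝ → ℝ} (hf : LG f) :
    Cas ζ (g1s v) f := ⟨hζ, fun d => noise_g1 (v d), hf⟩

theorem gv_of_nonpos {s : ι → ℝ} (h : ∀ i, s i ≤ 0) : gv s = Measure.dirac 0 := by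
  classical
  refine Measure.ext_of_charFunDual (funext fun L => ?_)
  simp [cf_gv, max_eq_right (h _)]

theorem gv_eq_map (s : ι → ℝ) :
    gv s = (gv fun _ : ι => (1 : ℝ)).map fun η i => √(s i) * η i := by
  have := Measure.pi_map_pi (μ := fun _ : ι => gaussianReal 0 1) (f := fun i z => √(s i) * z)
    fun i => by fun_prop
  simp only [← g1_eq_map] at this
  simp only [gv, g1_one, this]

theorem g1_conv {v h : ℝ} (hv : 0 ≤ v) (hh : 0 ≤ h) : g1 (v + h) = (g1 h).conv (g1 v) := by
  rw [g1, g1, g1, gaussianReal_conv_gaussianReal, add_zero, add_comm, Real.toNNReal_add hh hv]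

theorem line_one (h : ℝ) : line (1 : ℝ) h = g1 h := by simp [line]

theorem gv_conv {s s' : ι → ℝ} (hs : ∀ i, 0 ≤ s i) (hs' : ∀ i, 0 ≤ s' i) :
    gv (s + s') = (gv s').conv (gv s) := by
  classical
  refine Measure.ext_of_charFunDual (funext fun L => ?_)
  rw [charFunDual_conv, cf_gv, cf_gv, cf_gv, ← Complex.exp_add, ← neg_add, ← Complex.ofReal_add,
    ← Finset.sum_add_distrib]
  congr 3
  refine Finset.sum_congr rfl fun i _ => ?_
  rw [Pi.add_apply, max_eq_left (add_nonneg (hs i) (hs' i)), max_eq_left (hs i),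
    max_eq_left (hs' i)]
  ring

theorem gv_conv_line [DecidableEq ι] {s : ι → ℝ} (hs : ∀ i, 0 ≤ s i) (i : ι) {h : ℝ}
    (hh : 0 ≤ h) :
    gv (Function.update s i (s i + h)) = (line (Pi.single i (1 : ℝ)) h).conv (gv s) := by
  have := (noise_line (Pi.single i (1 : ℝ) : ι → ℝ) h).prob
  refine Measure.ext_of_charFunDual (funext fun L => ?_)
  have e : line (Pi.single i (1 : ℝ) : ι → ℝ) h =
      (g1 h).map (ContinuousLinearMap.toSpanSingleton ℝ (Pi.single i (1 : ℝ) : ι → ℝ)) := rfl
  rw [charFunDual_conv, e, charFunDual_map, cf_g1, cf_gv, cf_gv, ← Complex.exp_add, ← neg_add,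
    ← Complex.ofReal_add, ← Finset.add_sum_erase _ _ (Finset.mem_univ i),
    ← Finset.add_sum_erase _ _ (Finset.mem_univ i), ← add_assoc]
  congr 4
  · simp only [Function.update_self, ContinuousLinearMap.comp_apply,
      ContinuousLinearMap.toSpanSingleton_apply, one_smul]
    rw [max_eq_left (add_nonneg (hs i) hh), max_eq_left (hs i), max_eq_left hh]
    ring
  · exact Finset.sum_congr rfl fun j hj => by rw [Function.update_of_ne (Finset.ne_of_mem_erase hj)]

/-- Linear images of Gaussian vectors with diagonal covariance. -/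
theorem gauss_lin {κ : Type} [Fintype κ] [DecidableEq κ] (M : κ → ι → ℝ) {s : ι → ℝ}
    {s' : κ → ℝ} (hs : ∀ i, 0 ≤ s i)
    (h : ∀ k l, ∑ i, s i * (M k i * M l i) = if k = l then s' k else 0) :
    (gv s).map (fun z k => ∑ i, M k i * z i) = gv s' := by
  classical
  have e : (fun (z : ι → ℝ) k => ∑ i, M k i * z i) =
      (ContinuousLinearMap.pi fun k => form (M k) : (ι → ℝ) →L[ℝ] (κ → ℝ)) :=
    funext fun z => funext fun k => (form_apply _ _).symm
  have hs' : ∀ k, 0 ≤ s' k := fun k => by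
    have := h k k
    rw [if_pos rfl] at this
    rw [← this]
    exact Finset.sum_nonneg fun i _ => mul_nonneg (hs i) (mul_self_nonneg _)
  rw [e]
  refine Measure.ext_of_charFunDual (funext fun L => ?_)
  rw [charFunDual_map, cf_gv, cf_gv]
  congr 3
  have h1 : ∀ i, (L.comp (ContinuousLinearMap.pi fun k => form (M k))) (Pi.single i 1) =
      ∑ k, M k i * L (Pi.single k 1) := fun i => by
    rw [ContinuousLinearMap.comp_apply, dual_apply]
    simp only [ContinuousLinearMap.pi_apply, form_single]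
  simp only [h1, max_eq_left (hs _), max_eq_left (hs' _)]
  rw [← Finset.sum_div, ← Finset.sum_div]
  congr 1
  calc ∑ i, s i * (∑ k, M k i * L (Pi.single k 1)) ^ 2
      = ∑ i, ∑ k, ∑ l, L (Pi.single k 1) * L (Pi.single l 1) * (s i * (M k i * M l i)) := by
        refine Finset.sum_congr rfl fun i _ => ?_
        rw [sq, Finset.sum_mul_sum, Finset.mul_sum]
        refine Finset.sum_congr rfl fun k _ => ?_
        rw [Finset.mul_sum]
        exact Finset.sum_congr rfl fun l _ => by ring
    _ = ∑ k, ∑ l, L (Pi.single k 1) * L (Pi.single l 1) * ∑ i, s i * (M k i * M l i) := by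
        rw [Finset.sum_comm]
        refine Finset.sum_congr rfl fun k _ => ?_
        rw [Finset.sum_comm]
        exact Finset.sum_congr rfl fun l _ => (Finset.mul_sum _ _ _).symm
    _ = _ := by
        refine Finset.sum_congr rfl fun k _ => ?_
        simp only [h, mul_ite, mul_zero, Finset.sum_ite_eq, Finset.mem_univ, if_true]
        ring

/-- Law of a linear form. -/
theorem gauss_form {s : ι → ℝ} (hs : ∀ i, 0 ≤ s i) (c : ι → ℝ) :
    (gv s).map (fun z => ∑ i, c i * z i) = g1 (∑ i, s i * c i ^ 2) := by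
  classical
  have e : (fun z : ι → ℝ => ∑ i, c i * z i) = form c := funext fun z => (form_apply _ _).symm
  rw [e]
  refine Measure.ext_of_charFunDual (funext fun L => ?_)
  rw [charFunDual_map, cf_gv, cf_g1,
    max_eq_left (Finset.sum_nonneg fun i _ => mul_nonneg (hs i) (sq_nonneg _)), Finset.sum_mul,
    Finset.sum_div]
  congr 3
  refine Finset.sum_congr rfl fun i _ => ?_
  have : L (c i) = c i * L 1 := by rw [← smul_eq_mul, ← map_smul, smul_eq_mul, mul_one]
  rw [ContinuousLinearMap.comp_apply, form_single, this, max_eq_left (hs i)]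
  ring

/-- Selecting, relabelling and padding coordinates. -/
theorem gauss_sel {κ : Type} [Fintype κ] (e : κ → Option ι)
    (he : ∀ k l i, e k = some i → e l = some i → k = l) (s : ι → ℝ) :
    (gv s).map (fun z k => (e k).elim 0 z) = gv fun k => (e k).elim 0 s := by
  classical
  have h1 := gauss_lin (fun k i => if e k = some i then (1 : ℝ) else 0)
    (s := fun i => max (s i) 0) (s' := fun k => max ((e k).elim 0 s) 0)
    (fun i => le_max_right _ _) fun k l => by
      rcases hk : e k with _ | j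
      · simp
      · by_cases hkl : k = l
        · subst hkl
          simp [hk]
        · rw [if_neg hkl]
          refine Finset.sum_eq_zero fun i _ => ?_
          by_cases h2 : e l = some i
          · have : some j ≠ some i := fun h3 => hkl (he k l i (hk.trans h3) h2)
            simp only [if_neg this, zero_mul, mul_zero]
          · simp only [if_neg h2, mul_zero]
  rw [gv_max, gv_max] at h1
  rw [← h1]
  congr 1
  funext z k
  rcases e k with _ | j <;> simp

theorem gauss_opt (s : Option ι → ℝ) :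
    (gv s).map (fun z => ((fun i => z (some i)), z none))
      = (gv fun i => s (some i)).prod (g1 (s none)) := by
  have h := Measure.pi_map_piOptionEquivProd (β := fun _ : Option ι => ℝ) fun o => g1 (s o)
  rw [gv, ← h, gv]
  exact MeasurableEquiv.map_map_symm (MeasurableEquiv.piOptionEquivProd fun _ : Option ι => ℝ)

theorem gauss_sum {κ : Type} [Fintype κ] (s : ι ⊕ κ → ℝ) :
    (gv s).map (fun z => ((fun i => z (.inl i)), fun k => z (.inr k)))
      = (gv fun i => s (.inl i)).prod (gv fun k => s (.inr k)) :=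
  (measurePreserving_sumPiEquivProdPi (X := fun _ : ι ⊕ κ => ℝ) fun o => g1 (s o)).map_eq

/-- Cameron-Martin formula. -/
theorem cameron_martin {s v : ι → ℝ} {h : ℝ} (hh : 0 < h) (hv : ∀ i, v i ≠ 0 → s i = h)
    {F : (ι → ℝ) → ℝ} (hF : Measurable F) :
    ∫ z, F (z + v) ∂(gv s)
      = ∫ z, F z * Real.exp ((∑ i, v i * z i) / h - (∑ i, v i ^ 2) / (2 * h)) ∂(gv s) := by
  have hp : ∀ i, IsProbabilityMeasure ((g1 (s i)).map fun t => t + v i) := fun i =>
    Measure.isProbabilityMeasure_map (by fun_prop)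
  have h1 := Measure.pi_map_pi (μ := fun i => g1 (s i)) (f := fun i t => t + v i)
    fun i => by fun_prop
  have h2 := pi_density (fun i => g1 (s i)) (fun i => (g1 (s i)).map fun t => t + v i)
    (fun i t => ENNReal.ofReal (Real.exp (v i * t / h - v i ^ 2 / (2 * h))))
    (fun i => by fun_prop) fun i => by
      by_cases h0 : v i = 0
      · simp [h0]
      · rw [hv i h0, shift_one hh]
  have h3 : ∫ z, F z ∂((gv s).map fun z i => z i + v i) = ∫ z, F (z + v) ∂(gv s) :=
    integral_map (Measurable.aemeasurable (by fun_prop)) hF.aestronglyMeasurable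
  rw [← h3, gv, h1, h2, integral_withDensity_eq_integral_toReal_smul (by fun_prop)
    (ae_of_all _ fun z => ENNReal.prod_lt_top fun i _ => ENNReal.ofReal_lt_top)]
  refine integral_congr_ae (ae_of_all _ fun z => ?_)
  simp only [ENNReal.toReal_prod, ENNReal.toReal_ofReal (Real.exp_pos _).le, smul_eq_mul]
  rw [← Real.exp_sum, Finset.sum_sub_distrib, Finset.sum_div, Finset.sum_div, mul_comm]

theorem cameron_martin_one {h : ℝ} (hh : 0 < h) (x : ℝ) {F : ℝ → ℝ} (hF : Measurable F) :
    ∫ z, F (x + z) ∂(g1 h) = ∫ z, F z * Real.exp (x * z / h - x ^ 2 / (2 * h)) ∂(g1 h) := by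
  have h3 : ∫ z, F z ∂((g1 h).map fun z => z + x) = ∫ z, F (z + x) ∂(g1 h) :=
    integral_map (by fun_prop) hF.aestronglyMeasurable
  simp only [add_comm x]
  rw [← h3, shift_one hh, integral_withDensity_eq_integral_toReal_smul (by fun_prop)
    (ae_of_all _ fun z => ENNReal.ofReal_lt_top)]
  refine integral_congr_ae (ae_of_all _ fun z => ?_)
  simp only [ENNReal.toReal_ofReal (Real.exp_pos _).le, smul_eq_mul]
  rw [mul_comm]

/-- One coordinate is independent of the others. -/
theorem gv_coord_indep [DecidableEq ι] (s : ι → ℝ) (i : ι) {F : (ι → ℝ) → ℝ} (hF : Measurable F)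
    {g : ℝ → ℝ} (hg : Measurable g) :
    ∫ z, F (Function.update z i 0) * g (z i) ∂(gv s)
      = (∫ z, F (Function.update z i 0) ∂(gv s)) * ∫ t, g t ∂(g1 (s i)) := by
  have h0 : iIndepFun (fun j (z : ι → ℝ) => z j) (gv s) :=
    iIndepFun_pi (X := fun _ => id) fun _ => aemeasurable_id
  have h1 := h0.indepFun_finset (Finset.univ.erase i) {i} (by simp) measurable_pi_apply
  have m1 : Measurable fun (y : ↥(Finset.univ.erase i) → ℝ) (j : ι) =>
      if h : j ∈ Finset.univ.erase i then y ⟨j, h⟩ else 0 :=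
    measurable_pi_lambda _ fun j => by
      split_ifs
      · fun_prop
      · fun_prop
  have m2 : Measurable fun y : ({i} : Finset ι) → ℝ => y ⟨i, Finset.mem_singleton_self i⟩ :=
    measurable_pi_apply _
  have h2 := h1.comp (hF.comp m1) (hg.comp m2)
  have e : ∀ z : ι → ℝ, (fun j => if j ∈ Finset.univ.erase i then z j else 0) =
      Function.update z i 0 := fun z => funext fun j => by
    by_cases hj : j = i
    · simp [hj]
    · simp [hj]
  simp only [Function.comp_def, dite_eq_ite, e] at h2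
  have m3 : Measurable fun z : ι → ℝ => F (Function.update z i 0) :=
    hF.comp (measurable_update_left)
  rw [h2.integral_fun_mul_eq_mul_integral m3.aestronglyMeasurable
    (hg.comp (measurable_pi_apply i)).aestronglyMeasurable]
  congr 1
  exact integral_comp_eval hg.aestronglyMeasurable

end Vale.Agent.P157
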