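import Vale.Agent.P157.Deriv

/-! # Gibbs cascades -/

namespace Vale.Agent.P157

open MeasureTheory ProbabilityTheory

set_option linter.unusedSectionVars false

section general
variable {W : Type} [NormedAddCommGroup W] [MeasurableSpace W] [BorelSpace W]
  [SecondCountableTopology W] {Ω : Type} [MeasurableSpace Ω] {μ : Measure Ω}
  [IsProbabilityMeasure μ] {ζ : ℕ → ℝ} {ν : ℕ → Measure W} {H : W → Ω → ℝ}

theorem GibbsAux.iff (g : W → Ω → ℝ) : BM2 g ↔ BM (Function.uncurry g) :=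
  ⟨fun h => ⟨h.1, h.2.imp fun _ hC p => hC p.1 p.2⟩,
    fun h => ⟨h.1, h.2.imp fun _ hC w x => hC (w, x)⟩⟩

theorem BM2.const (c : ℝ) : BM2 fun (_ : W) (_ : Ω) => c :=
  ⟨measurable_const, |c|, fun _ _ => le_rfl⟩

theorem BM2.add {g g' : W → Ω → ℝ} (h : BM2 g) (h' : BM2 g') :
    BM2 fun w x => g w x + g' w x :=
  (GibbsAux.iff _).2 (((GibbsAux.iff _).1 h).add ((GibbsAux.iff _).1 h'))

theorem BM2.sub {g g' : W → Ω → ℝ} (h : BM2 g) (h' : BM2 g') :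
    BM2 fun w x => g w x - g' w x :=
  (GibbsAux.iff _).2 (((GibbsAux.iff _).1 h).sub ((GibbsAux.iff _).1 h'))

theorem BM2.mul {g g' : W → Ω → ℝ} (h : BM2 g) (h' : BM2 g') :
    BM2 fun w x => g w x * g' w x :=
  (GibbsAux.iff _).2 (((GibbsAux.iff _).1 h).mul ((GibbsAux.iff _).1 h'))

theorem BM2.const_mul {g : W → Ω → ℝ} (h : BM2 g) (c : ℝ) : BM2 fun w x => c * g w x :=
  (GibbsAux.iff _).2 (((GibbsAux.iff _).1 h).const_mul c)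

theorem BM2.pow {g : W → Ω → ℝ} (h : BM2 g) (k : ℕ) : BM2 fun w x => g w x ^ k :=
  (GibbsAux.iff _).2 (((GibbsAux.iff _).1 h).pow k)

theorem BM2.sum {β : Type} (s : Finset β) {g : β → W → Ω → ℝ} (h : ∀ j ∈ s, BM2 (g j)) :
    BM2 fun w x => ∑ j ∈ s, g j w x :=
  (GibbsAux.iff _).2 (BM.sum s fun j hj => (GibbsAux.iff _).1 (h j hj))

theorem BM2.bm {g : W → Ω → ℝ} (h : BM2 g) (w : W) : BM (g w) :=
  ⟨h.1.of_uncurry_left, h.2.imp fun _ hC => hC w⟩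

theorem HG.bm (h : HG H) (w : W) : BM (H w) := by
  obtain ⟨h1, C, h2⟩ := h
  exact ⟨h1.of_uncurry_left, _, h2 w⟩

theorem HG.eint (h : HG H) (w : W) : EInt μ (H w) :=
  (h.bm w).eint

theorem HG.lg_gtop (h : HG H) : LG (gtop μ H) := by
  refine ⟨measurable_lse 1 h.1, h.2.imp fun C hC w => ?_⟩
  have h1 := abs_lse_sub_le (ν := μ) zero_le_one (EInt.const 0) (h.eint w)
    (b := C * (1 + ‖w‖)) (Filter.Eventually.of_forall fun x => by rw [sub_zero]; exact hC w x)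
  rwa [lse_const, sub_zero] at h1

theorem gtop_eq (H : W → Ω → ℝ) (w : W) :
    gtop μ H w = Real.log (∫ x, Real.exp (H w x) ∂μ) := by
  simp [gtop, lse]

theorem HG.cas (h : HG H) (hζ : Zok ζ) (hν : ∀ d, Noise (ν d)) : Cas ζ ν (gtop μ H) :=
  ⟨hζ, hν, h.lg_gtop⟩

theorem HG.bm_gib (h : HG H) {g : W → Ω → ℝ} (hg : BM2 g) : BM (gib μ H g) := by
  refine ⟨measurable_gexp 1 h.1 hg.1, ?_⟩
  obtain ⟨C, hC⟩ := hg.2
  exact ⟨|C|, fun w => abs_gexp_le 1 _ (abs_nonneg C)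
    (Filter.Eventually.of_forall fun x => (hC w x).trans (le_abs_self C))⟩

theorem gib_congr_ae {g g' : W → Ω → ℝ} (h : ∀ w, g w =ᵐ[μ] g' w) : gib μ H g = gib μ H g' :=
  funext fun w => gexp_congr_ae (Filter.EventuallyEq.refl _ _) (h w)

theorem GE_congr_ae {g g' : W → Ω → ℝ} (h : ∀ w, g w =ᵐ[μ] g' w) (k : ℕ) :
    GE ζ ν μ H g k = GE ζ ν μ H g' k := by
  rw [GE, GE, gib_congr_ae h]

theorem EG_congr_ae {g g' : W → Ω → ℝ} (h : ∀ w, g w =ᵐ[μ] g' w) (n : ℕ) :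
    EG ζ ν μ H g n = EG ζ ν μ H g' n := by
  rw [EG, EG, GE_congr_ae h]

theorem Esq_congr_ae {g g' : W → Ω → ℝ} (h : ∀ w, g w =ᵐ[μ] g' w) (n k : ℕ) :
    Esq ζ ν μ H g n k = Esq ζ ν μ H g' n k := by
  rw [Esq, Esq, GE_congr_ae h]

theorem abs_GE_le {g : W → Ω → ℝ} {C : ℝ} (hC : 0 ≤ C) (h : ∀ w, ∀ᵐ x ∂μ, |g w x| ≤ C) (k : ℕ)
    (w : W) : |GE ζ ν μ H g k w| ≤ C :=
  abs_Ex_le 0 (fun w => abs_gexp_le 1 _ hC (h w)) k w

theorem GE_nonneg {g : W → Ω → ℝ} (h : ∀ w x, 0 ≤ g w x) (k : ℕ) (w : W) :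
    0 ≤ GE ζ ν μ H g k w :=
  Ex_nonneg 0 (fun w => gexp_nonneg 1 _ (h w)) k w

theorem GE_const_mul (c : ℝ) (g : W → Ω → ℝ) (k : ℕ) (w : W) :
    GE ζ ν μ H (fun w x => c * g w x) k w = c * GE ζ ν μ H g k w := by
  have e : gib μ H (fun w x => c * g w x) = fun w => c * gib μ H g w :=
    funext fun w => gexp_const_mul 1 _ _ c
  rw [GE, e, Ex_const_mul, GE]

theorem Esq_nonneg (g : W → Ω → ℝ) (n k : ℕ) : 0 ≤ Esq ζ ν μ H g n k :=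
  Ex_nonneg k (fun _ => sq_nonneg _) _ _

theorem rho_nonneg {β : Type} [Fintype β] (ξ : β → W → Ω → ℝ) (n k : ℕ) :
    0 ≤ rho ζ ν μ H ξ n k :=
  Finset.sum_nonneg fun j _ => Esq_nonneg (ξ j) n k

theorem Esq_le_sq {g : W → Ω → ℝ} {C : ℝ} (hC : 0 ≤ C) (h : ∀ w, ∀ᵐ x ∂μ, |g w x| ≤ C)
    (n k : ℕ) : Esq ζ ν μ H g n k ≤ C ^ 2 := by
  refine (le_abs_self _).trans (abs_Ex_le k (fun w => ?_) _ _)
  rw [abs_pow]
  exact pow_le_pow_left₀ (abs_nonneg _) (abs_GE_le hC h k w) 2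

namespace GibbsAux

variable {Ψ : W → ℝ}

theorem bm_aa (h : Cas ζ ν Ψ) {m a : W → ℝ} (hm : BM m) (ha : BM a) (d : ℕ) :
    BM (aa ζ ν Ψ m a d) := by
  induction d with
  | zero => exact ha
  | succ d ih =>
    exact (BM.kernel (ζ d) (h.noise d) (h.lgX d)
      (ih.add (((h.bmEx 0 hm d).pow 2).const_mul _))).sub
      (((h.bmEx 0 hm (d + 1)).pow 2).const_mul _)

theorem bm_bb (h : Cas ζ ν Ψ) {m a : W → ℝ} (hm : BM m) (ha : BM a) (d : ℕ) :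
    BM (bb ζ ν Ψ m a d) :=
  (bm_aa h hm ha d).add (((h.bmEx 0 hm d).pow 2).const_mul _)

theorem bb_succ (m a : W → ℝ) (d : ℕ) (w : W) :
    bb ζ ν Ψ m a (d + 1) w = Ex ζ ν Ψ d (bb ζ ν Ψ m a d) (d + 1) w
      - (ζ d - ζ (d + 1)) * Ex ζ ν Ψ 0 m (d + 1) w ^ 2 := by
  rw [Ex_succ le_rfl, Ex_of_le le_rfl]
  show P (ζ d) (ν d) (X ζ ν Ψ d) (bb ζ ν Ψ m a d) w - ζ d * Ex ζ ν Ψ 0 m (d + 1) w ^ 2 +
    ζ (d + 1) * Ex ζ ν Ψ 0 m (d + 1) w ^ 2 = _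
  ring

theorem bb_formula (h : Cas ζ ν Ψ) {m a : W → ℝ} (hm : BM m) (ha : BM a) {d n : ℕ}
    (hd : d ≤ n) (w : W) :
    Ex ζ ν Ψ d (bb ζ ν Ψ m a d) n w
      = Ex ζ ν Ψ 0 (fun u => a u + ζ 0 * m u ^ 2) n w
        - ∑ k ∈ Finset.range d, (ζ k - ζ (k + 1)) *
            Ex ζ ν Ψ (k + 1) (fun u => Ex ζ ν Ψ 0 m (k + 1) u ^ 2) n w := by
  induction d with
  | zero => rw [Finset.sum_range_zero, sub_zero]; rfl
  | succ d ih =>
    rw [funext (bb_succ m a d), h.Ex_sub _ (h.bmEx d (bm_bb h hm ha d) _)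
      (((h.bmEx 0 hm _).pow 2).const_mul _), Ex_tower (Nat.le_succ d) hd, Ex_const_mul,
      ih (Nat.le_of_succ_le hd), Finset.sum_range_succ]
    ring

end GibbsAux

variable (hH : HG H) (hζ : Zok ζ) (hν : ∀ d, Noise (ν d))
include hH hζ hν

theorem bm_GE {g : W → Ω → ℝ} (hg : BM2 g) (k : ℕ) : BM (GE ζ ν μ H g k) :=
  (hH.cas hζ hν).bmEx 0 (hH.bm_gib hg) k

theorem GE_const (c : ℝ) (k : ℕ) (w : W) : GE ζ ν μ H (fun _ _ => c) k w = c := by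
  have e : gib μ H (fun _ _ => c) = fun _ => c := funext fun w => gexp_const 1 (hH.eint w) c
  rw [GE, e, (hH.cas hζ hν).Ex_const]

theorem GE_add {g g' : W → Ω → ℝ} (hg : BM2 g) (hg' : BM2 g') (k : ℕ) (w : W) :
    GE ζ ν μ H (fun w x => g w x + g' w x) k w = GE ζ ν μ H g k w + GE ζ ν μ H g' k w := by
  have e : gib μ H (fun w x => g w x + g' w x) = fun w => gib μ H g w + gib μ H g' w :=
    funext fun w => gexp_add 1 (hH.eint w) (hg.bm w).eint (hg'.bm w).eint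
  rw [GE, e, (hH.cas hζ hν).Ex_add 0 (hH.bm_gib hg) (hH.bm_gib hg'), GE, GE]

theorem GE_sub {g g' : W → Ω → ℝ} (hg : BM2 g) (hg' : BM2 g') (k : ℕ) (w : W) :
    GE ζ ν μ H (fun w x => g w x - g' w x) k w = GE ζ ν μ H g k w - GE ζ ν μ H g' k w := by
  have e : gib μ H (fun w x => g w x - g' w x) = fun w => gib μ H g w - gib μ H g' w :=
    funext fun w => gexp_sub 1 (hH.eint w) (hg.bm w).eint (hg'.bm w).eint
  rw [GE, e, (hH.cas hζ hν).Ex_sub 0 (hH.bm_gib hg) (hH.bm_gib hg'), GE, GE]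

theorem GE_sum {β : Type} (s : Finset β) {g : β → W → Ω → ℝ} (hg : ∀ j ∈ s, BM2 (g j)) (k : ℕ)
    (w : W) : GE ζ ν μ H (fun w x => ∑ j ∈ s, g j w x) k w = ∑ j ∈ s, GE ζ ν μ H (g j) k w := by
  have e : gib μ H (fun w x => ∑ j ∈ s, g j w x) = fun w => ∑ j ∈ s, gib μ H (g j) w :=
    funext fun w => gexp_sum 1 (hH.eint w) s fun j hj => ((hg j hj).bm w).eint
  rw [GE, e, (hH.cas hζ hν).Ex_sum 0 s fun j hj => hH.bm_gib (hg j hj)]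
  rfl

theorem GE_mono {g g' : W → Ω → ℝ} (hg : BM2 g) (hg' : BM2 g') (h : ∀ w x, g w x ≤ g' w x)
    (k : ℕ) (w : W) : GE ζ ν μ H g k w ≤ GE ζ ν μ H g' k w :=
  (hH.cas hζ hν).Ex_mono 0 (hH.bm_gib hg) (hH.bm_gib hg')
    (fun w => gexp_mono 1 (hH.eint w) (hg.bm w).eint (hg'.bm w).eint (h w)) k w

theorem sq_GE_le {g : W → Ω → ℝ} (hg : BM2 g) (k : ℕ) (w : W) :
    GE ζ ν μ H g k w ^ 2 ≤ GE ζ ν μ H (fun w x => g w x ^ 2) k w :=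
  ((hH.cas hζ hν).sq_Ex_le 0 (hH.bm_gib hg) k w).trans
    ((hH.cas hζ hν).Ex_mono 0 ((hH.bm_gib hg).pow 2) (hH.bm_gib (hg.pow 2))
      (fun w => sq_gexp_le 1 (hH.eint w) (hg.bm w).eint) k w)

/-- Cauchy-Schwarz for the conditional covariance. -/
theorem GE_cov_sq_le {g g' : W → Ω → ℝ} (hg : BM2 g) (hg' : BM2 g') (k : ℕ) (w : W) :
    (GE ζ ν μ H (fun w x => g w x * g' w x) k w - GE ζ ν μ H g k w * GE ζ ν μ H g' k w) ^ 2
      ≤ (GE ζ ν μ H (fun w x => g w x ^ 2) k w - GE ζ ν μ H g k w ^ 2)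
        * (GE ζ ν μ H (fun w x => g' w x ^ 2) k w - GE ζ ν μ H g' k w ^ 2) := by
  have key : ∀ t : ℝ, 0 ≤ (GE ζ ν μ H (fun w x => g' w x ^ 2) k w - GE ζ ν μ H g' k w ^ 2) * (t * t)
      + 2 * (GE ζ ν μ H (fun w x => g w x * g' w x) k w - GE ζ ν μ H g k w * GE ζ ν μ H g' k w) * t
      + (GE ζ ν μ H (fun w x => g w x ^ 2) k w - GE ζ ν μ H g k w ^ 2) := by
    intro t
    have h1 := sq_GE_le (μ := μ) hH hζ hν (hg.add (hg'.const_mul t)) k w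
    have e : (fun w x => (g w x + t * g' w x) ^ 2) =
        fun w x => (g w x ^ 2 + 2 * t * (g w x * g' w x)) + t ^ 2 * g' w x ^ 2 := by
      funext w x; ring
    rw [e, GE_add hH hζ hν hg (hg'.const_mul t),
      GE_add hH hζ hν ((hg.pow 2).add ((hg.mul hg').const_mul _)) ((hg'.pow 2).const_mul _),
      GE_add hH hζ hν (hg.pow 2) ((hg.mul hg').const_mul _), GE_const_mul, GE_const_mul,
      GE_const_mul] at h1
    linarith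
  have h2 := discrim_le_zero key
  rw [discrim] at h2
  linarith

theorem Esq_anti {g : W → Ω → ℝ} (hg : BM2 g) {n k l : ℕ} (hkl : k ≤ l) (hl : l ≤ n + 1) :
    Esq ζ ν μ H g n l ≤ Esq ζ ν μ H g n k := by
  have hc := hH.cas (μ := μ) hζ hν
  have hb := bm_GE (μ := μ) hH hζ hν hg k
  rw [Esq, Esq, ← Ex_tower hkl hl]
  refine hc.Ex_mono l ((bm_GE hH hζ hν hg l).pow 2) (hc.bmEx k (hb.pow 2) l) (fun w => ?_) _ _
  refine le_trans (le_of_eq ?_) (hc.sq_Ex_le k hb l w)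
  rw [GE, GE, Ex_tower (Nat.zero_le k) hkl]

theorem Esq_le_EG {g : W → Ω → ℝ} (hg : BM2 g) {n k : ℕ} (hk : k ≤ n + 1) :
    Esq ζ ν μ H g n k ≤ EG ζ ν μ H (fun w x => g w x ^ 2) n := by
  have e : EG ζ ν μ H (fun w x => g w x ^ 2) n =
      Ex ζ ν (gtop μ H) k (GE ζ ν μ H (fun w x => g w x ^ 2) k) (n + 1) 0 :=
    (congrFun (Ex_tower (Nat.zero_le k) hk _) 0).symm
  rw [Esq, e]
  exact (hH.cas hζ hν).Ex_mono k ((bm_GE hH hζ hν hg k).pow 2) (bm_GE hH hζ hν (hg.pow 2) k)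
    (sq_GE_le hH hζ hν hg k) _ _

theorem sum_sq_GE_le {β : Type} [Fintype β] {ξ : β → W → Ω → ℝ} (hξ : ∀ j, BM2 (ξ j)) {Λ : ℝ}
    (h : ∀ w x, ∑ j, ξ j w x ^ 2 ≤ Λ) (k : ℕ) (w : W) : ∑ j, GE ζ ν μ H (ξ j) k w ^ 2 ≤ Λ := by
  refine (Finset.sum_le_sum fun j _ => sq_GE_le hH hζ hν (hξ j) k w).trans ?_
  rw [← GE_sum hH hζ hν _ fun j _ => (hξ j).pow 2]
  exact (GE_mono hH hζ hν (BM2.sum _ fun j _ => (hξ j).pow 2) (BM2.const Λ) h k w).trans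
    (GE_const hH hζ hν Λ k w).le

theorem rho_le {β : Type} [Fintype β] {ξ : β → W → Ω → ℝ} (hξ : ∀ j, BM2 (ξ j)) {Λ : ℝ}
    (h : ∀ w x, ∑ j, ξ j w x ^ 2 ≤ Λ) (n k : ℕ) : rho ζ ν μ H ξ n k ≤ Λ := by
  have hc := hH.cas (μ := μ) hζ hν
  have hb := fun j => (bm_GE (μ := μ) hH hζ hν (hξ j) k).pow 2
  simp only [rho, Esq]
  rw [← hc.Ex_sum k _ fun j _ => hb j]
  exact (hc.Ex_mono k (BM.sum _ fun j _ => hb j) (BM.const Λ) (sum_sq_GE_le hH hζ hν hξ h k)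
    _ _).trans (hc.Ex_const k Λ _ _).le

theorem rho_anti {β : Type} [Fintype β] {ξ : β → W → Ω → ℝ} (hξ : ∀ j, BM2 (ξ j)) {n k l : ℕ}
    (hkl : k ≤ l) (hl : l ≤ n + 1) : rho ζ ν μ H ξ n l ≤ rho ζ ν μ H ξ n k :=
  Finset.sum_le_sum fun j _ => Esq_anti hH hζ hν (hξ j) hkl hl

theorem bm_Bp {m a : W → Ω → ℝ} (hm : BM2 m) (ha : BM2 a) (d : ℕ) : BM (Bp ζ ν μ H m a d) :=
  (hH.cas hζ hν).bmEx d (GibbsAux.bm_bb (hH.cas hζ hν) (hH.bm_gib hm)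
    ((hH.bm_gib (ha.add (hm.pow 2))).sub ((hH.bm_gib hm).pow 2)) d) _

theorem Bp_zero (h1 : ζ 0 = 1) {m a : W → Ω → ℝ} (hm : BM2 m) (ha : BM2 a) (w : W) :
    Bp ζ ν μ H m a 0 w = GE ζ ν μ H (fun w x => a w x + m w x ^ 2) 1 w := by
  rw [Bp, GE]
  congr 1
  funext u
  simp [bb, aa, Ex, h1]

theorem Bp_succ {m a : W → Ω → ℝ} (hm : BM2 m) (ha : BM2 a) (d : ℕ) (w : W) :
    Bp ζ ν μ H m a (d + 1) w = Ex ζ ν (gtop μ H) (d + 1) (Bp ζ ν μ H m a d) (d + 2) w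
      - (ζ d - ζ (d + 1)) *
        Ex ζ ν (gtop μ H) (d + 1) (fun u => GE ζ ν μ H m (d + 1) u ^ 2) (d + 2) w := by
  rw [Bp, funext (GibbsAux.bb_succ _ _ d), ← Ex_const_mul]
  exact (hH.cas hζ hν).Ex_sub _ (bm_Bp hH hζ hν hm ha d)
    (((bm_GE hH hζ hν hm _).pow 2).const_mul _) _ _

theorem Ex_Bp (h1 : ζ 0 = 1) {m a : W → Ω → ℝ} (hm : BM2 m) (ha : BM2 a) {d n : ℕ}
    (hd : d ≤ n) :
    Ex ζ ν (gtop μ H) (d + 1) (Bp ζ ν μ H m a d) (n + 1) 0 = Db ζ ν μ H m a n d := by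
  rw [Bp, Ex_tower (Nat.le_succ d) (Nat.succ_le_succ hd),
    GibbsAux.bb_formula (hH.cas hζ hν) (hH.bm_gib hm)
    ((hH.bm_gib (ha.add (hm.pow 2))).sub ((hH.bm_gib hm).pow 2)) (Nat.le_succ_of_le hd), h1]
  simp only [one_mul, sub_add_cancel]
  rfl

/-- Lower bound on `a + ζ m ^ 2` by the conditional second moment. -/
theorem Bp_ge (h1 : ζ 0 = 1) {m a : W → Ω → ℝ} (hm : BM2 m) (ha : BM2 a) {K : ℝ}
    (hK : ∀ w x, -K ≤ a w x) (d : ℕ) (w : W) :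
    ζ d * GE ζ ν μ H (fun w x => m w x ^ 2) (d + 1) w - K ≤ Bp ζ ν μ H m a d w := by
  have hc := hH.cas (μ := μ) hζ hν
  induction d generalizing w with
  | zero =>
    rw [Bp_zero hH hζ hν h1 hm ha, h1, one_mul, GE_add hH hζ hν ha (hm.pow 2)]
    have h2 := GE_mono (μ := μ) hH hζ hν (BM2.const (-K)) ha hK 1 w
    rw [GE_const hH hζ hν] at h2
    linarith
  | succ d ih =>
    have hU := bm_GE (μ := μ) hH hζ hν (hm.pow 2) (d + 1)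
    have h2 := hc.Ex_mono (d + 1) ((hU.const_mul (ζ d)).sub (BM.const K))
      (bm_Bp hH hζ hν hm ha d) ih (d + 2) w
    have h3 := hc.Ex_mono (d + 1) ((bm_GE hH hζ hν hm (d + 1)).pow 2) hU
      (sq_GE_le hH hζ hν hm (d + 1)) (d + 2) w
    have h4 : Ex ζ ν (gtop μ H) (d + 1) (GE ζ ν μ H (fun w x => m w x ^ 2) (d + 1)) (d + 2) =
        GE ζ ν μ H (fun w x => m w x ^ 2) (d + 1 + 1) :=
      Ex_tower (Nat.zero_le _) (Nat.le_succ _) _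
    rw [hc.Ex_sub _ (hU.const_mul _) (BM.const K), Ex_const_mul, hc.Ex_const, h4] at h2
    rw [h4] at h3
    have h5 := mul_le_mul_of_nonneg_left h3 (sub_nonneg.2 (hζ.anti (Nat.le_succ d)))
    rw [Bp_succ hH hζ hν hm ha]
    linarith

end general

section jets
variable {W : Type} [NormedAddCommGroup W] [NormedSpace ℝ W] [MeasurableSpace W] [BorelSpace W]
  [SecondCountableTopology W] {Ω : Type} [MeasurableSpace Ω] {μ : Measure Ω}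
  [IsProbabilityMeasure μ] {ζ : ℕ → ℝ} {ν : ℕ → Measure W} {H : W → Ω → ℝ}

theorem FJet.bm2_m {v : W} {m a : W → Ω → ℝ} {K : ℝ} (h : FJet H v m a K) : BM2 m :=
  ⟨h.mm, K, h.bm⟩

theorem FJet.bm2_a {v : W} {m a : W → Ω → ℝ} {K : ℝ} (h : FJet H v m a K) : BM2 a :=
  ⟨h.ma, K, h.ba⟩

theorem jet_gtop (hH : HG H) {v : W} {m a : W → Ω → ℝ} {K : ℝ} (h : FJet H v m a K) :
    DJet (gtop μ H) v (gib μ H m)
      (fun w => gib μ H (fun w x => a w x + m w x ^ 2) w - gib μ H m w ^ 2) (jc K) := by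
  have h2 := jet_lse μ zero_le_one le_rfl hH.1 hH.eint h
  simp only [one_mul] at h2
  exact h2

/-- Jet of the cascade at depth `d + 1`, written with `Bp`. -/
theorem jet_gibbs (hH : HG H) (hζ : Zok ζ) (hν : ∀ d, Noise (ν d)) {v : W} {m a : W → Ω → ℝ}
    {K : ℝ} (h : FJet H v m a K) (d : ℕ) :
    DJet (X ζ ν (gtop μ H) (d + 1)) v (GE ζ ν μ H m (d + 1))
      (fun w => Bp ζ ν μ H m a d w - ζ d * GE ζ ν μ H m (d + 1) w ^ 2) (jc^[d + 2] K) := by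
  have h2 := (hH.cas (μ := μ) hζ hν).jetX (jet_gtop hH h) (d + 1)
  have e : (fun w => Bp ζ ν μ H m a d w - ζ d * GE ζ ν μ H m (d + 1) w ^ 2) =
      aa ζ ν (gtop μ H) (gib μ H m)
        (fun w => gib μ H (fun w x => a w x + m w x ^ 2) w - gib μ H m w ^ 2) (d + 1) := by
    funext w
    rw [Bp, bb_pre, GE, add_sub_cancel_right]
  rw [e, Function.iterate_succ_apply]
  exact h2

end jets

/-- Interpolation formula for Gibbs cascades. -/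
theorem deriv_gibbs {ι : Type} [Fintype ι] [DecidableEq ι] {Ω : Type} [MeasurableSpace Ω]
    (μ : Measure Ω) [IsProbabilityMeasure μ] {ζ : ℕ → ℝ} (hζ : Zok ζ) (h1 : ζ 0 = 1)
    {H : (ι → ℝ) → Ω → ℝ} {h1' h2' : ι → (ι → ℝ) → Ω → ℝ} (hJ : HJ H h1' h2')
    (s u : ℕ → ι → ℝ) (hs : ∀ d i, 0 ≤ s d i) (hsu : ∀ d i, 0 ≤ s d i + u d i) (n : ℕ) :
    ∀ t ∈ Set.Icc (0 : ℝ) 1,
      HasDerivWithinAt (fun t : ℝ => X ζ (gvs (s + t • u)) (gtop μ H) (n + 1) 0)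
      ((∑ d ∈ Finset.range (n + 1), ∑ i, u d i *
        Db ζ (gvs (s + t • u)) μ H (h1' i) (h2' i) n d) / 2) (Set.Icc 0 1) t := by
  intro t ht
  obtain ⟨K, hK⟩ := hJ.jet
  have h2 := deriv_X hζ (hJ.hg.lg_gtop (μ := μ)) (fun i => jet_gtop hJ.hg (hK i)) s u hs hsu
    (n + 1) 0 t ht
  refine h2.congr_deriv ?_
  congr 1
  refine Finset.sum_congr rfl fun d hd => Finset.sum_congr rfl fun i _ => ?_
  have hd' := Nat.le_of_lt_succ (Finset.mem_range.1 hd)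
  rw [← Ex_Bp (ν := gvs (s + t • u)) hJ.hg hζ (fun _ => noise_gv _) h1 (hK i).bm2_m (hK i).bm2_a hd', Bp,
    Ex_tower (Nat.le_succ d) (Nat.succ_le_succ hd')]

end Vale.Agent.P157
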