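import Vale.Agent.P157.Crude
import Vale.Agent.P157.DecL

/-! # Decoupling in the asymptotic regime -/

namespace Vale.Agent.P157

open MeasureTheory ProbabilityTheory Filter Topology

namespace GoodAux

theorem ev_sqrt (c : ℝ) {η : ℝ} (hη : 0 < η) : ∀ᶠ N : ℕ in atTop, c * √(N : ℝ) ≤ η * N := by
  have h : Tendsto (fun N : ℕ => √(N : ℝ)) atTop atTop :=
    Real.tendsto_sqrt_atTop.comp tendsto_natCast_atTop_atTop
  filter_upwards [h.eventually_ge_atTop (c / η)] with N hN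
  have h1 : c ≤ η * √(N : ℝ) := by rwa [div_le_iff₀' hη] at hN
  have h2 := Real.mul_self_sqrt (Nat.cast_nonneg (α := ℝ) N)
  calc c * √(N : ℝ) ≤ η * √(N : ℝ) * √(N : ℝ) :=
        mul_le_mul_of_nonneg_right h1 (Real.sqrt_nonneg _)
    _ = η * N := by rw [mul_assoc, h2]

theorem ev_small {c : ℝ} (hc : 0 < c) : ∀ᶠ y in 𝓝[>] (0 : ℝ), 0 < y ∧ y < c :=
  Ioo_mem_nhdsGT hc

theorem exists_delta {n : ℕ} {ζ : ℕ → ℝ} (h : ZAdm n ζ) :
    ∃ Δ, 0 < Δ ∧ ∀ k, k < n → Δ ≤ ζ k - ζ (k + 1) := by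
  obtain ⟨k, hk, hmin⟩ := Finset.exists_min_image (Finset.range n) (fun k => ζ k - ζ (k + 1))
    ⟨0, Finset.mem_range.2 h.one_le⟩
  exact ⟨_, sub_pos.2 (h.zlt k (Finset.mem_range.1 hk)), fun j hj => hmin j (Finset.mem_range.2 hj)⟩

theorem dec_mono {W : Type} [NormedAddCommGroup W] [MeasurableSpace W] {Ω : Type}
    [MeasurableSpace Ω] {β : Type} [Fintype β] {ζ : ℕ → ℝ} {ν : ℕ → Measure W} {μ : Measure Ω}
    {H : W → Ω → ℝ} {ξ : β → W → Ω → ℝ} {n : ℕ} {a b : ℝ} (h : Dec ζ ν μ H ξ n a) (hab : a ≤ b) :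
    Dec ζ ν μ H ξ n b := fun φ L hφ hL =>
  (h φ L hφ hL).trans (mul_le_mul_of_nonneg_left hab (sq_nonneg L))

theorem core {n : ℕ} {ζ : ℕ → ℝ} {me K A0 Θ θm : ℝ} (hR : Reg n ζ me K A0 Θ θm) {η : ℝ}
    (hη : 0 < η) {K' B : ℝ} (b C : ℝ) (hK' : 0 ≤ K') (hB : 0 ≤ B) :
    ∀ᶠ k in 𝓝[>] (0 : ℝ), ∀ᶠ y in 𝓝[>] (0 : ℝ), ∀ᶠ N : ℕ in atTop, 1 ≤ N ∧
      ∀ (ι β Ω : Type) [Fintype ι] [DecidableEq ι] [Fintype β] [MeasurableSpace Ω]
        (μ : Measure Ω) [IsProbabilityMeasure μ] (H : (ι → ℝ) → Ω → ℝ)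
        (h1 h2 : ι → (ι → ℝ) → Ω → ℝ) (e : β ↪ ι) (Λ : ℝ) (s : (ℕ → ℝ) → ℕ → ι → ℝ)
        (θ τ : ℕ → ℝ), HJ H h1 h2 → Blk H h1 e K' b Λ → Fam e s →
        (Fintype.card β : ℝ) ≤ B * N → Λ ≤ B * N →
        (∀ w x, ∑ i, s θ n i * h1 i w x ^ 2 ≤ C * N) → Fld n θm Θ θ →
        SD (fun θ' => X ζ (gvs (s θ')) (gtop μ H) (n + 1) 0) θ τ y (k * y * N) n →
        Dec ζ (gvs (s θ)) μ H (fun j => h1 (e j)) n (6 * me * Λ + η * N) ∧
        ∀ d, 1 ≤ d → d ≤ n →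
          |EG ζ (gvs (s θ)) μ H (fun w x => ∑ j, (h2 (e j) w x + h1 (e j) w x ^ 2)) n
            - QQ ζ (rho ζ (gvs (s θ)) μ H (fun j => h1 (e j)) n) d - τ d / θ d| ≤ η * N := by
  obtain ⟨Δ, hΔ0, hΔ⟩ := exists_delta hR.z
  have hn := hR.z.one_le
  have hθm := hR.θm0
  have hme := hR.me0
  have hΔ1 : Δ ≤ 1 := (hΔ 0 hn).trans ((hR.mesh 0 hn).trans (pow_le_one₀ hme.le hR.me1))
  have hΔz : Δ ≤ ζ (n - 1) := by
    have := hΔ (n - 1) (by omega)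
    rw [show n - 1 + 1 = n by omega, hR.z.zn n le_rfl, sub_zero] at this
    exact this
  obtain ⟨ε, hε⟩ : ∃ ε, ε = η * θm * Δ / 24 := ⟨_, rfl⟩
  have hε0 : 0 < ε := by rw [hε]; positivity
  obtain ⟨c, hc⟩ : ∃ c, c = K' / 2 * (Real.exp (2 * b) * B) := ⟨_, rfl⟩
  have hc0 : 0 ≤ c := by rw [hc]; positivity
  filter_upwards [ev_small hε0] with k hk
  filter_upwards [ev_small hθm, ev_small (show 0 < ε / (c + 1) by positivity)] with y hy hy'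
  have hy0 := hy.1
  filter_upwards [eventually_ge_atTop 1, ev_sqrt (Real.log 2 / Δ + 2 * Δ * C) (mul_pos hε0 hy0),
    ev_sqrt ((√B / θm + K') / Δ / me) (half_pos hη)] with N hN h3 h4
  refine ⟨hN, ?_⟩
  intro ι β Ω _ _ _ _ μ _ H h1 h2 e Λ s θ τ hJ hBl hs hβ hΛ hroot hF hSD
  have hN1 : (1 : ℝ) ≤ N := by exact_mod_cast hN
  have hr1 : 1 ≤ √(N : ℝ) := Real.one_le_sqrt.2 hN1
  have hr0 : 0 < √(N : ℝ) := by linarith
  have hrr := Real.mul_self_sqrt (Nat.cast_nonneg (α := ℝ) N)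
  have hconc : ∀ d, 1 ≤ d → d ≤ n → Ex ζ (gvs (s θ)) (gtop μ H) (d + 1)
      (fun w => |θ d * ∑ j, Bp ζ (gvs (s θ)) μ H (h1 (e j)) (h2 (e j)) d w - τ d|) (n + 1) 0
        ≤ 3 * ε * N := by
    intro d hd hdn
    refine (conc μ hR.z hJ hBl hs θ τ hy0 (fun d h h' => hy.2.trans_le (hF d h h').1) hSD hroot
      (ζs := Δ / √(N : ℝ)) (by positivity) ((div_le_self hΔ0.le hr1).trans hΔz) hd hdn).trans ?_
    rw [div_le_iff₀ hy0]
    have a1 : k * y * N ≤ ε * y * N := by gcongr; exact hk.2.le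
    have a2 : K' / 2 * y ^ 2 * (Real.exp (2 * b) * Fintype.card β) ≤ ε * y * N := by
      have b1 : y * (c + 1) ≤ ε := ((lt_div_iff₀ (by positivity)).1 hy'.2).le
      calc _ ≤ K' / 2 * y ^ 2 * (Real.exp (2 * b) * (B * N)) := by gcongr
        _ = (y * c) * y * N := by rw [hc]; ring
        _ ≤ ε * y * N := by gcongr; linarith
    have a3 : Real.log 2 / (Δ / √(N : ℝ)) + 2 * (Δ / √(N : ℝ)) * (C * N) =
        (Real.log 2 / Δ + 2 * Δ * C) * √(N : ℝ) := by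
      have : (N : ℝ) / √(N : ℝ) = √(N : ℝ) := Real.div_sqrt
      calc _ = Real.log 2 / Δ * √(N : ℝ) + 2 * Δ * C * ((N : ℝ) / √(N : ℝ)) := by
            field_simp
        _ = _ := by rw [this]; ring
    linarith
  refine ⟨dec_mono (dec_of_conc μ hR.z hJ hBl (s θ) θ τ (fun d j hd => hs.blockv θ d j hd) hθm
    (fun d h h' => (hF d h h').1) hme hR.me1 hR.mesh hΔ0 hΔ hconc) ?_, fun d hd hdn =>
    (mean_of_conc μ hR.z hJ (s θ) θ τ hθm hdn (hF d hd hdn).1 (hconc d hd hdn)).trans ?_⟩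
  · have a1 : 4 * (3 * ε * N) / (θm * Δ) = η / 2 * N := by
      rw [hε]; field_simp; ring
    have a2 : √Λ ≤ √B * √(N : ℝ) := by
      rw [← Real.sqrt_mul hB]; exact Real.sqrt_le_sqrt hΛ
    have a3 : (√Λ / θm + K') / Δ / me ≤ (√B / θm + K') / Δ / me * √(N : ℝ) := by
      calc _ ≤ (√B * √(N : ℝ) / θm + K' * √(N : ℝ)) / Δ / me := by
            gcongr
            exact le_mul_of_one_le_right hK' hr1
        _ = _ := by ring
    linarith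
  · have a1 : 3 * ε * N / θm = η * N * (Δ / 8) := by
      rw [hε]; field_simp; ring
    rw [a1]
    exact mul_le_of_le_one_right (by positivity) (by linarith)

theorem root {A S : Type} [Fintype A] [Fintype S] [DecidableEq A] [DecidableEq S]
    {f f1 f2 : A → ℝ → ℝ} {K A0 Θ : ℝ} {N : ℕ} (hN : 1 ≤ N) (hΘ : 0 ≤ Θ)
    (hS : (Fintype.card S : ℝ) ≤ 2 * N) (hA : (Fintype.card A : ℝ) ≤ A0 * N)
    (hf : ∀ a, Sm (f a) (f1 a) (f2 a) K) (n : ℕ) {g : A → S → ℝ}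
    {x : ℕ → S → ℝ} {y : ℕ → A → ℝ} (hg : ∀ a i, 0 ≤ g a i ∧ g a i ≤ 2 / N)
    (hx : ∀ i, 0 ≤ x n i ∧ x n i ≤ Θ) (hy : ∀ a, 0 ≤ y n a ∧ y n a ≤ Θ) (w : Co A S → ℝ)
    (z : Sph S) :
    ∑ c, prof n g x y n c * u1 f1 c w z ^ 2 ≤ (A0 * K ^ 2 * (4 + Θ) + 2 * Θ) * N := by
  have hN0 : (0 : ℝ) < N := by exact_mod_cast hN
  refine (root_bound hf n (by positivity) hΘ hg hx hy w z).trans ?_
  have h1 : 2 / (N : ℝ) * Fintype.card S ≤ 4 := by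
    rw [div_mul_eq_mul_div, div_le_iff₀ hN0]; linarith
  have h2 : 0 ≤ A0 * N := (Nat.cast_nonneg _).trans hA
  calc _ ≤ A0 * N * K ^ 2 * (4 + Θ) + Θ * (2 * N) := by gcongr
    _ = _ := by ring

theorem sq0_of {θ : ℕ → ℝ} {n : ℕ} (hn : 1 ≤ n) : sq0 θ n = θ n ^ 2 := if_neg (by omega)

theorem QQ_div {ζ r q : ℕ → ℝ} {n d : ℕ} {N : ℝ} (hN : N ≠ 0) (hd : d ≤ n)
    (h : ∀ k, 1 ≤ k → k ≤ n → q k = r k / N) : N * QQ ζ q d = QQ ζ r d := by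
  rw [QQ, QQ, Finset.mul_sum]
  refine Finset.sum_congr rfl fun k hk => ?_
  rw [h (k + 1) (by omega) (by have := Finset.mem_range.1 hk; omega)]
  field_simp

end GoodAux

open GoodAux

theorem goodX {n : ℕ} {ζ : ℕ → ℝ} {me K A0 Θ θm : ℝ} (hR : Reg n ζ me K A0 Θ θm) {δ : ℝ}
    (hδ : 0 < δ) :
    ∀ᶠ k in 𝓝[>] (0 : ℝ), ∀ᶠ y in 𝓝[>] (0 : ℝ), ∀ᶠ N : ℕ in atTop,
      ∀ (A S β : Type) [Fintype A] [Fintype S] [Fintype β] [DecidableEq A] [DecidableEq S]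
        (e : β ↪ S) (μ : Measure (Sph S)) [IsProbabilityMeasure μ] (f f1 f2 : A → ℝ → ℝ)
        (g : A → S → ℝ) (xs : (ℕ → ℝ) → ℕ → S → ℝ) (y0 : ℕ → A → ℝ) (θ τ : ℕ → ℝ),
        (Fintype.card S : ℝ) ≤ 2 * N → (Fintype.card A : ℝ) ≤ A0 * N →
        (∀ a, Sm (f a) (f1 a) (f2 a) K) → (∀ a i, 0 ≤ g a i ∧ g a i ≤ 2 / N) → Fam e xs →
        (∀ i, xs θ n i ≤ Θ) → (∀ d a, 0 ≤ y0 d a) → (∀ a, y0 n a ≤ Θ) → Fld n θm Θ θ →
        SD (fun θ' => Val μ f ζ (prof n g (xs θ') y0) n) θ τ y (k * y * N) n →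
        Dec ζ (gvs (prof n g (xs θ) y0)) μ (uH f) (fun j _ x => x.1 (e j)) n (N * (12 * me + δ))
        ∧ ∀ d, 1 ≤ d → d ≤ n →
          |EG ζ (gvs (prof n g (xs θ) y0)) μ (uH f) (fun _ x => ∑ j, x.1 (e j) ^ 2) n
            - QQ ζ (rho ζ (gvs (prof n g (xs θ) y0)) μ (uH f) (fun j _ x => x.1 (e j)) n) d
            - τ d / θ d| ≤ δ * N := by
  filter_upwards [core hR hδ (K' := 0) (B := 2) 0 (A0 * K ^ 2 * (4 + Θ) + 2 * Θ) le_rfl
    zero_le_two] with k hk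
  filter_upwards [hk] with y hy
  filter_upwards [hy] with N hN
  obtain ⟨hN, h⟩ := hN
  intro A S β _ _ _ _ _ e μ _ f f1 f2 g xs y0 θ τ hS hA hf hg hxs hx hy0 hy1 hF hSD
  have hβ : (Fintype.card β : ℝ) ≤ Fintype.card S := by
    exact_mod_cast Fintype.card_le_of_embedding e
  obtain ⟨h1, h2⟩ := h (Co A S) β (Sph S) μ (uH f) (u1 f1) (u2 f2) (embF A e) (Fintype.card S)
    (fun θ => prof n g (xs θ) y0) θ τ (hj_uH hf) (blk_F hf e)
    (fam_F n (fun a i => (hg a i).1) hxs hy0) (hβ.trans hS) hS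
    (root hN hR.Θ0 hS hA hf n hg (fun i => ⟨hxs.nn θ n i, hx i⟩) fun a => ⟨hy0 n a, hy1 a⟩) hF hSD
  refine ⟨dec_mono h1 ?_, fun d hd hdn => ?_⟩
  · have := mul_le_mul_of_nonneg_left hS hR.me0.le
    linarith
  · have e1 : (fun (w : Co A S → ℝ) (x : Sph S) =>
        ∑ j, (u2 f2 (embF A e j) w x + u1 f1 (embF A e j) w x ^ 2)) =
        fun _ x => ∑ j, x.1 (e j) ^ 2 := by
      funext w x
      exact Finset.sum_congr rfl fun j _ => zero_add _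
    have := h2 d hd hdn
    rw [e1] at this
    exact this

theorem goodY {n : ℕ} {ζ : ℕ → ℝ} {me K A0 Θ θm : ℝ} (hR : Reg n ζ me K A0 Θ θm) {δ : ℝ}
    (hδ : 0 < δ) :
    ∀ᶠ k in 𝓝[>] (0 : ℝ), ∀ᶠ y in 𝓝[>] (0 : ℝ), ∀ᶠ N : ℕ in atTop,
      ∀ (A S : Type) [Fintype A] [Fintype S] [DecidableEq A] [DecidableEq S]
        (μ : Measure (Sph S)) [IsProbabilityMeasure μ] (f f1 f2 : A → ℝ → ℝ)
        (g : A → S → ℝ) (x0 : ℕ → S → ℝ) (θ τ : ℕ → ℝ),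
        (Fintype.card S : ℝ) ≤ 2 * N → (Fintype.card A : ℝ) ≤ A0 * N →
        (∀ a, Sm (f a) (f1 a) (f2 a) K) → (∀ a i, 0 ≤ g a i ∧ g a i ≤ 2 / N) →
        (∀ d i, 0 ≤ x0 d i) → (∀ i, x0 n i ≤ Θ) → Fld n θm Θ θ →
        SD (fun θ' => Val μ f ζ (prof n g x0 fun d _ => sq0 θ' d) n) θ τ y (k * y * N) n →
        Dec ζ (gvs (prof n g x0 fun d _ => sq0 θ d)) μ (uH f)
          (fun a w x => f1 a (arg w x.1 a)) n (N * (6 * me * A0 * K ^ 2 + δ))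
        ∧ ∀ d, 1 ≤ d → d ≤ n →
          |QQ ζ (rho ζ (gvs (prof n g x0 fun d _ => sq0 θ d)) μ (uH f)
              (fun a w x => f1 a (arg w x.1 a)) n) d
            - QQ ζ (rho ζ (gvs (prof n g x0 fun d _ => sq0 θ d)) μ (uH f)
              (fun a w x => f1 a (arg w x.1 a)) n) 1
            - (τ 1 / θ 1 - τ d / θ d)| ≤ δ * N := by
  have hA0 := hR.A00
  filter_upwards [core hR (half_pos hδ) (K' := K) (B := A0 + A0 * K ^ 2) (2 * K)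
    (A0 * K ^ 2 * (4 + Θ) + 2 * Θ) hR.K0 (by positivity)] with k hk
  filter_upwards [hk] with y hy
  filter_upwards [hy] with N hN
  obtain ⟨hN, h⟩ := hN
  intro A S _ _ _ _ μ _ f f1 f2 g x0 θ τ hS hA hf hg hx0 hx1 hF hSD
  have hn := hR.z.one_le
  have hN0 : (0 : ℝ) ≤ N := Nat.cast_nonneg N
  have hΛ : (Fintype.card A : ℝ) * K ^ 2 ≤ A0 * K ^ 2 * N := by
    have := mul_le_mul_of_nonneg_right hA (sq_nonneg K)
    linarith
  have p1 : 0 ≤ A0 * N := by positivity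
  have p2 : 0 ≤ A0 * K ^ 2 * N := by positivity
  obtain ⟨h1, h2⟩ := h (Co A S) A (Sph S) μ (uH f) (u1 f1) (u2 f2) (embY A S)
    (Fintype.card A * K ^ 2) (fun θ => prof n g x0 fun d _ => sq0 θ d) θ τ (hj_uH hf)
    (blk_Y hR.K0 hf) (fam_Y n (fun a i => (hg a i).1) hx0) (by linarith) (by linarith)
    (root hN hR.Θ0 hS hA hf n hg (fun i => ⟨hx0 n i, hx1 i⟩) fun a =>
      ⟨sq0_nonneg θ n, (sq0_of hn).trans_le (hF n hn le_rfl).2⟩) hF hSD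
  refine ⟨dec_mono h1 ?_, fun d hd hdn => ?_⟩
  · have := mul_le_mul_of_nonneg_left hΛ hR.me0.le
    have := mul_nonneg hδ.le hN0
    linarith
  · have a1 := abs_le.1 (h2 d hd hdn)
    have a2 := abs_le.1 (h2 1 le_rfl hn)
    change |QQ ζ (rho ζ (gvs (prof n g x0 fun d _ => sq0 θ d)) μ (uH f)
        (fun j => u1 f1 (embY A S j)) n) d - QQ ζ (rho ζ (gvs (prof n g x0 fun d _ => sq0 θ d)) μ
        (uH f) (fun j => u1 f1 (embY A S j)) n) 1 - (τ 1 / θ 1 - τ d / θ d)| ≤ δ * N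
    rw [abs_le]
    constructor <;> linarith [a1.1, a1.2, a2.1, a2.2]

/-- The overlap path of a canonical system with small second differences. -/
theorem baseQ {n : ℕ} {ζ : ℕ → ℝ} {me K A0 Θ θm : ℝ} (hR : Reg n ζ me K A0 Θ θm) {δ : ℝ}
    (hδ : 0 < δ) :
    ∀ᶠ k in 𝓝[>] (0 : ℝ), ∀ᶠ y in 𝓝[>] (0 : ℝ), ∀ᶠ N : ℕ in atTop,
      ∀ (S : Type) [Fintype S] [DecidableEq S] (μ : Measure (Sph S)) [IsProbabilityMeasure μ]
        (F F1 F2 : ℕ → ℝ → ℝ) (m : ℕ) (θ θ' τ : ℕ → ℝ),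
        Fintype.card S = N → (m : ℝ) ≤ A0 * N → (∀ a, Sm (F a) (F1 a) (F2 a) K) →
        Fld n θm Θ θ → θ' n ^ 2 ≤ Θ →
        SD (fun t => VS μ F m ζ n t θ') θ τ y (k * y * N) n →
        ∃ q, CAdm n q ∧ q 0 = 1 ∧
          ∀ d, 1 ≤ d → d ≤ n → |N - N * QQ ζ q d - τ d / θ d| ≤ δ * N := by
  filter_upwards [goodX hR hδ] with k hk
  filter_upwards [hk] with y hy
  filter_upwards [hy, eventually_ge_atTop 1] with N h hN
  intro S _ _ μ _ F F1 F2 m θ θ' τ hS hm hF hθ hθ' hSD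
  have hn := hR.z.one_le
  have hN0 : (0 : ℝ) < N := by exact_mod_cast hN
  have hf : ∀ a : Fin m, Sm (F a) (F1 a) (F2 a) K := fun a => hF a
  obtain ⟨-, h2⟩ := h (Fin m) S S (Function.Embedding.refl S) μ (fun a => F a) (fun a => F1 a)
    (fun a => F2 a) (fun _ _ => (Fintype.card S : ℝ)⁻¹) (fun θ d _ => sq0 θ d)
    (fun d _ => sq0 θ' d) θ τ (by rw [hS]; linarith) (by rw [Fintype.card_fin]; exact hm) hf
    (fun _ _ => ⟨by positivity, by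
      rw [hS, inv_eq_one_div]; gcongr; norm_num⟩) fam_refl
    (fun _ => (sq0_of hn).trans_le (hθ n hn le_rfl).2) (fun d _ => sq0_nonneg θ' d)
    (fun _ => (sq0_of hn).trans_le hθ') hθ hSD
  have hJ := hj_uH (S := S) hf
  obtain ⟨K2, hK2⟩ := hJ.jet
  have hz := hR.z.zok
  set s := prof n (fun (_ : Fin m) (_ : S) => (Fintype.card S : ℝ)⁻¹) (fun d _ => sq0 θ d)
    (fun d _ => sq0 θ' d)
  have hν : ∀ d, Noise (gvs s d) := fun d => noise_gv _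
  have hξ : ∀ j : S, BM2 fun (_ : Co (Fin m) S → ℝ) (x : Sph S) => x.1 j :=
    fun j => (hK2 (.inr (.inl j))).bm2_m
  have e1 : EG ζ (gvs s) μ (uH fun a : Fin m => F a)
      (fun _ x => ∑ j, x.1 (Function.Embedding.refl S j) ^ 2) n = N := by
    have : (fun (_ : Co (Fin m) S → ℝ) (x : Sph S) => ∑ j, x.1 (Function.Embedding.refl S j) ^ 2) =
        fun _ _ => (N : ℝ) := by
      funext w x
      rw [← hS]
      exact x.2
    rw [this]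
    exact GE_const hJ.hg hz hν _ _ _
  rw [e1] at h2
  obtain ⟨r, hr⟩ : ∃ r, r = rho ζ (gvs s) μ (uH fun a : Fin m => F a)
    (fun (j : S) _ x => x.1 j) n := ⟨_, rfl⟩
  have r0 : ∀ k, 0 ≤ r k := fun k => hr ▸ rho_nonneg _ n k
  have r1 : ∀ k, r k ≤ N := fun k => hr ▸ rho_le hJ.hg hz hν hξ (fun _ x => by rw [x.2, hS]) n k
  have r2 : ∀ k, k ≤ n → r (k + 1) ≤ r k := fun k hk =>
    hr ▸ rho_anti hJ.hg hz hν hξ (Nat.le_succ k) (by omega)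
  refine ⟨fun k => if k = 0 then 1 else if k ≤ n then r k / N else 0,
    ⟨antitone_nat_of_succ_le fun k => ?_, fun d hd => ?_⟩, if_pos rfl, fun d hd hdn => ?_⟩
  · rw [if_neg (Nat.succ_ne_zero k)]
    split_ifs with h1 h2 h3 h4 h5
    · exact (div_le_one hN0).2 (r1 _)
    · exact div_le_div_of_nonneg_right (r2 k h3) hN0.le
    · omega
    · exact zero_le_one
    · exact div_nonneg (r0 k) hN0.le
    · exact le_rfl
  · rw [if_neg (by omega), if_neg (by omega)]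
  · rw [QQ_div (r := r) hN0.ne' hdn fun k h h' => by rw [if_neg (by omega), if_pos h'], hr]
    exact h2 d hd hdn

/-- The conjugate path of a canonical system with small second differences. -/
theorem baseP {n : ℕ} {ζ : ℕ → ℝ} {me K A0 Θ θm : ℝ} (hR : Reg n ζ me K A0 Θ θm) {δ : ℝ}
    (hδ : 0 < δ) :
    ∀ᶠ k in 𝓝[>] (0 : ℝ), ∀ᶠ y in 𝓝[>] (0 : ℝ), ∀ᶠ N : ℕ in atTop,
      ∀ (S : Type) [Fintype S] [DecidableEq S] (μ : Measure (Sph S)) [IsProbabilityMeasure μ]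
        (F F1 F2 : ℕ → ℝ → ℝ) (m : ℕ) (θ θ' τ' : ℕ → ℝ),
        Fintype.card S = N → (m : ℝ) ≤ A0 * N → (∀ a, Sm (F a) (F1 a) (F2 a) K) →
        θ n ^ 2 ≤ Θ → Fld n θm Θ θ' →
        SD (fun t => VS μ F m ζ n θ t) θ' τ' y (k * y * N) n →
        ∃ p, CAdm n p ∧ p 0 ≤ A0 * K ^ 2 ∧ ∀ d, 1 ≤ d → d ≤ n →
          |N * (QQ ζ p d - QQ ζ p 1) - (τ' 1 / θ' 1 - τ' d / θ' d)| ≤ δ * N := by
  filter_upwards [goodY hR hδ] with k hk
  filter_upwards [hk] with y hy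
  filter_upwards [hy, eventually_ge_atTop 1] with N h hN
  intro S _ _ μ _ F F1 F2 m θ θ' τ hS hm hF hθ hθ' hSD
  have hn := hR.z.one_le
  have hN0 : (0 : ℝ) < N := by exact_mod_cast hN
  have hf : ∀ a : Fin m, Sm (F a) (F1 a) (F2 a) K := fun a => hF a
  obtain ⟨-, h2⟩ := h (Fin m) S μ (fun a => F a) (fun a => F1 a)
    (fun a => F2 a) (fun _ _ => (Fintype.card S : ℝ)⁻¹) (fun d _ => sq0 θ d)
    θ' τ (by rw [hS]; linarith) (by rw [Fintype.card_fin]; exact hm) hf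
    (fun _ _ => ⟨by positivity, by
      rw [hS, inv_eq_one_div]; gcongr; norm_num⟩) (fun d _ => sq0_nonneg θ d)
    (fun _ => (sq0_of hn).trans_le hθ) hθ' hSD
  have hJ := hj_uH (S := S) hf
  obtain ⟨K2, hK2⟩ := hJ.jet
  have hz := hR.z.zok
  set s := prof n (fun (_ : Fin m) (_ : S) => (Fintype.card S : ℝ)⁻¹) (fun d _ => sq0 θ d)
    (fun d _ => sq0 θ' d)
  have hν : ∀ d, Noise (gvs s d) := fun d => noise_gv _
  have hξ : ∀ a : Fin m, BM2 fun (w : Co (Fin m) S → ℝ) (x : Sph S) => F1 a (arg w x.1 a) :=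
    fun a => (hK2 (.inr (.inr a))).bm2_m
  obtain ⟨r, hr⟩ : ∃ r, r = rho ζ (gvs s) μ (uH fun a : Fin m => F a)
    (fun (a : Fin m) w x => F1 a (arg w x.1 a)) n := ⟨_, rfl⟩
  have r0 : ∀ k, 0 ≤ r k := fun k => hr ▸ rho_nonneg _ n k
  have r1 : ∀ k, r k ≤ Fintype.card (Fin m) * K ^ 2 := fun k =>
    hr ▸ rho_le hJ.hg hz hν hξ (blk_Y (S := S) hR.K0 hf).lam n k
  have r2 : ∀ k l, k ≤ l → l ≤ n → r l ≤ r k := fun k l hk hl =>
    hr ▸ rho_anti hJ.hg hz hν hξ hk (by omega)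
  refine ⟨fun k => if k ≤ n then r (max k 1) / N else 0,
    ⟨antitone_nat_of_succ_le fun k => ?_, fun d hd => ?_⟩, ?_, fun d hd hdn => ?_⟩
  · split_ifs with h1 h2 h3
    · exact div_le_div_of_nonneg_right (r2 _ _ (by omega) (by omega)) hN0.le
    · omega
    · exact div_nonneg (r0 _) hN0.le
    · exact le_rfl
  · exact if_neg (by omega)
  · beta_reduce
    rw [if_pos (Nat.zero_le n), div_le_iff₀ hN0]
    refine (r1 _).trans ?_
    rw [Fintype.card_fin]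
    have := mul_le_mul_of_nonneg_right hm (sq_nonneg K)
    linarith
  · have e : ∀ k, 1 ≤ k → k ≤ n → (if k ≤ n then r (max k 1) / N else 0) = r k / N :=
      fun k h h' => by rw [if_pos h', max_eq_left h]
    rw [mul_sub, QQ_div (r := r) hN0.ne' hdn e, QQ_div (r := r) hN0.ne' hn e, hr]
    exact h2 d hd hdn

end Vale.Agent.P157
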