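import Vale.Agent.P157.Chain
import Vale.Agent.P157.Gauss

/-! # Jets along a direction -/

namespace Vale.Agent.P157

open MeasureTheory ProbabilityTheory

variable {W : Type} [NormedAddCommGroup W] [NormedSpace ℝ W] [MeasurableSpace W] [BorelSpace W]
  [SecondCountableTopology W]

set_option linter.unusedSectionVars false

namespace JetAux

theorem deriv_of_sq {f : ℝ → ℝ} {c t C : ℝ}
    (h : ∀ s, |s| ≤ 1 → |f (t + s) - f t - s * c| ≤ C * s ^ 2) : HasDerivAt f c t := by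
  rw [hasDerivAt_iff_isLittleO_nhds_zero]
  refine Asymptotics.IsBigO.trans_isLittleO (g := fun s : ℝ => s ^ 2)
    (Asymptotics.IsBigO.of_bound C ?_) (Asymptotics.isLittleO_pow_id one_lt_two)
  filter_upwards [Metric.closedBall_mem_nhds (0 : ℝ) one_pos] with s hs
  rw [mem_closedBall_zero_iff, Real.norm_eq_abs] at hs
  rw [Real.norm_eq_abs, Real.norm_eq_abs, abs_of_nonneg (sq_nonneg s), smul_eq_mul]
  exact h s hs

theorem mvt {f f' : ℝ → ℝ} (h : ∀ u, HasDerivAt f (f' u) u) {r C : ℝ}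
    (hb : ∀ u, |u| ≤ r → |f' u| ≤ C) {u : ℝ} (hu : |u| ≤ r) : |f u - f 0| ≤ C * |u| := by
  have := (convex_closedBall (0 : ℝ) r).norm_image_sub_le_of_norm_hasDerivWithin_le
    (f := f) (f' := f') (C := C) (x := 0) (y := u) (fun x _ => (h x).hasDerivWithinAt)
    (fun x hx => hb x (mem_closedBall_zero_iff.1 hx))
    (Metric.mem_closedBall_self ((abs_nonneg u).trans hu)) (mem_closedBall_zero_iff.2 hu)
  rw [sub_zero] at this
  exact this

theorem taylor3 {f f1 f2 : ℝ → ℝ} {K : ℝ} (hK : 0 ≤ K) (h1 : ∀ u, HasDerivAt f (f1 u) u)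
    (h2 : ∀ u, HasDerivAt f1 (f2 u) u) (h3 : ∀ u, |f2 u - f2 0| ≤ K * |u|) (t : ℝ) :
    |f t - f 0 - t * f1 0 - t ^ 2 / 2 * f2 0| ≤ K * |t| ^ 3 := by
  have a1 : ∀ u, HasDerivAt (fun u => f1 u - f1 0 - u * f2 0) (f2 u - f2 0) u := fun u => by
    have := ((h2 u).sub_const (f1 0)).fun_sub ((hasDerivAt_id' u).mul_const (f2 0))
    rwa [one_mul] at this
  have a2 : ∀ u, |u| ≤ |t| → |f1 u - f1 0 - u * f2 0| ≤ K * |t| * |t| := fun u hu => by
    have := mvt a1 (r := |t|) (C := K * |t|)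
      (fun x hx => (h3 x).trans (mul_le_mul_of_nonneg_left hx hK)) hu
    simp only [sub_self, zero_mul, sub_zero] at this
    exact this.trans (mul_le_mul_of_nonneg_left hu (by positivity))
  have a3 : ∀ u, HasDerivAt (fun u => f u - f 0 - u * f1 0 - u ^ 2 / 2 * f2 0)
      (f1 u - f1 0 - u * f2 0) u := fun u => by
    have := (((h1 u).sub_const (f 0)).fun_sub ((hasDerivAt_id' u).mul_const (f1 0))).fun_sub
      (((hasDerivAt_pow 2 u).div_const 2).mul_const (f2 0))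
    refine this.congr_deriv ?_
    norm_num
  have := mvt a3 a2 (le_refl |t|)
  simp only [sub_self, zero_mul, sub_zero, ne_eq, OfNat.ofNat_ne_zero, not_false_eq_true,
    zero_pow, zero_div] at this
  refine this.trans (le_of_eq ?_)
  ring

theorem tangent {f f1 : ℝ → ℝ} (h1 : ∀ u, HasDerivAt f (f1 u) u) (h2 : Monotone f1) (t : ℝ) :
    f 0 + t * f1 0 ≤ f t := by
  have hc : Continuous f := continuous_iff_continuousAt.2 fun u => (h1 u).continuousAt
  rcases lt_trichotomy t 0 with h | rfl | h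
  · obtain ⟨c, hc1, hc2⟩ := exists_hasDerivAt_eq_slope f f1 h hc.continuousOn fun x _ => h1 x
    have a1 := h2 hc1.2.le
    rw [hc2, div_le_iff₀ (by linarith)] at a1
    linarith
  · simp
  · obtain ⟨c, hc1, hc2⟩ := exists_hasDerivAt_eq_slope f f1 h hc.continuousOn fun x _ => h1 x
    have a1 := h2 hc1.1.le
    rw [hc2, le_div_iff₀ (by linarith)] at a1
    linarith

theorem djet_of_deriv {f f1 f2 f3 : ℝ → ℝ} {K : ℝ} (h1 : ∀ x, HasDerivAt f (f1 x) x)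
    (h2 : ∀ x, HasDerivAt f1 (f2 x) x) (h3 : ∀ x, HasDerivAt f2 (f3 x) x)
    (b1 : ∀ x, |f1 x| ≤ K) (b2 : ∀ x, |f2 x| ≤ K) (b3 : ∀ x, |f3 x| ≤ K) :
    DJet f (1 : ℝ) f1 f2 K := by
  have hK : 0 ≤ K := (abs_nonneg _).trans (b1 0)
  refine ⟨hK, (continuous_iff_continuousAt.2 fun u => (h2 u).continuousAt).measurable,
    (continuous_iff_continuousAt.2 fun u => (h3 u).continuousAt).measurable, b1, b2,
    fun w t => ?_, fun w t => ?_⟩
  · have := mvt (fun u => (h1 (w + u)).comp_const_add w u) (r := |t|) (fun u _ => b1 _) le_rfl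
    simpa only [smul_eq_mul, mul_one, add_zero] using this
  · have := taylor3 hK (fun u => (h1 (w + u)).comp_const_add w u)
      (fun u => (h2 (w + u)).comp_const_add w u)
      (fun u => mvt (fun u => (h3 (w + u)).comp_const_add w u) (r := |u|) (fun u _ => b3 _) le_rfl)
      t
    simpa only [smul_eq_mul, mul_one, add_zero] using this

theorem hasDerivAt_tanh (x : ℝ) : HasDerivAt Real.tanh (1 - Real.tanh x ^ 2) x := by
  have h0 := (Real.cosh_pos x).ne'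
  have h1 : Real.tanh = fun x => Real.sinh x / Real.cosh x := funext Real.tanh_eq_sinh_div_cosh
  rw [h1]
  refine ((Real.hasDerivAt_sinh x).fun_div (Real.hasDerivAt_cosh x) h0).congr_deriv ?_
  field_simp

theorem tanh_sq_le (x : ℝ) : Real.tanh x ^ 2 ≤ 1 := (Real.tanh_sq_lt_one x).le

theorem abs_int_le {Ω : Type} [MeasurableSpace Ω] {ν : Measure Ω} [IsProbabilityMeasure ν]
    {f : Ω → ℝ} {C : ℝ} (h : ∀ x, |f x| ≤ C) : |∫ x, f x ∂ν| ≤ C := by
  have := norm_integral_le_of_norm_le_const (μ := ν) (f := f) (C := C)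
    (Filter.Eventually.of_forall h)
  rwa [probReal_univ, mul_one] at this

theorem sq_close {x y A B : ℝ} (h1 : |x - y| ≤ A) (hx : |x| ≤ B) (hy : |y| ≤ B) :
    |x ^ 2 - y ^ 2| ≤ A * (2 * B) := by
  rw [show x ^ 2 - y ^ 2 = (x - y) * (x + y) by ring, abs_mul]
  refine mul_le_mul h1 ((abs_add_le x y).trans (by linarith)) (abs_nonneg _)
    ((abs_nonneg _).trans h1)

theorem first_close {δ m a K t : ℝ} (hK : 0 ≤ K) (hm : |m| ≤ K) (ha : |a| ≤ K)
    (h1 : |δ| ≤ K * |t|) (h2 : |δ - t * m - t ^ 2 / 2 * a| ≤ K * |t| ^ 3) :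
    |δ - t * m| ≤ 2 * K * |t| ^ 2 := by
  have h0 := abs_nonneg t
  rcases le_total |t| 1 with h | h
  · have a1 : |t ^ 2 / 2 * a| ≤ |t| ^ 2 / 2 * K := by
      rw [abs_mul, abs_div, abs_pow, abs_two]
      exact mul_le_mul_of_nonneg_left ha (by positivity)
    have a2 := abs_add_le (δ - t * m - t ^ 2 / 2 * a) (t ^ 2 / 2 * a)
    rw [sub_add_cancel] at a2
    have a3 : K * |t| ^ 3 ≤ K * |t| ^ 2 :=
      mul_le_mul_of_nonneg_left (pow_le_pow_of_le_one h0 h (by norm_num)) hK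
    have a4 : 0 ≤ K * |t| ^ 2 := by positivity
    linarith
  · have a1 : |t * m| ≤ |t| * K := by
      rw [abs_mul]
      exact mul_le_mul_of_nonneg_left hm h0
    have a2 := abs_sub δ (t * m)
    have a3 : K * |t| ≤ K * |t| ^ 2 := mul_le_mul_of_nonneg_left (by nlinarith) hK
    linarith

theorem cum_jet {Ω : Type} [MeasurableSpace Ω] {ν : Measure Ω} [IsProbabilityMeasure ν] {ζ : ℝ}
    (h0 : 0 ≤ ζ) (h1 : ζ ≤ 1) {δ m a : Ω → ℝ} {K t : ℝ} (hK : 0 ≤ K) (mδ : Measurable δ)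
    (mm : Measurable m) (ma : Measurable a) (bm : ∀ x, |m x| ≤ K) (ba : ∀ x, |a x| ≤ K)
    (bδ : ∀ x, |δ x| ≤ K * |t|) (tay : ∀ x, |δ x - t * m x - t ^ 2 / 2 * a x| ≤ K * |t| ^ 3) :
    |lse ν ζ δ - t * ∫ x, m x ∂ν -
      t ^ 2 / 2 * (∫ x, (a x + ζ * m x ^ 2) ∂ν - ζ * (∫ x, m x ∂ν) ^ 2)| ≤ jc K * |t| ^ 3 := by
  have Bδ : BM δ := ⟨mδ, _, bδ⟩
  have Bm : BM m := ⟨mm, _, bm⟩
  have Ba : BM a := ⟨ma, _, ba⟩
  have btm : ∀ x, |t * m x| ≤ K * |t| := fun x => by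
    rw [abs_mul, mul_comm]
    exact mul_le_mul_of_nonneg_right (bm x) (abs_nonneg t)
  have c1 : ∀ x, |δ x - t * m x| ≤ 2 * K * |t| ^ 2 := fun x =>
    first_close hK (bm x) (ba x) (bδ x) (tay x)
  have a0 := cumulant (ν := ν) h0 h1 mδ bδ
  have a1 := abs_int_le (ν := ν) tay
  rw [integral_sub (Bδ.sub (Bm.const_mul t)).integrable (Ba.const_mul _).integrable,
    integral_sub Bδ.integrable (Bm.const_mul t).integrable, integral_const_mul,
    integral_const_mul] at a1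
  have a2 := abs_int_le (ν := ν) fun x => sq_close (c1 x) (bδ x) (btm x)
  simp only [mul_pow] at a2
  rw [integral_sub (Bδ.pow 2).integrable ((Bm.pow 2).const_mul _).integrable,
    integral_const_mul] at a2
  have a3 := abs_int_le (ν := ν) c1
  have a4 := abs_int_le (ν := ν) btm
  rw [integral_sub Bδ.integrable (Bm.const_mul t).integrable] at a3
  have a5 := sq_close a3 (abs_int_le bδ) a4
  rw [integral_const_mul] at a5
  rw [integral_add Ba.integrable ((Bm.pow 2).const_mul _).integrable, integral_const_mul]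
  generalize lse ν ζ δ = L at a0 ⊢
  generalize ∫ x, δ x ∂ν = D at a0 a1 a5
  generalize ∫ x, δ x ^ 2 ∂ν = D2 at a0 a2
  generalize ∫ x, m x ∂ν = M at a1 a5 ⊢
  generalize ∫ x, m x ^ 2 ∂ν = M2 at a2 ⊢
  generalize ∫ x, a x ∂ν = A at a1 ⊢
  have e : L - t * M - t ^ 2 / 2 * (A + ζ * M2 - ζ * M ^ 2) =
      (L - D - ζ / 2 * (D2 - D ^ 2)) + (D - t * M - t ^ 2 / 2 * A) +
        ζ / 2 * ((D2 - t ^ 2 * M2) - (D ^ 2 - (t * M) ^ 2)) := by ring
  have a6 : |ζ / 2 * ((D2 - t ^ 2 * M2) - (D ^ 2 - (t * M) ^ 2))| ≤ 4 * K ^ 2 * |t| ^ 3 := by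
    rw [abs_mul, abs_of_nonneg (by positivity : 0 ≤ ζ / 2)]
    have b1 := abs_sub (D2 - t ^ 2 * M2) (D ^ 2 - (t * M) ^ 2)
    have b2 : 2 * K * |t| ^ 2 * (2 * (K * |t|)) = 4 * K ^ 2 * |t| ^ 3 := by ring
    refine (mul_le_mul_of_nonneg_right (by linarith : ζ / 2 ≤ 1 / 2) (abs_nonneg _)).trans ?_
    linarith
  rw [e]
  refine (abs_add_le _ _).trans ((add_le_add ((abs_add_le _ _).trans (add_le_add a0 a1)) a6).trans ?_)
  have a7 : 12 * K ^ 3 + K + 4 * K ^ 2 ≤ jc K := by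
    unfold jc
    nlinarith [pow_nonneg hK 3, sq_nonneg K]
  refine le_trans (le_of_eq ?_) (mul_le_mul_of_nonneg_right a7 (by positivity))
  ring

end JetAux

open JetAux

theorem le_jc {K : ℝ} (hK : 0 ≤ K) : K ≤ jc K := by
  unfold jc
  nlinarith [pow_nonneg hK 3, sq_nonneg K]

theorem DJet.mono {Ψ m a : W → ℝ} {v : W} {K K' : ℝ} (h : DJet Ψ v m a K) (hK : K ≤ K') :
    DJet Ψ v m a K' :=
  ⟨h.K0.trans hK, h.mm, h.ma, fun w => (h.bm w).trans hK, fun w => (h.ba w).trans hK,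
    fun w t => (h.lip w t).trans (mul_le_mul_of_nonneg_right hK (abs_nonneg t)),
    fun w t => (h.tay w t).trans (mul_le_mul_of_nonneg_right hK (by positivity))⟩

theorem FJet.mono {Ω : Type} [MeasurableSpace Ω] {H m a : W → Ω → ℝ} {v : W} {K K' : ℝ}
    (h : FJet H v m a K) (hK : K ≤ K') : FJet H v m a K' :=
  ⟨h.K0.trans hK, h.mm, h.ma, fun w x => (h.bm w x).trans hK, fun w x => (h.ba w x).trans hK,
    fun w x t => (h.lip w x t).trans (mul_le_mul_of_nonneg_right hK (abs_nonneg t)),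
    fun w x t => (h.tay w x t).trans (mul_le_mul_of_nonneg_right hK (by positivity))⟩

theorem DJet.bm_m {Ψ m a : W → ℝ} {v : W} {K : ℝ} (h : DJet Ψ v m a K) : BM m :=
  ⟨h.mm, K, h.bm⟩

theorem DJet.bm_a {Ψ m a : W → ℝ} {v : W} {K : ℝ} (h : DJet Ψ v m a K) : BM a :=
  ⟨h.ma, K, h.ba⟩

theorem DJet.sub {Ψ m a Ψ' m' a' : W → ℝ} {v : W} {K K' : ℝ} (h : DJet Ψ v m a K)
    (h' : DJet Ψ' v m' a' K') :
    DJet (fun w => Ψ w - Ψ' w) v (fun w => m w - m' w) (fun w => a w - a' w) (K + K') := by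
  refine ⟨add_nonneg h.K0 h'.K0, h.mm.sub h'.mm, h.ma.sub h'.ma,
    fun w => (abs_sub _ _).trans (add_le_add (h.bm w) (h'.bm w)),
    fun w => (abs_sub _ _).trans (add_le_add (h.ba w) (h'.ba w)), fun w t => ?_, fun w t => ?_⟩
  · rw [add_mul]
    refine le_trans (le_of_eq (congrArg _ ?_))
      ((abs_sub _ _).trans (add_le_add (h.lip w t) (h'.lip w t)))
    ring
  · rw [add_mul]
    refine le_trans (le_of_eq (congrArg _ ?_))
      ((abs_sub _ _).trans (add_le_add (h.tay w t) (h'.tay w t)))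
    ring

theorem DJet.hasDerivAt {Ψ m a : W → ℝ} {v : W} {K : ℝ} (h : DJet Ψ v m a K) (w : W) (t : ℝ) :
    HasDerivAt (fun u : ℝ => Ψ (w + u • v)) (m (w + t • v)) t := by
  refine deriv_of_sq (C := 2 * K) fun s _ => ?_
  rw [add_smul, ← add_assoc, ← sq_abs s]
  exact first_close h.K0 (h.bm _) (h.ba _) (h.lip _ s) (h.tay _ s)

theorem DJet.m_taylor {Ψ m a : W → ℝ} {v : W} {K : ℝ} (h : DJet Ψ v m a K) (w : W) (t : ℝ) :
    |m (w + t • v) - m w - t * a w| ≤ 5 * K * t ^ 2 := by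
  rcases eq_or_ne t 0 with rfl | ht
  · simp
  have ht' : 0 < |t| := abs_pos.2 ht
  have a1 := h.tay w (2 * t)
  have a2 := h.tay (w + t • v) t
  have a3 := h.tay (w + t • v) (-t)
  rw [add_assoc, ← add_smul, ← two_mul] at a2
  rw [add_assoc, ← add_smul, add_neg_cancel, zero_smul, add_zero, abs_neg] at a3
  rw [abs_mul, abs_two] at a1
  have e : 2 * t * (m (w + t • v) - m w - t * a w) =
      (Ψ (w + (2 * t) • v) - Ψ w - 2 * t * m w - (2 * t) ^ 2 / 2 * a w) -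
      (Ψ (w + (2 * t) • v) - Ψ (w + t • v) - t * m (w + t • v) - t ^ 2 / 2 * a (w + t • v)) +
      (Ψ w - Ψ (w + t • v) - -t * m (w + t • v) - (-t) ^ 2 / 2 * a (w + t • v)) := by ring
  have a4 := (abs_add_le _ _).trans (add_le_add ((abs_sub _ _).trans (add_le_add a1 a2)) a3)
  rw [← e, abs_mul, abs_mul, abs_two] at a4
  rw [← sq_abs t]
  refine le_of_mul_le_mul_left (a4.trans (le_of_eq ?_)) (mul_pos two_pos ht')
  ring

theorem DJet.hasDerivAt_m {Ψ m a : W → ℝ} {v : W} {K : ℝ} (h : DJet Ψ v m a K) (w : W) (t : ℝ) :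
    HasDerivAt (fun u : ℝ => m (w + u • v)) (a (w + t • v)) t := by
  refine deriv_of_sq (C := 5 * K) fun s _ => ?_
  rw [add_smul, ← add_assoc]
  exact h.m_taylor _ s

/-- Better constants from bounds on the derivatives. -/
theorem DJet.upgrade {Ψ m a : W → ℝ} {v : W} {K K' : ℝ} (h : DJet Ψ v m a K)
    (h1 : ∀ w, |m w| ≤ K') (h2 : ∀ w, |a w| ≤ K')
    (h3 : ∀ w (t : ℝ), |a (w + t • v) - a w| ≤ K' * |t|) : DJet Ψ v m a K' := by
  have hK : 0 ≤ K' := (abs_nonneg _).trans (h1 0)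
  refine ⟨hK, h.mm, h.ma, h1, h2, fun w t => ?_, fun w t => ?_⟩
  · have := mvt (h.hasDerivAt w) (r := |t|) (fun u _ => h1 _) le_rfl
    simpa only [zero_smul, add_zero] using this
  · have := taylor3 hK (h.hasDerivAt w) (h.hasDerivAt_m w)
      (fun u => by simpa only [zero_smul, add_zero] using h3 w u) t
    simpa only [zero_smul, add_zero] using this

theorem DJet.semiconvex {Ψ m a : W → ℝ} {v : W} {K k : ℝ} (h : DJet Ψ v m a K)
    (hk : ∀ w, -k ≤ a w) (w : W) (t : ℝ) : Ψ w + t * m w - k / 2 * t ^ 2 ≤ Ψ (w + t • v) := by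
  have a1 : ∀ u : ℝ, HasDerivAt (fun u : ℝ => Ψ (w + u • v) + k / 2 * u ^ 2)
      (m (w + u • v) + k * u) u := fun u => by
    refine ((h.hasDerivAt w u).fun_add ((hasDerivAt_pow 2 u).const_mul (k / 2))).congr_deriv ?_
    norm_num
    ring
  have a2 : ∀ u : ℝ, HasDerivAt (fun u : ℝ => m (w + u • v) + k * u) (a (w + u • v) + k) u :=
    fun u => by
      refine ((h.hasDerivAt_m w u).fun_add ((hasDerivAt_id' u).const_mul k)).congr_deriv ?_
      rw [mul_one]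
  have a3 := tangent a1 (monotone_of_deriv_nonneg (fun u => (a2 u).differentiableAt) fun u => by
    rw [(a2 u).deriv]
    linarith [hk (w + u • v)]) t
  simp only [zero_smul, add_zero, mul_zero, ne_eq, OfNat.ofNat_ne_zero, not_false_eq_true,
    zero_pow] at a3
  linarith

/-- Smoothness from three bounded derivatives. -/
theorem sm_of_deriv {f f1 f2 f3 : ℝ → ℝ} {K : ℝ} (h1 : ∀ x, HasDerivAt f (f1 x) x)
    (h2 : ∀ x, HasDerivAt f1 (f2 x) x) (h3 : ∀ x, HasDerivAt f2 (f3 x) x)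
    (b0 : ∀ x, |f x| ≤ K) (b1 : ∀ x, |f1 x| ≤ K) (b2 : ∀ x, |f2 x| ≤ K) (b3 : ∀ x, |f3 x| ≤ K) :
    Sm f f1 f2 K :=
  ⟨(continuous_iff_continuousAt.2 fun u => (h1 u).continuousAt).measurable, b0,
    djet_of_deriv h1 h2 h3 b1 b2 b3⟩

theorem Sm.mono {f f1 f2 : ℝ → ℝ} {K K' : ℝ} (h : Sm f f1 f2 K) (hK : K ≤ K') : Sm f f1 f2 K' :=
  ⟨h.meas, fun x => (h.bd x).trans hK, h.jet.mono hK⟩

theorem Sm.lg {f f1 f2 : ℝ → ℝ} {K : ℝ} (h : Sm f f1 f2 K) : LG f :=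
  BM.lg ⟨h.meas, K, h.bd⟩

theorem djet_lc : DJet lc (1 : ℝ) Real.tanh (fun x => 1 - Real.tanh x ^ 2) 2 := by
  have b1 : ∀ x, |Real.tanh x| ≤ 1 := fun x => (sq_le_one_iff_abs_le_one _).1 (tanh_sq_le x)
  have b2 : ∀ x, |1 - Real.tanh x ^ 2| ≤ 1 := fun x => by
    rw [abs_le]
    constructor <;> linarith [tanh_sq_le x, sq_nonneg (Real.tanh x)]
  refine djet_of_deriv (f3 := fun x => -(2 * Real.tanh x * (1 - Real.tanh x ^ 2)))
    (fun x => ?_) hasDerivAt_tanh (fun x => ?_) (fun x => (b1 x).trans one_le_two)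
    (fun x => (b2 x).trans one_le_two) fun x => ?_
  · rw [Real.tanh_eq_sinh_div_cosh]
    exact (Real.hasDerivAt_cosh x).log (Real.cosh_pos x).ne'
  · refine (((hasDerivAt_tanh x).fun_pow 2).const_sub 1).congr_deriv ?_
    norm_num
  · rw [abs_neg, abs_mul, abs_mul, abs_two]
    nlinarith [b1 x, b2 x, abs_nonneg (Real.tanh x), abs_nonneg (1 - Real.tanh x ^ 2)]

/-- Jets pass through a soft maximum. -/
theorem jet_lse {Ω : Type} [MeasurableSpace Ω] (μ : Measure Ω) [IsProbabilityMeasure μ] {ζ : ℝ}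
    (h0 : 0 ≤ ζ) (h1 : ζ ≤ 1) {H m a : W → Ω → ℝ} (hH : Measurable (Function.uncurry H))
    (hE : ∀ w, EInt μ (H w)) {v : W} {K : ℝ} (h : FJet H v m a K) :
    DJet (fun w => lse μ ζ (H w)) v (fun w => gexp μ ζ (H w) (m w))
      (fun w => gexp μ ζ (H w) (fun x => a w x + ζ * m w x ^ 2)
        - ζ * gexp μ ζ (H w) (m w) ^ 2) (jc K) := by
  have hK := h.K0
  have b1 : ∀ w, |gexp μ ζ (H w) (m w)| ≤ K := fun w =>
    abs_gexp_le ζ _ hK (Filter.Eventually.of_forall (h.bm w))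
  have b2 : ∀ y : ℝ, |y| ≤ K → |ζ * y ^ 2| ≤ K ^ 2 := fun y hy => by
    rw [abs_mul, abs_of_nonneg h0, abs_pow]
    exact (mul_le_of_le_one_left (by positivity) h1).trans (pow_le_pow_left₀ (abs_nonneg y) hy 2)
  refine ⟨hK.trans (le_jc hK), measurable_gexp ζ hH h.mm,
    (measurable_gexp ζ hH (g := fun w x => a w x + ζ * m w x ^ 2)
      (by exact h.ma.fun_add ((h.mm.pow_const 2).const_mul ζ))).sub
      (((measurable_gexp ζ hH h.mm).pow_const 2).const_mul ζ),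
    fun w => (b1 w).trans (le_jc hK), fun w => ?_, fun w t => ?_, fun w t => ?_⟩
  · have a1 : |gexp μ ζ (H w) fun x => a w x + ζ * m w x ^ 2| ≤ K + K ^ 2 :=
      abs_gexp_le ζ _ (by positivity) (Filter.Eventually.of_forall fun x =>
        (abs_add_le _ _).trans (add_le_add (h.ba w x) (b2 _ (h.bm w x))))
    refine (abs_sub _ _).trans ((add_le_add a1 (b2 _ (b1 w))).trans ?_)
    unfold jc
    nlinarith [pow_nonneg hK 3, sq_nonneg K]
  · exact (abs_lse_sub_le h0 (hE w) (hE _) (Filter.Eventually.of_forall fun x => h.lip w x t)).trans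
      (mul_le_mul_of_nonneg_right (le_jc hK) (abs_nonneg t))
  · have := (hE w).prob_tilted ζ
    rw [lse_sub ζ (hE w) (hE _)]
    exact cum_jet h0 h1 hK ((hE _).1.sub (hE w).1) h.mm.of_uncurry_left h.ma.of_uncurry_left
      (h.bm w) (h.ba w) (fun x => h.lip w x t) fun x => h.tay w x t

theorem DJet.step {ζ : ℝ} (h0 : 0 ≤ ζ) (h1 : ζ ≤ 1) {ν : Measure W} (hν : Noise ν)
    {Ψ m a : W → ℝ} (hΨ : LG Ψ) {v : W} {K : ℝ} (h : DJet Ψ v m a K) :
    DJet (T ζ ν Ψ) v (P ζ ν Ψ m)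
      (fun w => P ζ ν Ψ (fun u => a u + ζ * m u ^ 2) w - ζ * P ζ ν Ψ m w ^ 2) (jc K) := by
  have := hν.prob
  refine jet_lse ν h0 h1 (H := fun w z => Ψ (w + z)) (m := fun w z => m (w + z))
    (a := fun w z => a (w + z)) (hΨ.1.comp measurable_add) (fun w => hΨ.eint hν w)
    ⟨h.K0, h.mm.comp measurable_add, h.ma.comp measurable_add, fun w z => h.bm _,
      fun w z => h.ba _, fun w z t => ?_, fun w z t => ?_⟩
  · rw [add_right_comm]
    exact h.lip _ t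
  · rw [add_right_comm]
    exact h.tay _ t

variable {ζ : ℕ → ℝ} {ν : ℕ → Measure W} {Ψ : W → ℝ}

theorem Cas.jetX (h : Cas ζ ν Ψ) {v : W} {m a : W → ℝ} {K : ℝ} (hj : DJet Ψ v m a K) (d : ℕ) :
    DJet (X ζ ν Ψ d) v (Ex ζ ν Ψ 0 m d) (aa ζ ν Ψ m a d) (jc^[d] K) := by
  induction d with
  | zero => exact hj
  | succ d ih =>
    rw [Function.iterate_succ_apply']
    exact ih.step (h.z.nn d) (h.z.le_one d) (h.noise d) (h.lgX d)

theorem Cas.bm_aa (h : Cas ζ ν Ψ) {m a : W → ℝ} (hm : BM m) (ha : BM a) (d : ℕ) :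
    BM (aa ζ ν Ψ m a d) := by
  induction d with
  | zero => exact ha
  | succ d ih =>
    exact (BM.kernel (ζ d) (h.noise d) (h.lgX d)
      (ih.add (((h.bmEx 0 hm d).pow 2).const_mul (ζ d)))).sub
      (((h.bmEx 0 hm (d + 1)).pow 2).const_mul (ζ d))

theorem Cas.bm_bb (h : Cas ζ ν Ψ) {m a : W → ℝ} (hm : BM m) (ha : BM a) (d : ℕ) :
    BM (bb ζ ν Ψ m a d) :=
  (h.bm_aa hm ha d).add (((h.bmEx 0 hm d).pow 2).const_mul (ζ d))

theorem bb_pre (m a : W → ℝ) (d : ℕ) (w : W) :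
    Ex ζ ν Ψ d (bb ζ ν Ψ m a d) (d + 1) w
      = aa ζ ν Ψ m a (d + 1) w + ζ d * Ex ζ ν Ψ 0 m (d + 1) w ^ 2 := by
  rw [Ex_succ le_rfl, Ex_of_le le_rfl]
  exact (sub_add_cancel _ _).symm

theorem bb_succ (m a : W → ℝ) (d : ℕ) (w : W) :
    bb ζ ν Ψ m a (d + 1) w = Ex ζ ν Ψ d (bb ζ ν Ψ m a d) (d + 1) w
      - (ζ d - ζ (d + 1)) * Ex ζ ν Ψ 0 m (d + 1) w ^ 2 := by
  rw [bb_pre, bb]
  ring

theorem Cas.bb_formula (h : Cas ζ ν Ψ) {m a : W → ℝ} (hm : BM m) (ha : BM a) {d n : ℕ}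
    (hd : d ≤ n) (w : W) :
    Ex ζ ν Ψ d (bb ζ ν Ψ m a d) n w
      = Ex ζ ν Ψ 0 (fun u => a u + ζ 0 * m u ^ 2) n w
        - ∑ k ∈ Finset.range d, (ζ k - ζ (k + 1)) *
            Ex ζ ν Ψ (k + 1) (fun u => Ex ζ ν Ψ 0 m (k + 1) u ^ 2) n w := by
  induction d with
  | zero =>
    rw [Finset.sum_range_zero, sub_zero]
    rfl
  | succ d ih =>
    rw [funext (bb_succ (ζ := ζ) (ν := ν) (Ψ := Ψ) m a d),
      h.Ex_sub _ (h.bmEx d (h.bm_bb hm ha d) (d + 1))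
        (((h.bmEx 0 hm (d + 1)).pow 2).const_mul _), Ex_const_mul, Finset.sum_range_succ,
      ← sub_sub, ← ih (by omega), ← Ex_tower (Nat.le_succ d) hd]

end Vale.Agent.P157
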