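import Vale.Agent.P157.Defs

/-! # Soft maximum and tilted expectations on a probability space -/

namespace Vale.Agent.P157

open MeasureTheory ProbabilityTheory

variable {Ω : Type} [MeasurableSpace Ω] {ν : Measure Ω}

theorem EInt.const [IsProbabilityMeasure ν] (c : ℝ) : EInt ν fun _ => c :=
  ⟨measurable_const, fun _ => integrable_const _⟩

theorem BM.eint [IsProbabilityMeasure ν] {φ : Ω → ℝ} (h : BM φ) : EInt ν φ := by
  obtain ⟨hm, C, hC⟩ := h
  refine ⟨hm, fun c => (integrable_const (Real.exp (|c| * C))).mono'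
    (hm.const_mul c).exp.aestronglyMeasurable (ae_of_all _ fun ω => ?_)⟩
  rw [Real.norm_eq_abs, abs_of_pos (Real.exp_pos _), Real.exp_le_exp]
  refine (le_abs_self _).trans ?_
  rw [abs_mul]
  exact mul_le_mul_of_nonneg_left (hC ω) (abs_nonneg _)

theorem EInt.add {F G : Ω → ℝ} (hF : EInt ν F) (hG : EInt ν G) : EInt ν fun ω => F ω + G ω := by
  refine ⟨hF.1.add hG.1, fun c => ((hF.2 (2 * c)).add (hG.2 (2 * c))).mono'
    ((hF.1.add hG.1).const_mul c).exp.aestronglyMeasurable (ae_of_all _ fun ω => ?_)⟩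
  rw [Real.norm_eq_abs, abs_of_pos (Real.exp_pos _), Pi.add_apply]
  have h1 := Real.exp_pos (2 * c * F ω)
  have h2 := Real.exp_pos (2 * c * G ω)
  rcases le_total (c * F ω) (c * G ω) with h | h
  · have : Real.exp (c * (F ω + G ω)) ≤ Real.exp (2 * c * G ω) :=
      Real.exp_le_exp.2 (by linarith)
    linarith
  · have : Real.exp (c * (F ω + G ω)) ≤ Real.exp (2 * c * F ω) :=
      Real.exp_le_exp.2 (by linarith)
    linarith

theorem EInt.const_mul {F : Ω → ℝ} (hF : EInt ν F) (c : ℝ) : EInt ν fun ω => c * F ω :=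
  ⟨hF.1.const_mul c, fun c' => by simpa only [mul_assoc] using hF.2 (c' * c)⟩

theorem EInt.sub {F G : Ω → ℝ} (hF : EInt ν F) (hG : EInt ν G) : EInt ν fun ω => F ω - G ω := by
  simpa only [neg_one_mul, ← sub_eq_add_neg] using hF.add (hG.const_mul (-1))

theorem EInt.abs {F : Ω → ℝ} (hF : EInt ν F) : EInt ν fun ω => |F ω| := by
  refine ⟨hF.1.abs, fun c => ((hF.2 c).add (hF.2 (-c))).mono'
    (hF.1.abs.const_mul c).exp.aestronglyMeasurable (ae_of_all _ fun ω => ?_)⟩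
  rw [Real.norm_eq_abs, abs_of_pos (Real.exp_pos _), Pi.add_apply]
  have h1 := Real.exp_pos (c * F ω)
  have h2 := Real.exp_pos (-c * F ω)
  change Real.exp (c * |F ω|) ≤ _
  rcases abs_choice (F ω) with h | h
  · rw [h]; linarith
  · rw [h, mul_neg, ← neg_mul]; linarith

theorem EInt.of_le {F G : Ω → ℝ} (hF : EInt ν F) (hG : Measurable G) {C D : ℝ}
    (h : ∀ ω, |G ω| ≤ C + D * |F ω|) : EInt ν G := by
  refine ⟨hG, fun c => ((hF.abs.2 (|c| * D)).const_mul (Real.exp (|c| * C))).mono'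
    (hG.const_mul c).exp.aestronglyMeasurable (ae_of_all _ fun ω => ?_)⟩
  rw [Real.norm_eq_abs, abs_of_pos (Real.exp_pos _), ← Real.exp_add, Real.exp_le_exp]
  refine (le_abs_self _).trans ?_
  rw [abs_mul, mul_assoc, ← mul_add]
  exact mul_le_mul_of_nonneg_left (h ω) (abs_nonneg _)

theorem EInt.integrable [IsProbabilityMeasure ν] {F : Ω → ℝ} (hF : EInt ν F) :
    Integrable F ν := by
  refine (hF.abs.2 1).mono' hF.1.aestronglyMeasurable (ae_of_all _ fun ω => ?_)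
  rw [Real.norm_eq_abs, one_mul]
  linarith [Real.add_one_le_exp |F ω|]

theorem EInt.integrable_pow [IsProbabilityMeasure ν] {F : Ω → ℝ} (hF : EInt ν F) (k : ℕ) :
    Integrable (fun ω => F ω ^ k) ν := by
  refine (hF.abs.2 k).mono' (hF.1.pow_const k).aestronglyMeasurable (ae_of_all _ fun ω => ?_)
  rw [Real.norm_eq_abs, abs_pow, Real.exp_nat_mul]
  exact pow_le_pow_left₀ (abs_nonneg _) (by linarith [Real.add_one_le_exp |F ω|]) k

theorem EInt.tilted {F G : Ω → ℝ} (hF : EInt ν F) (hG : EInt ν G) (ζ : ℝ) :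
    EInt (ν.tilted fun ω => ζ * F ω) G := by
  refine ⟨hG.1, fun c => (integrable_tilted_iff (hF.2 ζ) _).2 ?_⟩
  simpa only [one_mul, Real.exp_add, smul_eq_mul] using
    ((hF.const_mul ζ).add (hG.const_mul c)).2 1

theorem EInt.prob_tilted [IsProbabilityMeasure ν] {F : Ω → ℝ} (hF : EInt ν F) (ζ : ℝ) :
    IsProbabilityMeasure (ν.tilted fun ω => ζ * F ω) :=
  isProbabilityMeasure_tilted (hF.2 ζ)

theorem BM.const (c : ℝ) : BM fun _ : Ω => c := ⟨measurable_const, |c|, fun _ => le_rfl⟩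

theorem BM.add {φ ψ : Ω → ℝ} (h : BM φ) (h' : BM ψ) : BM fun ω => φ ω + ψ ω := by
  obtain ⟨hm, C, hC⟩ := h
  obtain ⟨hm', C', hC'⟩ := h'
  exact ⟨hm.add hm', C + C', fun w => (abs_add_le _ _).trans (add_le_add (hC w) (hC' w))⟩

theorem BM.sub {φ ψ : Ω → ℝ} (h : BM φ) (h' : BM ψ) : BM fun ω => φ ω - ψ ω := by
  obtain ⟨hm, C, hC⟩ := h
  obtain ⟨hm', C', hC'⟩ := h'
  exact ⟨hm.sub hm', C + C', fun w => (abs_sub _ _).trans (add_le_add (hC w) (hC' w))⟩

theorem BM.mul {φ ψ : Ω → ℝ} (h : BM φ) (h' : BM ψ) : BM fun ω => φ ω * ψ ω := by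
  obtain ⟨hm, C, hC⟩ := h
  obtain ⟨hm', C', hC'⟩ := h'
  refine ⟨hm.mul hm', C * C', fun w => ?_⟩
  rw [abs_mul]
  exact mul_le_mul (hC w) (hC' w) (abs_nonneg _) ((abs_nonneg _).trans (hC w))

theorem BM.const_mul {φ : Ω → ℝ} (h : BM φ) (c : ℝ) : BM fun ω => c * φ ω :=
  (BM.const c).mul h

theorem BM.pow {φ : Ω → ℝ} (h : BM φ) (k : ℕ) : BM fun ω => φ ω ^ k := by
  obtain ⟨hm, C, hC⟩ := h
  refine ⟨hm.pow_const k, C ^ k, fun w => ?_⟩
  rw [abs_pow]
  exact pow_le_pow_left₀ (abs_nonneg _) (hC w) k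

theorem BM.abs {φ : Ω → ℝ} (h : BM φ) : BM fun ω => |φ ω| := by
  obtain ⟨hm, C, hC⟩ := h
  exact ⟨hm.abs, C, fun w => by rw [abs_abs]; exact hC w⟩

theorem BM.exp {φ : Ω → ℝ} (h : BM φ) : BM fun ω => Real.exp (φ ω) := by
  obtain ⟨hm, C, hC⟩ := h
  refine ⟨hm.exp, Real.exp C, fun w => ?_⟩
  rw [abs_of_pos (Real.exp_pos _), Real.exp_le_exp]
  exact (le_abs_self _).trans (hC w)

theorem BM.sum {β : Type} (s : Finset β) {φ : β → Ω → ℝ} (h : ∀ j ∈ s, BM (φ j)) :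
    BM fun ω => ∑ j ∈ s, φ j ω := by
  classical
  induction s using Finset.induction_on with
  | empty => simpa using BM.const 0
  | insert a s ha ih =>
    simp only [Finset.sum_insert ha]
    exact (h a (by simp)).add (ih fun j hj => h j (by simp [hj]))

theorem BM.integrable [IsFiniteMeasure ν] {φ : Ω → ℝ} (h : BM φ) : Integrable φ ν := by
  obtain ⟨hm, C, hC⟩ := h
  exact (integrable_const C).mono' hm.aestronglyMeasurable (ae_of_all _ hC)

theorem gexp_eq (ζ : ℝ) (F g : Ω → ℝ) :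
    gexp ν ζ F g = (∫ ω, Real.exp (ζ * F ω) * g ω ∂ν) / ∫ ω, Real.exp (ζ * F ω) ∂ν := by
  rw [gexp, integral_tilted, ← integral_div]
  refine integral_congr_ae (ae_of_all _ fun ω => ?_)
  simp only [smul_eq_mul]
  ring

theorem exp_mul_lse [IsProbabilityMeasure ν] {ζ : ℝ} {F : Ω → ℝ}
    (hF : Integrable (fun ω => Real.exp (ζ * F ω)) ν) :
    Real.exp (ζ * lse ν ζ F) = ∫ ω, Real.exp (ζ * F ω) ∂ν := by
  unfold lse
  split_ifs with h
  · simp [h]
  · rw [mul_inv_cancel_left₀ h, Real.exp_log (integral_exp_pos hF)]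

theorem lse_const [IsProbabilityMeasure ν] (ζ c : ℝ) : lse ν ζ (fun _ => c) = c := by
  unfold lse
  split_ifs with h
  · simp
  · simp [h]

theorem lse_add_const [IsProbabilityMeasure ν] {ζ : ℝ} {F : Ω → ℝ} (h1 : Integrable F ν)
    (h2 : Integrable (fun ω => Real.exp (ζ * F ω)) ν) (c : ℝ) :
    lse ν ζ (fun ω => F ω + c) = lse ν ζ F + c := by
  unfold lse
  split_ifs with h
  · rw [integral_add h1 (integrable_const c)]
    simp
  · simp only [mul_add, Real.exp_add]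
    rw [integral_mul_const, Real.log_mul (integral_exp_pos h2).ne' (Real.exp_pos _).ne',
      Real.log_exp, mul_add, inv_mul_cancel_left₀ h]

theorem lse_congr_ae {ζ : ℝ} {F G : Ω → ℝ} (h : F =ᵐ[ν] G) : lse ν ζ F = lse ν ζ G := by
  unfold lse
  rw [integral_congr_ae h, integral_congr_ae (f := fun ω => Real.exp (ζ * F ω))
    (g := fun ω => Real.exp (ζ * G ω)) (h.mono fun ω hω => by simp only [hω])]

theorem gexp_congr_ae {ζ : ℝ} {F G g g' : Ω → ℝ} (h : F =ᵐ[ν] G) (h' : g =ᵐ[ν] g') :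
    gexp ν ζ F g = gexp ν ζ G g' := by
  rw [gexp_eq, gexp_eq, integral_congr_ae (f := fun ω => Real.exp (ζ * F ω))
    (g := fun ω => Real.exp (ζ * G ω)) (h.mono fun ω hω => by simp only [hω])]
  congr 1
  refine integral_congr_ae ?_
  filter_upwards [h, h'] with ω h1 h2
  rw [h1, h2]

theorem lse_mono' [IsProbabilityMeasure ν] {ζ : ℝ} (hζ : 0 ≤ ζ) {F G : Ω → ℝ}
    (hF : Integrable F ν) (hF' : Integrable (fun ω => Real.exp (ζ * F ω)) ν)
    (hG : Integrable G ν) (hG' : Integrable (fun ω => Real.exp (ζ * G ω)) ν)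
    (h : F ≤ᵐ[ν] G) : lse ν ζ F ≤ lse ν ζ G := by
  unfold lse
  split_ifs with h0
  · exact integral_mono_ae hF hG h
  · refine mul_le_mul_of_nonneg_left (Real.log_le_log (integral_exp_pos hF')
      (integral_mono_ae hF' hG' (h.mono fun ω hω => ?_))) (inv_nonneg.2 hζ)
    exact Real.exp_le_exp.2 (mul_le_mul_of_nonneg_left hω hζ)

theorem lse_mono [IsProbabilityMeasure ν] {ζ : ℝ} (hζ : 0 ≤ ζ) {F G : Ω → ℝ}
    (hF : EInt ν F) (hG : EInt ν G) (h : ∀ ω, F ω ≤ G ω) : lse ν ζ F ≤ lse ν ζ G :=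
  lse_mono' hζ hF.integrable (hF.2 ζ) hG.integrable (hG.2 ζ) (ae_of_all _ h)

theorem abs_lse_sub_le [IsProbabilityMeasure ν] {ζ : ℝ} (hζ : 0 ≤ ζ) {F G : Ω → ℝ}
    (hF : EInt ν F) (hG : EInt ν G) {b : ℝ} (h : ∀ᵐ ω ∂ν, |G ω - F ω| ≤ b) :
    |lse ν ζ G - lse ν ζ F| ≤ b := by
  have key : ∀ {F G : Ω → ℝ}, EInt ν F → EInt ν G → (∀ᵐ ω ∂ν, |G ω - F ω| ≤ b) →
      lse ν ζ G ≤ lse ν ζ F + b := by
    intro F G hF hG h
    have h1 := hF.add (EInt.const b)
    rw [← lse_add_const hF.integrable (hF.2 ζ)]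
    exact lse_mono' hζ hG.integrable (hG.2 ζ) h1.integrable (h1.2 ζ)
      (h.mono fun ω hω => by
        have := (abs_le.1 hω).2
        change G ω ≤ F ω + b
        linarith)
  have h1 := key hF hG h
  have h2 := key hG hF (h.mono fun ω hω => by rwa [abs_sub_comm])
  rw [abs_le]
  constructor <;> linarith

theorem mean_le_lse [IsProbabilityMeasure ν] {ζ : ℝ} (hζ : 0 ≤ ζ) {F : Ω → ℝ}
    (hF : Integrable F ν) (hF' : Integrable (fun ω => Real.exp (ζ * F ω)) ν) :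
    ∫ ω, F ω ∂ν ≤ lse ν ζ F := by
  rcases hζ.eq_or_lt with h0 | h0
  · rw [lse, if_pos h0.symm]
  · set m := ∫ ω, F ω ∂ν with hm
    have h1 : ∫ ω, Real.exp (ζ * m) * (ζ * (F ω - m) + 1) ∂ν ≤ ∫ ω, Real.exp (ζ * F ω) ∂ν := by
      refine integral_mono ((((hF.sub (integrable_const m)).const_mul ζ).add
        (integrable_const 1)).const_mul _) hF' fun ω => ?_
      have e : Real.exp (ζ * F ω) = Real.exp (ζ * m) * Real.exp (ζ * (F ω - m)) := by
        rw [← Real.exp_add]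
        congr 1
        ring
      simp only [e]
      exact mul_le_mul_of_nonneg_left (Real.add_one_le_exp _) (Real.exp_pos _).le
    have i1 : Integrable (fun ω => F ω - m) ν := hF.sub (integrable_const m)
    rw [integral_const_mul, integral_add (i1.const_mul ζ) (integrable_const 1), integral_const_mul,
      integral_sub hF (integrable_const m), ← exp_mul_lse hF'] at h1
    simp only [integral_const, probReal_univ, smul_eq_mul, one_mul, ← hm, sub_self, mul_zero,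
      zero_add, mul_one, Real.exp_le_exp] at h1
    exact le_of_mul_le_mul_left h1 h0

theorem lse_mono_zeta [IsProbabilityMeasure ν] {ζ' ζ : ℝ} (h0 : 0 ≤ ζ') (h : ζ' ≤ ζ)
    {F : Ω → ℝ} (hF : EInt ν F) : lse ν ζ' F ≤ lse ν ζ F := by
  rcases h0.eq_or_lt with h1 | h1
  · rw [lse, if_pos h1.symm]
    exact mean_le_lse (h0.trans h) hF.integrable (hF.2 ζ)
  · have hζ : 0 < ζ := h1.trans_le h
    have hr : 1 ≤ ζ / ζ' := (one_le_div h1).2 h
    set L := lse ν ζ' F with hL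
    have i1 : Integrable (fun ω => Real.exp (ζ' * F ω) * Real.exp (-(ζ' * L)) - 1) ν :=
      ((hF.2 ζ').mul_const _).sub (integrable_const 1)
    have h2 : ∫ ω, Real.exp (ζ * L) * (1 + ζ / ζ' *
        (Real.exp (ζ' * F ω) * Real.exp (-(ζ' * L)) - 1)) ∂ν ≤ ∫ ω, Real.exp (ζ * F ω) ∂ν := by
      refine integral_mono (((integrable_const 1).add (i1.const_mul _)).const_mul _) (hF.2 ζ)
        fun ω => ?_
      have e1 := one_add_mul_self_le_rpow_one_add
        (s := Real.exp (ζ' * F ω) * Real.exp (-(ζ' * L)) - 1)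
        (by linarith [mul_pos (Real.exp_pos (ζ' * F ω)) (Real.exp_pos (-(ζ' * L)))]) hr
      refine (mul_le_mul_of_nonneg_left e1 (Real.exp_pos _).le).trans (le_of_eq ?_)
      rw [add_sub_cancel, ← Real.exp_add, ← Real.exp_mul, ← Real.exp_add]
      congr 1
      field_simp
      ring
    rw [integral_const_mul, integral_add (integrable_const 1) (i1.const_mul _), integral_const_mul,
      integral_sub ((hF.2 ζ').mul_const _) (integrable_const 1), integral_mul_const,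
      ← exp_mul_lse (hF.2 ζ'), ← exp_mul_lse (hF.2 ζ), ← hL, ← Real.exp_add] at h2
    simp only [integral_const, probReal_univ, smul_eq_mul, add_neg_cancel, Real.exp_zero,
      sub_self, mul_zero, add_zero, mul_one, Real.exp_le_exp] at h2
    exact le_of_mul_le_mul_left h2 hζ

namespace LseAux

theorem lse_sub' [IsProbabilityMeasure ν] (ζ : ℝ) {F G : Ω → ℝ} (hF : EInt ν F)
    (hG' : Integrable (fun ω => Real.exp (ζ * G ω)) ν)
    (hG : Integrable G (ν.tilted fun ω => ζ * F ω)) :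
    lse ν ζ G - lse ν ζ F = lse (ν.tilted fun ω => ζ * F ω) ζ fun ω => G ω - F ω := by
  unfold lse
  split_ifs with h
  · subst h
    simp only [zero_mul, tilted_const] at hG ⊢
    rw [integral_sub hG hF.integrable]
  · rw [integral_exp_tilted, ← mul_sub,
      ← Real.log_div (integral_exp_pos hG').ne' (integral_exp_pos (hF.2 ζ)).ne']
    congr 3
    refine integral_congr_ae (ae_of_all _ fun ω => ?_)
    simp only [Pi.add_apply]
    congr 1
    ring

theorem cum_real {ζ b y V : ℝ} (h0 : 0 < ζ) (h1 : ζ ≤ 1) (hb : 0 ≤ b) (h2 : ζ * b ≤ 1 / 2)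
    (hy : 0 ≤ y) (hV : V ≤ b ^ 2) (h : |y - ζ ^ 2 / 2 * V| ≤ 16 / 9 * (ζ * b) ^ 3) :
    |ζ⁻¹ * Real.log (1 + y) - ζ / 2 * V| ≤ 12 * b ^ 3 := by
  have hs : 0 ≤ ζ * b := by positivity
  have e1 : Real.log (1 + y) ≤ y := by
    linarith [Real.log_le_sub_one_of_pos (show 0 < 1 + y by linarith)]
  have e2 : y - y ^ 2 ≤ Real.log (1 + y) := by
    refine le_trans ?_ (Real.one_sub_inv_le_log_of_pos (show 0 < 1 + y by linarith))
    have : (1 + y)⁻¹ ≤ 1 - y + y ^ 2 := by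
      rw [inv_le_iff_one_le_mul₀ (by linarith)]
      nlinarith [pow_nonneg hy 3]
    linarith
  rw [abs_le] at h
  have e3 : ζ ^ 2 / 2 * V ≤ (ζ * b) ^ 2 / 2 := by nlinarith [sq_nonneg ζ]
  obtain ⟨s, hs'⟩ : ∃ s, s = ζ * b := ⟨_, rfl⟩
  rw [← hs'] at h e3 h2 hs
  have e4 : s ^ 3 ≤ s ^ 2 / 2 := by nlinarith [sq_nonneg s]
  have e5 : y ≤ 1.4 * s ^ 2 := by nlinarith [sq_nonneg s]
  have e6 : y ^ 2 ≤ (1.4 * s ^ 2) ^ 2 := pow_le_pow_left₀ hy e5 2
  have e7 : s ^ 4 ≤ s ^ 3 / 2 := by nlinarith [pow_nonneg hs 3]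
  have e8 : y ^ 2 ≤ s ^ 3 := by nlinarith [pow_nonneg hs 4]
  have e9 : |Real.log (1 + y) - ζ ^ 2 / 2 * V| ≤ 3 * s ^ 3 := by
    rw [abs_le]
    constructor <;> nlinarith [pow_nonneg hs 3]
  have e10 : ζ⁻¹ * Real.log (1 + y) - ζ / 2 * V = ζ⁻¹ * (Real.log (1 + y) - ζ ^ 2 / 2 * V) := by
    field_simp
  rw [e10, abs_mul, abs_of_pos (inv_pos.2 h0), inv_mul_le_iff₀ h0]
  refine e9.trans ?_
  have e11 : ζ ^ 2 ≤ 1 := pow_le_one₀ h0.le h1
  have e12 : 0 ≤ ζ * b ^ 3 := by positivity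
  rw [hs']
  nlinarith

end LseAux

theorem lse_sub [IsProbabilityMeasure ν] (ζ : ℝ) {F G : Ω → ℝ} (hF : EInt ν F) (hG : EInt ν G) :
    lse ν ζ G - lse ν ζ F = lse (ν.tilted fun ω => ζ * F ω) ζ fun ω => G ω - F ω := by
  have := hF.prob_tilted ζ
  exact LseAux.lse_sub' ζ hF (hG.2 ζ) (hF.tilted hG ζ).integrable

/-- Jensen, in a form that allows a non exponentially integrable lower tail of `G`. -/
theorem gexp_le_lse_sub' [IsProbabilityMeasure ν] {ζ : ℝ} (hζ : 0 ≤ ζ) {F G : Ω → ℝ}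
    (hF : EInt ν F) (hG' : Integrable (fun ω => Real.exp (ζ * G ω)) ν)
    (hG : Integrable G (ν.tilted fun ω => ζ * F ω)) :
    gexp ν ζ F (fun ω => G ω - F ω) ≤ lse ν ζ G - lse ν ζ F := by
  have := hF.prob_tilted ζ
  rw [LseAux.lse_sub' ζ hF hG' hG]
  refine mean_le_lse hζ (hG.sub (hF.tilted hF ζ).integrable)
    ((integrable_tilted_iff (hF.2 ζ) _).2 (hG'.congr (ae_of_all _ fun ω => ?_)))
  simp only [smul_eq_mul, ← Real.exp_add]
  congr 1
  ring

theorem gexp_le_lse_sub [IsProbabilityMeasure ν] {ζ : ℝ} (hζ : 0 ≤ ζ) {F G : Ω → ℝ}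
    (hF : EInt ν F) (hG : EInt ν G) :
    gexp ν ζ F (fun ω => G ω - F ω) ≤ lse ν ζ G - lse ν ζ F := by
  have := hF.prob_tilted ζ
  exact gexp_le_lse_sub' hζ hF (hG.2 ζ) (hF.tilted hG ζ).integrable

theorem gexp_change [IsProbabilityMeasure ν] (ζ : ℝ) {F G : Ω → ℝ} (hF : EInt ν F)
    (hG : EInt ν G) (g : Ω → ℝ) :
    gexp ν ζ G g = gexp ν ζ F (fun ω => g ω * Real.exp (ζ * (G ω - F ω)))
      * Real.exp (-(ζ * (lse ν ζ G - lse ν ζ F))) := by
  have h1 : ∀ ω, Real.exp (ζ * F ω) * (g ω * Real.exp (ζ * (G ω - F ω))) =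
      Real.exp (ζ * G ω) * g ω := by
    intro ω
    rw [mul_left_comm, ← Real.exp_add, mul_comm]
    congr 2
    ring
  rw [gexp_eq, gexp_eq, mul_sub, neg_sub, Real.exp_sub, exp_mul_lse (hF.2 ζ), exp_mul_lse (hG.2 ζ)]
  simp only [h1]
  have h2 := (integral_exp_pos (hF.2 ζ)).ne'
  field_simp

theorem gexp_zero [IsProbabilityMeasure ν] (F g : Ω → ℝ) : gexp ν 0 F g = ∫ ω, g ω ∂ν := by
  simp only [gexp, zero_mul, tilted_const]

theorem gexp_const [IsProbabilityMeasure ν] (ζ : ℝ) {F : Ω → ℝ} (hF : EInt ν F) (c : ℝ) :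
    gexp ν ζ F (fun _ => c) = c := by
  have := hF.prob_tilted ζ
  simp [gexp]

theorem gexp_add [IsProbabilityMeasure ν] (ζ : ℝ) {F g g' : Ω → ℝ} (hF : EInt ν F)
    (hg : EInt ν g) (hg' : EInt ν g') :
    gexp ν ζ F (fun ω => g ω + g' ω) = gexp ν ζ F g + gexp ν ζ F g' := by
  have := hF.prob_tilted ζ
  exact integral_add (hF.tilted hg ζ).integrable (hF.tilted hg' ζ).integrable

theorem gexp_sub [IsProbabilityMeasure ν] (ζ : ℝ) {F g g' : Ω → ℝ} (hF : EInt ν F)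
    (hg : EInt ν g) (hg' : EInt ν g') :
    gexp ν ζ F (fun ω => g ω - g' ω) = gexp ν ζ F g - gexp ν ζ F g' := by
  have := hF.prob_tilted ζ
  exact integral_sub (hF.tilted hg ζ).integrable (hF.tilted hg' ζ).integrable

theorem gexp_const_mul (ζ : ℝ) (F g : Ω → ℝ) (c : ℝ) :
    gexp ν ζ F (fun ω => c * g ω) = c * gexp ν ζ F g :=
  integral_const_mul _ _

theorem gexp_sum [IsProbabilityMeasure ν] (ζ : ℝ) {F : Ω → ℝ} (hF : EInt ν F) {β : Type}
    (s : Finset β) {g : β → Ω → ℝ} (hg : ∀ j ∈ s, EInt ν (g j)) :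
    gexp ν ζ F (fun ω => ∑ j ∈ s, g j ω) = ∑ j ∈ s, gexp ν ζ F (g j) := by
  have := hF.prob_tilted ζ
  exact integral_finsetSum s fun j hj => (hF.tilted (hg j hj) ζ).integrable

theorem gexp_mono_ae [IsProbabilityMeasure ν] (ζ : ℝ) {F g g' : Ω → ℝ} (hF : EInt ν F)
    (hg : EInt ν g) (hg' : EInt ν g') (h : g ≤ᵐ[ν] g') : gexp ν ζ F g ≤ gexp ν ζ F g' := by
  have := hF.prob_tilted ζ
  exact integral_mono_ae (hF.tilted hg ζ).integrable (hF.tilted hg' ζ).integrable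
    ((tilted_absolutelyContinuous ν _).ae_le h)

theorem gexp_mono [IsProbabilityMeasure ν] (ζ : ℝ) {F g g' : Ω → ℝ} (hF : EInt ν F)
    (hg : EInt ν g) (hg' : EInt ν g') (h : ∀ ω, g ω ≤ g' ω) : gexp ν ζ F g ≤ gexp ν ζ F g' :=
  gexp_mono_ae ζ hF hg hg' (ae_of_all _ h)

theorem gexp_nonneg (ζ : ℝ) (F : Ω → ℝ) {g : Ω → ℝ} (h : ∀ ω, 0 ≤ g ω) : 0 ≤ gexp ν ζ F g :=
  integral_nonneg h

theorem abs_gexp_le (ζ : ℝ) (F : Ω → ℝ) {g : Ω → ℝ} {C : ℝ} (hC : 0 ≤ C)
    (h : ∀ᵐ ω ∂ν, |g ω| ≤ C) : |gexp ν ζ F g| ≤ C := by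
  refine (norm_integral_le_of_norm_le_const (μ := ν.tilted fun ω => ζ * F ω) (f := g)
    ((tilted_absolutelyContinuous ν _).ae_le h)).trans ?_
  exact mul_le_of_le_one_right hC measureReal_le_one

theorem abs_gexp_le_gexp_abs (ζ : ℝ) (F g : Ω → ℝ) :
    |gexp ν ζ F g| ≤ gexp ν ζ F fun ω => |g ω| :=
  abs_integral_le_integral_abs

theorem sq_gexp_le [IsProbabilityMeasure ν] (ζ : ℝ) {F g : Ω → ℝ} (hF : EInt ν F)
    (hg : EInt ν g) : gexp ν ζ F g ^ 2 ≤ gexp ν ζ F fun ω => g ω ^ 2 := by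
  have := hF.prob_tilted ζ
  have i1 := (hF.tilted hg ζ).integrable
  set m := gexp ν ζ F g with hm
  have h1 : ∫ ω, (2 * m * g ω - m ^ 2) ∂(ν.tilted fun ω => ζ * F ω) ≤
      gexp ν ζ F fun ω => g ω ^ 2 :=
    integral_mono ((i1.const_mul _).sub (integrable_const _)) ((hF.tilted hg ζ).integrable_pow 2)
      fun ω => by
        change 2 * m * g ω - m ^ 2 ≤ g ω ^ 2
        nlinarith [sq_nonneg (g ω - m)]
  rw [integral_sub (i1.const_mul _) (integrable_const _), integral_const_mul] at h1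
  change 2 * m * m - _ ≤ _ at h1
  simp only [integral_const, probReal_univ, smul_eq_mul, one_mul] at h1
  linarith

/-- Density comparison for one tilt. -/
theorem gexp_le_exp_mul [IsProbabilityMeasure ν] {ζ : ℝ} (hζ : 0 ≤ ζ) {F G g : Ω → ℝ}
    (hF : EInt ν F) (hG : EInt ν G) {b : ℝ} (h : ∀ᵐ ω ∂ν, |G ω - F ω| ≤ b)
    (hg : Integrable g (ν.tilted fun ω => ζ * F ω)) (hg0 : ∀ ω, 0 ≤ g ω) :
    gexp ν ζ G g ≤ Real.exp (2 * ζ * b) * gexp ν ζ F g := by
  rw [gexp_change ζ hF hG]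
  have h1 : gexp ν ζ F (fun ω => g ω * Real.exp (ζ * (G ω - F ω))) ≤
      gexp ν ζ F g * Real.exp (ζ * b) := by
    unfold gexp
    rw [← integral_mul_const]
    refine integral_mono_of_nonneg (ae_of_all _ fun ω => mul_nonneg (hg0 ω) (Real.exp_pos _).le)
      (hg.mul_const _) ((tilted_absolutelyContinuous ν _).ae_le (h.mono fun ω hω => ?_))
    exact mul_le_mul_of_nonneg_left
      (Real.exp_le_exp.2 (mul_le_mul_of_nonneg_left (abs_le.1 hω).2 hζ)) (hg0 ω)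
  have h2 : Real.exp (-(ζ * (lse ν ζ G - lse ν ζ F))) ≤ Real.exp (ζ * b) := by
    rw [Real.exp_le_exp, ← mul_neg]
    exact mul_le_mul_of_nonneg_left (by linarith [(abs_le.1 (abs_lse_sub_le hζ hF hG h)).1]) hζ
  refine (mul_le_mul h1 h2 (Real.exp_pos _).le
    (mul_nonneg (gexp_nonneg ζ F hg0) (Real.exp_pos _).le)).trans (le_of_eq ?_)
  rw [mul_assoc, ← Real.exp_add, mul_comm]
  congr 2
  ring

/-- Second order cumulant expansion. -/
theorem cumulant [IsProbabilityMeasure ν] {ζ : ℝ} (h0 : 0 ≤ ζ) (h1 : ζ ≤ 1) {δ : Ω → ℝ}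
    (hm : Measurable δ) {b : ℝ} (hb : ∀ ω, |δ ω| ≤ b) :
    |lse ν ζ δ - ∫ ω, δ ω ∂ν - ζ / 2 * (∫ ω, δ ω ^ 2 ∂ν - (∫ ω, δ ω ∂ν) ^ 2)| ≤ 12 * b ^ 3 := by
  have hb0 : 0 ≤ b := by
    obtain ⟨ω⟩ := ν.nonempty_of_neZero
    exact (abs_nonneg _).trans (hb ω)
  have hB : BM δ := ⟨hm, b, hb⟩
  have i1 : Integrable δ ν := hB.integrable
  have i2 : Integrable (fun ω => δ ω ^ 2) ν := (hB.pow 2).integrable
  set m := ∫ ω, δ ω ∂ν with hmd
  set V := ∫ ω, δ ω ^ 2 ∂ν - m ^ 2 with hV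
  have hmb : |m| ≤ b := by
    simpa using norm_integral_le_of_norm_le_const (μ := ν) (f := δ) (ae_of_all _ hb)
  have hV1 : V ≤ b ^ 2 := by
    have : ∫ ω, δ ω ^ 2 ∂ν ≤ ∫ _, b ^ 2 ∂ν :=
      integral_mono i2 (integrable_const _) fun ω => sq_le_sq' (abs_le.1 (hb ω)).1 (abs_le.1 (hb ω)).2
    simp only [integral_const, probReal_univ, smul_eq_mul, one_mul] at this
    linarith [sq_nonneg m]
  have hV0 : 0 ≤ V := by
    have := sq_gexp_le 0 hB.eint hB.eint (ν := ν)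
    rw [gexp_zero, gexp_zero] at this
    linarith
  rcases h0.eq_or_lt with hz | hz
  · subst hz
    rw [lse, if_pos rfl]
    simp only [← hmd, sub_self, zero_div, zero_mul, abs_zero]
    positivity
  rcases le_or_gt (ζ * b) (1 / 2) with h2 | h2
  · have hU : BM fun ω => δ ω - m := hB.sub (BM.const m)
    have i3 : Integrable (fun ω => Real.exp (ζ * (δ ω - m))) ν := (hU.eint (ν := ν)).2 ζ
    have e1 : lse ν ζ δ - m = ζ⁻¹ * Real.log (1 + (∫ ω, Real.exp (ζ * (δ ω - m)) ∂ν - 1)) := by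
      have := lse_add_const i1 ((hB.eint (ν := ν)).2 ζ) (-m)
      rw [← sub_eq_add_neg] at this
      rw [← this, lse, if_neg hz.ne', add_sub_cancel]
      simp only [← sub_eq_add_neg]
    have i4 : Integrable (fun ω => 1 - ζ * m + ζ ^ 2 / 2 * m ^ 2 + (ζ - ζ ^ 2 * m) * δ ω) ν :=
      (integrable_const _).add (i1.const_mul _)
    have e2 : ∫ ω, (1 - ζ * m + ζ ^ 2 / 2 * m ^ 2 + (ζ - ζ ^ 2 * m) * δ ω
        + ζ ^ 2 / 2 * δ ω ^ 2) ∂ν = 1 + ζ ^ 2 / 2 * V := by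
      rw [integral_add i4 (i2.const_mul _), integral_add (integrable_const _) (i1.const_mul _),
        integral_const_mul, integral_const_mul, ← hmd, hV]
      simp only [integral_const, probReal_univ, smul_eq_mul, one_mul]
      ring
    have e3 : |∫ ω, Real.exp (ζ * (δ ω - m)) ∂ν - (1 + ζ ^ 2 / 2 * V)| ≤
        16 / 9 * (ζ * b) ^ 3 := by
      have i5 : Integrable (fun ω => 1 - ζ * m + ζ ^ 2 / 2 * m ^ 2 + (ζ - ζ ^ 2 * m) * δ ω
          + ζ ^ 2 / 2 * δ ω ^ 2) ν := i4.add (i2.const_mul _)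
      rw [← e2, ← integral_sub i3 i5]
      have := norm_integral_le_of_norm_le_const (μ := ν) (C := 16 / 9 * (ζ * b) ^ 3)
        (f := fun ω => Real.exp (ζ * (δ ω - m)) - (1 - ζ * m + ζ ^ 2 / 2 * m ^ 2 +
          (ζ - ζ ^ 2 * m) * δ ω + ζ ^ 2 / 2 * δ ω ^ 2)) (ae_of_all _ fun ω => by
        have a1 : |ζ * (δ ω - m)| ≤ 2 * (ζ * b) := by
          rw [abs_mul, abs_of_pos hz]
          have := (abs_sub (δ ω) m).trans (add_le_add (hb ω) hmb)
          nlinarith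
        have a2 := Real.exp_bound (x := ζ * (δ ω - m)) (a1.trans (by linarith))
          (n := 3) (by norm_num)
        have a3 : ∑ k ∈ Finset.range 3, (ζ * (δ ω - m)) ^ k / (k.factorial : ℝ) =
            1 - ζ * m + ζ ^ 2 / 2 * m ^ 2 + (ζ - ζ ^ 2 * m) * δ ω + ζ ^ 2 / 2 * δ ω ^ 2 := by
          simp [Finset.sum_range_succ, Nat.factorial]
          ring
        rw [a3] at a2
        refine a2.trans ?_
        have a4 := pow_le_pow_left₀ (abs_nonneg _) a1 3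
        norm_num [Nat.factorial] at a4 ⊢
        linarith)
      simpa using this
    have e4 : 0 ≤ ∫ ω, Real.exp (ζ * (δ ω - m)) ∂ν - 1 := by
      have a1 := mean_le_lse h0 (hU.integrable (ν := ν)) i3
      rw [integral_sub i1 (integrable_const _)] at a1
      simp only [integral_const, probReal_univ, smul_eq_mul, one_mul, ← hmd, sub_self] at a1
      rw [← exp_mul_lse i3, sub_nonneg]
      exact Real.one_le_exp (mul_nonneg h0 a1)
    rw [e1]
    refine LseAux.cum_real hz h1 hb0 h2 e4 hV1 ?_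
    rwa [sub_sub]
  · have hb1 : 1 / 2 < b := h2.trans_le (mul_le_of_le_one_left hb0 h1)
    have e1 := abs_lse_sub_le (ν := ν) h0 (EInt.const 0) hB.eint (b := b)
      (ae_of_all _ fun ω => by simpa using hb ω)
    rw [lse_const, sub_zero, abs_le] at e1
    rw [abs_le] at hmb ⊢
    have e2 : ζ / 2 * V ≤ b ^ 2 / 2 := by nlinarith
    have e3 : 0 ≤ ζ / 2 * V := by positivity
    have e4 : b ≤ 2 * b ^ 2 := by nlinarith
    have e5 : b ^ 2 ≤ 2 * b ^ 3 := by nlinarith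
    constructor <;> nlinarith

theorem measurable_lse [SFinite ν] {E : Type} [MeasurableSpace E] (ζ : ℝ) {F : E → Ω → ℝ}
    (hF : Measurable (Function.uncurry F)) : Measurable fun e => lse ν ζ (F e) := by
  unfold lse
  split_ifs with h
  · exact hF.stronglyMeasurable.integral_prod_right.measurable
  · exact ((StronglyMeasurable.integral_prod_right (f := fun e ω => Real.exp (ζ * F e ω))
      (hF.const_mul ζ).exp.stronglyMeasurable).measurable.log).const_mul _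

theorem measurable_gexp [SFinite ν] {E : Type} [MeasurableSpace E] (ζ : ℝ) {F g : E → Ω → ℝ}
    (hF : Measurable (Function.uncurry F)) (hg : Measurable (Function.uncurry g)) :
    Measurable fun e => gexp ν ζ (F e) (g e) := by
  simp only [gexp_eq]
  exact (StronglyMeasurable.integral_prod_right (f := fun e ω => Real.exp (ζ * F e ω) * g e ω)
      ((hF.const_mul ζ).exp.mul hg).stronglyMeasurable).measurable.div
    (StronglyMeasurable.integral_prod_right (f := fun e ω => Real.exp (ζ * F e ω))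
      (hF.const_mul ζ).exp.stronglyMeasurable).measurable

theorem lse_map {Ω' : Type} [MeasurableSpace Ω'] {φ : Ω → Ω'} (hφ : Measurable φ) (ζ : ℝ)
    {F : Ω' → ℝ} (hF : Measurable F) : lse (ν.map φ) ζ F = lse ν ζ fun ω => F (φ ω) := by
  unfold lse
  rw [integral_map hφ.aemeasurable hF.aestronglyMeasurable,
    integral_map hφ.aemeasurable (hF.const_mul ζ).exp.aestronglyMeasurable]

theorem gexp_map {Ω' : Type} [MeasurableSpace Ω'] {φ : Ω → Ω'} (hφ : Measurable φ) (ζ : ℝ)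
    {F g : Ω' → ℝ} (hF : Measurable F) (hg : Measurable g) :
    gexp (ν.map φ) ζ F g = gexp ν ζ (fun ω => F (φ ω)) fun ω => g (φ ω) := by
  have h1 : Measurable fun x => Real.exp (ζ * F x) * g x := (hF.const_mul ζ).exp.mul hg
  rw [gexp_eq, gexp_eq, integral_map hφ.aemeasurable h1.aestronglyMeasurable,
    integral_map hφ.aemeasurable (hF.const_mul ζ).exp.aestronglyMeasurable]

theorem LseAux.int_prod [IsProbabilityMeasure ν] {Ω' : Type} [MeasurableSpace Ω']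
    {ν' : Measure Ω'} [IsProbabilityMeasure ν'] (ζ : ℝ) {F : Ω × Ω' → ℝ}
    (hF : EInt (ν.prod ν') F) :
    ∫ x, Real.exp (ζ * F x) ∂(ν.prod ν') =
      ∫ a, Real.exp (ζ * lse ν' ζ fun b => F (a, b)) ∂ν := by
  rw [integral_prod _ (hF.2 ζ)]
  refine integral_congr_ae ?_
  filter_upwards [(hF.2 ζ).prod_right_ae] with a ha
  rw [exp_mul_lse ha]

theorem lse_prod [IsProbabilityMeasure ν] {Ω' : Type} [MeasurableSpace Ω'] {ν' : Measure Ω'}
    [IsProbabilityMeasure ν'] (ζ : ℝ) {F : Ω × Ω' → ℝ} (hF : EInt (ν.prod ν') F) :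
    lse (ν.prod ν') ζ F = lse ν ζ fun a => lse ν' ζ fun b => F (a, b) := by
  by_cases h : ζ = 0
  · simp only [lse, if_pos h]
    exact integral_prod _ hF.integrable
  · rw [lse, if_neg h, lse, if_neg h, LseAux.int_prod ζ hF]

theorem gexp_prod [IsProbabilityMeasure ν] {Ω' : Type} [MeasurableSpace Ω'] {ν' : Measure Ω'}
    [IsProbabilityMeasure ν'] (ζ : ℝ) {F g : Ω × Ω' → ℝ} (hF : EInt (ν.prod ν') F) (hg : BM g) :
    gexp (ν.prod ν') ζ F g = gexp ν ζ (fun a => lse ν' ζ fun b => F (a, b))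
      fun a => gexp ν' ζ (fun b => F (a, b)) fun b => g (a, b) := by
  obtain ⟨hm, C, hC⟩ := hg
  have i1 : Integrable (fun x => Real.exp (ζ * F x) * g x) (ν.prod ν') :=
    (hF.2 ζ).mul_bdd hm.aestronglyMeasurable (ae_of_all _ hC)
  rw [gexp_eq, gexp_eq, LseAux.int_prod ζ hF, integral_prod _ i1]
  congr 1
  refine integral_congr_ae ?_
  filter_upwards [(hF.2 ζ).prod_right_ae] with a ha
  rw [exp_mul_lse ha, gexp_eq, mul_div_cancel₀ _ (integral_exp_pos ha).ne']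

end Vale.Agent.P157
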