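import Vale.Agent.P157.Mlr

/-! # Monotonicity of the overlaps of the `log cosh` cascade -/

namespace Vale.Agent.P157

open MeasureTheory ProbabilityTheory

namespace MonoAux

theorem abs_tanh_le (x : ℝ) : |Real.tanh x| ≤ 1 :=
  (sq_le_one_iff_abs_le_one _).1 (Real.tanh_sq_lt_one x).le

theorem bm_tanh : BM Real.tanh := djet_lc.bm_m

theorem cas {ζ : ℕ → ℝ} (hζ : Zok ζ) (v : ℕ → ℝ) : Cas ζ (g1s v) lc := cas_g1s hζ v lg_lc

/-- Squared conditional magnetisation. -/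
noncomputable def G (ζ v : ℕ → ℝ) (k : ℕ) (x : ℝ) : ℝ := Ex ζ (g1s v) lc 0 Real.tanh k x ^ 2

theorem rho1_eq (n : ℕ) (ζ c : ℕ → ℝ) (k : ℕ) :
    rho1 n ζ c k = Ex ζ (g1s (dq c)) lc k (G ζ (dq c) k) (n + 1) 0 := rfl

theorem bm_G {ζ : ℕ → ℝ} (hζ : Zok ζ) (v : ℕ → ℝ) (k : ℕ) : BM (G ζ v k) :=
  ((cas hζ v).bmEx 0 bm_tanh k).pow 2

theorem en_G {ζ : ℕ → ℝ} (hζ : Zok ζ) (v : ℕ → ℝ) (k : ℕ) : EN (G ζ v k) :=
  (lc_structure hζ v k).2.2.2

theorem G_congr (ζ : ℕ → ℝ) {v v' : ℕ → ℝ} {k : ℕ} (h : ∀ j, j < k → v j = v' j) :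
    G ζ v k = G ζ v' k := by
  funext x
  unfold G
  rw [Ex_congr (ζ' := ζ) (ν := g1s v) (ν' := g1s v') (fun j hj => ⟨rfl, congrArg g1 (h j hj)⟩)]

theorem en_Ex {ζ : ℕ → ℝ} (hζ : Zok ζ) (v : ℕ → ℝ) (k : ℕ) {φ : ℝ → ℝ} (hb : BM φ) (he : EN φ)
    (d : ℕ) : EN (Ex ζ (g1s v) lc k φ d) := by
  induction d with
  | zero => exact he
  | succ d ih =>
    rcases le_or_gt k d with h | h
    · rw [Ex_succ h]
      exact P_EN _ _ ((cas hζ v).lgX d) (lc_structure hζ v d).1.1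
        ((cas hζ v).bmEx k hb d).lg ih
    · rw [Ex_of_le (Nat.succ_le_of_lt h)]
      exact he

theorem shiftBM {φ : ℝ → ℝ} (h : BM φ) (w : ℝ) : BM fun z => φ (w + z) :=
  ⟨h.1.comp (measurable_const_add w), h.2.imp fun _ hC _ => hC _⟩

theorem P_mono (ζ v : ℝ) {Ψ g g' : ℝ → ℝ} (hΨ : LG Ψ) (hg : BM g) (hg' : BM g')
    (h : ∀ x, g x ≤ g' x) (x : ℝ) : P ζ (g1 v) Ψ g x ≤ P ζ (g1 v) Ψ g' x :=
  gexp_mono ζ (hΨ.eint (noise_g1 v) x) (shiftBM hg x).eint (shiftBM hg' x).eint fun _ => h _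

/-- Comparison of two systems: potential difference and upper observable grow with `|x|`. -/
structure Rel (Ψ' Ψ g' g : ℝ → ℝ) : Prop where
  lg' : LG Ψ'
  lg : LG Ψ
  ev' : ∀ x, Ψ' (-x) = Ψ' x
  en : EN fun x => Ψ x - Ψ' x
  bm : BM fun x => Ψ x - Ψ' x
  bg' : BM g'
  bg : BM g
  eg : EN g
  le : ∀ x, g' x ≤ g x

theorem Rel.step {Ψ' Ψ g' g : ℝ → ℝ} (h : Rel Ψ' Ψ g' g) {ζ : ℝ} (hζ : 0 ≤ ζ) (v : ℝ) :
    Rel (T ζ (g1 v) Ψ') (T ζ (g1 v) Ψ) (P ζ (g1 v) Ψ' g') (P ζ (g1 v) Ψ g) := by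
  have ev : ∀ x, Ψ (-x) = Ψ x := fun x => by
    have h1 := h.en.1 x
    have h2 := h.ev' x
    simp only at h1
    linarith
  have l' := h.lg'.step hζ (noise_g1 v)
  have l := h.lg.step hζ (noise_g1 v)
  refine ⟨l', l, T_even ζ v h.lg'.1 h.ev', T_sub_T_EN hζ v h.lg' h.ev' h.lg h.en h.bm, ?_,
    BM.kernel ζ (noise_g1 v) h.lg' h.bg', BM.kernel ζ (noise_g1 v) h.lg h.bg,
    P_EN ζ v h.lg ev h.bg.lg h.eg, fun x => ?_⟩
  · obtain ⟨C, hC⟩ := h.bm.2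
    exact ⟨l.1.sub l'.1, C, fun x => abs_lse_sub_le hζ (h.lg'.eint (noise_g1 v) x)
      (h.lg.eint (noise_g1 v) x) (ae_of_all _ fun z => hC _)⟩
  · exact (P_mono ζ v h.lg' h.bg' h.bg h.le x).trans
      (P_le_P_of_EN hζ v h.lg' h.lg h.en h.bg.lg h.eg x)

theorem Rel.up {ζ : ℕ → ℝ} (hζ : Zok ζ) {v' v : ℕ → ℝ} {k m d : ℕ} (hkm : k ≤ m) (hmd : m ≤ d)
    (hv : ∀ j, m ≤ j → v' j = v j) {φ' φ : ℝ → ℝ}
    (h : Rel (X ζ (g1s v') lc m) (X ζ (g1s v) lc m) (Ex ζ (g1s v') lc k φ' m)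
      (Ex ζ (g1s v) lc k φ m)) :
    Rel (X ζ (g1s v') lc d) (X ζ (g1s v) lc d) (Ex ζ (g1s v') lc k φ' d)
      (Ex ζ (g1s v) lc k φ d) := by
  induction d, hmd using Nat.le_induction with
  | base => exact h
  | succ d hd ih =>
    rw [X_succ, X_succ, Ex_succ (hkm.trans hd), Ex_succ (hkm.trans hd)]
    have e : g1s v' d = g1 (v d) := congrArg g1 (hv d hd)
    rw [e]
    exact ih.step (hζ.nn d) (v d)

theorem int_exp (v c x : ℝ) : Integrable (fun z => Real.exp (c * (x + z))) (g1 v) := by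
  simp only [mul_add, Real.exp_add]
  exact (integrable_exp_mul_gaussianReal c).const_mul _

theorem integral_exp_shift {v : ℝ} (hv : 0 ≤ v) (c x : ℝ) :
    ∫ z, Real.exp (c * (x + z)) ∂(g1 v) = Real.exp (c * x) * Real.exp (v * c ^ 2 / 2) := by
  simp only [mul_add, Real.exp_add]
  rw [integral_const_mul, integral_exp_g1 hv]

theorem integral_cosh {v : ℝ} (hv : 0 ≤ v) (x : ℝ) :
    ∫ z, Real.cosh (x + z) ∂(g1 v) = Real.cosh x * Real.exp (v / 2) := by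
  have e : ∀ z, Real.cosh (x + z) = (Real.exp (1 * (x + z)) + Real.exp (-1 * (x + z))) / 2 :=
    fun z => by rw [Real.cosh_eq, one_mul, neg_one_mul]
  simp only [e]
  rw [integral_div, integral_add (int_exp v 1 x) (int_exp v (-1) x), integral_exp_shift hv,
    integral_exp_shift hv, Real.cosh_eq, one_mul, neg_one_mul]
  norm_num
  ring

theorem integral_sinh {v : ℝ} (hv : 0 ≤ v) (x : ℝ) :
    ∫ z, Real.sinh (x + z) ∂(g1 v) = Real.sinh x * Real.exp (v / 2) := by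
  have e : ∀ z, Real.sinh (x + z) = (Real.exp (1 * (x + z)) - Real.exp (-1 * (x + z))) / 2 :=
    fun z => by rw [Real.sinh_eq, one_mul, neg_one_mul]
  simp only [e]
  rw [integral_div, integral_sub (int_exp v 1 x) (int_exp v (-1) x), integral_exp_shift hv,
    integral_exp_shift hv, Real.sinh_eq, one_mul, neg_one_mul]
  norm_num
  ring

theorem exp_lc (x : ℝ) : Real.exp (1 * lc x) = Real.cosh x := by
  rw [one_mul, lc, Real.exp_log (Real.cosh_pos x)]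

theorem T_lc {v : ℝ} (hv : 0 ≤ v) (x : ℝ) : T 1 (g1 v) lc x = lc x + v / 2 := by
  rw [T, lse, if_neg one_ne_zero]
  simp only [exp_lc]
  rw [integral_cosh hv, Real.log_mul (Real.cosh_pos x).ne' (Real.exp_pos _).ne', Real.log_exp,
    inv_one, one_mul, lc]

theorem P_lc {v : ℝ} (hv : 0 ≤ v) : P 1 (g1 v) lc Real.tanh = Real.tanh := by
  funext x
  rw [P, gexp_eq]
  have e : ∀ y, Real.cosh y * Real.tanh y = Real.sinh y := fun y => by
    rw [Real.tanh_eq_sinh_div_cosh, mul_div_cancel₀ _ (Real.cosh_pos y).ne']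
  simp only [exp_lc, e]
  rw [integral_cosh hv, integral_sinh hv, mul_div_mul_right _ _ (Real.exp_pos _).ne',
    Real.tanh_eq_sinh_div_cosh]

theorem P_add_const (ζ : ℝ) (ν : Measure ℝ) (Ψ g : ℝ → ℝ) (a : ℝ) :
    P ζ ν (fun x => Ψ x + a) g = P ζ ν Ψ g := by
  funext x
  rw [P, P, gexp_eq, gexp_eq]
  have e : ∀ y, Real.exp (ζ * (y + a)) = Real.exp (ζ * a) * Real.exp (ζ * y) := fun y => by
    rw [← Real.exp_add]
    congr 1
    ring
  simp only [e, mul_assoc]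
  rw [integral_const_mul, integral_const_mul, mul_div_mul_left _ _ (Real.exp_pos _).ne']

theorem X_top {n : ℕ} {ζ : ℕ → ℝ} (hζ : ZAdm n ζ) {c c' : ℕ → ℝ}
    (h0 : c 1 ≤ c 0) (h0' : c' 1 ≤ c' 0) (h : ∀ d, 1 ≤ d → c d = c' d) {d : ℕ} (hd : 1 ≤ d) :
    X ζ (g1s (dq c)) lc d = fun x => X ζ (g1s (dq c')) lc d x + (c 0 - c' 0) / 2 := by
  induction d, hd using Nat.le_induction with
  | base =>
    funext x
    show T (ζ 0) (g1 (dq c 0)) lc x = T (ζ 0) (g1 (dq c' 0)) lc x + _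
    rw [hζ.z0, dq, dq, T_lc (sub_nonneg.2 h0), T_lc (sub_nonneg.2 h0'), h 1 le_rfl]
    ring
  | succ d hd ih =>
    funext x
    have e : dq c d = dq c' d := by rw [dq, dq, h d hd, h (d + 1) (by omega)]
    show T (ζ d) (g1 (dq c d)) _ x = T (ζ d) (g1 (dq c' d)) _ x + _
    have hE := ((cas hζ.zok (dq c')).lgX d).eint (noise_g1 (dq c' d)) x
    rw [ih, e]
    exact lse_add_const hE.integrable (hE.2 _) _

theorem Ex_top {n : ℕ} {ζ : ℕ → ℝ} (hζ : ZAdm n ζ) {c c' : ℕ → ℝ}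
    (h0 : c 1 ≤ c 0) (h0' : c' 1 ≤ c' 0) (h : ∀ d, 1 ≤ d → c d = c' d) {k m d : ℕ}
    (hkm : k ≤ m) (hm : 1 ≤ m) (hd : m ≤ d) {φ : ℝ → ℝ}
    (hφ : Ex ζ (g1s (dq c)) lc k φ m = Ex ζ (g1s (dq c')) lc k φ m) :
    Ex ζ (g1s (dq c)) lc k φ d = Ex ζ (g1s (dq c')) lc k φ d := by
  induction d, hd using Nat.le_induction with
  | base => exact hφ
  | succ d hd ih =>
    have e : g1s (dq c) d = g1s (dq c') d := by
      refine congrArg g1 ?_
      rw [dq, dq, h d (by omega), h (d + 1) (by omega)]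
    rw [Ex_succ (hkm.trans hd), Ex_succ (hkm.trans hd), ih, e,
      X_top hζ h0 h0' h (hm.trans hd), P_add_const]

end MonoAux

open MonoAux

theorem rho1_nonneg (n : ℕ) (ζ c : ℕ → ℝ) (k : ℕ) : 0 ≤ rho1 n ζ c k :=
  Ex_nonneg k (fun _ => sq_nonneg _) _ _

theorem rho1_le_one (n : ℕ) (ζ c : ℕ → ℝ) (k : ℕ) : rho1 n ζ c k ≤ 1 := by
  refine (le_abs_self _).trans (abs_Ex_le k (fun x => ?_) _ _)
  rw [abs_pow]
  exact pow_le_one₀ (abs_nonneg _) (abs_Ex_le 0 abs_tanh_le _ _)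

theorem rho1_anti {n : ℕ} {ζ : ℕ → ℝ} (hζ : Zok ζ) (c : ℕ → ℝ) {k l : ℕ} (hkl : k ≤ l)
    (hl : l ≤ n + 1) : rho1 n ζ c l ≤ rho1 n ζ c k := by
  have hc := cas hζ (dq c)
  rw [rho1_eq, rho1_eq, ← Ex_tower hkl hl]
  refine hc.Ex_mono l (bm_G hζ _ l) (hc.bmEx k (bm_G hζ _ k) l) (fun x => ?_) _ _
  unfold G
  rw [← Ex_tower (Nat.zero_le k) hkl]
  exact hc.sq_Ex_le k (hc.bmEx 0 bm_tanh k) l x

theorem rho1_succ_of_zero (n : ℕ) (ζ c : ℕ → ℝ) {k : ℕ} (hk : k ≤ n) (h : c k = c (k + 1)) :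
    rho1 n ζ c (k + 1) = rho1 n ζ c k := by
  have e : g1s (dq c) k = Measure.dirac 0 := g1_of_nonpos (by rw [dq, h, sub_self])
  have e1 : G ζ (dq c) (k + 1) = G ζ (dq c) k := by
    funext x
    unfold G
    rw [Ex_succ (Nat.zero_le k), e, P_dirac]
  rw [rho1_eq, rho1_eq, ← Ex_tower (Nat.le_succ k) (Nat.succ_le_succ hk), Ex_succ le_rfl, e,
    P_dirac, Ex_of_le le_rfl, e1]

theorem cadm_qt {n : ℕ} {ζ : ℕ → ℝ} (hζ : Zok ζ) (c : ℕ → ℝ) : CAdm n (qt n ζ c) := by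
  refine ⟨antitone_nat_of_succ_le fun k => ?_, fun d hd => ?_⟩
  · unfold qt
    rw [if_neg (Nat.succ_ne_zero k)]
    split_ifs with h1 h2 h3 h4 h5
    · exact rho1_le_one _ _ _ _
    · exact rho1_anti hζ c (Nat.le_succ k) (by omega)
    · omega
    · exact zero_le_one
    · exact rho1_nonneg _ _ _ _
    · exact le_rfl
  · unfold qt
    rw [if_neg (by omega), if_neg (by omega)]

/-- Moving variance from level `l - 1` to level `l` lowers the overlaps below. -/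
theorem rho1_move {n : ℕ} {ζ : ℕ → ℝ} (hζ : Zok ζ) {c : ℕ → ℝ} (hc : CAdm n c) {k l : ℕ}
    (hkl : k < l) (hl : l ≤ n) {h : ℝ} (hh : 0 ≤ h) (hc' : c l + h ≤ c (l - 1)) :
    rho1 n ζ (Function.update c l (c l + h)) k ≤ rho1 n ζ c k := by
  obtain ⟨j, rfl⟩ : ∃ j, l = j + 1 := ⟨l - 1, by omega⟩
  rw [Nat.add_sub_cancel] at hc'
  have hkj : k ≤ j := by omega
  set v' := dq (Function.update c (j + 1) (c (j + 1) + h)) with hv'
  set v := dq c with hv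
  have lo : ∀ i, i < j → v' i = v i := fun i hi => by
    rw [hv', hv, dq, dq, Function.update_of_ne (by omega), Function.update_of_ne (by omega)]
  have hi : ∀ i, j + 2 ≤ i → v' i = v i := fun i hi => by
    rw [hv', hv, dq, dq, Function.update_of_ne (by omega), Function.update_of_ne (by omega)]
  have ej : v j = v' j + h := by
    rw [hv', hv, dq, dq, Function.update_of_ne (by omega), Function.update_self]
    ring
  have ej1 : v' (j + 1) = h + v (j + 1) := by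
    rw [hv', hv, dq, dq, Function.update_self, Function.update_of_ne (by omega)]
    ring
  have ha : 0 ≤ v' j := by
    rw [hv', dq, Function.update_of_ne (by omega), Function.update_self]
    linarith
  have hb : 0 ≤ v (j + 1) := hc.dq_nonneg _
  have eG : G ζ v' k = G ζ v k := G_congr ζ fun i hi => lo i (by omega)
  have hcg : ∀ i, i < j → ζ i = ζ i ∧ g1s v i = g1s v' i := fun i hi =>
    ⟨rfl, congrArg g1 (lo i hi).symm⟩
  have c1 := cas hζ v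
  have c2 := cas hζ v'
  have bφ := bm_G hζ v k
  have eφ := en_G hζ v k
  set φ := G ζ v k with hφ
  set Y := X ζ (g1s v') lc (j + 1) with hY
  set ψ := Ex ζ (g1s v') lc k φ (j + 1) with hψ
  have lY : LG Y := c2.lgX _
  have bψ : BM ψ := c2.bmEx k bφ _
  have eψ : EN ψ := en_Ex hζ v' k bφ eφ _
  have sY := lc_structure hζ v' (j + 1)
  have nj : g1s v j = (g1 h).conv (g1 (v' j)) := by
    rw [← g1_conv ha hh, ← ej]; rfl
  have nj1 : g1s v' (j + 1) = (g1 (v (j + 1))).conv (g1 h) := by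
    rw [← g1_conv hh hb, ← ej1]; rfl
  have x1 : X ζ (g1s v) lc (j + 1) = T (ζ j) (g1 h) Y := by
    rw [X_succ, nj, T_conv (hζ.nn j) (noise_g1 _) (noise_g1 _) (c1.lgX j), X_congr hcg]
    rfl
  have p1 : Ex ζ (g1s v) lc k φ (j + 1) = P (ζ j) (g1 h) Y ψ := by
    rw [Ex_succ hkj, nj, P_conv (hζ.nn j) (noise_g1 _) (noise_g1 _) (c1.lgX j) (c1.bmEx k bφ j),
      X_congr hcg, Ex_congr hcg, hψ, Ex_succ hkj]
    rfl
  have hz : ζ (j + 1) ≤ ζ j := hζ.anti (Nat.le_succ j)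
  have hT := T_zeta_EN (hζ.nn (j + 1)) hz (hζ.le_one j) h lY sY.1 (c2.jetX djet_lc (j + 1))
    sY.2.1 sY.2.2.1
  have r0 : Rel (T (ζ (j + 1)) (g1 h) Y) (T (ζ j) (g1 h) Y) (P (ζ (j + 1)) (g1 h) Y ψ)
      (P (ζ j) (g1 h) Y ψ) :=
    ⟨lY.step (hζ.nn _) (noise_g1 h), lY.step (hζ.nn _) (noise_g1 h), T_even _ h lY.1 sY.1.1,
      hT.1, hT.2, BM.kernel _ (noise_g1 h) lY bψ, BM.kernel _ (noise_g1 h) lY bψ,
      P_EN _ h lY sY.1.1 bψ.lg eψ, P_le_P_zeta hz h lY sY.1 bψ.lg eψ⟩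
  have r1 : Rel (X ζ (g1s v') lc (j + 2)) (X ζ (g1s v) lc (j + 2))
      (Ex ζ (g1s v') lc k φ (j + 2)) (Ex ζ (g1s v) lc k φ (j + 2)) := by
    have hk1 : k ≤ j + 1 := by omega
    rw [X_succ (j + 1), X_succ (j + 1), Ex_succ hk1, Ex_succ hk1, x1, p1, nj1,
      T_conv (hζ.nn _) (noise_g1 _) (noise_g1 _) lY,
      P_conv (hζ.nn _) (noise_g1 _) (noise_g1 _) lY bψ]
    exact r0.step (hζ.nn _) _
  have r2 := Rel.up hζ (d := n + 1) (by omega) (by omega) hi r1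
  rw [rho1_eq, rho1_eq, ← hv', ← hv, eG]
  exact r2.le 0

/-- More variance at the root raises all overlaps. -/
theorem rho1_root {n : ℕ} {ζ : ℕ → ℝ} (hζ : ZAdm n ζ) {c c' : ℕ → ℝ} (hc : CAdm n c)
    (hd : ∀ d, d < n → dq c' d = dq c d) (hn : dq c n ≤ dq c' n) {k : ℕ} (hk : k ≤ n) :
    rho1 n ζ c k ≤ rho1 n ζ c' k := by
  have hz := hζ.zok
  have eG : G ζ (dq c') k = G ζ (dq c) k := G_congr ζ fun i hi => hd i (by omega)
  have hcg : ∀ i, i < n → ζ i = ζ i ∧ g1s (dq c') i = g1s (dq c) i := fun i hi =>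
    ⟨rfl, congrArg g1 (hd i hi)⟩
  have c1 := cas hz (dq c)
  have bφ := bm_G hz (dq c) k
  have nj : g1s (dq c') n = (g1 (dq c' n - dq c n)).conv (g1s (dq c) n) := by
    have := g1_conv (hc.dq_nonneg n) (sub_nonneg.2 hn)
    rw [add_sub_cancel] at this
    exact this
  have bχ := c1.bmEx k bφ (n + 1)
  have eχ := en_Ex hz (dq c) k bφ (en_G hz _ k) (n + 1)
  have lT := c1.lgX (n + 1)
  rw [rho1_eq, rho1_eq, eG, Ex_succ (ν := g1s (dq c')) hk, nj, X_congr hcg, Ex_congr hcg,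
    P_conv (hz.nn n) (noise_g1 _) (c1.noise n) (c1.lgX n) (c1.bmEx k bφ n), ← Ex_succ hk,
    ← X_succ]
  refine le_trans (le_of_eq ?_) (P_mono _ _ lT (BM.const _) bχ
    (fun x => eχ.le_of_abs_le (x := 0) (by rw [abs_zero]; exact abs_nonneg x)) 0)
  exact (gexp_const _ (lT.eint (noise_g1 _) 0) _).symm

/-- The variance of the top level only shifts the value. -/
theorem psi_lc_top {n : ℕ} {ζ : ℕ → ℝ} (hζ : ZAdm n ζ) {c c' : ℕ → ℝ}
    (h0 : c 1 ≤ c 0) (h0' : c' 1 ≤ c' 0) (h : ∀ d, 1 ≤ d → c d = c' d) :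
    psi n ζ c lc - c 0 / 2 = psi n ζ c' lc - c' 0 / 2 := by
  rw [psi_eq_X n ζ c lg_lc.1, psi_eq_X n ζ c' lg_lc.1,
    X_top hζ h0 h0' h (Nat.succ_le_succ (Nat.zero_le n))]
  ring

theorem rho1_top {n : ℕ} {ζ : ℕ → ℝ} (hζ : ZAdm n ζ) {c c' : ℕ → ℝ}
    (h0 : c 1 ≤ c 0) (h0' : c' 1 ≤ c' 0) (h : ∀ d, 1 ≤ d → c d = c' d) {k : ℕ} (hk : 1 ≤ k) :
    rho1 n ζ c k = rho1 n ζ c' k := by
  have e1 : ∀ {b : ℕ → ℝ}, b 1 ≤ b 0 → Ex ζ (g1s (dq b)) lc 0 Real.tanh 1 = Real.tanh :=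
    fun {b} hb => by
      show P (ζ 0) (g1 (dq b 0)) lc Real.tanh = _
      rw [hζ.z0, dq, P_lc (sub_nonneg.2 hb)]
  have eG : G ζ (dq c) k = G ζ (dq c') k := by
    funext x
    unfold G
    rw [Ex_top hζ h0 h0' h (Nat.zero_le 1) le_rfl hk ((e1 h0).trans (e1 h0').symm)]
  rw [rho1_eq, rho1_eq, eG]
  rcases le_total k (n + 1) with h1 | h1
  · rw [Ex_top hζ h0 h0' h le_rfl hk h1 ((Ex_of_le le_rfl _).trans (Ex_of_le le_rfl _).symm)]
  · rw [Ex_of_le h1, Ex_of_le h1]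

end Vale.Agent.P157
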