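import Vale.Agent.P157.Good

/-! # Adding one pattern -/

namespace Vale.Agent.P157

open MeasureTheory ProbabilityTheory Filter Topology

namespace PCAux

/-- Coordinates after adding a pattern whose entries carry no variance. -/
def sel {A S : Type} : Co (Option A) S → Option (Option (Co A S))
  | .inl (none, _) => none
  | .inl (some a, i) => some (some (.inl (a, i)))
  | .inr (.inl i) => some (some (.inr (.inl i)))
  | .inr (.inr none) => some none
  | .inr (.inr (some a)) => some (some (.inr (.inr a)))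

/-- The inverse assignment. -/
def unsel {A S : Type} : Option (Co A S) → Co (Option A) S
  | none => .inr (.inr none)
  | some c => oldA c

theorem unsel_sel {A S : Type} {k : Co (Option A) S} {i : Option (Co A S)} (h : sel k = some i) :
    k = unsel i := by
  rcases k with ⟨_ | a, j⟩ | j | _ | a <;> simp only [sel, Option.some.injEq, reduceCtorEq] at h <;>
    subst h <;> rfl

theorem uH_sel {A S : Type} [Fintype A] [Fintype S] (f' : Option A → ℝ → ℝ)
    (u : Option (Co A S) → ℝ) (x : Sph S) :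
    uH f' (fun k => (sel k).elim 0 u) x
      = uH (fun a => f' (some a)) (fun c => u (some c)) x + f' none (u none) := by
  simp only [uH, arg, sel, Fintype.sum_option, Option.elim, zero_mul, Finset.sum_const_zero,
    zero_add]
  ring

end PCAux

/-- With no variance on the entries of the new pattern the system decouples. -/
theorem val_option_decoupled {A S : Type} [Fintype A] [Fintype S] [DecidableEq A] [DecidableEq S]
    (μ : Measure (Sph S)) [IsProbabilityMeasure μ] {ζ : ℕ → ℝ} (hζ : Zok ζ)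
    {f' : Option A → ℝ → ℝ} (hm : ∀ a, Measurable (f' a)) {K : ℝ} (hb : ∀ a x, |f' a x| ≤ K)
    (n : ℕ) (g : A → S → ℝ) (x : ℕ → S → ℝ) (y : ℕ → Option A → ℝ) :
    Val μ f' ζ (prof n (fun a i => a.elim 0 fun b => g b i) x y) n
      = Val μ (fun a => f' (some a)) ζ (prof n g x fun d a => y d (some a)) n
        + X ζ (g1s fun d => y d none) (f' none) (n + 1) 0 := by
  have hH' : HG (uH (S := S) f') := hg_uH hm hb
  have hH : HG (uH (S := S) fun a => f' (some a)) := hg_uH (fun a => hm _) fun a => hb _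
  have h1 := X_sel (PCAux.sel (A := A) (S := S))
    (fun k l i hk hl => (PCAux.unsel_sel hk).trans (PCAux.unsel_sel hl).symm) ζ
    (fun d (c : Option (Co A S)) => c.elim (y d none) (prof n g x (fun d a => y d (some a)) d))
    (prof n (fun a i => a.elim 0 fun b => g b i) x y) (hH'.lg_gtop (μ := μ)).1 (d := n + 1)
    (fun j _ k => by
      rcases k with ⟨_ | a, i⟩ | i | _ | a <;> simp [prof, PCAux.sel])
  have h2 : (fun u : Option (Co A S) → ℝ =>
      gtop μ (uH f') fun k => (PCAux.sel k).elim 0 u) =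
      fun u => gtop μ (uH fun a => f' (some a)) (fun c => u (some c)) + f' none (u none) := by
    funext u
    have he := hH.eint (μ := μ) fun c => u (some c)
    rw [gtop, gtop, ← lse_add_const he.integrable (he.2 1)]
    congr 1
    funext z
    exact PCAux.uH_sel f' u z
  have h3 : LG (f' none) := BM.lg ⟨hm none, K, hb none⟩
  rw [h2, X_option hζ _ hH.lg_gtop h3] at h1
  exact h1.symm

namespace PCAux

variable {S : Type} [Fintype S]

/-- Entry variances along the interpolation. -/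
noncomputable def gt (S : Type) [Fintype S] (m : ℕ) (t : ℝ) (a : Option (Fin m)) (_ : S) : ℝ :=
  a.elim (t * (Fintype.card S : ℝ)⁻¹) fun _ => (Fintype.card S : ℝ)⁻¹

/-- Argument field variances along the interpolation. -/
noncomputable def yt (m : ℕ) (q θ' : ℕ → ℝ) (t : ℝ) (d : ℕ) (a : Option (Fin m)) : ℝ :=
  a.elim ((1 - t) * dq q d + sq0 θ' d) fun _ => sq0 θ' d

/-- The potentials with the last one singled out. -/
def op (F : ℕ → ℝ → ℝ) (m : ℕ) (a : Option (Fin m)) : ℝ → ℝ := a.elim (F m) fun b => F b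

theorem sm_op {F F1 F2 : ℕ → ℝ → ℝ} {K : ℝ} (h : ∀ a, Sm (F a) (F1 a) (F2 a) K) (m : ℕ)
    (a : Option (Fin m)) : Sm (op F m a) (op F1 m a) (op F2 m a) K := by
  cases a <;> exact h _

theorem gt_bound (m : ℕ) {t : ℝ} (ht : t ∈ Set.Icc (0 : ℝ) 1) (a : Option (Fin m)) (i : S) :
    0 ≤ gt S m t a i ∧ gt S m t a i ≤ 2 / (Fintype.card S : ℝ) := by
  have h : 0 ≤ (Fintype.card S : ℝ)⁻¹ := by positivity
  rw [div_eq_mul_inv]
  cases a
  · exact ⟨mul_nonneg ht.1 h, mul_le_mul_of_nonneg_right (by linarith [ht.2]) h⟩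
  · refine ⟨h, ?_⟩
    show (Fintype.card S : ℝ)⁻¹ ≤ _
    linarith

theorem yt_nonneg {n : ℕ} (m : ℕ) {q : ℕ → ℝ} (hq : CAdm n q) (θ' : ℕ → ℝ) {t : ℝ}
    (ht : t ∈ Set.Icc (0 : ℝ) 1) (d : ℕ) (a : Option (Fin m)) : 0 ≤ yt m q θ' t d a := by
  cases a
  · exact add_nonneg (mul_nonneg (by linarith [ht.2]) (hq.dq_nonneg d)) (sq0_nonneg _ _)
  · exact sq0_nonneg _ _

theorem sq0_le {θ : ℕ → ℝ} {d : ℕ} {Θ : ℝ} (h : θ d ^ 2 ≤ Θ) : sq0 θ d ≤ Θ := by
  unfold sq0
  split_ifs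
  · exact (sq_nonneg _).trans h
  · exact h

theorem yt_le {n : ℕ} (m : ℕ) {q : ℕ → ℝ} (hq : CAdm n q) (hq0 : q 0 = 1) {θ' : ℕ → ℝ} {Θ : ℝ}
    (h : θ' n ^ 2 ≤ Θ) {t : ℝ} (ht : t ∈ Set.Icc (0 : ℝ) 1) (a : Option (Fin m)) :
    yt m q θ' t n a ≤ Θ + 1 := by
  have h1 := sq0_le h
  cases a
  · have h2 : dq q n ≤ 1 := by
      unfold dq
      linarith [hq.nonneg (n + 1), hq.anti (Nat.zero_le n)]
    have h3 := hq.dq_nonneg n
    show (1 - t) * dq q n + sq0 θ' n ≤ Θ + 1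
    nlinarith [ht.1, ht.2]
  · show sq0 θ' n ≤ Θ + 1
    linarith

theorem profI_eq (n m : ℕ) (q θ θ' : ℕ → ℝ) (t : ℝ) :
    profI n (gt S m 0) (gt S m 1) (fun d _ => sq0 θ d) (fun d _ => sq0 θ d) (yt m q θ' 0)
      (yt m q θ' 1) t = prof n (gt S m t) (fun d _ => sq0 θ d) (yt m q θ' t) := by
  unfold profI
  congr 1
  · funext a i
    cases a <;> simp [gt]
  · funext d i
    ring
  · funext d a
    cases a <;> simp only [yt, Option.elim] <;> ring

theorem prof_old (n m : ℕ) (q θ θ' : ℕ → ℝ) (t : ℝ) :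
    (fun d c => prof n (gt S m t) (fun d _ => sq0 θ d) (yt m q θ' t) d (oldA c))
      = cprof (Fin m) S n θ θ' := by
  funext d c
  rcases c with ⟨a, i⟩ | i | a <;> rfl

theorem prof_one (n m : ℕ) (q θ θ' : ℕ → ℝ) :
    prof n (gt S m 1) (fun d _ => sq0 θ d) (yt m q θ' 1) = cprof (Option (Fin m)) S n θ θ' := by
  unfold cprof
  congr 1
  · funext a i
    cases a <;> simp [gt]
  · funext d a
    cases a <;> simp [yt]

variable [DecidableEq S] (μ : Measure (Sph S)) [IsProbabilityMeasure μ] {ζ : ℕ → ℝ}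
  {F F1 F2 : ℕ → ℝ → ℝ} {K : ℝ}

theorem val_zero (hζ : Zok ζ) (hF : ∀ a, Sm (F a) (F1 a) (F2 a) K) (n m : ℕ) (q θ θ' : ℕ → ℝ) :
    Val μ (op F m) ζ (prof n (gt S m 0) (fun d _ => sq0 θ d) (yt m q θ' 0)) n
      = VS μ F m ζ n θ θ' + psi n ζ (q + cum n (sq0 θ')) (F m) := by
  have h1 := val_option_decoupled μ hζ (f' := op F m) (fun a => (sm_op hF m a).meas)
    (fun a => (sm_op hF m a).bd) n (fun _ _ => (Fintype.card S : ℝ)⁻¹) (fun d _ => sq0 θ d)
    (yt m q θ' 0)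
  have h2 : gt S m 0 = fun a i => a.elim 0 fun _ => (Fintype.card S : ℝ)⁻¹ := by
    funext a i
    cases a <;> simp [gt]
  have h3 : (fun d => yt m q θ' 0 d none) = fun d => dq q d + sq0 θ' d := by
    funext d
    simp [yt]
  rw [h2, h1, h3, psi_add_cum n ζ q _ (hF m).meas]
  rfl

/-- The derivative of the interpolation. -/
theorem valD_eq (hζ : Zok ζ) (hF : ∀ a, Sm (F a) (F1 a) (F2 a) K) {n : ℕ} (m : ℕ)
    {q : ℕ → ℝ} (hq : CAdm n q) (hq0 : q 0 = 1) (θ θ' : ℕ → ℝ) (hN : (Fintype.card S : ℝ) ≠ 0)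
    (t : ℝ) :
    valD μ (op F m) (op F1 m) (op F2 m) ζ n (gt S m 0) (gt S m 1) (fun d _ => sq0 θ d)
      (fun d _ => sq0 θ d) (yt m q θ' 0) (yt m q θ' 1) t
      = ∑ k ∈ Finset.range n, (ζ k - ζ (k + 1)) *
        (q (k + 1) * Esq ζ (gvs (prof n (gt S m t) (fun d _ => sq0 θ d) (yt m q θ' t))) μ
            (uH (op F m)) (fun w x => F1 m (arg w x.1 none)) n (k + 1)
          - (Fintype.card S : ℝ)⁻¹ *
            rho ζ (gvs (prof n (gt S m t) (fun d _ => sq0 θ d) (yt m q θ' t))) μ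
              (uH (op F m)) (fun i w x => F1 m (arg w x.1 none) * x.1 i) n (k + 1)) := by
  unfold valD
  rw [profI_eq]
  generalize prof n (gt S m t) (fun d _ => sq0 θ d) (yt m q θ' t) = s
  have h1 := sum_Db_G μ hζ (sm_op hF m) s n n none
  have h2 := sum_dq_mul (hq.zero (n + 1) (Nat.lt_succ_self n))
    (EG ζ (gvs s) μ (uH (op F m))
      (fun w x => F2 m (arg w x.1 none) + F1 m (arg w x.1 none) ^ 2) n)
    fun k => (ζ k - ζ (k + 1)) *
      Esq ζ (gvs s) μ (uH (op F m)) (fun w x => F1 m (arg w x.1 none)) n (k + 1)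
  have h3 : ∀ d, Db ζ (gvs s) μ (uH (op F m)) (u1 (op F1 m) (.inr (.inr none)))
      (u2 (op F2 m) (.inr (.inr none))) n d = EG ζ (gvs s) μ (uH (op F m))
      (fun w x => F2 m (arg w x.1 none) + F1 m (arg w x.1 none) ^ 2) n -
      ∑ k ∈ Finset.range d, (ζ k - ζ (k + 1)) *
        Esq ζ (gvs s) μ (uH (op F m)) (fun w x => F1 m (arg w x.1 none)) n (k + 1) :=
    fun d => rfl
  have h4 : ∀ d, yt m q θ' 1 d none - yt m q θ' 0 d none = -dq q d := fun d => by
    simp [yt]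
  have h5 : ∀ d a, yt m q θ' 1 d (some a) - yt m q θ' 0 d (some a) = 0 := fun d a => sub_self _
  have h6 : ∀ i, gt S m 1 none i - gt S m 0 none i = (Fintype.card S : ℝ)⁻¹ := fun i => by
    simp [gt]
  have h7 : ∀ a i, gt S m 1 (some a) i - gt S m 0 (some a) i = 0 := fun a i => sub_self _
  simp only [Fintype.sum_option, h4, h5, h6, h7, sub_self, zero_mul, Finset.sum_const_zero,
    add_zero, h3, neg_mul, Finset.sum_neg_distrib, h2, ← Finset.mul_sum, hq0]
  rw [h1, mul_sub, ← mul_assoc, inv_mul_cancel₀ hN, Finset.mul_sum]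
  simp only [mul_sub, Finset.sum_sub_distrib]
  have h8 : ∀ a b c d : ℝ, a = b → c = d → ∀ B : ℝ, 1 * B - a + -(1 * B - c) = d - b := by
    intro a b c d h h' B
    rw [h, h']
    ring
  refine h8 _ _ _ _ ?_ ?_ _
  · exact Finset.sum_congr rfl fun k _ => mul_left_comm _ _ _
  · exact Finset.sum_congr rfl fun k _ => mul_left_comm _ _ _

/-- The arithmetic at the end. -/
theorem arith {n : ℕ} {ζ q ρ U P : ℕ → ℝ} (hζ : Zok ζ) {N K E η σ : ℝ} (hN : 0 < N) (hη : 0 ≤ η)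
    (hσ : σ = 1 ∨ σ = -1)
    (hD : ∑ k ∈ Finset.range n, (ζ k - ζ (k + 1)) * |U (k + 1) - ρ (k + 1) * P (k + 1)|
      ≤ K ^ 2 * (N * E))
    (hQ : ∀ d, 1 ≤ d → d ≤ n → σ * (N * QQ ζ q d - QQ ζ ρ d) ≤ η * N)
    (hp : ∀ k, 1 ≤ k → k < n → P (k + 1) ≤ P k) (hp0 : ∀ k, 0 ≤ P k) (hL : P 1 ≤ K ^ 2) :
    σ * ∑ k ∈ Finset.range n, (ζ k - ζ (k + 1)) * (q (k + 1) * P (k + 1) - N⁻¹ * U (k + 1))
      ≤ K ^ 2 * (E + η) := by
  have h1 := abel_le (n := n)
    (a := fun k => σ * ((ζ k - ζ (k + 1)) * q (k + 1) - N⁻¹ * ((ζ k - ζ (k + 1)) * ρ (k + 1))))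
    (p := P) hη (fun d h1 h2 => by
      rw [← Finset.mul_sum, Finset.sum_sub_distrib, ← Finset.mul_sum]
      have h3 := mul_le_mul_of_nonneg_left (hQ d h1 h2) (inv_pos.2 hN).le
      have e1 : N⁻¹ * (σ * (N * QQ ζ q d - QQ ζ ρ d)) = σ * (QQ ζ q d - N⁻¹ * QQ ζ ρ d) := by
        field_simp
      have e2 : N⁻¹ * (η * N) = η := by field_simp
      rw [e1, e2] at h3
      exact h3) hp (fun k _ _ => hp0 k) hL (sq_nonneg K)
  have h2 := mul_le_mul_of_nonneg_left hD (inv_pos.2 hN).le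
  have e2 : N⁻¹ * (K ^ 2 * (N * E)) = K ^ 2 * E := by field_simp
  rw [e2, Finset.mul_sum] at h2
  have h3 : ∀ k ∈ Finset.range n,
      σ * ((ζ k - ζ (k + 1)) * (q (k + 1) * P (k + 1) - N⁻¹ * U (k + 1))) ≤
      σ * ((ζ k - ζ (k + 1)) * q (k + 1) - N⁻¹ * ((ζ k - ζ (k + 1)) * ρ (k + 1))) * P (k + 1) +
        N⁻¹ * ((ζ k - ζ (k + 1)) * |U (k + 1) - ρ (k + 1) * P (k + 1)|) := by
    intro k _
    have h4 : 0 ≤ N⁻¹ * (ζ k - ζ (k + 1)) :=
      mul_nonneg (inv_pos.2 hN).le (sub_nonneg.2 (hζ.anti (Nat.le_succ k)))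
    have h5 := mul_le_mul_of_nonneg_left (le_abs_self (U (k + 1) - ρ (k + 1) * P (k + 1))) h4
    have h6 := mul_le_mul_of_nonneg_left (neg_le_abs (U (k + 1) - ρ (k + 1) * P (k + 1))) h4
    rcases hσ with rfl | rfl <;> nlinarith
  have h4 := Finset.sum_le_sum h3
  rw [Finset.sum_add_distrib] at h4
  rw [Finset.mul_sum]
  nlinarith

end PCAux

theorem pc {n : ℕ} {ζ : ℕ → ℝ} {me K A0 Θ θm : ℝ} (hR : Reg n ζ me K A0 Θ θm) {δ : ℝ}
    (hδ : 0 < δ) :
    ∀ᶠ k in 𝓝[>] (0 : ℝ), ∀ᶠ y in 𝓝[>] (0 : ℝ), ∀ᶠ N : ℕ in atTop,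
      ∀ (S : Type) [Fintype S] [DecidableEq S] (μ : Measure (Sph S)) [IsProbabilityMeasure μ]
        (F F1 F2 : ℕ → ℝ → ℝ) (m : ℕ) (θ θ' τ q : ℕ → ℝ) (η : ℝ),
        Fintype.card S = N → (m : ℝ) ≤ A0 * N → (∀ a, Sm (F a) (F1 a) (F2 a) K) →
        Fld n θm Θ θ → θ' n ^ 2 ≤ Θ → CAdm n q → q 0 = 1 → 0 ≤ η →
        SD (fun t => VS μ F m ζ n t θ') θ τ y (k * y * N) n →
        ((∀ d, 1 ≤ d → d ≤ n → N * QQ ζ q d - η * N ≤ N - τ d / θ d) →
          VS μ F (m + 1) ζ n θ θ' - VS μ F m ζ n θ θ'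
            ≤ psi n ζ (q + cum n (sq0 θ')) (F m) + K ^ 2 * (6 * me + δ + η)) ∧
        ((∀ d, 1 ≤ d → d ≤ n → N - τ d / θ d ≤ N * QQ ζ q d + η * N) →
          psi n ζ (q + cum n (sq0 θ')) (F m) - K ^ 2 * (6 * me + δ + η)
            ≤ VS μ F (m + 1) ζ n θ θ' - VS μ F m ζ n θ θ') := by
  have hR' : Reg n ζ me K (A0 + 1) (Θ + 1) θm :=
    ⟨hR.z, hR.me0, hR.me1, hR.mesh, hR.K0, by linarith [hR.A00], by linarith [hR.Θ0], hR.θm0⟩
  have hζ := hR.z.zok
  have h2k : Tendsto (fun k : ℝ => 2 * k) (𝓝[>] 0) (𝓝[>] 0) := by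
    refine tendsto_nhdsWithin_of_tendsto_nhds_of_eventually_within _ ?_ ?_
    · have : Tendsto (fun k : ℝ => 2 * k) (𝓝 0) (𝓝 (2 * 0)) :=
        (continuous_const.mul continuous_id).tendsto 0
      rw [mul_zero] at this
      exact this.mono_left nhdsWithin_le_nhds
    · filter_upwards [self_mem_nhdsWithin] with k hk
      exact Set.mem_Ioi.2 (mul_pos two_pos (Set.mem_Ioi.1 hk))
  filter_upwards [h2k.eventually (goodX hR' hδ), self_mem_nhdsWithin] with k hk hk0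
  filter_upwards [hk, self_mem_nhdsWithin] with y hy hy0
  have hky : 0 < k * y := mul_pos (Set.mem_Ioi.1 hk0) (Set.mem_Ioi.1 hy0)
  filter_upwards [hy, eventually_ge_atTop 1,
    tendsto_natCast_atTop_atTop.eventually_ge_atTop (2 * K / (k * y))] with N hgood hN1 hNK
  intro S _ _ μ _ F F1 F2 m θ θ' τ q η hS hm hF hθ hθ' hq hq0 hη hSD
  have hN : (1 : ℝ) ≤ N := by exact_mod_cast hN1
  have hSN : (Fintype.card S : ℝ) = N := by exact_mod_cast hS
  have hn := hR.z.one_le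
  have hop := PCAux.sm_op hF m
  have hH : HG (uH (S := S) (PCAux.op F m)) := hg_uH (fun a => (hop a).meas) fun a => (hop a).bd
  have key : ∀ σ : ℝ, (σ = 1 ∨ σ = -1) →
      (∀ d, 1 ≤ d → d ≤ n → σ * (N * QQ ζ q d - (N - τ d / θ d)) ≤ η * N) →
      ∀ t ∈ Set.Icc (0 : ℝ) 1,
      σ * valD μ (PCAux.op F m) (PCAux.op F1 m) (PCAux.op F2 m) ζ n (PCAux.gt S m 0)
        (PCAux.gt S m 1) (fun d _ => sq0 θ d) (fun d _ => sq0 θ d) (PCAux.yt m q θ' 0)
        (PCAux.yt m q θ' 1) t ≤ 2 * (K ^ 2 * (6 * me + δ + η)) := by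
    intro σ hσ hQ t ht
    obtain ⟨hdec, hmean⟩ := hgood (Option (Fin m)) S S (Function.Embedding.refl S) μ
      (PCAux.op F m) (PCAux.op F1 m) (PCAux.op F2 m) (PCAux.gt S m t)
      (fun θ d _ => sq0 θ d) (PCAux.yt m q θ' t) θ τ (by linarith)
      (by rw [Fintype.card_option, Fintype.card_fin]; push_cast; linarith) hop
      (fun a i => hSN ▸ PCAux.gt_bound m ht a i) fam_refl
      (fun _ => (PCAux.sq0_le (hθ n hn le_rfl).2).trans (by linarith))
      (PCAux.yt_nonneg m hq θ' ht) (PCAux.yt_le m hq hq0 hθ' ht)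
      (fun d h1 h2 => ⟨(hθ d h1 h2).1, (hθ d h1 h2).2.trans (by linarith)⟩)
      (by
        refine (hSD.of_close (C := K) fun d a _ => ?_).mono ?_
        · have := val_drop μ hζ (fun a => (hop a).meas) (fun a => (hop a).bd) (hop none).bd n
            (prof n (PCAux.gt S m t) (fun j _ => sq0 (Function.update θ d a) j)
              (PCAux.yt m q θ' t))
          rw [PCAux.prof_old] at this
          exact this
        · rw [div_le_iff₀ hky] at hNK
          nlinarith)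
    have hinv : (Fintype.card S : ℝ)⁻¹ = (N : ℝ)⁻¹ := congrArg _ hSN
    rw [PCAux.valD_eq μ hζ hF m hq hq0 θ θ' (hSN.trans_ne (by linarith)), hinv]
    generalize prof n (PCAux.gt S m t) (fun d _ => sq0 θ d) (PCAux.yt m q θ' t) = s
      at hdec hmean ⊢
    have hν : ∀ d, Noise (gvs s d) := fun d => noise_gv _
    have hφ : BM2 fun (w : Co (Option (Fin m)) S → ℝ) (x : Sph S) => F1 m (arg w x.1 none) :=
      ⟨(hF m).jet.mm.comp (measurable_arg none), K, fun w x => (hF m).jet.bm _⟩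
    have hE : EG ζ (gvs s) μ (uH (PCAux.op F m))
        (fun _ x => ∑ j, x.1 (Function.Embedding.refl S j) ^ 2) n = N := by
      refine Eq.trans ?_ ((GE_const hH hζ hν (μ := μ) (Fintype.card S : ℝ) (n + 1) 0).trans hSN)
      exact congrArg (fun g => GE ζ (gvs s) μ (uH (PCAux.op F m)) g (n + 1) 0)
        (funext fun _ => funext fun x => x.2)
    have h1 := PCAux.arith (q := q) hζ (N := N) (η := η + δ) (by linarith) (by linarith) hσ
      (hdec _ K hφ.1 fun w x => (hF m).jet.bm _)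
      (fun d h1 h2 => by
        have h3 := hmean d h1 h2
        have h4 := hQ d h1 h2
        rw [hE, abs_le] at h3
        rcases hσ with rfl | rfl <;> linarith [h3.1, h3.2])
      (fun j _ hj => Esq_anti hH hζ hν hφ (Nat.le_succ j) (by omega))
      (fun j => Esq_nonneg _ n j)
      (Esq_le_sq hR.K0 (fun w => ae_of_all _ fun x => (hF m).jet.bm _) n 1)
    refine le_trans h1 ?_
    nlinarith [mul_nonneg (sq_nonneg K) hη]
  have h01 : (0 : ℝ) ∈ Set.Icc (0 : ℝ) 1 := ⟨le_rfl, zero_le_one⟩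
  have h11 : (1 : ℝ) ∈ Set.Icc (0 : ℝ) 1 := ⟨zero_le_one, le_rfl⟩
  have e1 : Val μ (PCAux.op F m) ζ
      (prof n (PCAux.gt S m 1) (fun d _ => sq0 θ d) (PCAux.yt m q θ' 1)) n
      = VS μ F (m + 1) ζ n θ θ' := by
    rw [PCAux.prof_one, vs_succ μ (fun a => (hF a).meas)]
    rfl
  have e0 := PCAux.val_zero μ hζ hF n m q θ θ'
  constructor
  · intro h
    have := val_le μ hζ hR.z.z0 hop n (fun a i => (PCAux.gt_bound m h01 a i).1)
      (fun d _ => sq0_nonneg θ d) (PCAux.yt_nonneg m hq θ' h01)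
      (fun a i => (PCAux.gt_bound m h11 a i).1) (fun d _ => sq0_nonneg θ d)
      (PCAux.yt_nonneg m hq θ' h11) (κ := K ^ 2 * (6 * me + δ + η)) fun t ht => by
        have := key 1 (Or.inl rfl) (fun d h1 h2 => by linarith [h d h1 h2]) t ht
        linarith
    rw [e0, e1] at this
    linarith
  · intro h
    have := val_ge μ hζ hR.z.z0 hop n (fun a i => (PCAux.gt_bound m h01 a i).1)
      (fun d _ => sq0_nonneg θ d) (PCAux.yt_nonneg m hq θ' h01)
      (fun a i => (PCAux.gt_bound m h11 a i).1) (fun d _ => sq0_nonneg θ d)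
      (PCAux.yt_nonneg m hq θ' h11) (κ := -(K ^ 2 * (6 * me + δ + η))) fun t ht => by
        have := key (-1) (Or.inr rfl) (fun d h1 h2 => by linarith [h d h1 h2]) t ht
        linarith
    rw [e0, e1] at this
    linarith

end Vale.Agent.P157
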