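import Vale.Agent.P157.Crude

/-! # The uniform measure on the sphere -/

namespace Vale.Agent.P157

open MeasureTheory ProbabilityTheory

variable {S : Type} [Fintype S]

namespace PolarAux

theorem mval : Measurable fun x : Sph S => x.1 := measurable_subtype_coe

theorem meas_to {α : Type} [MeasurableSpace α] {φ : α → Sph S}
    (h : Measurable fun a => (φ a).1) : Measurable φ :=
  Measurable.subtype_mk (hf := h)

theorem card_pos [Nonempty S] : (0 : ℝ) < Fintype.card S := by exact_mod_cast Fintype.card_pos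

theorem usph_prob [Nonempty S] : IsProbabilityMeasure (unitSphereMeasure S) := by
  refine ⟨?_⟩
  rw [unitSphereMeasure, Measure.smul_apply, smul_eq_mul]
  refine ENNReal.inv_mul_cancel ?_ (measure_ne_top _ _)
  rw [Ne, Measure.measure_univ_eq_zero]
  exact Measure.toSphere_ne_zero _

/-- The radial Gaussian density. -/
noncomputable def dens (S : Type) [Fintype S] (r : ℝ) : ENNReal :=
  ENNReal.ofReal ((√(2 * Real.pi))⁻¹ ^ Fintype.card S * Real.exp (-(r ^ 2) / 2))

theorem measurable_dens : Measurable (dens S) := by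
  unfold dens
  fun_prop

theorem gv_density : (gv fun _ : S => (1 : ℝ))
    = (volume : Measure (S → ℝ)).withDensity fun y => dens S (√(∑ i, y i ^ 2)) := by
  have e : ∀ y : S → ℝ, dens S (√(∑ i, y i ^ 2))
      = ENNReal.ofReal (∏ i, gaussianPDFReal 0 1 (y i)) := fun y => by
    rw [dens, Real.sq_sqrt (Finset.sum_nonneg fun i _ => sq_nonneg _)]
    simp only [gaussianPDFReal, NNReal.coe_one, mul_one, sub_zero, Finset.prod_mul_distrib,
      Finset.prod_const, Finset.card_univ, ← Real.exp_sum, ← Finset.sum_div,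
      Finset.sum_neg_distrib]
  simp only [e]
  refine Measure.pi_eq fun t ht => ?_
  have hi : Integrable (fun y : S → ℝ => ∏ i, gaussianPDFReal 0 1 (y i))
      (Measure.pi fun i => (volume : Measure ℝ).restrict (t i)) :=
    Integrable.fintype_prod fun i => (integrable_gaussianPDFReal 0 1).restrict
  rw [withDensity_apply _ (MeasurableSet.univ_pi ht), volume_pi, Measure.restrict_pi_pi,
    ← ofReal_integral_eq_lintegral_ofReal hi
      (ae_of_all _ fun y => Finset.prod_nonneg fun i _ => gaussianPDFReal_nonneg _ _ _),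
    integral_fintype_prod_eq_prod (fun _ : S => gaussianPDFReal 0 1),
    ENNReal.ofReal_prod_of_nonneg
      fun i _ => integral_nonneg fun x => gaussianPDFReal_nonneg _ _ _]
  refine Finset.prod_congr rfl fun i _ => ?_
  rw [g1_one, gaussianReal_apply_eq_integral _ one_ne_zero]

theorem lintegral_polar [Nonempty S] {F : (S → ℝ) → ENNReal} (hF : Measurable F) :
    ∫⁻ y, F y = ∫⁻ p, F (fun i => p.2.1 * p.1.1 i)
      ∂((volume : Measure (EuclideanSpace ℝ S)).toSphere.prod
        (Measure.volumeIoiPow (Module.finrank ℝ (EuclideanSpace ℝ S) - 1))) := by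
  have h1 := (volume : Measure (EuclideanSpace ℝ S)).measurePreserving_homeomorphUnitSphereProd
    |>.lintegral_comp_emb (Homeomorph.measurableEmbedding _)
      fun z => F (WithLp.ofLp (z.2.1 • z.1.1))
  have h2 : ∀ a : ({0}ᶜ : Set (EuclideanSpace ℝ S)),
      (homeomorphUnitSphereProd _ a).2.1 • (homeomorphUnitSphereProd _ a).1.1 = a.1 := fun a => by
    rw [← homeomorphUnitSphereProd_symm_apply_coe, Homeomorph.symm_apply_apply]
  simp only [h2] at h1
  rw [lintegral_subtype_comap (measurableSet_singleton _).compl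
    (fun a : EuclideanSpace ℝ S => F (WithLp.ofLp a)), restrict_compl_singleton,
    (PiLp.volume_preserving_ofLp S).lintegral_comp hF] at h1
  exact h1

theorem sum_sq_unit (u : Metric.sphere (0 : EuclideanSpace ℝ S) 1) : ∑ i, u.1 i ^ 2 = 1 := by
  have h : ‖u.1‖ = 1 := by simp
  have := EuclideanSpace.real_norm_sq_eq u.1
  rw [h] at this
  linarith

theorem meas_norm : Measurable fun y : S → ℝ => √(∑ i, y i ^ 2) := by fun_prop

theorem meas_polar :
    Measurable fun p : Sph S × ℝ => fun i => p.2 / √(Fintype.card S : ℝ) * p.1.1 i := by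
  refine measurable_pi_lambda _ fun i => (measurable_snd.div_const _).mul ?_
  exact ((measurable_pi_apply i).comp mval).comp measurable_fst

theorem norm_polar [Nonempty S] (x : Sph S) {R : ℝ} (hR : 0 ≤ R) :
    √(∑ i, (R / √(Fintype.card S : ℝ) * x.1 i) ^ 2) = R := by
  have hN := card_pos (S := S)
  simp only [mul_pow, ← Finset.mul_sum, x.2, div_pow, Real.sq_sqrt hN.le]
  rw [div_mul_cancel₀ _ hN.ne', Real.sqrt_sq hR]

end PolarAux

open PolarAux

theorem measurable_ofUnit :
    Measurable (ofUnit : Metric.sphere (0 : EuclideanSpace ℝ S) 1 → Sph S) := by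
  refine meas_to (measurable_pi_lambda _ fun i => ?_)
  exact Continuous.measurable (f := fun u : Metric.sphere (0 : EuclideanSpace ℝ S) 1 =>
    √(Fintype.card S : ℝ) * u.1 i) (by fun_prop)

instance sph_prob [Nonempty S] : IsProbabilityMeasure (sph S) :=
  have := usph_prob (S := S)
  Measure.isProbabilityMeasure_map measurable_ofUnit.aemeasurable

instance chi_prob : IsProbabilityMeasure (chi S) :=
  Measure.isProbabilityMeasure_map meas_norm.aemeasurable

instance nuE_prob : IsProbabilityMeasure (nuE S) :=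
  Measure.isProbabilityMeasure_map (Measurable.aemeasurable (by fun_prop))

namespace PolarAux

theorem exists_radial [Nonempty S] : ∃ κ : Measure ℝ, SFinite κ ∧ (∀ᵐ R ∂κ, 0 < R) ∧
    ((sph S).prod κ).map
        (fun p : Sph S × ℝ => fun i => p.2 / √(Fintype.card S : ℝ) * p.1.1 i)
      = gv fun _ : S => (1 : ℝ) := by
  have hN := card_pos (S := S)
  have hp := usph_prob (S := S)
  set σ := (volume : Measure (EuclideanSpace ℝ S)).toSphere with hσ
  set ρ := Measure.volumeIoiPow (Module.finrank ℝ (EuclideanSpace ℝ S) - 1) with hρ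
  have hd : Measurable fun r : Set.Ioi (0 : ℝ) => dens S r.1 :=
    measurable_dens.comp measurable_subtype_coe
  have hc0 : σ Set.univ ≠ 0 := by
    rw [Ne, Measure.measure_univ_eq_zero]
    exact Measure.toSphere_ne_zero _
  have hc1 : σ Set.univ ≠ ⊤ := measure_ne_top _ _
  refine ⟨(σ Set.univ • ρ.withDensity fun r => dens S r.1).map Subtype.val, inferInstance, ?_, ?_⟩
  · exact (ae_map_iff measurable_subtype_coe.aemeasurable measurableSet_Ioi).2
      (ae_of_all _ fun r => r.2)
  · have hm : Measurable fun p : Metric.sphere (0 : EuclideanSpace ℝ S) 1 × Set.Ioi (0 : ℝ) =>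
        fun i => p.2.1 * p.1.1 i := Continuous.measurable (by fun_prop)
    have e : (fun p : Sph S × ℝ => fun i => p.2 / √(Fintype.card S : ℝ) * p.1.1 i)
        ∘ Prod.map ofUnit Subtype.val
        = fun p : Metric.sphere (0 : EuclideanSpace ℝ S) 1 × Set.Ioi (0 : ℝ) =>
          fun i => p.2.1 * p.1.1 i := by
      funext p i
      have := (Real.sqrt_pos.2 hN).ne'
      change p.2.1 / √(Fintype.card S : ℝ) * (√(Fintype.card S : ℝ) * p.1.1 i) = _
      field_simp
    rw [sph, Measure.map_prod_map _ _ measurable_ofUnit measurable_subtype_coe,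
      Measure.map_map meas_polar (measurable_ofUnit.prodMap measurable_subtype_coe), e,
      unitSphereMeasure, ← hσ, Measure.prod_smul_left, Measure.prod_smul_right, smul_smul,
      ENNReal.inv_mul_cancel hc0 hc1, one_smul, prod_withDensity_right hd, gv_density]
    refine Measure.ext_of_lintegral _ fun G hG => ?_
    rw [lintegral_map hG hm]
    refine (lintegral_withDensity_eq_lintegral_mul _ (hd.comp measurable_snd)
      (hG.comp hm)).trans (Eq.trans ?_ (lintegral_withDensity_eq_lintegral_mul _
        (measurable_dens.comp meas_norm) hG).symm)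
    rw [lintegral_polar ((measurable_dens.comp meas_norm).mul hG)]
    refine lintegral_congr fun p => ?_
    have e2 : √(∑ i, (p.2.1 * p.1.1 i) ^ 2) = p.2.1 := by
      simp only [mul_pow, ← Finset.mul_sum, sum_sq_unit, mul_one]
      exact Real.sqrt_sq (le_of_lt p.2.2)
    simp only [Pi.mul_apply, Function.comp_apply, e2]

theorem chi_spec [Nonempty S] : (∀ᵐ R ∂(chi S), 0 < R) ∧
    ((sph S).prod (chi S)).map
        (fun p : Sph S × ℝ => fun i => p.2 / √(Fintype.card S : ℝ) * p.1.1 i)
      = gv fun _ : S => (1 : ℝ) := by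
  obtain ⟨κ, hs, h1, h2⟩ := exists_radial (S := S)
  have h3 : chi S = κ := by
    rw [chi, ← h2, Measure.map_map meas_norm meas_polar]
    refine (Measure.map_congr ?_).trans (measurePreserving_snd (μ := sph S) (ν := κ)).map_eq
    filter_upwards [(measurePreserving_snd (μ := sph S) (ν := κ)).quasiMeasurePreserving.ae h1]
      with p hp
    exact norm_polar p.1 hp.le
  rw [h3]
  exact ⟨h1, h2⟩

end PolarAux

theorem chi_pos [Nonempty S] : ∀ᵐ R ∂(chi S), 0 < R := chi_spec.1

/-- Polar decomposition of the standard Gaussian vector. -/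
theorem polar [Nonempty S] :
    ((sph S).prod (chi S)).map
        (fun p : Sph S × ℝ => fun i => p.2 / √(Fintype.card S : ℝ) * p.1.1 i)
      = gv fun _ : S => (1 : ℝ) := chi_spec.2

/-- The uniform measure is the law of the direction of a Gaussian vector. -/
theorem sph_eq_map [Nonempty S] (φ : (S → ℝ) → Sph S) (hφ : Measurable φ)
    (h : ∀ (y : S → ℝ) (i : S), y ≠ 0 →
      (φ y).1 i = √(Fintype.card S : ℝ) / √(∑ j, y j ^ 2) * y i) :
    (gv fun _ : S => (1 : ℝ)).map φ = sph S := by
  have hN := (Real.sqrt_pos.2 (card_pos (S := S))).ne'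
  rw [← polar, Measure.map_map hφ meas_polar]
  refine (Measure.map_congr ?_).trans (measurePreserving_fst (μ := sph S) (ν := chi S)).map_eq
  filter_upwards [(measurePreserving_snd (μ := sph S) (ν := chi S)).quasiMeasurePreserving.ae
    chi_pos] with p hp
  have h1 := norm_polar p.1 hp.le
  have h2 : (fun i => p.2 / √(Fintype.card S : ℝ) * p.1.1 i) ≠ 0 := fun h0 => by
    have h3 : ∀ i, p.2 / √(Fintype.card S : ℝ) * p.1.1 i = 0 := fun i => congrFun h0 i
    simp only [h3] at h1
    simp at h1
    exact hp.ne h1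
  refine Subtype.ext (funext fun i => ?_)
  rw [Function.comp_apply, h _ i h2, h1]
  have := hp.ne'
  field_simp

namespace PolarAux

theorem sum_sq_pos {y : S → ℝ} (hy : y ≠ 0) : 0 < ∑ j, y j ^ 2 := by
  obtain ⟨i, hi⟩ := Function.ne_iff.1 hy
  exact Finset.sum_pos' (fun j _ => sq_nonneg _) ⟨i, Finset.mem_univ i, pow_two_pos_of_ne_zero hi⟩

theorem exists_dir (S : Type) [Fintype S] : ∃ φ : (S → ℝ) → Sph S, Measurable φ ∧
    ∀ (y : S → ℝ) (i : S), y ≠ 0 →
      (φ y).1 i = √(Fintype.card S : ℝ) / √(∑ j, y j ^ 2) * y i := by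
  classical
  refine ⟨fun y => ⟨if y = 0 then fun _ => 1
    else fun i => √(Fintype.card S : ℝ) / √(∑ j, y j ^ 2) * y i, ?_⟩, meas_to ?_,
    fun y i hy => by simp only [if_neg hy]⟩
  · split_ifs with hy
    · simp
    · have h := sum_sq_pos hy
      simp only [mul_pow, ← Finset.mul_sum, div_pow, Real.sq_sqrt h.le,
        Real.sq_sqrt (Nat.cast_nonneg (Fintype.card S))]
      exact div_mul_cancel₀ _ h.ne'
  · exact Measurable.ite (measurableSet_singleton (0 : S → ℝ)) measurable_const (by fun_prop)

/-- A probability measure on the sphere with a Gaussian polar product is uniform. -/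
theorem eq_sph [Nonempty S] (μ : Measure (Sph S)) [SFinite μ] (κ : Measure ℝ)
    [IsProbabilityMeasure κ] (hκ : ∀ᵐ R ∂κ, 0 < R)
    (h : (μ.prod κ).map (fun p : Sph S × ℝ => fun i => p.2 / √(Fintype.card S : ℝ) * p.1.1 i)
      = gv fun _ : S => (1 : ℝ)) : μ = sph S := by
  obtain ⟨φ, hφ, hd⟩ := exists_dir S
  have hN := (Real.sqrt_pos.2 (card_pos (S := S))).ne'
  rw [← sph_eq_map φ hφ hd, ← h, Measure.map_map hφ meas_polar]
  refine ((Measure.map_congr ?_).trans (measurePreserving_fst (μ := μ) (ν := κ)).map_eq).symm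
  filter_upwards [Measure.quasiMeasurePreserving_snd.ae hκ] with p hp
  have h1 := norm_polar p.1 hp.le
  have h2 : (fun i => p.2 / √(Fintype.card S : ℝ) * p.1.1 i) ≠ 0 := fun h0 => by
    have h3 : ∀ i, p.2 / √(Fintype.card S : ℝ) * p.1.1 i = 0 := fun i => congrFun h0 i
    simp only [h3] at h1
    simp at h1
    exact hp.ne h1
  refine Subtype.ext (funext fun i => ?_)
  rw [Function.comp_apply, hd _ i h2, h1]
  have := hp.ne'
  field_simp

end PolarAux

theorem measurable_rotSph [DecidableEq S] (O : Matrix S S ℝ) (hO : O.transpose * O = 1) :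
    Measurable (rotSph O hO) := by
  refine meas_to (measurable_pi_lambda _ fun k => ?_)
  exact Finset.measurable_sum _ fun i _ => ((measurable_pi_apply i).comp mval).const_mul (O k i)

theorem sph_rot [Nonempty S] [DecidableEq S] (O : Matrix S S ℝ) (hO : O.transpose * O = 1) :
    (sph S).map (rotSph O hO) = sph S := by
  have hm := measurable_rotSph O hO
  refine eq_sph _ (chi S) chi_pos ?_
  have h1 : (gv fun _ : S => (1 : ℝ)).map (fun z k => ∑ i, O k i * z i) = gv fun _ => 1 := by
    refine gauss_lin (fun k i => O k i) (fun _ => zero_le_one) fun k l => ?_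
    have h0 : O * O.transpose = 1 := mul_eq_one_comm.1 hO
    have h2 := congrFun (congrFun h0 k) l
    simpa only [Matrix.mul_apply, Matrix.transpose_apply, Matrix.one_apply, one_mul] using h2
  conv_lhs => rw [← Measure.map_id (μ := chi S)]
  rw [Measure.map_prod_map _ _ hm measurable_id,
    Measure.map_map meas_polar (hm.prodMap measurable_id), ← h1, ← polar,
    Measure.map_map (by fun_prop) meas_polar]
  congr 1
  funext p k
  change p.2 / √(Fintype.card S : ℝ) * ∑ i, O k i * p.1.1 i
    = ∑ i, O k i * (p.2 / √(Fintype.card S : ℝ) * p.1.1 i)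
  rw [Finset.mul_sum]
  exact Finset.sum_congr rfl fun i _ => by ring

theorem sph_reindex [Nonempty S] {S' : Type} [Fintype S'] (e : S ≃ S') :
    (sph S).map (reSph e) = sph S' := by
  classical
  have : Nonempty S' := e.nonempty_congr.1 inferInstance
  have hm := measurable_reSph e
  refine eq_sph _ (chi S) chi_pos ?_
  have h1 : (gv fun _ : S => (1 : ℝ)).map (fun z k => z (e.symm k)) = gv fun _ : S' => 1 :=
    gauss_sel (fun k => some (e.symm k)) (fun k l i hk hl =>
      e.symm.injective ((Option.some.inj hk).trans (Option.some.inj hl).symm)) _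
  conv_lhs => rw [← Measure.map_id (μ := chi S)]
  rw [Measure.map_prod_map _ _ hm measurable_id,
    Measure.map_map meas_polar (hm.prodMap measurable_id), ← h1, ← polar,
    Measure.map_map (by fun_prop) meas_polar]
  congr 1
  funext p k
  change p.2 / √(Fintype.card S' : ℝ) * p.1.1 (e.symm k)
    = p.2 / √(Fintype.card S : ℝ) * p.1.1 (e.symm k)
  have h2 : (Fintype.card S' : ℝ) = Fintype.card S := by rw [Fintype.card_congr e]
  rw [show √(Fintype.card S' : ℝ) = √(Fintype.card S : ℝ) from congrArg _ h2]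

theorem exists_rot [DecidableEq S] (g : S → ℝ) (i0 : S) :
    ∃ O : Matrix S S ℝ, O.transpose * O = 1 ∧
      ∀ x : S → ℝ, ∑ i, g i * x i = √(∑ i, g i ^ 2) * O.mulVec x i0 := by
  by_cases hg : g = 0
  · exact ⟨1, by simp, fun x => by simp [hg]⟩
  have h0 := sum_sq_pos hg
  have h1 := (Real.sqrt_pos.2 h0).ne'
  set u : EuclideanSpace ℝ S := WithLp.toLp 2 fun i => g i / √(∑ i, g i ^ 2) with hu
  have hn : ‖u‖ = 1 := by
    rw [EuclideanSpace.norm_eq, Real.sqrt_eq_one]
    simp only [hu, Real.norm_eq_abs, sq_abs, div_pow, ← Finset.sum_div, Real.sq_sqrt h0.le]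
    exact div_self h0.ne'
  have ho : Orthonormal ℝ (({i0} : Set S).domRestrict fun _ => u) :=
    ⟨fun _ => hn, fun a b hab => (hab (Subsingleton.elim a b)).elim⟩
  obtain ⟨b, hb⟩ := ho.exists_orthonormalBasis_extension_of_card_eq finrank_euclideanSpace
  refine ⟨Matrix.of fun k i => b k i, mul_eq_one_comm.1 ?_, fun x => ?_⟩
  · ext k l
    have h2 := orthonormal_iff_ite.1 b.orthonormal l k
    rw [Matrix.mul_apply, Matrix.one_apply]
    simp only [Matrix.transpose_apply, Matrix.of_apply]
    rw [PiLp.inner_apply] at h2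
    simpa [eq_comm] using h2
  · change _ = _ * ∑ i, b i0 i * x i
    rw [hb i0 rfl, Finset.mul_sum]
    refine Finset.sum_congr rfl fun i _ => ?_
    simp only [hu]
    field_simp

theorem measurable_slift [Nonempty S] :
    Measurable fun p : Sph S × ℝ => slift p.1 p.2 := by
  have hc : Measurable (clipE S) :=
    Measurable.ite (measurableSet_le (by fun_prop) measurable_const) measurable_id
      measurable_const
  have hr : Measurable (rhoE S) := by
    unfold rhoE
    fun_prop
  refine meas_to (measurable_pi_lambda _ fun o => ?_)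
  cases o with
  | none => exact hc.comp measurable_snd
  | some j =>
    exact (hr.comp measurable_snd).mul (((measurable_pi_apply j).comp mval).comp measurable_fst)

/-- Slicing the sphere along one coordinate. -/
theorem sph_option [Nonempty S] :
    ((sph S).prod (nuE S)).map (fun p => slift p.1 p.2) = sph (Option S) := by
  obtain ⟨φ, hφ, hd⟩ := exists_dir (Option S)
  have hN := card_pos (S := S)
  have h1 : MeasurePreserving _ _ _ := ⟨meas_polar, polar (S := S)⟩
  have h2 := h1.prod (MeasurePreserving.id (g1 1))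
  have mj : Measurable fun p : (S → ℝ) × ℝ => fun o : Option S => o.elim p.2 p.1 := by
    refine measurable_pi_lambda _ fun o => ?_
    cases o with
    | none => exact measurable_snd
    | some j => exact (measurable_pi_apply j).comp measurable_fst
  have h3 : MeasurePreserving (fun p : (S → ℝ) × ℝ => fun o : Option S => o.elim p.2 p.1)
      ((gv fun _ : S => (1 : ℝ)).prod (g1 1)) (gv fun _ => 1) := by
    refine ⟨mj, ?_⟩
    rw [← gauss_opt fun _ : Option S => (1 : ℝ), Measure.map_map mj (by fun_prop)]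
    refine Eq.trans (congrArg (Measure.map · _) (funext fun z => funext fun o => ?_))
      Measure.map_id
    cases o <;> rfl
  have h4 : MeasurePreserving φ _ _ := ⟨hφ, sph_eq_map φ hφ hd⟩
  have h5 : MeasurePreserving MeasurableEquiv.prodAssoc (((sph S).prod (chi S)).prod (g1 1))
      ((sph S).prod ((chi S).prod (g1 1))) :=
    ⟨MeasurableEquiv.prodAssoc.measurable, Measure.prodAssoc_prod⟩
  have h6 : MeasurePreserving
      (fun p : ℝ × ℝ => √(Fintype.card S + 1 : ℝ) * p.2 / √(p.1 ^ 2 + p.2 ^ 2))
      ((chi S).prod (g1 1)) (nuE S) := ⟨by fun_prop, rfl⟩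
  have h7 := ((MeasurePreserving.id (sph S)).prod h6).comp h5
  rw [← h7.map_eq, Measure.map_map measurable_slift h7.measurable]
  refine (Measure.map_congr ?_).trans (h4.comp (h3.comp h2)).map_eq
  have h8 : ∀ᵐ p ∂(((sph S).prod (chi S)).prod (g1 1)), 0 < p.1.2 :=
    (measurePreserving_snd.comp measurePreserving_fst).quasiMeasurePreserving.ae chi_pos
  filter_upwards [h8] with p hp
  obtain ⟨⟨x, R⟩, t⟩ := p
  have hR : 0 < R := hp
  have hs : ∑ j : Option S, (j.elim t fun i => R / √(Fintype.card S : ℝ) * x.1 i) ^ 2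
      = R ^ 2 + t ^ 2 := by
    simp only [Fintype.sum_option, Option.elim, mul_pow, ← Finset.mul_sum, x.2, div_pow,
      Real.sq_sqrt hN.le]
    rw [div_mul_cancel₀ _ hN.ne', add_comm]
  have hq : 0 < R ^ 2 + t ^ 2 := by positivity
  have hne : (fun j : Option S => j.elim t fun i => R / √(Fintype.card S : ℝ) * x.1 i) ≠ 0 :=
    fun h0 => by
      have h3 : ∀ j : Option S, (j.elim t fun i => R / √(Fintype.card S : ℝ) * x.1 i) = 0 :=
        fun j => congrFun h0 j
      simp only [h3] at hs
      simp at hs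
      exact hq.ne hs
  have he : (√(Fintype.card S + 1 : ℝ) * t / √(R ^ 2 + t ^ 2)) ^ 2
      = (Fintype.card S + 1) * t ^ 2 / (R ^ 2 + t ^ 2) := by
    rw [div_pow, mul_pow, Real.sq_sqrt hq.le, Real.sq_sqrt (by positivity)]
  have hc : clipE S (√(Fintype.card S + 1 : ℝ) * t / √(R ^ 2 + t ^ 2))
      = √(Fintype.card S + 1 : ℝ) * t / √(R ^ 2 + t ^ 2) := by
    refine if_pos ?_
    rw [he, div_le_iff₀ hq]
    nlinarith [sq_nonneg R]
  have hr : rhoE S (√(Fintype.card S + 1 : ℝ) * t / √(R ^ 2 + t ^ 2))
      = √(Fintype.card S + 1 : ℝ) / √(R ^ 2 + t ^ 2) * (R / √(Fintype.card S : ℝ)) := by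
    rw [rhoE, hc, he, Real.sqrt_eq_iff_mul_self_eq (by
      refine div_nonneg ?_ hN.le
      rw [sub_nonneg, div_le_iff₀ hq]
      nlinarith [sq_nonneg R]) (by positivity), ← sq, mul_pow, div_pow, div_pow,
      Real.sq_sqrt hq.le, Real.sq_sqrt hN.le, Real.sq_sqrt (by positivity)]
    field_simp
    ring
  refine Subtype.ext (funext fun o => ?_)
  refine Eq.trans ?_ (hd _ o hne).symm
  have hcard : √(Fintype.card (Option S) : ℝ) = √(Fintype.card S + 1 : ℝ) := by
    rw [Fintype.card_option, Nat.cast_add_one]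
  rw [hs, hcard]
  cases o with
  | none =>
    refine hc.trans ?_
    simp only [Option.elim]
    ring
  | some j =>
    change rhoE S (√(Fintype.card S + 1 : ℝ) * t / √(R ^ 2 + t ^ 2)) * x.1 j = _
    rw [hr]
    simp only [Option.elim]
    ring

namespace PolarAux

theorem eint_id : EInt (g1 1) fun z : ℝ => z := by
  have h : LG fun u : ℝ => u := ⟨measurable_id, 1, fun w => by rw [Real.norm_eq_abs]; linarith⟩
  simpa using h.eint (noise_g1 1) 0

theorem int_sum_sq : ∫ y, ∑ i, y i ^ 2 ∂(gv fun _ : S => (1 : ℝ)) = Fintype.card S := by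
  have hp : ∀ i : S, MeasurePreserving (Function.eval i) (gv fun _ : S => (1 : ℝ)) (g1 1) :=
    fun i => measurePreserving_eval (fun _ : S => g1 1) i
  rw [integral_finsetSum (f := fun (i : S) (y : S → ℝ) => y i ^ 2) _
    fun i _ => (hp i).integrable_comp_of_integrable (eint_id.integrable_pow 2)]
  have : ∀ i : S, ∫ y, y i ^ 2 ∂(gv fun _ : S => (1 : ℝ)) = 1 := fun i => by
    have h := integral_sq_g1 zero_le_one
    rwa [← (hp i).map_eq, integral_map (hp i).measurable.aemeasurable (by fun_prop)] at h
  simp [this]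

end PolarAux

theorem integral_chi_sq : ∫ R, R ^ 2 ∂(chi S) = Fintype.card S := by
  rw [chi, integral_map meas_norm.aemeasurable (by fun_prop), ← int_sum_sq]
  exact integral_congr_ae (ae_of_all _ fun y =>
    Real.sq_sqrt (Finset.sum_nonneg fun i _ => sq_nonneg _))

theorem integral_chi_var :
    ∫ R, (R ^ 2 - Fintype.card S) ^ 2 ∂(chi S) = 2 * Fintype.card S := by
  have hL : MemLp (fun z : ℝ => z ^ 2) 2 (g1 1) := by
    refine (memLp_two_iff_integrable_sq (by fun_prop)).2 ?_
    simpa only [← pow_mul] using eint_id.integrable_pow 4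
  have h1 := variance_sum_pi (μ := fun _ : S => g1 1) (X := fun _ z => z ^ 2) fun _ => hL
  have h2 : Var[fun z : ℝ => z ^ 2; g1 1] = 2 := by
    rw [variance_eq_sub hL]
    have a1 := integral_four_g1 zero_le_one
    have a2 := integral_sq_g1 zero_le_one
    have a3 : ∫ z, ((fun z : ℝ => z ^ 2) ^ 2) z ∂(g1 1) = ∫ z, z ^ 4 ∂(g1 1) :=
      integral_congr_ae (ae_of_all _ fun z => by simp only [Pi.pow_apply]; ring)
    rw [a3, a1, a2]
    norm_num
  have e : (∑ i : S, fun ω : S → ℝ => ω i ^ 2) = fun ω => ∑ i, ω i ^ 2 := by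
    funext ω
    rw [Finset.sum_apply]
  rw [e, variance_eq_integral (Measurable.aemeasurable (by fun_prop)), h2] at h1
  have h3 := int_sum_sq (S := S)
  unfold gv at h3
  rw [h3, Finset.sum_const, Finset.card_univ, nsmul_eq_mul, mul_comm] at h1
  rw [chi, integral_map meas_norm.aemeasurable (by fun_prop), ← h1]
  exact integral_congr_ae (ae_of_all _ fun y => by
    simp only [Real.sq_sqrt (Finset.sum_nonneg fun i (_ : i ∈ Finset.univ) => sq_nonneg (y i))])

theorem integrable_chi_pow (k : ℕ) : Integrable (fun R => R ^ k) (chi S) := by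
  have h : LG fun y : S → ℝ => √(∑ i, y i ^ 2) := by
    refine ⟨meas_norm, √(Fintype.card S : ℝ), fun w => ?_⟩
    rw [abs_of_nonneg (Real.sqrt_nonneg _)]
    have h1 : ∑ i, w i ^ 2 ≤ Fintype.card S * (1 + ‖w‖) ^ 2 := by
      rw [← nsmul_eq_mul, ← Finset.card_univ]
      refine Finset.sum_le_card_nsmul _ _ _ fun i _ => ?_
      rw [← sq_abs]
      refine pow_le_pow_left₀ (abs_nonneg _) ?_ 2
      have := norm_le_pi_norm w i
      rw [Real.norm_eq_abs] at this
      linarith
    refine (Real.sqrt_le_sqrt h1).trans (le_of_eq ?_)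
    rw [Real.sqrt_mul (Nat.cast_nonneg _), Real.sqrt_sq (by positivity)]
  rw [chi, integrable_map_measure (by fun_prop) meas_norm.aemeasurable]
  simpa only [zero_add, Function.comp_def] using
    (h.eint (noise_gv fun _ => 1) 0).integrable_pow k

end Vale.Agent.P157
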