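import Vale.Agent.P157.Good
import Vale.Agent.P157.IsingB

/-! # Adding one Ising spin -/

namespace Vale.Agent.P157

open MeasureTheory ProbabilityTheory Filter Topology

/-- Interpolating family for the spin cavity: at `t = 1` the system with one more spin. -/
noncomputable def VSt (S : Type) [Fintype S] [DecidableEq S] (F : ℕ → ℝ → ℝ) (m : ℕ)
    (ζ : ℕ → ℝ) (n : ℕ) (θ θ' xn : ℕ → ℝ) (t : ℝ) : ℝ :=
  Val (ising (Option S)) (fun a : Fin m => F a) ζ
    (prof n (fun _ i => i.elim (t / (Fintype.card S + 1)) fun _ =>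
        (Fintype.card S : ℝ)⁻¹ - t / (Fintype.card S * (Fintype.card S + 1)))
      (fun d i => i.elim (xn d) fun _ => sq0 θ d) (fun d _ => sq0 θ' d)) n

namespace SCAux

/-- Pattern variances of the interpolating family. -/
noncomputable def gt (S : Type) [Fintype S] (t : ℝ) (i : Option S) : ℝ :=
  i.elim (t / (Fintype.card S + 1)) fun _ =>
    (Fintype.card S : ℝ)⁻¹ - t / (Fintype.card S * (Fintype.card S + 1))

theorem gt_bd {S : Type} [Fintype S] [Nonempty S] {t : ℝ} (ht0 : 0 ≤ t) (ht1 : t ≤ 1)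
    (i : Option S) : 0 ≤ gt S t i ∧ gt S t i ≤ 2 / (Fintype.card S : ℝ) := by
  have hN : (1 : ℝ) ≤ Fintype.card S := by exact_mod_cast Fintype.card_pos
  have hN0 : (0 : ℝ) < Fintype.card S := by linarith
  cases i with
  | none =>
    show 0 ≤ t / (Fintype.card S + 1) ∧ t / (Fintype.card S + 1) ≤ 2 / (Fintype.card S : ℝ)
    refine ⟨by positivity, ?_⟩
    rw [div_le_div_iff₀ (by positivity) hN0]
    nlinarith
  | some j =>
    show 0 ≤ (Fintype.card S : ℝ)⁻¹ - t / (Fintype.card S * (Fintype.card S + 1)) ∧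
      (Fintype.card S : ℝ)⁻¹ - t / (Fintype.card S * (Fintype.card S + 1))
        ≤ 2 / (Fintype.card S : ℝ)
    have e : (Fintype.card S : ℝ)⁻¹ - t / (Fintype.card S * (Fintype.card S + 1))
        = (Fintype.card S + 1 - t) / (Fintype.card S * (Fintype.card S + 1)) := by
      field_simp
    rw [e]
    refine ⟨div_nonneg (by linarith) (by positivity), ?_⟩
    rw [div_le_div_iff₀ (by positivity) hN0]
    nlinarith

theorem gt_interp {S : Type} [Fintype S] (t0 t1 u : ℝ) (i : Option S) :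
    gt S t0 i + u * (gt S t1 i - gt S t0 i) = gt S (t0 + u * (t1 - t0)) i := by
  cases i with
  | none => simp only [gt, Option.elim]; ring
  | some j => simp only [gt, Option.elim]; ring

/-- The spin field variances. -/
def xv {S : Type} (xn xs : ℕ → ℝ) (d : ℕ) (i : Option S) : ℝ := i.elim (xn d) fun _ => xs d

theorem xv_nonneg {S : Type} {xn xs : ℕ → ℝ} (h : ∀ d, 0 ≤ xn d) (h' : ∀ d, 0 ≤ xs d) (d : ℕ)
    (i : Option S) : 0 ≤ xv xn xs d i := by
  cases i with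
  | none => exact h d
  | some j => exact h' d

section
variable {A S : Type} [Fintype A] [Fintype S] [DecidableEq A] [DecidableEq S]
  {f f1 f2 : A → ℝ → ℝ} {K : ℝ} {ζ : ℕ → ℝ}

theorem profI_eq (n : ℕ) (t0 t1 : ℝ) (x0 x1 xs : ℕ → ℝ) (y : ℕ → A → ℝ) (u : ℝ) :
    profI n (fun (_ : A) => gt S t0) (fun _ => gt S t1) (xv x0 xs) (xv x1 xs) y y u
      = prof n (fun _ => gt S (t0 + u * (t1 - t0)))
          (xv (fun d => x0 d + u * (x1 d - x0 d)) xs) y := by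
  unfold profI
  have h1 : (fun (_ : A) (i : Option S) => gt S t0 i + u * (gt S t1 i - gt S t0 i))
      = fun _ => gt S (t0 + u * (t1 - t0)) := by
    funext a i
    exact gt_interp t0 t1 u i
  have h2 : (fun d (i : Option S) => xv x0 xs d i + u * (xv x1 xs d i - xv x0 xs d i))
      = xv (fun d => x0 d + u * (x1 d - x0 d)) xs := by
    funext d i
    cases i with
    | none => rfl
    | some j => simp only [xv, Option.elim]; ring
  have h3 : (fun d a => y d a + u * (y d a - y d a)) = y := by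
    funext d a
    ring
  rw [h1, h2, h3]

theorem ngv {ι : Type} [Fintype ι] (s : ℕ → ι → ℝ) : ∀ d, Noise (gvs s d) :=
  fun d => noise_gv (s d)

theorem DbG (s : ℕ → Co A S → ℝ) (n d : ℕ) (a : A) (i : S) :
    Db ζ (gvs s) (ising S) (uH f) (u1 f1 (.inl (a, i))) (u2 f2 (.inl (a, i))) n d
      = EG ζ (gvs s) (ising S) (uH f)
          (fun w x => f2 a (arg w x.1 a) + f1 a (arg w x.1 a) ^ 2) n
        - ∑ k ∈ Finset.range d, (ζ k - ζ (k + 1)) *
          Esq ζ (gvs s) (ising S) (uH f) (fun w x => f1 a (arg w x.1 a) * x.1 i) n (k + 1) := by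
  unfold Db
  rw [EG_congr_ae (g' := fun w x => f2 a (arg w x.1 a) + f1 a (arg w x.1 a) ^ 2)]
  · rfl
  · intro w
    filter_upwards [ising_ae (S := S)] with x hx
    show f2 a (arg w x.1 a) * x.1 i ^ 2 + (f1 a (arg w x.1 a) * x.1 i) ^ 2 = _
    rw [mul_pow, hx i, mul_one, mul_one]

theorem DbF (hζ : Zok ζ) (hf : ∀ a, Sm (f a) (f1 a) (f2 a) K) (s : ℕ → Co A S → ℝ) (n d : ℕ)
    (i : S) :
    Db ζ (gvs s) (ising S) (uH f) (u1 f1 (.inr (.inl i))) (u2 f2 (.inr (.inl i))) n d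
      = 1 - ∑ k ∈ Finset.range d, (ζ k - ζ (k + 1)) *
          Esq ζ (gvs s) (ising S) (uH f) (fun _ x => x.1 i) n (k + 1) := by
  unfold Db
  rw [EG_congr_ae (g' := fun _ _ => 1)]
  · rw [EG, GE_const (hj_uH hf).hg hζ (ngv s)]
    rfl
  · intro w
    filter_upwards [ising_ae (S := S)] with x hx
    show 0 + x.1 i ^ 2 = _
    rw [hx i, zero_add]

theorem valD_eq [Nonempty S] (hζ : Zok ζ) (hf : ∀ a, Sm (f a) (f1 a) (f2 a) K) (n : ℕ)
    (t0 t1 : ℝ) (x0 x1 xs : ℕ → ℝ) (y : ℕ → A → ℝ) (u : ℝ) {s : ℕ → Co A (Option S) → ℝ}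
    (hs : s = prof n (fun _ => gt S (t0 + u * (t1 - t0)))
          (xv (fun d => x0 d + u * (x1 d - x0 d)) xs) y) :
    valD (ising (Option S)) f f1 f2 ζ n (fun _ => gt S t0) (fun _ => gt S t1) (xv x0 xs)
        (xv x1 xs) y y u
      = (t1 - t0) * ∑ k ∈ Finset.range n, (ζ k - ζ (k + 1)) *
          ((∑ a, ∑ j, Esq ζ (gvs s) (ising (Option S)) (uH f)
              (fun w x => f1 a (arg w x.1 a) * x.1 (some j)) n (k + 1))
              / (Fintype.card S * (Fintype.card S + 1))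
            - (∑ a, Esq ζ (gvs s) (ising (Option S)) (uH f)
              (fun w x => f1 a (arg w x.1 a) * x.1 none) n (k + 1)) / (Fintype.card S + 1))
        + ∑ d ∈ Finset.range (n + 1), (x1 d - x0 d) *
          (1 - ∑ k ∈ Finset.range d, (ζ k - ζ (k + 1)) *
            Esq ζ (gvs s) (ising (Option S)) (uH f) (fun _ x => x.1 none) n (k + 1)) := by
  have hN0 : (0 : ℝ) < Fintype.card S := by exact_mod_cast Fintype.card_pos
  unfold valD
  rw [profI_eq, ← hs]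
  simp only [sub_self, zero_mul, Finset.sum_const_zero, add_zero, DbG, DbF hζ hf]
  refine congrArg₂ (· + ·) ?_ ?_
  · simp only [mul_sub (ζ _ - ζ _), Finset.sum_sub_distrib, Finset.sum_div, Finset.mul_sum,
      mul_sub (t1 - t0)]
    rw [Finset.sum_comm (s := Finset.range n), Finset.sum_comm (s := Finset.range n),
      ← Finset.sum_sub_distrib]
    refine Finset.sum_congr rfl fun a _ => ?_
    rw [Fintype.sum_option, Finset.sum_comm (s := Finset.range n)]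
    generalize EG ζ (gvs s) (ising (Option S)) (uH f)
      (fun w x => f2 a (arg w x.1 a) + f1 a (arg w x.1 a) ^ 2) n = E
    have e1 : gt S t1 none - gt S t0 none = (t1 - t0) / (Fintype.card S + 1) := by
      simp only [gt, Option.elim]; ring
    have e2 : ∀ j : S, gt S t1 (some j) - gt S t0 (some j)
        = -((t1 - t0) / (Fintype.card S * (Fintype.card S + 1))) := fun j => by
      simp only [gt, Option.elim]; ring
    simp only [e1, e2, mul_sub _ E, Finset.sum_sub_distrib, Finset.sum_const, Finset.card_univ,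
      nsmul_eq_mul, Finset.mul_sum]
    have e3 : (t1 - t0) / (Fintype.card S + 1) * E
        + Fintype.card S * (-((t1 - t0) / (Fintype.card S * (Fintype.card S + 1))) * E) = 0 := by
      field_simp
      ring
    have e4 : ∀ (a b : ℝ), (t1 - t0) / (Fintype.card S + 1) * (a * b)
        = (t1 - t0) * (a * (b / (Fintype.card S + 1))) := fun a b => by ring
    have e5 : ∀ (a b : ℝ), -((t1 - t0) / (Fintype.card S * (Fintype.card S + 1))) * (a * b)
        = -((t1 - t0) * (a * (b / (Fintype.card S * (Fintype.card S + 1))))) := fun a b => by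
      ring
    simp only [e4, e5, Finset.sum_neg_distrib]
    linarith
  · refine Finset.sum_congr rfl fun d _ => ?_
    rw [Fintype.sum_option]
    simp only [xv, Option.elim, sub_self, zero_mul, Finset.sum_const_zero, add_zero]

theorem sum_delta_le (hζ : Zok ζ) (n : ℕ) : ∑ k ∈ Finset.range n, (ζ k - ζ (k + 1)) ≤ 1 := by
  rw [Finset.sum_range_sub']
  linarith [hζ.le1, hζ.nn n]

theorem delta_nonneg (hζ : Zok ζ) (k : ℕ) : 0 ≤ ζ k - ζ (k + 1) :=
  sub_nonneg.2 (hζ.anti (Nat.le_succ k))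

theorem abs_sum_delta_le (hζ : Zok ζ) (n : ℕ) {a : ℕ → ℝ} {B : ℝ} (hB : 0 ≤ B)
    (h : ∀ k, |a k| ≤ B) : |∑ k ∈ Finset.range n, (ζ k - ζ (k + 1)) * a k| ≤ B := by
  refine (Finset.abs_sum_le_sum_abs _ _).trans ?_
  have h1 : ∑ k ∈ Finset.range n, |(ζ k - ζ (k + 1)) * a k|
      ≤ ∑ k ∈ Finset.range n, (ζ k - ζ (k + 1)) * B :=
    Finset.sum_le_sum fun k _ => by
      rw [abs_mul, abs_of_nonneg (delta_nonneg hζ k)]
      exact mul_le_mul_of_nonneg_left (h k) (delta_nonneg hζ k)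
  rw [← Finset.sum_mul] at h1
  nlinarith [sum_delta_le hζ n]

theorem abs_spin_ae (i : S) : ∀ᵐ x ∂(ising S), |x.1 i| = 1 := by
  filter_upwards [ising_ae (S := S)] with x hx
  have h := hx i
  rw [← sq_abs] at h
  nlinarith [abs_nonneg (x.1 i)]

theorem Esq_G_le (hf : ∀ a, Sm (f a) (f1 a) (f2 a) K) (s : ℕ → Co A S → ℝ) (n k : ℕ) (a : A)
    (i : S) :
    Esq ζ (gvs s) (ising S) (uH f) (fun w x => f1 a (arg w x.1 a) * x.1 i) n k ≤ K ^ 2 := by
  refine Esq_le_sq (hf a).jet.K0 (fun w => ?_) n k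
  filter_upwards [abs_spin_ae (S := S) i] with x hx
  rw [abs_mul, hx, mul_one]
  exact (hf a).jet.bm _

theorem Esq_F_le (s : ℕ → Co A S → ℝ) (n k : ℕ) (i : S) :
    Esq ζ (gvs s) (ising S) (uH f) (fun _ x => x.1 i) n k ≤ 1 := by
  have h := Esq_le_sq (ζ := ζ) (ν := gvs s) (μ := ising S) (H := uH f)
    (g := fun _ x => x.1 i) zero_le_one (fun w => by
      filter_upwards [abs_spin_ae (S := S) i] with x hx
      exact hx.le) n k
  rwa [one_pow] at h

theorem Esq_Y_le (hf : ∀ a, Sm (f a) (f1 a) (f2 a) K) (s : ℕ → Co A S → ℝ) (n k : ℕ) (a : A) :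
    Esq ζ (gvs s) (ising S) (uH f) (fun w x => f1 a (arg w x.1 a)) n k ≤ K ^ 2 :=
  Esq_le_sq (hf a).jet.K0 (fun _ => Eventually.of_forall fun _ => (hf a).jet.bm _) n k

theorem UA_bd (hf : ∀ a, Sm (f a) (f1 a) (f2 a) K) (s : ℕ → Co A (Option S) → ℝ) (n k : ℕ) :
    0 ≤ ∑ a, ∑ j, Esq ζ (gvs s) (ising (Option S)) (uH f)
        (fun w x => f1 a (arg w x.1 a) * x.1 (some j)) n k ∧
    ∑ a, ∑ j, Esq ζ (gvs s) (ising (Option S)) (uH f)
        (fun w x => f1 a (arg w x.1 a) * x.1 (some j)) n k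
      ≤ Fintype.card A * K ^ 2 * Fintype.card S := by
  refine ⟨Finset.sum_nonneg fun a _ => Finset.sum_nonneg fun j _ => Esq_nonneg _ _ _, ?_⟩
  have h : ∑ a, ∑ j, Esq ζ (gvs s) (ising (Option S)) (uH f)
        (fun w x => f1 a (arg w x.1 a) * x.1 (some j)) n k ≤ ∑ _a : A, ∑ _j : S, K ^ 2 :=
    Finset.sum_le_sum fun a _ => Finset.sum_le_sum fun j _ => Esq_G_le hf s n k a (some j)
  simp only [Finset.sum_const, Finset.card_univ, nsmul_eq_mul] at h
  linarith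

theorem Uh_bd (hf : ∀ a, Sm (f a) (f1 a) (f2 a) K) (s : ℕ → Co A S → ℝ) (n k : ℕ) (i : S) :
    0 ≤ ∑ a, Esq ζ (gvs s) (ising S) (uH f) (fun w x => f1 a (arg w x.1 a) * x.1 i) n k ∧
    ∑ a, Esq ζ (gvs s) (ising S) (uH f) (fun w x => f1 a (arg w x.1 a) * x.1 i) n k
      ≤ Fintype.card A * K ^ 2 := by
  refine ⟨Finset.sum_nonneg fun a _ => Esq_nonneg _ _ _, ?_⟩
  have h : ∑ a, Esq ζ (gvs s) (ising S) (uH f) (fun w x => f1 a (arg w x.1 a) * x.1 i) n k
      ≤ ∑ _a : A, K ^ 2 := Finset.sum_le_sum fun a _ => Esq_G_le hf s n k a i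
  simp only [Finset.sum_const, Finset.card_univ, nsmul_eq_mul] at h
  exact h

theorem gt_zero : (fun (_ : A) => gt S 0)
    = fun (a : A) (i : Option S) => i.elim 0 ((fun _ _ => (Fintype.card S : ℝ)⁻¹) a) := by
  funext a i
  cases i with
  | none => simp only [gt, Option.elim, zero_div]
  | some j => simp only [gt, Option.elim, zero_div, sub_zero]

theorem val_zero (hζ : Zok ζ) (hf : ∀ a, Sm (f a) (f1 a) (f2 a) K) (n : ℕ) (xn xs : ℕ → ℝ)
    (y : ℕ → A → ℝ) :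
    Val (ising (Option S)) f ζ (prof n (fun _ => gt S 0) (xv xn xs) y) n
      = Val (ising S) f ζ (prof n (fun _ _ => (Fintype.card S : ℝ)⁻¹) (fun d _ => xs d) y) n
        + X ζ (g1s xn) lc (n + 1) 0 := by
  rw [gt_zero]
  exact val_ising_decoupled hζ (fun a => (hf a).meas) (fun a => (hf a).bd) n _ _ y

theorem abs_sum_div_le (hζ : Zok ζ) (n : ℕ) {a : ℕ → ℝ} {c e : ℝ} (hc : 0 < c)
    (h : ∑ k ∈ Finset.range n, (ζ k - ζ (k + 1)) * |a k| ≤ c * e) :
    |∑ k ∈ Finset.range n, (ζ k - ζ (k + 1)) * (a k / c)| ≤ e := by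
  have e1 : ∑ k ∈ Finset.range n, (ζ k - ζ (k + 1)) * (a k / c)
      = (∑ k ∈ Finset.range n, (ζ k - ζ (k + 1)) * a k) / c := by
    rw [Finset.sum_div]
    exact Finset.sum_congr rfl fun k _ => by ring
  rw [e1, abs_div, abs_of_pos hc, div_le_iff₀ hc]
  refine (Finset.abs_sum_le_sum_abs _ _).trans ?_
  rw [mul_comm e c]
  refine le_trans (le_of_eq (Finset.sum_congr rfl fun k _ => ?_)) h
  rw [abs_mul, abs_of_nonneg (delta_nonneg hζ k)]

theorem part_le {R p : ℕ → ℝ} {N e : ℝ} (hN : 0 < N) {d : ℕ}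
    (h : |QQ ζ R d - N * QQ ζ p d| ≤ e * N) :
    |∑ k ∈ Finset.range d, (ζ k - ζ (k + 1)) * (R (k + 1) / N - p (k + 1))| ≤ e := by
  have e1 : ∑ k ∈ Finset.range d, (ζ k - ζ (k + 1)) * (R (k + 1) / N - p (k + 1))
      = (QQ ζ R d - N * QQ ζ p d) / N := by
    rw [QQ, QQ, Finset.mul_sum, ← Finset.sum_sub_distrib, Finset.sum_div]
    refine Finset.sum_congr rfl fun k _ => ?_
    field_simp
  rwa [e1, abs_div, abs_of_pos hN, div_le_iff₀ hN]

theorem arith (hζ : Zok ζ) {n : ℕ} {N B e1 e2 e3 e4 : ℝ} (hN : 0 < N) (hB : 0 ≤ B)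
    (he3 : 0 ≤ e3) (he4 : 0 ≤ e4) {UA Uh R Q P p q : ℕ → ℝ}
    (h1 : ∑ k ∈ Finset.range n, (ζ k - ζ (k + 1)) * |Uh (k + 1) - R (k + 1) * P (k + 1)|
      ≤ N * e1)
    (h2 : ∑ k ∈ Finset.range n, (ζ k - ζ (k + 1)) * |UA (k + 1) - Q (k + 1) * R (k + 1)|
      ≤ N ^ 2 * e2)
    (h3 : ∀ d, 1 ≤ d → d ≤ n → |QQ ζ R d - N * QQ ζ p d| ≤ e3 * N)
    (h4 : ∀ d, 1 ≤ d → d ≤ n → |QQ ζ Q d - N * QQ ζ q d| ≤ e4 * N)
    (hUA : ∀ k, 0 ≤ UA k ∧ UA k ≤ B * N * N) (hUh : ∀ k, 0 ≤ Uh k ∧ Uh k ≤ B * N)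
    (hPa : ∀ k, k < n → P (k + 1) ≤ P k) (hP0 : ∀ k, 0 ≤ P k) (hP1 : P 1 ≤ 1)
    (hRa : ∀ k, k < n → R (k + 1) ≤ R k) (hR0 : ∀ k, 0 ≤ R k) (hR1 : R 1 ≤ B * N)
    (hqa : Antitone q) (hq0 : ∀ k, 0 ≤ q k) (hq1 : q 1 ≤ 1) :
    |∑ k ∈ Finset.range n, (ζ k - ζ (k + 1)) *
          (UA (k + 1) / (N * (N + 1)) - Uh (k + 1) / (N + 1))
        + ∑ k ∈ Finset.range n, p (k + 1) * ((ζ k - ζ (k + 1)) * P (k + 1))
        - pairing n ζ p q| ≤ e1 + e2 + 2 * e3 + e4 * B + B / (N + 1) := by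
  have t0 := abs_sum_delta_le hζ n (B := B / (N + 1)) (by positivity)
    (a := fun k => Uh (k + 1) / (N * (N + 1)) - UA (k + 1) / (N * N * (N + 1))) fun k => by
      obtain ⟨a1, a2⟩ := hUA (k + 1)
      obtain ⟨b1, b2⟩ := hUh (k + 1)
      refine abs_sub_le_iff.2 ⟨?_, ?_⟩
      · refine (sub_le_self _ (div_nonneg a1 (by positivity))).trans ?_
        rw [div_le_div_iff₀ (by positivity) (by positivity)]
        nlinarith [mul_le_mul_of_nonneg_right b2 (by positivity : 0 ≤ N + 1)]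
      · refine (sub_le_self _ (div_nonneg b1 (by positivity))).trans ?_
        rw [div_le_div_iff₀ (by positivity) (by positivity)]
        nlinarith [mul_le_mul_of_nonneg_right a2 (by positivity : 0 ≤ N + 1)]
  have t1 := abs_sum_div_le hζ n hN h1
  have t2 := abs_sum_div_le hζ n (by positivity : 0 < N ^ 2) h2
  have t3 := abel_abs_le (n := n) (p := P) he3 (fun d h h' => part_le hN (h3 d h h'))
    (fun k _ h => hPa k h) (fun k _ _ => hP0 k) hP1 zero_le_one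
  have t4 := abel_abs_le (n := n) (p := q) he3 (fun d h h' => part_le hN (h3 d h h'))
    (fun k _ _ => hqa (Nat.le_succ k)) (fun k _ _ => hq0 k) hq1 zero_le_one
  have t5 := abel_abs_le (n := n) (p := fun k => R k / N) (L := B) he4
    (fun d h h' => part_le hN (h4 d h h'))
    (fun k _ h => div_le_div_of_nonneg_right (hRa k h) hN.le)
    (fun k _ _ => div_nonneg (hR0 k) hN.le) ((div_le_iff₀ hN).2 hR1) hB
  have e : ∑ k ∈ Finset.range n, (ζ k - ζ (k + 1)) *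
          (UA (k + 1) / (N * (N + 1)) - Uh (k + 1) / (N + 1))
        + ∑ k ∈ Finset.range n, p (k + 1) * ((ζ k - ζ (k + 1)) * P (k + 1))
        - pairing n ζ p q
      = ∑ k ∈ Finset.range n, (ζ k - ζ (k + 1)) *
          (Uh (k + 1) / (N * (N + 1)) - UA (k + 1) / (N * N * (N + 1)))
        - ∑ k ∈ Finset.range n, (ζ k - ζ (k + 1)) * ((Uh (k + 1) - R (k + 1) * P (k + 1)) / N)
        + ∑ k ∈ Finset.range n, (ζ k - ζ (k + 1)) *
            ((UA (k + 1) - Q (k + 1) * R (k + 1)) / N ^ 2)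
        - ∑ k ∈ Finset.range n, (ζ k - ζ (k + 1)) * (R (k + 1) / N - p (k + 1)) * P (k + 1)
        + ∑ k ∈ Finset.range n, (ζ k - ζ (k + 1)) * (R (k + 1) / N - p (k + 1)) * q (k + 1)
        + ∑ k ∈ Finset.range n, (ζ k - ζ (k + 1)) * (Q (k + 1) / N - q (k + 1))
            * (R (k + 1) / N) := by
    simp only [pairing, ← Finset.sum_add_distrib, ← Finset.sum_sub_distrib]
    refine Finset.sum_congr rfl fun k _ => ?_
    field_simp
    ring
  rw [e]
  obtain ⟨_, _⟩ := abs_le.1 t0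
  obtain ⟨_, _⟩ := abs_le.1 t1
  obtain ⟨_, _⟩ := abs_le.1 t2
  obtain ⟨_, _⟩ := abs_le.1 t3
  obtain ⟨_, _⟩ := abs_le.1 t4
  obtain ⟨_, _⟩ := abs_le.1 t5
  exact abs_le.2 ⟨by linarith, by linarith⟩

theorem bm2_spin (i : S) : BM2 fun (_ : Co A S → ℝ) (x : Sph S) => x.1 i :=
  ⟨(measurable_sph_coord i).comp measurable_snd, 1 + Fintype.card S, fun _ x => by
    have h := sph_sq_le x i
    rw [← sq_abs] at h
    nlinarith [abs_nonneg (x.1 i), sq_nonneg (|x.1 i| - 1)]⟩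

theorem bm2_f1 (hf : ∀ a, Sm (f a) (f1 a) (f2 a) K) (a : A) :
    BM2 fun (w : Co A S → ℝ) (x : Sph S) => f1 a (arg w x.1 a) :=
  ⟨(hf a).jet.mm.comp (measurable_arg a), K, fun _ _ => (hf a).jet.bm _⟩

theorem decY (s : ℕ → Co A S → ℝ) {n : ℕ} {E : ℝ} (i : S)
    (h : Dec ζ (gvs s) (ising S) (uH f) (fun a w x => f1 a (arg w x.1 a)) n E) :
    ∑ k ∈ Finset.range n, (ζ k - ζ (k + 1)) *
      |∑ a, Esq ζ (gvs s) (ising S) (uH f) (fun w x => f1 a (arg w x.1 a) * x.1 i) n (k + 1)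
        - rho ζ (gvs s) (ising S) (uH f) (fun a w x => f1 a (arg w x.1 a)) n (k + 1)
          * Esq ζ (gvs s) (ising S) (uH f) (fun _ x => x.1 i) n (k + 1)| ≤ E := by
  have hae : ∀ᵐ x ∂(ising S), max (-1) (min 1 (x.1 i)) = x.1 i := by
    filter_upwards [abs_spin_ae (S := S) i] with x hx
    obtain ⟨h1, h2⟩ := abs_le.1 hx.le
    rw [min_eq_right h2, max_eq_right h1]
  have h1 := h (fun _ x => max (-1) (min 1 (x.1 i))) 1
    (measurable_const.max (measurable_const.min ((measurable_sph_coord i).comp measurable_snd)))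
    (fun _ x => abs_le.2 ⟨le_max_left _ _, max_le (by norm_num) (min_le_left _ _)⟩)
  rw [one_pow, one_mul] at h1
  refine le_trans (le_of_eq (Finset.sum_congr rfl fun k _ => ?_)) h1
  have e1 : Esq ζ (gvs s) (ising S) (uH f) (fun _ x => max (-1) (min 1 (x.1 i))) n (k + 1)
      = Esq ζ (gvs s) (ising S) (uH f) (fun _ x => x.1 i) n (k + 1) :=
    Esq_congr_ae (fun _ => hae) _ _
  have e2 : rho ζ (gvs s) (ising S) (uH f)
        (fun a w x => max (-1) (min 1 (x.1 i)) * f1 a (arg w x.1 a)) n (k + 1)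
      = ∑ a, Esq ζ (gvs s) (ising S) (uH f)
        (fun w x => f1 a (arg w x.1 a) * x.1 i) n (k + 1) :=
    Finset.sum_congr rfl fun a _ => Esq_congr_ae (fun w => by
      filter_upwards [hae] with x hx
      rw [hx, mul_comm]) _ _
  rw [e1, e2]

theorem decX (hζ : Zok ζ) (hf : ∀ a, Sm (f a) (f1 a) (f2 a) K)
    (s : ℕ → Co A (Option S) → ℝ) {n : ℕ} {E : ℝ}
    (h : Dec ζ (gvs s) (ising (Option S)) (uH f) (fun (j : S) _ x => x.1 (some j)) n E) :
    ∑ k ∈ Finset.range n, (ζ k - ζ (k + 1)) *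
      |∑ a, ∑ j, Esq ζ (gvs s) (ising (Option S)) (uH f)
            (fun w x => f1 a (arg w x.1 a) * x.1 (some j)) n (k + 1)
        - rho ζ (gvs s) (ising (Option S)) (uH f) (fun (j : S) _ x => x.1 (some j)) n (k + 1)
          * rho ζ (gvs s) (ising (Option S)) (uH f) (fun a w x => f1 a (arg w x.1 a)) n (k + 1)|
      ≤ Fintype.card A * K ^ 2 * E := by
  have h1 : ∀ a, ∑ k ∈ Finset.range n, (ζ k - ζ (k + 1)) *
      |∑ j, Esq ζ (gvs s) (ising (Option S)) (uH f)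
            (fun w x => f1 a (arg w x.1 a) * x.1 (some j)) n (k + 1)
        - rho ζ (gvs s) (ising (Option S)) (uH f) (fun (j : S) _ x => x.1 (some j)) n (k + 1)
          * Esq ζ (gvs s) (ising (Option S)) (uH f) (fun w x => f1 a (arg w x.1 a)) n (k + 1)|
      ≤ K ^ 2 * E := fun a =>
    h (fun w x => f1 a (arg w x.1 a)) K (bm2_f1 hf a).1 fun _ _ => (hf a).jet.bm _
  have h2 := Finset.sum_le_sum fun a (_ : a ∈ Finset.univ) => h1 a
  rw [Finset.sum_const, Finset.card_univ, nsmul_eq_mul, ← mul_assoc, Finset.sum_comm] at h2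
  refine le_trans (Finset.sum_le_sum fun k _ => ?_) h2
  rw [← Finset.mul_sum]
  refine mul_le_mul_of_nonneg_left ?_ (delta_nonneg hζ k)
  refine le_trans (le_of_eq ?_) (Finset.abs_sum_le_sum_abs _ _)
  rw [Finset.sum_sub_distrib, ← Finset.mul_sum]
  rfl

theorem EG_some (hζ : Zok ζ) (hf : ∀ a, Sm (f a) (f1 a) (f2 a) K)
    (s : ℕ → Co A (Option S) → ℝ) (n : ℕ) :
    EG ζ (gvs s) (ising (Option S)) (uH f) (fun _ x => ∑ j : S, x.1 (some j) ^ 2) n
      = Fintype.card S := by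
  rw [EG_congr_ae (g' := fun _ _ => (Fintype.card S : ℝ))]
  · rw [EG, GE_const (hj_uH hf).hg hζ (ngv s)]
  · intro w
    filter_upwards [ising_ae (S := Option S)] with x hx
    simp only [hx, Finset.sum_const, Finset.card_univ, nsmul_eq_mul, mul_one]

theorem core [Nonempty S] (hζ : Zok ζ) (hf : ∀ a, Sm (f a) (f1 a) (f2 a) K) {n : ℕ}
    (s : ℕ → Co A (Option S) → ℝ) {p q tX tY : ℕ → ℝ} {B m2 eX eY δ η : ℝ} (hp : CAdm n p)
    (hq : CAdm n q) (hq0 : q 0 = 1) (hpB : p 0 ≤ B) (hm2 : ζ 0 - ζ 1 ≤ m2)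
    (hA : Fintype.card A * K ^ 2 ≤ B * Fintype.card S) (heX : 0 ≤ eX) (hδ : 0 ≤ δ) (hη : 0 ≤ η)
    (hDX : Dec ζ (gvs s) (ising (Option S)) (uH f) (fun (j : S) _ x => x.1 (some j)) n
      (Fintype.card S * eX))
    (hDY : Dec ζ (gvs s) (ising (Option S)) (uH f) (fun a w x => f1 a (arg w x.1 a)) n
      (Fintype.card S * eY))
    (hX : ∀ d, 1 ≤ d → d ≤ n →
      |EG ζ (gvs s) (ising (Option S)) (uH f) (fun _ x => ∑ j : S, x.1 (some j) ^ 2) n
        - QQ ζ (rho ζ (gvs s) (ising (Option S)) (uH f) (fun (j : S) _ x => x.1 (some j)) n) d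
        - tX d| ≤ δ * Fintype.card S)
    (hY : ∀ d, 1 ≤ d → d ≤ n →
      |QQ ζ (rho ζ (gvs s) (ising (Option S)) (uH f) (fun a w x => f1 a (arg w x.1 a)) n) d
        - QQ ζ (rho ζ (gvs s) (ising (Option S)) (uH f) (fun a w x => f1 a (arg w x.1 a)) n) 1
        - tY d| ≤ δ * Fintype.card S)
    (hX' : ∀ d, 1 ≤ d → d ≤ n →
      |Fintype.card S - Fintype.card S * QQ ζ q d - tX d| ≤ η * Fintype.card S)
    (hY' : ∀ d, 1 ≤ d → d ≤ n →
      |Fintype.card S * (QQ ζ p d - QQ ζ p 1) - tY d| ≤ η * Fintype.card S) :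
    |∑ k ∈ Finset.range n, (ζ k - ζ (k + 1)) *
          ((∑ a, ∑ j, Esq ζ (gvs s) (ising (Option S)) (uH f)
              (fun w x => f1 a (arg w x.1 a) * x.1 (some j)) n (k + 1))
              / (Fintype.card S * (Fintype.card S + 1))
            - (∑ a, Esq ζ (gvs s) (ising (Option S)) (uH f)
              (fun w x => f1 a (arg w x.1 a) * x.1 none) n (k + 1)) / (Fintype.card S + 1))
        + ∑ k ∈ Finset.range n, p (k + 1) * ((ζ k - ζ (k + 1)) *
            Esq ζ (gvs s) (ising (Option S)) (uH f) (fun _ x => x.1 none) n (k + 1))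
        - pairing n ζ p q|
      ≤ eY + B * eX + 2 * (δ + η + m2 * B) + (δ + η) * B + B / (Fintype.card S + 1) := by
  have hN : (0 : ℝ) < Fintype.card S := by exact_mod_cast Fintype.card_pos
  have hB : 0 ≤ B := (hp.nonneg 0).trans hpB
  have hm0 : 0 ≤ m2 := (delta_nonneg hζ 0).trans hm2
  have hH := (hj_uH (S := Option S) hf).hg
  have hR0 : ∀ k, 0 ≤ rho ζ (gvs s) (ising (Option S)) (uH f)
    (fun a w x => f1 a (arg w x.1 a)) n k := fun k => rho_nonneg _ _ _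
  have hR1 : rho ζ (gvs s) (ising (Option S)) (uH f) (fun a w x => f1 a (arg w x.1 a)) n 1
      ≤ B * Fintype.card S := by
    have h : rho ζ (gvs s) (ising (Option S)) (uH f) (fun a w x => f1 a (arg w x.1 a)) n 1
        ≤ ∑ _a : A, K ^ 2 := Finset.sum_le_sum fun a _ => Esq_Y_le hf s n 1 a
    rw [Finset.sum_const, Finset.card_univ, nsmul_eq_mul] at h
    exact h.trans hA
  refine arith hζ hN hB (by positivity) (by positivity)
    (UA := fun k => ∑ a, ∑ j, Esq ζ (gvs s) (ising (Option S)) (uH f)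
      (fun w x => f1 a (arg w x.1 a) * x.1 (some j)) n k)
    (Uh := fun k => ∑ a, Esq ζ (gvs s) (ising (Option S)) (uH f)
      (fun w x => f1 a (arg w x.1 a) * x.1 none) n k)
    (R := rho ζ (gvs s) (ising (Option S)) (uH f) (fun a w x => f1 a (arg w x.1 a)) n)
    (Q := rho ζ (gvs s) (ising (Option S)) (uH f) (fun (j : S) _ x => x.1 (some j)) n)
    (P := Esq ζ (gvs s) (ising (Option S)) (uH f) (fun _ x => x.1 none) n)
    (p := p) (q := q) (decY s none hDY)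
    ((decX hζ hf s hDX).trans ?_) (fun d h h' => ?_) (fun d h h' => ?_)
    (fun k => ⟨(UA_bd hf s n k).1, (UA_bd hf s n k).2.trans
      (mul_le_mul_of_nonneg_right hA hN.le)⟩)
    (fun k => ⟨(Uh_bd hf s n k none).1, (Uh_bd hf s n k none).2.trans hA⟩)
    (fun k hk => Esq_anti hH hζ (ngv s) (bm2_spin none) (Nat.le_succ k) (by omega))
    (fun k => Esq_nonneg _ _ _) (Esq_F_le s n 1 none)
    (fun k hk => rho_anti hH hζ (ngv s) (bm2_f1 hf) (Nat.le_succ k) (by omega)) hR0 hR1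
    hq.anti hq.nonneg (hq0 ▸ hq.anti zero_le_one)
  · nlinarith [mul_le_mul_of_nonneg_right hA (mul_nonneg hN.le heX)]
  · have a1 := abs_le.1 (hY d h h')
    have a2 := abs_le.1 (hY' d h h')
    have hR := hR0 1
    simp only [QQ, Finset.sum_range_one, zero_add] at a1 a2 ⊢
    generalize rho ζ (gvs s) (ising (Option S)) (uH f) (fun a w x => f1 a (arg w x.1 a)) n = R
      at *
    have hp1 : p 1 ≤ B := (hp.anti zero_le_one).trans hpB
    have hp0 := hp.nonneg 1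
    have hd := delta_nonneg hζ 0
    rw [zero_add] at hd
    have b1 : (ζ 0 - ζ 1) * R 1 ≤ m2 * (B * Fintype.card S) :=
      mul_le_mul hm2 hR1 hR hm0
    have b2 : 0 ≤ (ζ 0 - ζ 1) * R 1 := mul_nonneg hd hR
    have b3 : (ζ 0 - ζ 1) * p 1 ≤ m2 * B := mul_le_mul hm2 hp1 hp0 hm0
    have b4 : 0 ≤ (ζ 0 - ζ 1) * p 1 := mul_nonneg hd hp0
    have b5 := mul_le_mul_of_nonneg_left b3 hN.le
    have b6 := mul_nonneg hN.le b4
    exact abs_le.2 ⟨by linarith [a1.1, a2.2], by linarith [a1.2, a2.1]⟩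
  · have a1 := abs_le.1 (hX d h h')
    have a2 := abs_le.1 (hX' d h h')
    rw [EG_some hζ hf] at a1
    exact abs_le.2 ⟨by linarith [a1.2, a2.1], by linarith [a1.1, a2.2]⟩

end

end SCAux

open SCAux

/-- Every member of the family is at bounded distance from the system without the new spin. -/
theorem vst_crude {S : Type} [Fintype S] [DecidableEq S] [Nonempty S] {ζ : ℕ → ℝ} (hζ : Zok ζ)
    (hz : ζ 0 = 1) {F F1 F2 : ℕ → ℝ → ℝ} {K : ℝ} (hF : ∀ a, Sm (F a) (F1 a) (F2 a) K) {A0 : ℝ}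
    {m : ℕ} (hm : (m : ℝ) ≤ A0 * Fintype.card S) (n : ℕ) (θ θ' : ℕ → ℝ) {xn : ℕ → ℝ}
    (hx : ∀ d, 0 ≤ xn d) {t : ℝ} (ht0 : 0 ≤ t) (ht1 : t ≤ 1) :
    |VSt S F m ζ n θ θ' xn t - VS (ising S) F m ζ n θ θ'|
      ≤ A0 * K ^ 2 + (∑ d ∈ Finset.range (n + 1), xn d) / 2 := by
  have hN0 : (0 : ℝ) < Fintype.card S := by exact_mod_cast Fintype.card_pos
  have hf : ∀ a : Fin m, Sm (F a) (F1 a) (F2 a) K := fun a => hF a
  have hA0 : 0 ≤ A0 := by
    by_contra h
    have := mul_neg_of_neg_of_pos (not_le.1 h) hN0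
    linarith [Nat.cast_nonneg (α := ℝ) m]
  have hB : 0 ≤ A0 * K ^ 2 := by positivity
  have hmK : (m : ℝ) * K ^ 2 ≤ A0 * K ^ 2 * Fintype.card S := by
    nlinarith [mul_le_mul_of_nonneg_right hm (sq_nonneg K)]
  have key : ∀ u ∈ Set.Icc (0 : ℝ) 1,
      |valD (ising (Option S)) (fun a : Fin m => F a) (fun a => F1 a) (fun a => F2 a) ζ n
        (fun _ => gt S 0) (fun _ => gt S t) (xv xn (sq0 θ)) (xv xn (sq0 θ))
        (fun d _ => sq0 θ' d) (fun d _ => sq0 θ' d) u| ≤ A0 * K ^ 2 := by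
    intro u _
    rw [valD_eq hζ hf n 0 t xn xn (sq0 θ) _ u rfl]
    simp only [sub_self, zero_mul, Finset.sum_const_zero, add_zero, sub_zero]
    rw [abs_mul, abs_of_nonneg ht0]
    refine (mul_le_mul ht1 (abs_sum_delta_le hζ n hB fun k => ?_) (abs_nonneg _)
      zero_le_one).trans (one_mul _).le
    generalize prof n (fun _ : Fin m => gt S (0 + u * t)) _ _ = s
    obtain ⟨a1, a2⟩ := UA_bd (ζ := ζ) hf s n (k + 1)
    obtain ⟨b1, b2⟩ := Uh_bd (ζ := ζ) hf s n (k + 1) none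
    rw [Fintype.card_fin] at a2 b2
    refine abs_sub_le_iff.2 ⟨?_, ?_⟩
    · refine (sub_le_self _ (div_nonneg b1 (by positivity))).trans ?_
      rw [div_le_iff₀ (by positivity)]
      nlinarith [mul_le_mul_of_nonneg_right hmK hN0.le]
    · refine (sub_le_self _ (div_nonneg a1 (by positivity))).trans ?_
      rw [div_le_iff₀ (by positivity)]
      nlinarith
  have hg : ∀ {t : ℝ}, 0 ≤ t → t ≤ 1 → ∀ (_ : Fin m) (i : Option S), 0 ≤ gt S t i :=
    fun h0 h1 _ i => (gt_bd h0 h1 i).1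
  have hx' := xv_nonneg (S := S) hx (sq0_nonneg θ)
  have hy : ∀ d (_ : Fin m), 0 ≤ sq0 θ' d := fun d _ => sq0_nonneg θ' d
  have h1 := val_le (ising (Option S)) hζ hz hf n (hg le_rfl zero_le_one) hx' hy (hg ht0 ht1)
    hx' hy (κ := A0 * K ^ 2 / 2) fun u hu => by linarith [(abs_le.1 (key u hu)).2]
  have h2 := val_ge (ising (Option S)) hζ hz hf n (hg le_rfl zero_le_one) hx' hy (hg ht0 ht1)
    hx' hy (κ := -(A0 * K ^ 2 / 2)) fun u hu => by linarith [(abs_le.1 (key u hu)).1]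
  rw [val_zero hζ hf] at h1 h2
  obtain ⟨h3, h4⟩ := X_lc_bounds hζ hx (n + 1)
  have e1 : VSt S F m ζ n θ θ' xn t = Val (ising (Option S)) (fun a : Fin m => F a) ζ
    (prof n (fun _ => gt S t) (xv xn (sq0 θ)) fun d _ => sq0 θ' d) n := rfl
  have e2 : VS (ising S) F m ζ n θ θ' = Val (ising S) (fun a : Fin m => F a) ζ
    (prof n (fun _ _ => (Fintype.card S : ℝ)⁻¹) (fun d _ => sq0 θ d) fun d _ => sq0 θ' d) n := rfl
  rw [e1, e2]
  exact abs_le.2 ⟨by linarith, by linarith⟩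

theorem vst_one {S : Type} [Fintype S] [DecidableEq S] [Nonempty S] (F : ℕ → ℝ → ℝ) (m : ℕ)
    (ζ : ℕ → ℝ) (n : ℕ) (θ θ' xn : ℕ → ℝ) :
    VSt S F m ζ n θ θ' xn 1 = VSo S F m ζ n θ θ' xn := by
  have hN0 : (0 : ℝ) < Fintype.card S := by exact_mod_cast Fintype.card_pos
  have e : (fun (_ : Fin m) => gt S 1) = fun _ _ => ((Fintype.card S : ℝ) + 1)⁻¹ := by
    funext a i
    cases i with
    | none => simp only [gt, Option.elim, one_div]
    | some j =>
      simp only [gt, Option.elim]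
      field_simp
      ring
  have e1 : VSt S F m ζ n θ θ' xn 1 = Val (ising (Option S)) (fun a : Fin m => F a) ζ
    (prof n (fun _ => gt S 1) (xv xn (sq0 θ)) fun d _ => sq0 θ' d) n := rfl
  rw [e1, e]
  rfl

theorem vs_ising_succ_sub {ζ : ℕ → ℝ} (hζ : Zok ζ) (hz : ζ 0 = 1) {F F1 F2 : ℕ → ℝ → ℝ} {K : ℝ}
    (hF : ∀ a, Sm (F a) (F1 a) (F2 a) K) {A0 : ℝ} {N m : ℕ} (hN : 1 ≤ N) (hm : (m : ℝ) ≤ A0 * N)
    (n : ℕ) (θ θ' : ℕ → ℝ) :
    |VS (ising (Fin (N + 1))) F m ζ n θ θ' - VS (ising (Fin N)) F m ζ n θ θ'|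
      ≤ A0 * K ^ 2 + (∑ d ∈ Finset.range (n + 1), sq0 θ d) / 2 := by
  have : Nonempty (Fin N) := ⟨⟨0, hN⟩⟩
  have h := vst_crude (S := Fin N) hζ hz hF (A0 := A0) (m := m) (by rwa [Fintype.card_fin]) n θ θ'
    (sq0_nonneg θ) zero_le_one le_rfl
  rwa [vst_one, vso_eq, vs_ising_option fun a => (hF a).meas] at h

theorem sc {n : ℕ} {ζ : ℕ → ℝ} {me K A0 Θ θm : ℝ} (hR : Reg n ζ me K A0 Θ θm) {δ : ℝ}
    (hδ : 0 < δ) :
    ∀ᶠ k in 𝓝[>] (0 : ℝ), ∀ᶠ y in 𝓝[>] (0 : ℝ), ∀ᶠ N : ℕ in atTop,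
      ∀ (S : Type) [Fintype S] [DecidableEq S] (F F1 F2 : ℕ → ℝ → ℝ) (m : ℕ)
        (θ θ' τ τ' q p xn : ℕ → ℝ) (η : ℝ),
        Fintype.card S = N → (m : ℝ) ≤ A0 * N → (∀ a, Sm (F a) (F1 a) (F2 a) K) →
        Fld n θm Θ θ → Fld n θm Θ θ' → CAdm n q → q 0 = 1 → CAdm n p → p 0 ≤ A0 * K ^ 2 →
        (∀ d, 0 ≤ xn d) → ∑ d ∈ Finset.range (n + 1), xn d ≤ Θ → 0 ≤ η →
        SD (fun t => VS (ising S) F m ζ n t θ') θ τ y (k * y * N) n →
        SD (fun t => VS (ising S) F m ζ n θ t) θ' τ' y (k * y * N) n →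
        (∀ d, 1 ≤ d → d ≤ n → |N - N * QQ ζ q d - τ d / θ d| ≤ η * N) →
        (∀ d, 1 ≤ d → d ≤ n →
          |N * (QQ ζ p d - QQ ζ p 1) - (τ' 1 / θ' 1 - τ' d / θ' d)| ≤ η * N) →
        |VSo S F m ζ n θ θ' xn - VS (ising S) F m ζ n θ θ' - psi n ζ (p + cum n xn) lc
            - (pairing n ζ p q - p 0) / 2| ≤ 20 * (1 + A0 * K ^ 2) * (me + δ + η) := by
  have hζ := hR.z.zok
  have hz := hR.z.z0
  have hB : 0 ≤ A0 * K ^ 2 := mul_nonneg hR.A00 (sq_nonneg K)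
  have hΘ := hR.Θ0
  have hme := hR.me0
  have hR' : Reg n ζ me K A0 (Θ + A0 * K ^ 2) θm :=
    ⟨hR.z, hR.me0, hR.me1, hR.mesh, hR.K0, hR.A00, add_nonneg hΘ hB, hR.θm0⟩
  have h2 : Tendsto (fun k : ℝ => 2 * k) (𝓝[>] 0) (𝓝[>] 0) := by
    refine tendsto_nhdsWithin_iff.2 ⟨?_, ?_⟩
    · have h : Tendsto (fun k : ℝ => 2 * k) (𝓝 0) (𝓝 (2 * 0)) := tendsto_id.const_mul 2
      rw [mul_zero] at h
      exact h.mono_left nhdsWithin_le_nhds
    · filter_upwards [self_mem_nhdsWithin] with k hk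
      exact mul_pos two_pos (Set.mem_Ioi.1 hk)
  filter_upwards [h2.eventually (goodX hR' hδ), h2.eventually (goodY hR' hδ),
    self_mem_nhdsWithin] with k hX hY hk
  filter_upwards [hX, hY, self_mem_nhdsWithin] with y hX hY hy
  have hky : 0 < k * y := mul_pos (Set.mem_Ioi.1 hk) (Set.mem_Ioi.1 hy)
  filter_upwards [hX, hY, eventually_ge_atTop 1,
    (tendsto_natCast_atTop_atTop.const_mul_atTop hky).eventually_ge_atTop
      (2 * (A0 * K ^ 2 + (Θ + A0 * K ^ 2) / 2)),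
    (tendsto_natCast_atTop_atTop.const_mul_atTop hδ).eventually_ge_atTop 1]
    with N hX hY hN1 hNC hNδ
  intro S _ _ F F1 F2 m θ θ' τ τ' q p xn η hS hm hF hθ hθ' hq hq0 hp hp0 hx hxΘ hη hSX hSY hX' hY'
  subst hS
  have : Nonempty S := Fintype.card_pos_iff.1 hN1
  have hN : (1 : ℝ) ≤ Fintype.card S := by exact_mod_cast hN1
  have hf : ∀ a : Fin m, Sm (F a) (F1 a) (F2 a) K := fun a => hF a
  have hfld : ∀ {ϑ : ℕ → ℝ}, Fld n θm Θ ϑ → Fld n θm (Θ + A0 * K ^ 2) ϑ :=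
    fun h d a b => ⟨(h d a b).1, (h d a b).2.trans (le_add_of_nonneg_right hB)⟩
  have hsq : ∀ {ϑ : ℕ → ℝ}, Fld n θm Θ ϑ → sq0 ϑ n ≤ Θ + A0 * K ^ 2 := fun h => by
    rw [sq0, if_neg (Nat.one_le_iff_ne_zero.1 hR.z.one_le)]
    exact (hfld h n hR.z.one_le le_rfl).2
  have hcO : (Fintype.card (Option S) : ℝ) ≤ 2 * (Fintype.card S : ℝ) := by
    rw [Fintype.card_option]
    push_cast
    linarith
  have hcA : (Fintype.card (Fin m) : ℝ) ≤ A0 * (Fintype.card S : ℝ) := by rwa [Fintype.card_fin]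
  have hy' : ∀ d (_ : Fin m), 0 ≤ sq0 θ' d := fun d _ => sq0_nonneg θ' d
  have hp1 : p (n + 1) = 0 := hp.zero _ (Nat.lt_succ_self n)
  have key : ∀ u ∈ Set.Icc (0 : ℝ) 1,
      |valD (ising (Option S)) (fun a : Fin m => F a) (fun a => F1 a) (fun a => F2 a) ζ n
        (fun _ => gt S 0) (fun _ => gt S 1) (xv (fun d => dq p d + xn d) (sq0 θ)) (xv xn (sq0 θ))
        (fun d _ => sq0 θ' d) (fun d _ => sq0 θ' d) u - (pairing n ζ p q - p 0)|
        ≤ 2 * (20 * (1 + A0 * K ^ 2) * (me + δ + η)) := by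
    intro u hu
    obtain ⟨xu, hxu⟩ : ∃ xu : ℕ → ℝ,
      xu = fun d => dq p d + xn d + u * (xn d - (dq p d + xn d)) := ⟨_, rfl⟩
    obtain ⟨t, ht⟩ : ∃ t : ℝ, t = 0 + u * (1 - 0) := ⟨_, rfl⟩
    have ht0 : 0 ≤ t := by rw [ht]; linarith [hu.1]
    have ht1 : t ≤ 1 := by rw [ht]; linarith [hu.2]
    have hxu0 : ∀ d, 0 ≤ xu d := fun d => by
      rw [hxu]
      nlinarith [hx d, mul_nonneg (sub_nonneg.2 hu.2) (hp.dq_nonneg d)]
    have hxuS : ∑ d ∈ Finset.range (n + 1), xu d ≤ Θ + A0 * K ^ 2 := by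
      have h1 : ∑ d ∈ Finset.range (n + 1), xu d
          ≤ ∑ d ∈ Finset.range (n + 1), (xn d + (p d - p (d + 1))) :=
        Finset.sum_le_sum fun d _ => by
          have := mul_nonneg hu.1 (hp.dq_nonneg d)
          rw [hxu]
          simp only [dq] at this ⊢
          linarith
      rw [Finset.sum_add_distrib, Finset.sum_range_sub', hp1] at h1
      linarith
    have hxn : ∀ i : Option S, xv xu (sq0 θ) n i ≤ Θ + A0 * K ^ 2 := fun i => by
      cases i with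
      | none =>
        exact (Finset.single_le_sum (fun d _ => hxu0 d) (Finset.self_mem_range_succ n)).trans hxuS
      | some j => exact hsq hθ
    have hC : ∀ ϑ ϑ' : ℕ → ℝ, |VSt S F m ζ n ϑ ϑ' xu t - VS (ising S) F m ζ n ϑ ϑ'|
        ≤ A0 * K ^ 2 + (Θ + A0 * K ^ 2) / 2 := fun ϑ ϑ' =>
      (vst_crude hζ hz hF hm n ϑ ϑ' hxu0 ht0 ht1).trans (by linarith)
    have hg : ∀ (_ : Fin m) (i : Option S), 0 ≤ gt S t i ∧ gt S t i ≤ 2 / (Fintype.card S : ℝ) :=
      fun _ i => gt_bd ht0 ht1 i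
    have hSX' : SD (fun ϑ => VSt S F m ζ n ϑ θ' xu t) θ τ y (2 * k * y * Fintype.card S) n :=
      (hSX.of_close fun d a _ => hC _ _).mono (by linarith)
    have hSY' : SD (fun ϑ => VSt S F m ζ n θ ϑ xu t) θ' τ' y (2 * k * y * Fintype.card S) n :=
      (hSY.of_close fun d a _ => hC _ _).mono (by linarith)
    obtain ⟨dX, mX⟩ := hX (Fin m) (Option S) S Function.Embedding.some (ising (Option S))
      (fun a => F a) (fun a => F1 a) (fun a => F2 a) (fun _ => gt S t)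
      (fun ϑ => xv xu (sq0 ϑ)) (fun d _ => sq0 θ' d) θ τ hcO hcA hf hg (fam_some hxu0) hxn hy'
      (fun _ => hsq hθ') (hfld hθ) hSX'
    obtain ⟨dY, mY⟩ := hY (Fin m) (Option S) (ising (Option S))
      (fun a => F a) (fun a => F1 a) (fun a => F2 a) (fun _ => gt S t) (xv xu (sq0 θ)) θ' τ'
      hcO hcA hf hg (xv_nonneg hxu0 (sq0_nonneg θ)) hxn (hfld hθ') hSY'
    have hc := core hζ hf (prof n (fun _ : Fin m => gt S t) (xv xu (sq0 θ)) fun d _ => sq0 θ' d)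
      (tX := fun d => τ d / θ d) (tY := fun d => τ' 1 / θ' 1 - τ' d / θ' d) hp hq hq0 hp0
      ((hR.mesh 0 hR.z.one_le).trans (show me ^ 2 ≤ me by nlinarith [hR.me1]))
      (by nlinarith [mul_le_mul_of_nonneg_right hcA (sq_nonneg K)]) (by positivity) hδ.le hη
      dX dY mX mY hX' hY'
    rw [valD_eq hζ hf n 0 1 (fun d => dq p d + xn d) xn (sq0 θ) _ u
      (s := prof n (fun _ : Fin m => gt S t) (xv xu (sq0 θ)) fun d _ => sq0 θ' d)
      (by rw [ht, hxu])]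
    generalize prof n (fun _ : Fin m => gt S t) (xv xu (sq0 θ)) (fun d _ => sq0 θ' d) = s at hc ⊢
    have e1 : ∀ d, xn d - (dq p d + xn d) = -dq p d := fun d => by ring
    simp only [e1, neg_mul, Finset.sum_neg_distrib]
    rw [sum_dq_mul hp1]
    have e2 : A0 * K ^ 2 / (Fintype.card S + 1) ≤ A0 * K ^ 2 * δ := by
      rw [div_le_iff₀ (by positivity)]
      nlinarith [mul_le_mul_of_nonneg_left hNδ hB, mul_nonneg hB hδ.le]
    obtain ⟨c1, c2⟩ := abs_le.1 hc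
    have m1 := mul_nonneg hB hme.le
    have m2 := mul_nonneg hB hδ.le
    have m3 := mul_nonneg hB hη
    exact abs_le.2 ⟨by linarith, by linarith⟩
  have hg : ∀ {t : ℝ}, 0 ≤ t → t ≤ 1 → ∀ (_ : Fin m) (i : Option S), 0 ≤ gt S t i :=
    fun h0 h1 _ i => (gt_bd h0 h1 i).1
  have hx0 := xv_nonneg (S := S) (fun d => add_nonneg (hp.dq_nonneg d) (hx d)) (sq0_nonneg θ)
  have hx1 := xv_nonneg (S := S) hx (sq0_nonneg θ)
  have h1 := val_le (ising (Option S)) hζ hz hf n (hg le_rfl zero_le_one) hx0 hy'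
    (hg zero_le_one le_rfl) hx1 hy'
    (κ := (pairing n ζ p q - p 0) / 2 + 20 * (1 + A0 * K ^ 2) * (me + δ + η))
    fun u hu => by linarith [(abs_le.1 (key u hu)).2]
  have h2 := val_ge (ising (Option S)) hζ hz hf n (hg le_rfl zero_le_one) hx0 hy'
    (hg zero_le_one le_rfl) hx1 hy'
    (κ := (pairing n ζ p q - p 0) / 2 - 20 * (1 + A0 * K ^ 2) * (me + δ + η))
    fun u hu => by linarith [(abs_le.1 (key u hu)).1]
  rw [val_zero hζ hf, ← psi_add_cum n ζ p xn lg_lc.1] at h1 h2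
  have e1 : VSt S F m ζ n θ θ' xn 1 = Val (ising (Option S)) (fun a : Fin m => F a) ζ
    (prof n (fun _ => gt S 1) (xv xn (sq0 θ)) fun d _ => sq0 θ' d) n := rfl
  have e2 : VS (ising S) F m ζ n θ θ' = Val (ising S) (fun a : Fin m => F a) ζ
    (prof n (fun _ _ => (Fintype.card S : ℝ)⁻¹) (fun d _ => sq0 θ d) fun d _ => sq0 θ' d) n := rfl
  rw [← vst_one, e1, e2]
  exact abs_le.2 ⟨by linarith, by linarith⟩

end Vale.Agent.P157
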