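import Vale.Agent.P157.SlabS

/-! # A soft constraint removes one dimension -/

namespace Vale.Agent.P157

open MeasureTheory ProbabilityTheory Filter Topology

namespace SlabAux

variable {A S : Type} [Fintype A] [Fintype S] [DecidableEq A] [DecidableEq S]

/-- Rotation of the coordinates. -/
def rotM (O : Matrix S S ℝ) : Co A S → Co A S → ℝ
  | .inl (a, i), .inl (b, j) => if a = b then O i j else 0
  | .inr (.inl i), .inr (.inl j) => O i j
  | .inr (.inr a), .inr (.inr b) => if a = b then 1 else 0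
  | _, _ => 0

theorem rot_dot {O : Matrix S S ℝ} (hO : O.transpose * O = 1) (u x : S → ℝ) :
    ∑ i, (∑ j, O i j * u j) * O.mulVec x i = ∑ i, u i * x i := by
  have h : dotProduct (O.mulVec u) (O.mulVec x) = dotProduct u x := by
    rw [Matrix.dotProduct_mulVec, Matrix.vecMul_mulVec, hO, Matrix.vecMul_one]
  exact h

theorem rotM_G (O : Matrix S S ℝ) (w : Co A S → ℝ) (a : A) (i : S) :
    ∑ c, rotM O (.inl (a, i)) c * w c = ∑ j, O i j * w (.inl (a, j)) := by
  simp only [Fintype.sum_sum_type, Fintype.sum_prod_type, rotM, zero_mul, Finset.sum_const_zero,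
    add_zero]
  rw [Finset.sum_eq_single a (fun b _ hb => by simp [hb.symm]) (by simp)]
  simp

theorem rotM_F (O : Matrix S S ℝ) (w : Co A S → ℝ) (i : S) :
    ∑ c, rotM O (.inr (.inl i)) c * w c = ∑ j, O i j * w (.inr (.inl j)) := by
  simp [Fintype.sum_sum_type, Fintype.sum_prod_type, rotM]

theorem rotM_Y (O : Matrix S S ℝ) (w : Co A S → ℝ) (a : A) :
    ∑ c, rotM O (.inr (.inr a)) c * w c = w (.inr (.inr a)) := by
  simp [Fintype.sum_sum_type, Fintype.sum_prod_type, rotM]

theorem uH_rot {O : Matrix S S ℝ} (hO : O.transpose * O = 1) (f : A → ℝ → ℝ) (w : Co A S → ℝ)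
    (x : Sph S) : uH f (fun k => ∑ c, rotM O k c * w c) (rotSph O hO x) = uH f w x := by
  unfold uH arg
  simp only [rotM_G, rotM_F, rotM_Y]
  have e : (rotSph O hO x).1 = O.mulVec x.1 := rfl
  simp only [e, rot_dot hO]

theorem rotM_cov {O : Matrix S S ℝ} (hO : O.transpose * O = 1) (n : ℕ) (θ θ' : ℕ → ℝ) (d : ℕ)
    (k l : Co A S) :
    ∑ c, cprof A S n θ θ' d c * (rotM O k c * rotM O l c)
      = if k = l then cprof A S n θ θ' d k else 0 := by
  have hO' : O * O.transpose = 1 := mul_eq_one_comm.1 hO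
  have key : ∀ i j, ∑ t, O i t * O j t = if i = j then 1 else 0 := fun i j => by
    have := congrFun (congrFun hO' i) j
    simpa [Matrix.mul_apply, Matrix.one_apply] using this
  have e : ∀ c, cprof A S n θ θ' d c * (rotM O k c * rotM O l c)
      = rotM O k c * (cprof A S n θ θ' d c * rotM O l c) := fun c => by ring
  simp only [e]
  rcases k with ⟨a, i⟩ | i | a
  · rw [rotM_G O (fun c => cprof A S n θ θ' d c * rotM O l c)]
    rcases l with ⟨b, j⟩ | j | b
    · by_cases hab : b = a
      · subst hab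
        have : ∀ t, O i t * (cprof A S n θ θ' d (.inl (b, t)) * rotM O (.inl (b, j)) (.inl (b, t)))
            = cprof A S n θ θ' d (.inl (b, i)) * (O i t * O j t) := fun t => by
          simp only [rotM, if_true, cprof, prof]; ring
        simp only [this, ← Finset.mul_sum, key]
        by_cases hij : i = j <;> simp [hij]
      · simp [rotM, hab, Ne.symm hab]
    · simp [rotM]
    · simp [rotM]
  · rw [rotM_F O (fun c => cprof A S n θ θ' d c * rotM O l c)]
    rcases l with ⟨b, j⟩ | j | b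
    · simp [rotM]
    · have : ∀ t, O i t * (cprof A S n θ θ' d (.inr (.inl t))
            * rotM (A := A) O (.inr (.inl j)) (.inr (.inl t)))
          = cprof A S n θ θ' d (.inr (.inl i)) * (O i t * O j t) := fun t => by
        simp only [rotM, cprof, prof]; ring
      simp only [this, ← Finset.mul_sum, key]
      by_cases hij : i = j <;> simp [hij]
    · simp [rotM]
  · rw [rotM_Y O (fun c => cprof A S n θ θ' d c * rotM O l c)]
    rcases l with ⟨b, j⟩ | j | b
    · simp [rotM]
    · simp [rotM]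
    · by_cases hab : b = a
      · subst hab; simp [rotM]
      · simp [rotM, hab, Ne.symm hab]

theorem measurable_wH {f : A → ℝ → ℝ} (hf : ∀ a, Measurable (f a)) {φ : ℝ → ℝ}
    (hφ : Measurable φ) (g : S → ℝ) :
    Measurable (Function.uncurry fun (w : Co A S → ℝ) (x : Sph S) =>
      uH f w x + φ (∑ i, g i * x.1 i)) :=
  (CrudeAux.measurable_uH hf).add (hφ.comp (Finset.measurable_sum _ fun i _ =>
    ((measurable_sph_coord i).comp measurable_snd).const_mul _))

theorem wTop_eq (f : A → ℝ → ℝ) (φ : ℝ → ℝ) (g : S → ℝ) :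
    wTop f φ g = fun w => lse (sph S) 1 fun x => uH f w x + φ (∑ i, g i * x.1 i) := by
  funext w
  simp [wTop, lse]

theorem measurable_wTop [Nonempty S] {f : A → ℝ → ℝ} (hf : ∀ a, Measurable (f a)) {φ : ℝ → ℝ}
    (hφ : Measurable φ) (g : S → ℝ) : Measurable (wTop f φ g) := by
  rw [wTop_eq]
  exact measurable_lse 1 (measurable_wH hf hφ g)

/-- Padding of the coordinates when a pattern is added. -/
def pad : Co (Option A) S → Option (Co A S)
  | .inl (none, _) => none
  | .inl (some a, i) => some (.inl (a, i))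
  | .inr (.inl i) => some (.inr (.inl i))
  | .inr (.inr none) => none
  | .inr (.inr (some a)) => some (.inr (.inr a))

/-- The row of the new pattern. -/
def row (g : S → ℝ) : Co (Option A) S → ℝ
  | .inl (none, i) => g i
  | _ => 0

/-- Padding together with the row. -/
def pad2 : Co (Option A) S → Option (S ⊕ Co A S)
  | .inl (none, i) => some (.inl i)
  | .inl (some a, i) => some (.inr (.inl (a, i)))
  | .inr (.inl i) => some (.inr (.inr (.inl i)))
  | .inr (.inr none) => none
  | .inr (.inr (some a)) => some (.inr (.inr (.inr a)))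

omit [Fintype A] [Fintype S] [DecidableEq A] [DecidableEq S] in
theorem pad_inj (k l : Co (Option A) S) (i : Co A S) (hk : pad k = some i) (hl : pad l = some i) :
    k = l := by
  have h := hk.trans hl.symm
  rcases k with ⟨_ | a, j⟩ | j | _ | a <;> rcases l with ⟨_ | b, t⟩ | t | _ | b <;>
    simp [pad] at h hk ⊢ <;> exact h

omit [Fintype A] [Fintype S] [DecidableEq A] [DecidableEq S] in
theorem pad2_inj (k l : Co (Option A) S) (i : S ⊕ Co A S) (hk : pad2 k = some i)
    (hl : pad2 l = some i) : k = l := by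
  have h := hk.trans hl.symm
  rcases k with ⟨_ | a, j⟩ | j | _ | a <;> rcases l with ⟨_ | b, t⟩ | t | _ | b <;>
    simp [pad2] at h hk ⊢ <;> exact h

/-- The padding as an additive map. -/
def padL : (Co A S → ℝ) →+ (Co (Option A) S → ℝ) where
  toFun := fun z k => (pad k).elim 0 z
  map_zero' := by
    funext k
    cases pad k <;> rfl
  map_add' := fun z z' => by
    funext k
    simp only [Pi.add_apply]
    cases pad k
    · exact (add_zero _).symm
    · rfl

omit [DecidableEq A] [DecidableEq S] in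
theorem measurable_padL : Measurable (padL (A := A) (S := S)) := by
  refine measurable_pi_lambda _ fun k => ?_
  show Measurable fun z : Co A S → ℝ => (pad k).elim 0 z
  cases pad k
  · exact measurable_const
  · exact measurable_pi_apply _

omit [DecidableEq A] [DecidableEq S] in
theorem measurable_row : Measurable (row (A := A) (S := S)) := by
  refine measurable_pi_lambda _ fun k => ?_
  rcases k with ⟨_ | a, j⟩ | j | _ | a
  · exact measurable_pi_apply j
  all_goals exact measurable_const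

omit [DecidableEq A] [DecidableEq S] in
theorem uH_pad (f' : Option A → ℝ → ℝ) (g : S → ℝ) (w : Co A S → ℝ) (x : Sph S) :
    uH f' (padL w + row g) x = uH (fun a => f' (some a)) w x + f' none (∑ i, g i * x.1 i) := by
  unfold uH arg
  simp only [Fintype.sum_option, Pi.add_apply, padL, AddMonoidHom.coe_mk, ZeroHom.coe_mk, pad, row,
    Option.elim, zero_add, add_zero]
  ring

end SlabAux

open SlabAux

/-- Rotation invariance of the weighted system. -/
theorem wtop_rot {A S : Type} [Fintype A] [Fintype S] [DecidableEq A] [DecidableEq S] [Nonempty S]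
    (ζ : ℕ → ℝ) {f : A → ℝ → ℝ} (hf : ∀ a, Measurable (f a)) {φ : ℝ → ℝ} (hφ : Measurable φ)
    (n : ℕ) (θ : ℕ → ℝ) (g : S → ℝ) (i0 : S) :
    X ζ (gvs (cprof A S n θ 0)) (wTop f φ g) (n + 1) 0
      = X ζ (gvs (cprof A S n θ 0)) (wTop f φ (Pi.single i0 √(∑ i, g i ^ 2))) (n + 1) 0 := by
  obtain ⟨O, hO, hg⟩ := exists_rot g i0
  have h := X_lin (rotM (A := A) O) ζ (cprof_nonneg (A := A) (S := S) n θ 0) (cprof A S n θ 0)
    (measurable_wTop hf hφ (Pi.single i0 √(∑ i, g i ^ 2))) (d := n + 1)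
    fun j _ k l => rotM_cov hO n θ 0 j k l
  rw [← h]
  congr 1
  funext w
  rw [wTop_eq, wTop_eq]
  conv_rhs => rw [← sph_rot O hO]
  dsimp only
  rw [lse_map (measurable_rotSph O hO) 1
    (measurable_wH hf hφ (Pi.single i0 √(∑ i, g i ^ 2))).of_uncurry_left]
  congr 1
  funext x
  have e : ∀ (c : ℝ) (y : S → ℝ), ∑ i, (Pi.single i0 c : S → ℝ) i * y i = c * y i0 := fun c y => by
    rw [Finset.sum_eq_single i0 (fun b _ hb => by simp [hb]) (by simp), Pi.single_eq_same]
  rw [uH_rot, hg, e]
  rfl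

/-- Conditioning on the row of one pattern at the root. -/
theorem val_cond {A S : Type} [Fintype A] [Fintype S] [DecidableEq A] [DecidableEq S] [Nonempty S]
    {ζ : ℕ → ℝ} (hζ : Zok ζ) {n : ℕ} (hn : ζ n = 0) {f' : Option A → ℝ → ℝ}
    (hm : ∀ a, Measurable (f' a)) {K : ℝ} (hb : ∀ a x, |f' a x| ≤ K) (θ : ℕ → ℝ) :
    Integrable (fun g : S → ℝ => X ζ (gvs (cprof A S n θ 0))
      (wTop (fun a => f' (some a)) (f' none) g) (n + 1) 0)
      (gv fun _ : S => (Fintype.card S : ℝ)⁻¹) ∧
    Val (sph S) f' ζ (cprof (Option A) S n θ 0) n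
      = ∫ g, X ζ (gvs (cprof A S n θ 0)) (wTop (fun a => f' (some a)) (f' none) g) (n + 1) 0
          ∂(gv fun _ : S => (Fintype.card S : ℝ)⁻¹) := by
  have hH : HG (uH (S := S) f') := hg_uH hm hb
  have hC : Cas ζ (gvs (cprof (Option A) S n θ 0)) (gtop (sph S) (uH f')) :=
    cas_gvs hζ _ hH.lg_gtop
  set Φ := X ζ (gvs (cprof (Option A) S n θ 0)) (gtop (sph S) (uH f')) n with hΦ
  have hΦl : LG Φ := hC.lgX n
  have h1 : ∀ (g : S → ℝ) (w : Co A S → ℝ),
      X ζ (gvs (cprof A S n θ 0)) (wTop (fun a => f' (some a)) (f' none) g) n w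
        = Φ (padL w + row g) := by
    intro g w
    refine X_push padL measurable_padL (row g) (ν' := gvs (cprof (Option A) S n θ 0))
      (fun j => by unfold gvs; infer_instance) hC.lg.1 (fun u => ?_) (fun j hj => ?_) w
    · rw [wTop_eq]
      simp only [gtop]
      congr 1
      funext x
      rw [uH_pad]
    · refine (gauss_sel pad pad_inj (cprof A S n θ 0 j)).trans (congrArg gv (funext fun k => ?_))
      rcases k with ⟨_ | a, i⟩ | i | _ | a <;>
        simp [pad, cprof, prof, hj.ne, CrudeAux.sq0_zero]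
  have h2 : ∀ g : S → ℝ,
      X ζ (gvs (cprof A S n θ 0)) (wTop (fun a => f' (some a)) (f' none) g) (n + 1) 0
        = ∫ w, Φ (padL w + row g) ∂(gv (cprof A S n θ 0 n)) := by
    intro g
    rw [X_succ, hn]
    simp only [T, lse, if_true, zero_add, h1, gvs]
  have hm2 : Measurable fun p : (S → ℝ) × (Co A S → ℝ) => padL p.2 + row (A := A) p.1 :=
    (measurable_padL.comp measurable_snd).add (measurable_row.comp measurable_fst)
  have h3 : ((gv fun _ : S => (Fintype.card S : ℝ)⁻¹).prod (gv (cprof A S n θ 0 n))).map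
      (fun p : (S → ℝ) × (Co A S → ℝ) => padL p.2 + row (A := A) p.1)
      = gv (cprof (Option A) S n θ 0 n) := by
    have a1 := gauss_sum (ι := S) (κ := Co A S)
      (Sum.elim (fun _ => (Fintype.card S : ℝ)⁻¹) (cprof A S n θ 0 n))
    have a2 := gauss_sel (pad2 (A := A) (S := S)) pad2_inj
      (Sum.elim (fun _ => (Fintype.card S : ℝ)⁻¹) (cprof A S n θ 0 n))
    simp only [Sum.elim_inl, Sum.elim_inr] at a1
    rw [← a1, Measure.map_map hm2 (by fun_prop)]
    refine Eq.trans ?_ (a2.trans (congrArg gv (funext fun k => ?_)))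
    · congr 1
      funext z k
      rcases k with ⟨_ | a, i⟩ | i | _ | a <;> simp [padL, pad, pad2, row]
    · rcases k with ⟨_ | a, i⟩ | i | _ | a <;>
        simp [pad2, cprof, prof, CrudeAux.sq0_zero]
  have hI : Integrable Φ (gv (cprof (Option A) S n θ 0 n)) := by
    have := (hΦl.eint (noise_gv (cprof (Option A) S n θ 0 n)) 0).integrable
    simpa using this
  have hI2 : Integrable (fun p : (S → ℝ) × (Co A S → ℝ) => Φ (padL p.2 + row (A := A) p.1))
      ((gv fun _ : S => (Fintype.card S : ℝ)⁻¹).prod (gv (cprof A S n θ 0 n))) := by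
    rw [← h3] at hI
    exact (integrable_map_measure hΦl.1.aestronglyMeasurable hm2.aemeasurable).1 hI
  simp only [h2]
  refine ⟨hI2.integral_prod_left, ?_⟩
  rw [← integral_prod _ hI2, ← integral_map hm2.aemeasurable hΦl.1.aestronglyMeasurable, h3]
  unfold Val
  rw [X_succ, hn]
  simp only [T, lse, if_true, zero_add, gvs]
  rfl

theorem slab {η' δ : ℝ} (h0 : 0 < η') (h1 : η' ≤ 1) (hδ : 0 < δ) :
    ∀ᶠ η in 𝓝[>] (0 : ℝ), ∀ R : ℝ, 0 < R → ∀ᶠ N : ℕ in atTop,
      ∀ (n : ℕ) (ζ : ℕ → ℝ) (F F1 F2 : ℕ → ℝ → ℝ) (K A1 : ℝ) (k : ℕ → ℝ) (m : ℕ) (θ : ℕ → ℝ),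
        ZAdm n ζ → (∀ a, Sm (F a) (F1 a) (F2 a) K) → F m = f0 η R →
        (∀ a z, |F1 a z| ≤ k a) → ∑ a ∈ Finset.range m, k a ^ 2 ≤ A1 * (N + 1) →
        VS (sph (Fin N)) F m ζ n θ 0 + Real.log η / 2 - δ - η' ^ 2 * A1 / 2
          ≤ VS (sph (Fin (N + 1))) F (m + 1) ζ n θ 0 := by
  filter_upwards [slab_norm h0 hδ, self_mem_nhdsWithin] with η hη hη0 R hR
  have hη0 : 0 < η := hη0
  filter_upwards [hη R hR, eventually_ge_atTop 1] with N hN hN1
  intro n ζ F F1 F2 K A1 k m θ hζ hF hm hk hA
  have : Nonempty (Fin N) := ⟨⟨0, hN1⟩⟩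
  have hcard : (Fintype.card (Option (Fin N)) : ℝ) = (N : ℝ) + 1 := by simp
  have hmeas : ∀ a, Measurable (F a) := fun a => (hF a).meas
  have e1 : VS (sph (Fin (N + 1))) F (m + 1) ζ n θ 0
      = VS (sph (Option (Fin N))) F (m + 1) ζ n θ 0 := by
    rw [← sph_reindex (finSuccEquiv N).symm, vs_reindex _ _ hmeas]
  obtain ⟨hI, hV⟩ := val_cond (A := Fin m) (S := Option (Fin N)) hζ.zok (hζ.zn n le_rfl)
    (f' := fun a : Option (Fin m) => a.elim (F m) fun b => F b)
    (fun a => by cases a <;> exact hmeas _) (K := K)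
    (fun a x => by cases a <;> exact (hF _).bd x) θ
  rw [e1, vs_succ _ hmeas, hV]
  simp only [Option.elim, hm, hcard] at hI ⊢
  have hpos := nuE_Icc_pos (Fin N) h0
  have hbm : BM fun g : Option (Fin N) → ℝ => Real.log (cN (Fin N) η R η' √(∑ i, g i ^ 2)) := by
    refine ⟨Real.measurable_log.comp ((measurable_cN (Fin N) η R η').comp (by fun_prop)),
      |Real.log (Real.exp (-R) * (nuE (Fin N)).real (Set.Icc (-η') η'))|, fun g => ?_⟩
    obtain ⟨b1, b2⟩ := cN_bounds (Fin N) (η' := η') hη0 hR √(∑ i, g i ^ 2)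
    have p : 0 < Real.exp (-R) * (nuE (Fin N)).real (Set.Icc (-η') η') :=
      mul_pos (Real.exp_pos _) hpos
    have l1 := Real.log_le_log p b1
    have l2 : Real.log (cN (Fin N) η R η' √(∑ i, g i ^ 2)) ≤ 0 :=
      Real.log_nonpos (p.le.trans b1) b2
    rw [abs_of_nonpos l2]
    linarith [neg_abs_le (Real.log (Real.exp (-R) * (nuE (Fin N)).real (Set.Icc (-η') η')))]
  have hA' : ∑ a : Fin m, k a ^ 2 ≤ A1 * (Fintype.card (Fin N) + 1) := by
    rw [Fin.sum_univ_eq_sum_range (fun a => k a ^ 2) m, Fintype.card_fin]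
    exact hA
  have hle : ∀ g : Option (Fin N) → ℝ,
      VS (sph (Fin N)) F m ζ n θ 0 - η' ^ 2 * A1 / 2
        + Real.log (cN (Fin N) η R η' √(∑ i, g i ^ 2))
      ≤ X ζ (gvs (cprof (Fin m) (Option (Fin N)) n θ 0))
          (wTop (fun a : Fin m => F a) (f0 η R) g) (n + 1) 0 := by
    intro g
    rw [wtop_rot ζ (fun a => hmeas _) (measurable_f0 η R) n θ g none]
    exact wtop_axis_ge hζ.zok hζ.z0 (fun a : Fin m => hF a) (fun a z => hk a z) hA' n θ hη0 hR h0
      h1 _
  have hint := integral_mono ((integrable_const _).add hbm.integrable) hI hle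
  simp only [Pi.add_apply] at hint
  rw [integral_add (integrable_const _) hbm.integrable, integral_const, probReal_univ,
    one_smul] at hint
  have := hN (Fin N) (Fintype.card_fin N)
  linarith

end Vale.Agent.P157
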