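import Vale.Agent.P157.Jet

/-! # Smooth approximation of bounded Borel potentials -/

namespace Vale.Agent.P157

open MeasureTheory ProbabilityTheory

namespace SmoothAux

theorem bdd {g : ℝ → ℝ} (hc : Continuous g) (hs : HasCompactSupport g) :
    ∃ C, ∀ x, |g x| ≤ C := hc.bounded_above_of_compact_support hs

theorem sm_of_compact {g : ℝ → ℝ} (hg : ContDiff ℝ 3 g) (hs : HasCompactSupport g) :
    ∃ g1 g2 K, Sm g g1 g2 K := by
  have h1 : ContDiff ℝ 2 (deriv g) := hg.deriv' (n := 2)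
  have h2 : ContDiff ℝ 1 (deriv (deriv g)) := h1.deriv' (n := 1)
  have h3 : Continuous (deriv (deriv (deriv g))) := h2.continuous_deriv le_rfl
  obtain ⟨C0, b0⟩ := bdd hg.continuous hs
  obtain ⟨C1, b1⟩ := bdd h1.continuous hs.deriv
  obtain ⟨C2, b2⟩ := bdd h2.continuous hs.deriv.deriv
  obtain ⟨C3, b3⟩ := bdd h3 hs.deriv.deriv.deriv
  refine ⟨deriv g, deriv (deriv g), max (max C0 C1) (max C2 C3),
    sm_of_deriv (f3 := deriv (deriv (deriv g)))
      (fun x => (hg.differentiable (by norm_num) x).hasDerivAt)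
      (fun x => (h1.differentiable (by norm_num) x).hasDerivAt)
      (fun x => (h2.differentiable (by norm_num) x).hasDerivAt)
      (fun x => (b0 x).trans ((le_max_left _ _).trans (le_max_left _ _)))
      (fun x => (b1 x).trans ((le_max_right _ _).trans (le_max_left _ _)))
      (fun x => (b2 x).trans ((le_max_left _ _).trans (le_max_right _ _)))
      (fun x => (b3 x).trans ((le_max_right _ _).trans (le_max_right _ _)))⟩

theorem clip_le {b u v : ℝ} (hu : |u| ≤ b) : |u - max (-b) (min b v)| ≤ |u - v| := by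
  obtain ⟨h1, h2⟩ := abs_le.1 hu
  rcases le_total b v with h | h
  · rw [min_eq_left h, max_eq_right (by linarith), abs_of_nonpos (by linarith),
      abs_of_nonpos (by linarith)]
    linarith
  · rw [min_eq_right h]
    rcases le_total (-b) v with h' | h'
    · rw [max_eq_right h']
    · rw [max_eq_left h', abs_of_nonneg (by linarith), abs_of_nonneg (by linarith)]
      linarith

theorem poly_exp {a : ℝ} (ha : 0 < a) (z : ℝ) :
    (1 + z ^ 4) * Real.exp (-(a * z ^ 2)) ≤ 1 + 2 / a ^ 2 := by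
  have h0 : 0 ≤ a * z ^ 2 := by positivity
  have h1 : Real.exp (-(a * z ^ 2)) ≤ 1 := Real.exp_le_one_iff.2 (by linarith)
  have h2 : 1 + a * z ^ 2 + (a * z ^ 2) ^ 2 / 2 ≤ Real.exp (a * z ^ 2) :=
    Real.quadratic_le_exp_of_nonneg h0
  have h3 : Real.exp (a * z ^ 2) * Real.exp (-(a * z ^ 2)) = 1 := by
    rw [← Real.exp_add, add_neg_cancel, Real.exp_zero]
  have h4 := Real.exp_pos (-(a * z ^ 2))
  have h5 : z ^ 4 * Real.exp (-(a * z ^ 2)) ≤ 2 / a ^ 2 := by
    rw [le_div_iff₀ (by positivity)]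
    nlinarith [mul_le_mul_of_nonneg_right h2 h4.le, mul_nonneg h0 h4.le]
  nlinarith

theorem pow_le_four (z : ℝ) : |z| ≤ 1 + z ^ 4 ∧ z ^ 2 ≤ 1 + z ^ 4 ∧ |z| ^ 3 ≤ 1 + z ^ 4 := by
  have h0 := abs_nonneg z
  have h4 : z ^ 4 = |z| ^ 4 := by
    rw [show z ^ 4 = (z ^ 2) ^ 2 by ring, ← sq_abs z]; ring
  have h2 : z ^ 2 = |z| ^ 2 := (sq_abs z).symm
  rw [h4, h2]
  generalize |z| = t at h0
  refine ⟨?_, ?_, ?_⟩
  · nlinarith [sq_nonneg (t ^ 2 - 1), sq_nonneg (t - 1), sq_nonneg (t ^ 2)]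
  · nlinarith [sq_nonneg (t ^ 2 - 1)]
  · nlinarith [sq_nonneg (t ^ 2 - t), sq_nonneg (t ^ 2 - 1)]

theorem poly_bd {a : ℝ} (ha : 0 < a) (c0 c1 c2 c3 : ℝ) : ∃ C, ∀ z : ℝ,
    |(c0 + c1 * z + c2 * z ^ 2 + c3 * z ^ 3) * Real.exp (-(a * z ^ 2))| ≤ C := by
  refine ⟨(|c0| + |c1| + |c2| + |c3|) * (1 + 2 / a ^ 2), fun z => ?_⟩
  obtain ⟨p1, p2, p3⟩ := pow_le_four z
  have h4 := Real.exp_pos (-(a * z ^ 2))
  have z4 : 0 ≤ z ^ 4 := by positivity
  have e : |c0 + c1 * z + c2 * z ^ 2 + c3 * z ^ 3|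
      ≤ (|c0| + |c1| + |c2| + |c3|) * (1 + z ^ 4) := by
    have a1 : |c0 + c1 * z + c2 * z ^ 2 + c3 * z ^ 3|
        ≤ |c0| + |c1| * |z| + |c2| * z ^ 2 + |c3| * |z| ^ 3 := by
      refine (abs_add_le _ _).trans (add_le_add ((abs_add_le _ _).trans
        (add_le_add ((abs_add_le _ _).trans ?_) ?_)) ?_)
      · rw [abs_mul]
      · rw [abs_mul, abs_pow, sq_abs]
      · rw [abs_mul, abs_pow]
    nlinarith [mul_le_mul_of_nonneg_left p1 (abs_nonneg c1),
      mul_le_mul_of_nonneg_left p2 (abs_nonneg c2), mul_le_mul_of_nonneg_left p3 (abs_nonneg c3),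
      mul_nonneg (abs_nonneg c0) z4]
  rw [abs_mul, abs_of_pos h4]
  calc _ ≤ (|c0| + |c1| + |c2| + |c3|) * (1 + z ^ 4) * Real.exp (-(a * z ^ 2)) :=
        mul_le_mul_of_nonneg_right e h4.le
    _ ≤ _ := by
        rw [mul_assoc]
        exact mul_le_mul_of_nonneg_left (poly_exp ha z) (by positivity)

theorem deriv_poly (a c0 c1 c2 c3 z : ℝ) :
    HasDerivAt (fun z : ℝ => (c0 + c1 * z + c2 * z ^ 2 + c3 * z ^ 3) * Real.exp (-(a * z ^ 2)))
      ((c1 + 2 * c2 * z + 3 * c3 * z ^ 2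
        - 2 * a * z * (c0 + c1 * z + c2 * z ^ 2 + c3 * z ^ 3)) * Real.exp (-(a * z ^ 2))) z := by
  have h1 := (((hasDerivAt_pow 2 z).const_mul a).fun_neg).exp
  have h2 := ((((hasDerivAt_id' z).const_mul c1).const_add c0).fun_add
    ((hasDerivAt_pow 2 z).const_mul c2)).fun_add ((hasDerivAt_pow 3 z).const_mul c3)
  refine (h2.fun_mul h1).congr_deriv ?_
  norm_num
  ring

end SmoothAux

open SmoothAux

theorem exists_smooth {f : ℝ → ℝ} (hf : Measurable f) {b : ℝ} (hb : ∀ x, |f x| ≤ b) {ε : ℝ}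
    (hε : 0 < ε) : ∃ g g1 g2 K, Sm g g1 g2 K ∧ (∀ x, |g x| ≤ b + 1) ∧
      ∫ z, |f z - g z| ∂(gaussianReal 0 1) ≤ ε := by
  have hb0 : 0 ≤ b := (abs_nonneg _).trans (hb 0)
  have hi : Integrable f (gaussianReal 0 1) := BM.integrable ⟨hf, b, hb⟩
  obtain ⟨u, hus, hu, huc, hui⟩ := hi.exists_hasCompactSupport_integral_sub_le (half_pos hε)
  have hvc : Continuous fun x => max (-b) (min b (u x)) :=
    continuous_const.max (continuous_const.min huc)
  have hvs : HasCompactSupport fun x => max (-b) (min b (u x)) :=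
    hus.comp_left (g := fun t => max (-b) (min b t)) (by
      rw [min_eq_right hb0, max_eq_right (by linarith)])
  obtain ⟨g, hg, hgd, hgs⟩ := hvc.exists_contDiff_approx 3 (ε := fun _ => min (ε / 2) 1)
    continuous_const fun _ => lt_min (half_pos hε) one_pos
  have hgs' : HasCompactSupport g := hvs.mono hgs
  obtain ⟨g1, g2, K, hK⟩ := sm_of_compact (by exact_mod_cast hg) hgs'
  have hd : ∀ x, |g x - max (-b) (min b (u x))| ≤ min (ε / 2) 1 := fun x => by
    have := (hgd x).le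
    rwa [Real.dist_eq] at this
  refine ⟨g, g1, g2, K, hK, fun x => ?_, ?_⟩
  · have h1 := abs_le.1 ((hd x).trans (min_le_right _ _))
    have h2 : -b ≤ max (-b) (min b (u x)) := le_max_left _ _
    have h3 : max (-b) (min b (u x)) ≤ b := max_le (by linarith) (min_le_left _ _)
    rw [abs_le]
    constructor <;> linarith [h1.1, h1.2]
  · have hi2 : Integrable (fun z => ‖f z - u z‖) (gaussianReal 0 1) := (hi.sub hui).norm
    calc ∫ z, |f z - g z| ∂(gaussianReal 0 1)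
        ≤ ∫ z, (‖f z - u z‖ + ε / 2) ∂(gaussianReal 0 1) := by
          refine integral_mono_of_nonneg (ae_of_all _ fun z => abs_nonneg _)
            (hi2.add (integrable_const _)) (ae_of_all _ fun z => ?_)
          have h1 := (hd z).trans (min_le_left _ _)
          have h2 := clip_le (v := u z) (hb z)
          have h3 := abs_sub_le (f z) (max (-b) (min b (u z))) (g z)
          rw [abs_sub_comm] at h1
          simp only [Real.norm_eq_abs]
          linarith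
      _ ≤ ε := by
          rw [integral_add hi2 (integrable_const _), integral_const, probReal_univ, one_smul]
          linarith

theorem sm_f0 {η R : ℝ} (hη : 0 < η) (hR : 0 < R) : ∃ f1 f2 K, Sm (f0 η R) f1 f2 K := by
  set a : ℝ := 1 / (2 * η * R) with ha
  have ha0 : 0 < a := by positivity
  have e : f0 η R = fun z =>
      (R + 0 * z + 0 * z ^ 2 + 0 * z ^ 3) * Real.exp (-(a * z ^ 2)) - R := by
    funext z
    rw [f0, show z ^ 2 / (2 * η * R) = a * z ^ 2 by rw [ha]; ring]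
    ring
  obtain ⟨C0, b0⟩ := poly_bd ha0 R 0 0 0
  obtain ⟨C1, b1⟩ := poly_bd ha0 0 (-(2 * a * R)) 0 0
  obtain ⟨C2, b2⟩ := poly_bd ha0 (-(2 * a * R)) 0 (4 * a ^ 2 * R) 0
  obtain ⟨C3, b3⟩ := poly_bd ha0 0 (12 * a ^ 2 * R) 0 (-(8 * a ^ 3 * R))
  refine ⟨_, _, max (max (C0 + R) C1) (max C2 C3), sm_of_deriv (fun x => ?_) (fun x => ?_)
    (fun x => ?_) (fun x => ?_)
    (fun x => (b1 x).trans ((le_max_right _ _).trans (le_max_left _ _)))
    (fun x => (b2 x).trans ((le_max_left _ _).trans (le_max_right _ _)))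
    (fun x => (b3 x).trans ((le_max_right _ _).trans (le_max_right _ _)))⟩
  · rw [e]
    refine ((deriv_poly a R 0 0 0 x).sub_const R).congr_deriv ?_
    ring
  · refine (deriv_poly a _ _ _ _ x).congr_deriv ?_
    ring
  · refine (deriv_poly a _ _ _ _ x).congr_deriv ?_
    ring
  · refine le_trans ?_ ((le_max_left _ _).trans (le_max_left _ _))
    rw [e]
    exact (abs_sub _ _).trans (add_le_add (b0 x) (abs_of_pos hR).le)

theorem measurable_f0 (η R : ℝ) : Measurable (f0 η R) := by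
  unfold f0
  fun_prop

theorem f0_neg (η R z : ℝ) : f0 η R (-z) = f0 η R z := by
  simp only [f0, neg_sq]

theorem f0_bounds {η R : ℝ} (hη : 0 < η) (hR : 0 < R) (z : ℝ) :
    -R ≤ f0 η R z ∧ f0 η R z ≤ 0 ∧ -(z ^ 2 / (2 * η)) ≤ f0 η R z ∧
      f0 η R z ≤ -(z ^ 2 / (2 * η)) + z ^ 4 / (8 * η ^ 2 * R) := by
  set t : ℝ := z ^ 2 / (2 * η * R) with ht
  have t0 : 0 ≤ t := by positivity
  have e1 : z ^ 2 / (2 * η) = R * t := by rw [ht]; field_simp
  have e2 : z ^ 4 / (8 * η ^ 2 * R) = R * (t ^ 2 / 2) := by rw [ht]; field_simp; ring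
  have h0 := Real.exp_pos (-t)
  have h1 : Real.exp (-t) ≤ 1 := Real.exp_le_one_iff.2 (by linarith)
  have h2 := Real.add_one_le_exp (-t)
  have h3 : Real.exp (-t) ≤ 1 - t + t ^ 2 / 2 := by
    have a1 : 1 + t + t ^ 2 / 2 ≤ Real.exp t := Real.quadratic_le_exp_of_nonneg t0
    have a2 : Real.exp t * Real.exp (-t) = 1 := by
      rw [← Real.exp_add, add_neg_cancel, Real.exp_zero]
    have a3 : 0 < 1 + t + t ^ 2 / 2 := by positivity
    have a4 : (1 + t + t ^ 2 / 2) * Real.exp (-t) ≤ 1 := by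
      nlinarith [mul_le_mul_of_nonneg_right a1 h0.le]
    refine le_of_mul_le_mul_left (a4.trans ?_) a3
    nlinarith [sq_nonneg (t ^ 2)]
  rw [e1, e2, f0, ← ht]
  refine ⟨?_, ?_, ?_, ?_⟩ <;> nlinarith

theorem f0_anti {η R : ℝ} (hη : 0 < η) (hR : 0 < R) {x y : ℝ} (h : |x| ≤ |y|) :
    f0 η R y ≤ f0 η R x := by
  have h1 : x ^ 2 ≤ y ^ 2 := sq_le_sq.2 h
  unfold f0
  refine mul_le_mul_of_nonneg_left (sub_le_sub_right (Real.exp_le_exp.2 (neg_le_neg ?_)) 1) hR.le
  exact div_le_div_of_nonneg_right h1 (by positivity)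

end Vale.Agent.P157
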