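import Vale.Agent.P157.Polar
import Vale.Agent.P157.Smooth

/-! # The normalizer of the slab -/

namespace Vale.Agent.P157

open MeasureTheory ProbabilityTheory Filter Topology

namespace SlabNAux

theorem measurable_ht (c : ℝ) : Measurable fun p : ℝ × ℝ => c * p.2 / √(p.1 ^ 2 + p.2 ^ 2) := by
  fun_prop

theorem ht_sq {c l R t : ℝ} (hc : 0 < c) (hl : 0 < l) (h : c ≤ l * R ^ 2) :
    (√c * t / √(R ^ 2 + t ^ 2)) ^ 2 ≤ l * t ^ 2 := by
  have hR : 0 < R ^ 2 := by
    by_contra h'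
    have : R ^ 2 = 0 := le_antisymm (not_lt.1 h') (sq_nonneg _)
    rw [this] at h; linarith
  have hp : 0 < R ^ 2 + t ^ 2 := by positivity
  rw [div_pow, mul_pow, Real.sq_sqrt hc.le, Real.sq_sqrt hp.le, div_le_iff₀ hp]
  nlinarith [sq_nonneg t, mul_nonneg hl.le (sq_nonneg (t ^ 2)),
    mul_le_mul_of_nonneg_right h (sq_nonneg t)]

theorem gauss_int {a : ℝ} (ha : 0 ≤ a) :
    ∫ t, Real.exp (-(a * t ^ 2 / 2)) ∂(g1 1) = 1 / √(1 + a) := by
  rw [g1_one, integral_gaussianReal_eq_integral_smul one_ne_zero]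
  have e : ∀ t : ℝ, gaussianPDFReal 0 1 t • Real.exp (-(a * t ^ 2 / 2))
      = (√(2 * Real.pi))⁻¹ * Real.exp (-((1 + a) / 2) * t ^ 2) := by
    intro t
    simp only [gaussianPDFReal, smul_eq_mul, NNReal.coe_one, mul_one, sub_zero, mul_assoc,
      ← Real.exp_add]
    congr 2; ring
  simp only [e]
  rw [integral_const_mul, integral_gaussian]
  have hp := Real.pi_pos
  have : Real.pi / ((1 + a) / 2) = 2 * Real.pi / (1 + a) := by field_simp
  rw [this, Real.sqrt_div (by positivity)]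
  have : 0 < √(2 * Real.pi) := Real.sqrt_pos.2 (by positivity)
  field_simp

/-- Truncated Gaussian bump. -/
noncomputable def bump (a c t : ℝ) : ℝ :=
  max (Real.exp (-(a * t ^ 2 / 2)) - Real.exp (-(a * c / 2))) 0

theorem bump_nonneg (a c t : ℝ) : 0 ≤ bump a c t := le_max_right _ _

theorem bump_le (a c t : ℝ) : bump a c t ≤ Real.exp (-(a * t ^ 2 / 2)) :=
  max_le (by linarith [Real.exp_pos (-(a * c / 2))]) (Real.exp_pos _).le

theorem bump_zero {a c t : ℝ} (ha : 0 ≤ a) (h : c ≤ t ^ 2) : bump a c t = 0 := by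
  refine max_eq_right ?_
  have : Real.exp (-(a * t ^ 2 / 2)) ≤ Real.exp (-(a * c / 2)) :=
    Real.exp_le_exp.2 (by nlinarith)
  linarith

theorem bm_gauss {a : ℝ} (ha : 0 ≤ a) : BM fun t : ℝ => Real.exp (-(a * t ^ 2 / 2)) :=
  ⟨by fun_prop, 1, fun t => by
    rw [abs_of_pos (Real.exp_pos _)]
    exact Real.exp_le_one_iff.2 (by nlinarith [mul_nonneg ha (sq_nonneg t)])⟩

theorem bm_bump {a : ℝ} (ha : 0 ≤ a) (c : ℝ) : BM (bump a c) :=
  ⟨by unfold bump; fun_prop, 1, fun t => by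
    rw [abs_of_nonneg (bump_nonneg _ _ _)]
    exact (bump_le a c t).trans
      (Real.exp_le_one_iff.2 (by nlinarith [mul_nonneg ha (sq_nonneg t)]))⟩

theorem bump_int {a c : ℝ} (ha : 0 < a) (hc : 0 < c) :
    1 / √(1 + a) - 2 / (a * c) ≤ ∫ t, bump a c t ∂(g1 1) := by
  have h1 : ∫ t, (Real.exp (-(a * t ^ 2 / 2)) - Real.exp (-(a * c / 2))) ∂(g1 1)
      ≤ ∫ t, bump a c t ∂(g1 1) :=
    integral_mono ((bm_gauss ha.le).integrable.sub (integrable_const _))
      (bm_bump ha.le c).integrable fun t => le_max_left _ _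
  rw [integral_sub (bm_gauss ha.le).integrable (integrable_const _), gauss_int ha.le,
    integral_const, probReal_univ, one_smul] at h1
  have h2 : Real.exp (-(a * c / 2)) ≤ 2 / (a * c) := by
    have hp : 0 < a * c / 2 := by positivity
    have h3 : a * c / 2 ≤ Real.exp (a * c / 2) := by linarith [Real.add_one_le_exp (a * c / 2)]
    have h4 := inv_anti₀ hp h3
    rwa [inv_div, ← Real.exp_neg] at h4
  linarith

theorem integrable_var (S : Type) [Fintype S] (c : ℝ) :
    Integrable (fun R => (R ^ 2 - c) ^ 2) (chi S) := by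
  have : (fun R : ℝ => (R ^ 2 - c) ^ 2) = fun R => R ^ 4 - 2 * c * R ^ 2 + c ^ 2 := by
    funext R; ring
  rw [this]
  exact ((integrable_chi_pow 4).sub ((integrable_chi_pow 2).const_mul _)).add (integrable_const _)

theorem bm_f0 {η R : ℝ} (hη : 0 < η) (hR : 0 < R) (γ : ℝ) :
    BM fun ε => Real.exp (f0 η R (γ * ε)) :=
  ⟨((measurable_f0 η R).comp (measurable_id.const_mul γ)).exp, 1, fun ε => by
    rw [abs_of_pos (Real.exp_pos _)]
    exact Real.exp_le_one_iff.2 (f0_bounds hη hR _).2.1⟩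

theorem cN_ge (S : Type) [Fintype S] {η R η' l γ : ℝ} (hη : 0 < η) (hR : 0 < R) (h0 : 0 < η')
    (hl : 0 < l) (hγ : γ ^ 2 ≤ l) {D : ℝ} (hD : 0 < D)
    (hD' : D ≤ Fintype.card S - (Fintype.card S + 1) / l) :
    (1 - 2 * Fintype.card S / D ^ 2) * ∫ t, bump (l ^ 2 / η) (η' ^ 2 / l) t ∂(g1 1)
      ≤ cN S η R η' γ := by
  have ha : 0 ≤ l ^ 2 / η := by positivity
  have hb := (bm_f0 hη hR γ)
  have hi : BM ((Set.Icc (-η') η').indicator fun ε => Real.exp (f0 η R (γ * ε))) := by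
    obtain ⟨C, hC⟩ := hb.2
    refine ⟨hb.1.indicator measurableSet_Icc, C, fun ε => ?_⟩
    refine le_trans ?_ (hC ε)
    exact norm_indicator_le_norm_self (fun ε => Real.exp (f0 η R (γ * ε))) ε
  have e1 : ∫ r, (1 - (r ^ 2 - Fintype.card S) ^ 2 / D ^ 2) ∂(chi S)
      = 1 - 2 * Fintype.card S / D ^ 2 := by
    rw [integral_sub (integrable_const _) ((integrable_var S _).div_const _), integral_div,
      integral_chi_var, integral_const, probReal_univ, one_smul]
  unfold cN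
  rw [← integral_indicator measurableSet_Icc, ← e1, ← integral_prod_mul]
  unfold nuE
  rw [integral_map (measurable_ht _).aemeasurable hi.1.aestronglyMeasurable]
  obtain ⟨C, hC⟩ := hi.2
  refine integral_mono ?_ (BM.integrable ⟨hi.1.comp (measurable_ht _), C, fun p => hC _⟩) ?_
  · exact Integrable.mul_prod ((integrable_const _).sub ((integrable_var S _).div_const _))
      (bm_bump ha _).integrable
  rintro ⟨r, t⟩
  have hN : (0 : ℝ) ≤ Fintype.card S := Nat.cast_nonneg _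
  have hnn : ∀ x, 0 ≤ (Set.Icc (-η') η').indicator (fun ε => Real.exp (f0 η R (γ * ε))) x :=
    fun x => Set.indicator_nonneg (fun _ _ => (Real.exp_pos _).le) x
  have hbn := bump_nonneg (l ^ 2 / η) (η' ^ 2 / l) t
  dsimp only
  by_cases hr : (Fintype.card S : ℝ) + 1 ≤ l * r ^ 2
  · have hs := ht_sq (t := t) (by positivity) hl hr
    have h1 : (1 - (r ^ 2 - Fintype.card S) ^ 2 / D ^ 2) * bump (l ^ 2 / η) (η' ^ 2 / l) t
        ≤ bump (l ^ 2 / η) (η' ^ 2 / l) t := by
      have : 0 ≤ (r ^ 2 - Fintype.card S) ^ 2 / D ^ 2 := by positivity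
      nlinarith
    refine h1.trans ?_
    by_cases ht : η' ^ 2 / l ≤ t ^ 2
    · rw [bump_zero ha ht]; exact hnn _
    · have ht' : l * t ^ 2 ≤ η' ^ 2 := by
        rw [not_le, lt_div_iff₀ hl] at ht; linarith
      rw [Set.indicator_of_mem
        (Set.mem_Icc.2 (abs_le.1 (abs_le_of_sq_le_sq (hs.trans ht') h0.le)))]
      refine (bump_le _ _ _).trans (Real.exp_le_exp.2 (le_trans ?_ (f0_bounds hη hR _).2.2.1))
      rw [neg_le_neg_iff, mul_pow]
      have : γ ^ 2 * (√(Fintype.card S + 1 : ℝ) * t / √(r ^ 2 + t ^ 2)) ^ 2 ≤ l * (l * t ^ 2) :=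
        mul_le_mul hγ hs (sq_nonneg _) hl.le
      calc _ ≤ l * (l * t ^ 2) / (2 * η) := by gcongr
        _ = _ := by field_simp
  · refine le_trans (mul_nonpos_of_nonpos_of_nonneg ?_ hbn) (hnn _)
    have h1 : r ^ 2 < (Fintype.card S + 1) / l := by
      rw [lt_div_iff₀ hl]; linarith
    have h2 : D ^ 2 ≤ (r ^ 2 - Fintype.card S) ^ 2 := by nlinarith
    rw [sub_nonpos, le_div_iff₀ (by positivity)]
    linarith

theorem ev_eta {η' l y : ℝ} (h0 : 0 < η') (hl : 0 < l) (hy : y < 1 / l) :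
    ∀ᶠ η in 𝓝[>] (0 : ℝ),
      √η * y ≤ 1 / √(1 + l ^ 2 / η) - 2 / (l ^ 2 / η * (η' ^ 2 / l)) := by
  have hc : ContinuousAt (fun η : ℝ => 1 / √(η + l ^ 2) - 2 * √η / (l * η' ^ 2)) 0 := by
    refine ContinuousAt.sub (ContinuousAt.div continuousAt_const (by fun_prop) ?_) (by fun_prop)
    rw [zero_add, Real.sqrt_sq hl.le]; exact hl.ne'
  have h1 : ∀ᶠ η in 𝓝 (0 : ℝ), y < 1 / √(η + l ^ 2) - 2 * √η / (l * η' ^ 2) := by
    refine hc.eventually (lt_mem_nhds ?_)
    simpa [Real.sqrt_sq hl.le] using hy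
  filter_upwards [nhdsWithin_le_nhds h1, self_mem_nhdsWithin] with η h hη
  have hη : 0 < η := hη
  have hs : 0 < √η := Real.sqrt_pos.2 hη
  have e1 : 1 + l ^ 2 / η = (η + l ^ 2) / η := by field_simp
  have hq : 0 < √(η + l ^ 2) := Real.sqrt_pos.2 (by positivity)
  have e2 : 1 / √(1 + l ^ 2 / η) - 2 / (l ^ 2 / η * (η' ^ 2 / l))
      = √η * (1 / √(η + l ^ 2) - 2 * √η / (l * η' ^ 2)) := by
    rw [e1, Real.sqrt_div (by positivity)]
    have := Real.sq_sqrt hη.le
    generalize √η = s at *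
    subst this
    field_simp
  rw [e2]
  exact mul_le_mul_of_nonneg_left h.le hs.le

theorem var_row (S : Type) [Fintype S] [Nonempty S] :
    Integrable (fun g : S → ℝ => (∑ i, g i ^ 2 - 1) ^ 2)
      (gv fun _ : S => (Fintype.card S : ℝ)⁻¹) ∧
    ∫ g, (∑ i, g i ^ 2 - 1) ^ 2 ∂(gv fun _ : S => (Fintype.card S : ℝ)⁻¹)
      = 2 / (Fintype.card S : ℝ) := by
  have hN : (0 : ℝ) < Fintype.card S := by exact_mod_cast Fintype.card_pos
  have hq : Measurable fun (y : S → ℝ) (i : S) => √(Fintype.card S : ℝ)⁻¹ * y i := by fun_prop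
  have hm : Measurable fun g : S → ℝ => (∑ i, g i ^ 2 - 1) ^ 2 := by fun_prop
  have hn : Measurable fun y : S → ℝ => √(∑ i, y i ^ 2) := by fun_prop
  have hv : Measurable fun R : ℝ => (R ^ 2 - Fintype.card S) ^ 2 := by fun_prop
  have e : ∀ y : S → ℝ, (∑ i, (√(Fintype.card S : ℝ)⁻¹ * y i) ^ 2 - 1) ^ 2
      = (√(∑ i, y i ^ 2) ^ 2 - Fintype.card S) ^ 2 / (Fintype.card S : ℝ) ^ 2 := by
    intro y
    simp only [mul_pow, ← Finset.mul_sum, Real.sq_sqrt (inv_nonneg.2 hN.le)]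
    rw [Real.sq_sqrt (Finset.sum_nonneg fun i _ => sq_nonneg _)]
    field_simp
  have h1 := integrable_var S (Fintype.card S)
  have h2 := integral_chi_var (S := S)
  unfold chi at h1 h2
  rw [integrable_map_measure hv.aestronglyMeasurable hn.aemeasurable] at h1
  rw [integral_map hn.aemeasurable hv.aestronglyMeasurable] at h2
  rw [gv_eq_map, integrable_map_measure hm.aestronglyMeasurable hq.aemeasurable,
    integral_map hq.aemeasurable hm.aestronglyMeasurable]
  constructor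
  · exact (h1.div_const ((Fintype.card S : ℝ) ^ 2)).congr
      (Eventually.of_forall fun y => (e y).symm)
  · simp only [e]
    rw [integral_div, h2]
    field_simp

end SlabNAux

open SlabNAux

theorem nuE_Icc_pos (S : Type) [Fintype S] [Nonempty S] {η' : ℝ} (h : 0 < η') :
    0 < (nuE S).real (Set.Icc (-η') η') := by
  refine ENNReal.toReal_pos ?_ (measure_ne_top _ _)
  intro h0
  unfold nuE at h0
  rw [Measure.map_apply (measurable_ht _) measurableSet_Icc,
    Measure.measure_prod_null (measurable_ht _ measurableSet_Icc)] at h0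
  obtain ⟨r, hr, hr0⟩ := (h0.and (chi_pos (S := S))).exists
  have hN : (0 : ℝ) < Fintype.card S + 1 := by positivity
  set l : ℝ := (Fintype.card S + 1) / r ^ 2 with hl
  have hl0 : 0 < l := by positivity
  have hs : 0 < η' / √l := div_pos h (Real.sqrt_pos.2 hl0)
  have h1 : g1 1 (Set.Icc (-(η' / √l)) (η' / √l)) = 0 := by
    refine measure_mono_null (fun t ht => ?_) hr
    have h2 := ht_sq (c := Fintype.card S + 1) (R := r) (t := t) hN hl0
      (le_of_eq (by rw [hl]; field_simp))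
    have h3 : t ^ 2 ≤ (η' / √l) ^ 2 := sq_le_sq' ht.1 ht.2
    rw [div_pow, Real.sq_sqrt hl0.le, le_div_iff₀ hl0] at h3
    exact abs_le.1 (abs_le_of_sq_le_sq (h2.trans (by linarith)) h.le)
  rw [g1_one] at h1
  have h2 := gaussianReal_absolutelyContinuous' 0 one_ne_zero h1
  rw [Real.volume_Icc, ENNReal.ofReal_eq_zero] at h2
  linarith

theorem measurable_cN (S : Type) [Fintype S] (η R η' : ℝ) : Measurable (cN S η R η') := by
  have hm : Measurable fun p : ℝ × ℝ => Real.exp (f0 η R (p.1 * p.2)) :=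
    ((measurable_f0 η R).comp (measurable_fst.mul measurable_snd)).exp
  exact (hm.stronglyMeasurable.integral_prod_right'
    (ν := (nuE S).restrict (Set.Icc (-η') η'))).measurable

theorem cN_bounds (S : Type) [Fintype S] {η R η' : ℝ} (hη : 0 < η) (hR : 0 < R) (γ : ℝ) :
    Real.exp (-R) * (nuE S).real (Set.Icc (-η') η') ≤ cN S η R η' γ ∧ cN S η R η' γ ≤ 1 := by
  unfold cN
  constructor
  · have := integral_mono (μ := (nuE S).restrict (Set.Icc (-η') η'))
      (integrable_const (Real.exp (-R))) (bm_f0 hη hR γ).integrable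
      fun ε => Real.exp_le_exp.2 (f0_bounds hη hR (γ * ε)).1
    rw [setIntegral_const, smul_eq_mul, mul_comm] at this
    exact this
  · have := integral_mono (μ := (nuE S).restrict (Set.Icc (-η') η'))
      (bm_f0 hη hR γ).integrable (integrable_const 1)
      fun ε => Real.exp_le_one_iff.2 (f0_bounds hη hR (γ * ε)).2.1
    rw [setIntegral_const, smul_eq_mul, mul_one] at this
    exact this.trans measureReal_le_one

theorem slab_norm {η' δ : ℝ} (h0 : 0 < η') (hδ : 0 < δ) :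
    ∀ᶠ η in 𝓝[>] (0 : ℝ), ∀ R : ℝ, 0 < R → ∀ᶠ N : ℕ in atTop,
      ∀ (S : Type) [Fintype S], Fintype.card S = N →
        Real.log η / 2 - δ ≤ ∫ g, Real.log (cN S η R η' √(∑ i, g i ^ 2))
          ∂(gv fun _ : Option S => ((N : ℝ) + 1)⁻¹) := by
  obtain ⟨l, hl, hy⟩ : ∃ l : ℝ, 1 < l ∧ Real.exp (-(δ / 2)) < 1 / l :=
    ⟨Real.exp (δ / 4), Real.one_lt_exp_iff.2 (by linarith), by
      rw [one_div, ← Real.exp_neg]; exact Real.exp_lt_exp.2 (by linarith)⟩
  have hl0 : 0 < l := by linarith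
  obtain ⟨u, hu, hul⟩ : ∃ u : ℝ, 0 < u ∧ 1 / l = 1 - u :=
    ⟨1 - 1 / l, by rw [sub_pos, div_lt_one hl0]; exact hl, by ring⟩
  obtain ⟨v, hv, hv'⟩ : ∃ v : ℝ, 0 < v ∧ Real.exp (-(δ / 4)) = 1 - v :=
    ⟨1 - Real.exp (-(δ / 4)), by
      rw [sub_pos]; exact Real.exp_lt_one_iff.2 (by linarith), by ring⟩
  filter_upwards [ev_eta h0 hl0 hy, self_mem_nhdsWithin] with η hJ hη R hR
  have hη : 0 < η := hη
  have hl1 : 0 < l - 1 := by linarith
  filter_upwards [tendsto_natCast_atTop_atTop.eventually_ge_atTop (2 / u),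
    tendsto_natCast_atTop_atTop.eventually_ge_atTop (8 / (u ^ 2 * v)),
    tendsto_natCast_atTop_atTop.eventually_ge_atTop (8 * R / ((l - 1) ^ 2 * δ))]
    with N hN1 hN2 hN3 S _ hS
  have hN0 : (0 : ℝ) < N := lt_of_lt_of_le (by positivity) hN1
  have hJ' := hJ.trans (bump_int (by positivity) (by positivity))
  have hD : u * N / 2 ≤ (Fintype.card S : ℝ) - (Fintype.card S + 1) / l := by
    rw [hS, div_le_iff₀ hu] at *
    have : ((N : ℝ) + 1) / l = (N + 1) * (1 - u) := by rw [← hul]; ring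
    rw [this]; nlinarith
  have hp : Real.exp (-(δ / 4)) ≤ 1 - 2 * Fintype.card S / (u * N / 2) ^ 2 := by
    rw [hv', hS]
    rw [div_le_iff₀ (by positivity)] at hN2
    have : 2 * (N : ℝ) / (u * N / 2) ^ 2 ≤ v := by
      rw [div_le_iff₀ (by positivity)]; nlinarith
    linarith
  obtain ⟨B, hB⟩ : ∃ B, B = Real.log η / 2 - 3 * δ / 4 := ⟨_, rfl⟩
  have eB : Real.exp B = Real.exp (-(δ / 4)) * (√η * Real.exp (-(δ / 2))) := by
    rw [Real.sqrt_eq_rpow, Real.rpow_def_of_pos hη, ← Real.exp_add, ← Real.exp_add, hB]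
    congr 1; ring
  have good : ∀ γ : ℝ, γ ^ 2 ≤ l → Real.exp B ≤ cN S η R η' γ := by
    intro γ hγ
    refine le_trans ?_ (cN_ge S hη hR h0 hl0 hγ (by positivity) hD)
    rw [eB]
    exact mul_le_mul hp hJ' (by positivity) ((Real.exp_pos _).le.trans hp)
  have hI : Real.exp B ≤ (nuE S).real (Set.Icc (-η') η') := by
    refine (good 0 (by rw [zero_pow two_ne_zero]; exact hl0.le)).trans (le_of_eq ?_)
    simp [cN, f0]
  have all : ∀ γ : ℝ, B - R ≤ Real.log (cN S η R η' γ) := by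
    intro γ
    rw [Real.le_log_iff_exp_le]
    · refine le_trans ?_ (cN_bounds S hη hR γ).1
      rw [sub_eq_neg_add, Real.exp_add]
      gcongr
    · exact lt_of_lt_of_le (mul_pos (Real.exp_pos _) ((Real.exp_pos _).trans_le hI))
        (cN_bounds S hη hR γ).1
  have hc : (Fintype.card (Option S) : ℝ) = N + 1 := by simp [hS]
  obtain ⟨i1, i2⟩ := var_row (Option S)
  rw [hc] at i1 i2
  have i3 : Integrable (fun g : Option S → ℝ => Real.log (cN S η R η' √(∑ i, g i ^ 2)))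
      (gv fun _ : Option S => ((N : ℝ) + 1)⁻¹) := by
    refine BM.integrable ⟨((measurable_cN S η R η').comp (by fun_prop)).log, |B - R|, fun g => ?_⟩
    have h1 := all √(∑ i, g i ^ 2)
    have h2 : Real.log (cN S η R η' √(∑ i, g i ^ 2)) ≤ 0 :=
      Real.log_nonpos (integral_nonneg fun _ => (Real.exp_pos _).le) (cN_bounds S hη hR _).2
    rw [abs_of_nonpos h2]
    linarith [neg_abs_le (B - R)]
  have key := integral_mono ((integrable_const B).sub (i1.const_mul (R / (l - 1) ^ 2))) i3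
    (fun g => by
      dsimp only [Pi.sub_apply]
      have hs : 0 ≤ ∑ i, g i ^ 2 := Finset.sum_nonneg fun i _ => sq_nonneg _
      by_cases hg : ∑ i, g i ^ 2 ≤ l
      · have h1 := good √(∑ i, g i ^ 2) (by rwa [Real.sq_sqrt hs])
        rw [← Real.le_log_iff_exp_le ((Real.exp_pos _).trans_le h1)] at h1
        have : 0 ≤ R / (l - 1) ^ 2 * (∑ i, g i ^ 2 - 1) ^ 2 := by positivity
        linarith
      · refine le_trans ?_ (all _)
        have h1 : (l - 1) ^ 2 ≤ (∑ i, g i ^ 2 - 1) ^ 2 := by nlinarith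
        have h2 : R / (l - 1) ^ 2 * (l - 1) ^ 2 ≤ R / (l - 1) ^ 2 * (∑ i, g i ^ 2 - 1) ^ 2 := by
          gcongr
        rw [div_mul_cancel₀ _ (by positivity)] at h2
        linarith)
  refine le_trans ?_ key
  have e := integral_sub (integrable_const (μ := gv fun _ : Option S => ((N : ℝ) + 1)⁻¹) B)
    (i1.const_mul (R / (l - 1) ^ 2))
  rw [integral_const_mul, i2, integral_const, probReal_univ, one_smul] at e
  simp only [Pi.sub_apply]
  rw [e, hB]
  have : R / (l - 1) ^ 2 * (2 / ((N : ℝ) + 1)) ≤ δ / 4 := by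
    rw [div_le_iff₀ (by positivity)] at hN3
    rw [div_mul_div_comm, div_le_iff₀ (by positivity)]
    nlinarith [mul_pos (pow_pos hl1 2) hδ]
  linarith

end Vale.Agent.P157
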