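import Vale.Agent.P157.SlabN

/-! # Slices of the sphere -/

namespace Vale.Agent.P157

open MeasureTheory ProbabilityTheory

variable {A S : Type} [Fintype A] [Fintype S] [DecidableEq A] [DecidableEq S] [Nonempty S]

/-- Log partition function of the slice at height `ε`. -/
noncomputable def sliceTop (f : A → ℝ → ℝ) (ε : ℝ) (w : Co A (Option S) → ℝ) : ℝ :=
  Real.log (∫ x, Real.exp (uH f w (slift x ε)) ∂(sph S))

/-- Log partition function with an extra weight `φ (g ⬝ x)`. -/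
noncomputable def wTop {S' : Type} [Fintype S'] (f : A → ℝ → ℝ) (φ : ℝ → ℝ) (g : S' → ℝ)
    (w : Co A S' → ℝ) : ℝ :=
  Real.log (∫ x, Real.exp (uH f w x + φ (∑ i, g i * x.1 i)) ∂(sph S'))

namespace SlabSAux

theorem X_fib {ι κ : Type} [Fintype ι] [Fintype κ] [DecidableEq κ] (τ : ι → κ) (c : ι → ℝ)
    (ζ : ℕ → ℝ) {s : ℕ → ι → ℝ} (hs : ∀ j i, 0 ≤ s j i) (s' : ℕ → κ → ℝ) {Ψ' : (κ → ℝ) → ℝ}
    (hΨ' : Measurable Ψ') (d : ℕ)
    (h : ∀ j k, ∑ i, (if τ i = k then s j i * c i ^ 2 else 0) = s' j k) :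
    X ζ (gvs s) (fun u => Ψ' fun k => ∑ i, (if τ i = k then c i else 0) * u i) d 0
      = X ζ (gvs s') Ψ' d 0 := by
  refine X_lin (fun k i => if τ i = k then c i else 0) ζ hs s' hΨ' fun j _ k l => ?_
  split_ifs with hkl
  · subst hkl
    rw [← h]
    refine Finset.sum_congr rfl fun i _ => ?_
    split_ifs <;> ring
  · refine Finset.sum_eq_zero fun i _ => ?_
    split_ifs with h1 h2
    · exact absurd (h1.symm.trans h2) hkl
    all_goals ring

theorem lg_lin (ε : ℝ) : LG fun x : ℝ => ε * x :=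
  ⟨by fun_prop, |ε|, fun x => by
    rw [abs_mul, Real.norm_eq_abs]
    nlinarith [abs_nonneg ε]⟩

theorem X_lin_ge {ζ : ℕ → ℝ} (hζ : Zok ζ) (v : ℕ → ℝ) (ε : ℝ) (d : ℕ) (w : ℝ) :
    ε * w ≤ X ζ (g1s v) (fun x => ε * x) d w := by
  have hc := cas_g1s hζ v (lg_lin ε)
  induction d generalizing w with
  | zero => exact le_rfl
  | succ d ih =>
    have h1 := CascAux.eX hc d w
    have h2 := (lg_lin ε).eint (noise_g1 (v d)) w
    have h3 := (lg_lin 1).eint (noise_g1 (v d)) 0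
    have : IsProbabilityMeasure (g1s v d) := (hc.noise d).prob
    refine le_trans ?_ (mean_le_lse (hζ.nn d) h1.integrable (h1.2 _))
    refine le_trans (le_of_eq ?_) (integral_mono h2.integrable h1.integrable fun z => ih _)
    have h4 : Integrable (fun z : ℝ => z) (g1 (v d)) := by simpa using h3.integrable
    change _ = ∫ z, ε * (w + z) ∂(g1 (v d))
    rw [integral_const_mul, integral_add (integrable_const _) h4, integral_id_g1]
    simp

theorem abs_log_le {Ω : Type} [MeasurableSpace Ω] (μ : Measure Ω) [IsProbabilityMeasure μ]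
    {F : Ω → ℝ} (hF : Measurable F) {b : ℝ} (hb : ∀ x, |F x| ≤ b) :
    |Real.log (∫ x, Real.exp (F x) ∂μ)| ≤ b := by
  have h := abs_lse_sub_le (ν := μ) zero_le_one (EInt.const 0) (BM.eint ⟨hF, b, hb⟩) (b := b)
    (Filter.Eventually.of_forall fun x => by simpa using hb x)
  rw [lse_const, sub_zero] at h
  simpa [lse] using h

/-- Target of a coordinate of the larger system. -/
def tgt : Co A (Option S) → Option (Co A S)
  | .inl (a, some j) => some (.inl (a, j))
  | .inl (a, none) => some (.inr (.inr a))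
  | .inr (.inl (some j)) => some (.inr (.inl j))
  | .inr (.inl none) => none
  | .inr (.inr a) => some (.inr (.inr a))

/-- Weight of a coordinate of the larger system. -/
def wt (ρ ε : ℝ) : Co A (Option S) → ℝ
  | .inl (_, some _) => ρ
  | .inl (_, none) => ε
  | .inr (.inl (some _)) => ρ
  | .inr (.inl none) => 1
  | .inr (.inr _) => 1

omit [Nonempty S] in
theorem sum_tgt (φ : Co A (Option S) → ℝ) :
    (∀ a j, ∑ i, (if tgt i = some (.inl (a, j)) then φ i else 0) = φ (.inl (a, some j))) ∧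
    (∀ j, ∑ i, (if tgt i = some (.inr (.inl j)) then φ i else 0) = φ (.inr (.inl (some j)))) ∧
    (∀ a, ∑ i, (if tgt i = some (.inr (.inr a)) then φ i else 0)
      = φ (.inl (a, none)) + φ (.inr (.inr a))) ∧
    ∑ i, (if tgt i = none then φ i else 0) = φ (.inr (.inl none)) := by
  refine ⟨fun a j => ?_, fun j => ?_, fun a => ?_, ?_⟩
  · simp [Fintype.sum_sum_type, Fintype.sum_prod_type, Fintype.sum_option, tgt, ite_and]
  · simp [Fintype.sum_sum_type, Fintype.sum_prod_type, Fintype.sum_option, tgt]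
  · simp [Fintype.sum_sum_type, Fintype.sum_prod_type, Fintype.sum_option, tgt]
  · simp [Fintype.sum_sum_type, Fintype.sum_prod_type, Fintype.sum_option, tgt]

theorem slice_eq {f : A → ℝ → ℝ} (hm : ∀ a, Measurable (f a)) {K : ℝ} (hb : ∀ a x, |f a x| ≤ K)
    {ε : ℝ} (hε : ε ^ 2 ≤ 1) (w : Co A (Option S) → ℝ) :
    sliceTop f ε w = gtop (sph S) (uH f)
        (fun c => ∑ i, (if tgt i = some c then wt (rhoE S ε) ε i else 0) * w i)
      + ε * ∑ i, (if tgt i = none then wt (rhoE S ε) ε i else 0) * w i := by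
  have hc : clipE S ε = ε := if_pos (by linarith [(Nat.cast_nonneg (Fintype.card S) : (0 : ℝ) ≤ _)])
  obtain ⟨h1, h2, h3, h4⟩ := sum_tgt fun i => wt (rhoE S ε) ε i * w i
  have hH := (hg_uH (S := S) hm hb).eint (μ := sph S)
    fun c => ∑ i, (if tgt i = some c then wt (rhoE S ε) ε i else 0) * w i
  unfold gtop
  rw [← lse_add_const hH.integrable (hH.2 _)]
  simp only [sliceTop, lse, one_ne_zero, if_false, inv_one, one_mul]
  congr 2
  funext x
  congr 1
  simp only [uH, arg, ite_mul, zero_mul, h1, h2, h3, h4]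
  simp only [slift, Fintype.sum_option, Option.elim, hc, wt, one_mul]
  have e1 : ∀ a, w (.inl (a, none)) * ε + ∑ i, w (.inl (a, some i)) * (rhoE S ε * x.1 i)
      + w (.inr (.inr a)) = ∑ i, rhoE S ε * w (.inl (a, some i)) * x.1 i
        + (ε * w (.inl (a, none)) + w (.inr (.inr a))) := by
    intro a
    have : ∑ i, w (.inl (a, some i)) * (rhoE S ε * x.1 i)
        = ∑ i, rhoE S ε * w (.inl (a, some i)) * x.1 i := Finset.sum_congr rfl fun i _ => by ring
    rw [this]; ring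
  have e2 : ∑ i, w (.inr (.inl (some i))) * (rhoE S ε * x.1 i)
      = ∑ i, rhoE S ε * w (.inr (.inl (some i))) * x.1 i := Finset.sum_congr rfl fun i _ => by ring
  simp only [e1, e2]
  ring

theorem val_step {ζ : ℕ → ℝ} (hζ : Zok ζ) (hz : ζ 0 = 1) {f f1 f2 : A → ℝ → ℝ} {K : ℝ}
    (hf : ∀ a, Sm (f a) (f1 a) (f2 a) K) {k : A → ℝ} (hk : ∀ a z, |f1 a z| ≤ k a) {A1 : ℝ}
    (hA : ∑ a, k a ^ 2 ≤ A1 * (Fintype.card S + 1)) (n : ℕ) (θ : ℕ → ℝ) {e r : ℝ} (he : 0 ≤ e)
    (he1 : e ≤ 1) (hr : r = (Fintype.card S + 1 - e) / Fintype.card S) :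
    -(e * A1 / 2) ≤ Val (sph S) f ζ (prof n (fun _ _ => ((Fintype.card S : ℝ) + 1)⁻¹ * r)
        (fun d _ => sq0 θ d * r) fun d _ => if d = n then ((Fintype.card S : ℝ) + 1)⁻¹ * e else 0) n
      - Val (sph S) f ζ (prof n (fun _ _ => (Fintype.card S : ℝ)⁻¹) (fun d _ => sq0 θ d)
        fun _ _ => 0) n := by
  have hN : (0 : ℝ) < Fintype.card S := by exact_mod_cast Fintype.card_pos
  have hr1 : 1 ≤ r := by rw [hr, le_div_iff₀ hN]; linarith
  refine val_ge (sph S) hζ hz hf n (fun _ _ => by positivity) (fun d _ => sq0_nonneg θ d)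
    (fun _ _ => le_rfl) (fun _ _ => by positivity)
    (fun d _ => mul_nonneg (sq0_nonneg θ d) (by linarith))
    (fun d _ => by split_ifs <;> positivity) fun t _ => ?_
  unfold valD
  generalize profI (A := A) (S := S) n _ _ _ _ _ _ t = s
  have h2 : 0 ≤ ∑ d ∈ Finset.range (n + 1), ∑ i : S, (sq0 θ d * r - sq0 θ d) *
      Db ζ (gvs s) (sph S) (uH f) (u1 f1 (.inr (.inl i))) (u2 f2 (.inr (.inl i))) n d :=
    Finset.sum_nonneg fun d hd => Finset.sum_nonneg fun i _ =>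
      mul_nonneg (by nlinarith [sq0_nonneg θ d])
        (Db_F_nonneg (sph S) hζ hz hf s (Nat.lt_succ_iff.1 (Finset.mem_range.1 hd)) i)
  have h3 : ∑ d ∈ Finset.range (n + 1), ∑ a : A,
      ((if d = n then ((Fintype.card S : ℝ) + 1)⁻¹ * e else 0) - 0) *
        Db ζ (gvs s) (sph S) (uH f) (u1 f1 (.inr (.inr a))) (u2 f2 (.inr (.inr a))) n d
      = ∑ a : A, ((Fintype.card S : ℝ) + 1)⁻¹ * e *
        Db ζ (gvs s) (sph S) (uH f) (u1 f1 (.inr (.inr a))) (u2 f2 (.inr (.inr a))) n n := by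
    rw [Finset.sum_eq_single n (fun d _ hd => by simp [hd]) (by simp)]
    simp
  have h4 : ∀ a : A, -(((Fintype.card S : ℝ) + 1)⁻¹ * e * k a ^ 2) ≤
      ∑ i : S, (((Fintype.card S : ℝ) + 1)⁻¹ * r - (Fintype.card S : ℝ)⁻¹) *
        Db ζ (gvs s) (sph S) (uH f) (u1 f1 (.inl (a, i))) (u2 f2 (.inl (a, i))) n n
      + ((Fintype.card S : ℝ) + 1)⁻¹ * e *
        Db ζ (gvs s) (sph S) (uH f) (u1 f1 (.inr (.inr a))) (u2 f2 (.inr (.inr a))) n n := by
    intro a
    rw [← Finset.mul_sum, sum_Db_G (sph S) hζ hf]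
    have e1 : ((Fintype.card S : ℝ) + 1)⁻¹ * r - (Fintype.card S : ℝ)⁻¹
        = -(((Fintype.card S : ℝ) + 1)⁻¹ * e * (Fintype.card S : ℝ)⁻¹) := by
      rw [hr]; field_simp; ring
    have p1 := UnivAux.sum_nn hζ n (E := fun k => rho ζ (gvs s) (sph S) (uH f)
      (fun i w x => f1 a (arg w x.1 a) * x.1 i) n (k + 1)) fun k => rho_nonneg _ _ _
    have p2 := UnivAux.sum_le hζ n (E := fun k => Esq ζ (gvs s) (sph S) (uH f)
      (u1 f1 (.inr (.inr a))) n (k + 1)) (sq_nonneg (k a)) fun l _ =>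
        Esq_le_sq ((abs_nonneg _).trans (hk a 0))
          (fun w => Filter.Eventually.of_forall fun x => hk a _) _ _
    have e2 : Db ζ (gvs s) (sph S) (uH f) (u1 f1 (.inr (.inr a))) (u2 f2 (.inr (.inr a))) n n
        = EG ζ (gvs s) (sph S) (uH f) (fun w x => f2 a (arg w x.1 a) + f1 a (arg w x.1 a) ^ 2) n
          - ∑ k ∈ Finset.range n, (ζ k - ζ (k + 1)) * Esq ζ (gvs s) (sph S) (uH f)
            (u1 f1 (.inr (.inr a))) n (k + 1) := rfl
    rw [e1, e2]
    generalize EG ζ (gvs s) (sph S) (uH f) _ n = G at *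
    generalize ∑ k ∈ Finset.range n, (ζ k - ζ (k + 1)) * rho ζ (gvs s) (sph S) (uH f)
      (fun i w x => f1 a (arg w x.1 a) * x.1 i) n (k + 1) = P1 at *
    generalize ∑ k ∈ Finset.range n, (ζ k - ζ (k + 1)) * Esq ζ (gvs s) (sph S) (uH f)
      (u1 f1 (.inr (.inr a))) n (k + 1) = P2 at *
    have hq : 0 ≤ ((Fintype.card S : ℝ) + 1)⁻¹ * e := by positivity
    generalize ((Fintype.card S : ℝ) + 1)⁻¹ * e = q at *
    have e3 : -(q * (Fintype.card S : ℝ)⁻¹) * (Fintype.card S * G - P1) + q * (G - P2)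
        = q * (Fintype.card S : ℝ)⁻¹ * P1 - q * P2 := by field_simp; ring
    rw [e3]
    have := mul_le_mul_of_nonneg_left p2 hq
    have : 0 ≤ q * (Fintype.card S : ℝ)⁻¹ * P1 := by positivity
    linarith
  have h5 := Finset.sum_le_sum fun a (_ : a ∈ Finset.univ) => h4 a
  rw [Finset.sum_add_distrib, Finset.sum_neg_distrib, ← Finset.mul_sum] at h5
  have h6 : ((Fintype.card S : ℝ) + 1)⁻¹ * e * ∑ a, k a ^ 2 ≤ e * A1 := by
    calc _ ≤ ((Fintype.card S : ℝ) + 1)⁻¹ * e * (A1 * (Fintype.card S + 1)) := by gcongr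
      _ = _ := by field_simp
  rw [h3]
  linarith

omit [Nonempty S] in
theorem hg_wt {f : A → ℝ → ℝ} (hm : ∀ a, Measurable (f a)) {K : ℝ} (hb : ∀ a x, |f a x| ≤ K)
    {φ : ℝ → ℝ} (hφ : BM φ) (g : S → ℝ) :
    HG fun (w : Co A S → ℝ) (x : Sph S) => uH f w x + φ (∑ i, g i * x.1 i) := by
  obtain ⟨h1, C, hC⟩ := hg_uH (S := S) hm hb
  obtain ⟨h2, D, hD⟩ := hφ
  refine ⟨h1.add (h2.comp (Finset.measurable_sum _ fun i _ =>
    ((measurable_sph_coord i).comp measurable_snd).const_mul _)), C + D, fun w x => ?_⟩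
  have := mul_nonneg ((abs_nonneg _).trans (hD 0)) (norm_nonneg w)
  refine (abs_add_le _ _).trans ?_
  nlinarith [hC w x, hD (∑ i, g i * x.1 i)]

omit [DecidableEq A] [DecidableEq S] [Nonempty S] in
theorem wTop_eq (f : A → ℝ → ℝ) (φ : ℝ → ℝ) (g : S → ℝ) :
    wTop f φ g = gtop (sph S) fun w x => uH f w x + φ (∑ i, g i * x.1 i) := by
  funext w
  simp [wTop, gtop, lse]

theorem bm_f0 {η R : ℝ} (hη : 0 < η) (hR : 0 < R) : BM (f0 η R) :=
  ⟨measurable_f0 η R, R, fun z => abs_le.2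
    ⟨(f0_bounds hη hR z).1, (f0_bounds hη hR z).2.1.trans hR.le⟩⟩

theorem prob_pi (S : Type) [Fintype S] [Nonempty S] {η R η' : ℝ} (hη : 0 < η) (hR : 0 < R)
    (h0 : 0 < η') (γ : ℝ) : IsProbabilityMeasure
      (((nuE S).restrict (Set.Icc (-η') η')).tilted fun ε => f0 η R (γ * ε)) := by
  have hpos := nuE_Icc_pos S h0
  have : NeZero ((nuE S).restrict (Set.Icc (-η') η')) := ⟨fun h => by
    rw [Measure.restrict_eq_zero] at h
    simp [Measure.real, h] at hpos⟩
  exact isProbabilityMeasure_tilted (SlabNAux.bm_f0 hη hR γ).integrable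

theorem measurable_slice {f : A → ℝ → ℝ} (hm : ∀ a, Measurable (f a)) {K : ℝ}
    (hb : ∀ a x, |f a x| ≤ K) : Measurable fun p : (ℝ × (Co A (Option S) → ℝ)) × Sph S =>
      uH f p.1.2 (slift p.2 p.1.1) := by
  have h0 : Measurable fun p : (ℝ × (Co A (Option S) → ℝ)) × Sph S => (p.2, p.1.1) :=
    measurable_snd.prodMk measurable_fst.fst
  have h1 := (measurable_slift (S := S)).comp h0
  have h2 := (hg_uH (S := Option S) hm hb).1.comp (measurable_fst.snd.prodMk h1)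
  simpa only [Function.comp_def, Function.uncurry_apply_pair] using h2

theorem bm_slice {f : A → ℝ → ℝ} (hm : ∀ a, Measurable (f a)) {K : ℝ}
    (hb : ∀ a x, |f a x| ≤ K) (e : ℝ) (w : Co A (Option S) → ℝ) :
    BM fun x : Sph S => uH f w (slift x e) := by
  obtain ⟨h, C, hC⟩ := (hg_uH (S := Option S) hm hb).bm w
  have h1 : Measurable fun x : Sph S => slift x e :=
    measurable_slift.comp (measurable_id.prodMk measurable_const)
  exact ⟨h.comp h1, C, fun x => hC _⟩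

theorem slice_fam {f : A → ℝ → ℝ} (hm : ∀ a, Measurable (f a)) {K : ℝ}
    (hb : ∀ a x, |f a x| ≤ K) : Measurable (Function.uncurry (sliceTop (S := S) f)) ∧
      ∃ C, ∀ e w, |sliceTop (S := S) f e w| ≤ C * (1 + ‖w‖) := by
  obtain ⟨_, C, hC⟩ := hg_uH (S := Option S) hm hb
  refine ⟨?_, C, fun e w => abs_log_le _ (bm_slice hm hb e w).1 fun x => hC _ _⟩
  have h := ((measurable_slice (S := S) hm hb).exp.stronglyMeasurable.integral_prod_right'
    (ν := sph S)).measurable.log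
  exact h

theorem total_ge {f : A → ℝ → ℝ} (hm : ∀ a, Measurable (f a)) {K : ℝ}
    (hb : ∀ a x, |f a x| ≤ K) {φ : ℝ → ℝ} (hφ : BM φ) {η' : ℝ} (h1 : η' ≤ 1) (γ : ℝ)
    (w : Co A (Option S) → ℝ) :
    ∫ e in Set.Icc (-η') η', Real.exp (sliceTop (S := S) f e w) * Real.exp (φ (γ * e)) ∂(nuE S)
      ≤ ∫ x, Real.exp (uH f w x + φ (∑ i, Pi.single (M := fun _ => ℝ) none γ i * x.1 i))
        ∂(sph (Option S)) := by
  have hN : (0 : ℝ) < Fintype.card S := by exact_mod_cast Fintype.card_pos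
  have hW := hg_wt (S := Option S) hm hb hφ (Pi.single (none : Option S) γ)
  have bG : BM fun x : Sph (Option S) =>
      Real.exp (uH f w x + φ (∑ i, Pi.single (M := fun _ => ℝ) none γ i * x.1 i)) :=
    (hW.bm w).exp
  obtain ⟨D, hD⟩ := bG.2
  have bG' : BM fun p : Sph S × ℝ => Real.exp (uH f w (slift p.1 p.2)
      + φ (∑ i, Pi.single (M := fun _ => ℝ) none γ i * (slift p.1 p.2).1 i)) :=
    ⟨bG.1.comp measurable_slift, D, fun p => hD _⟩
  have e0 := integral_map (μ := (sph S).prod (nuE S)) measurable_slift.aemeasurable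
    bG.1.aestronglyMeasurable
  rw [sph_option] at e0
  rw [e0, integral_prod_symm _ bG'.integrable]
  refine le_trans (le_of_eq ?_) (setIntegral_le_integral (s := Set.Icc (-η') η')
    bG'.integrable.integral_prod_right (Filter.Eventually.of_forall fun e =>
      integral_nonneg fun x => (Real.exp_pos _).le))
  refine setIntegral_congr_fun measurableSet_Icc fun e he => ?_
  have hc : clipE S e = e := if_pos (by nlinarith [he.1, he.2])
  have e2 : ∀ x : Sph S, ∑ i, Pi.single (M := fun _ => ℝ) none γ i * (slift x e).1 i = γ * e := by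
    intro x
    simp [Fintype.sum_option, slift, hc]
  have e3 : 0 < ∫ x, Real.exp (uH f w (slift x e)) ∂(sph S) :=
    integral_exp_pos (bm_slice hm hb e w).exp.integrable
  simp only [e2, Real.exp_add, integral_mul_const, sliceTop, Real.exp_log e3]

theorem mix_le {f : A → ℝ → ℝ} (hm : ∀ a, Measurable (f a)) {K : ℝ}
    (hb : ∀ a x, |f a x| ≤ K) {η R η' : ℝ} (hη : 0 < η) (hR : 0 < R) (h0 : 0 < η') (h1 : η' ≤ 1)
    (γ : ℝ) (w : Co A (Option S) → ℝ) :
    lse (((nuE S).restrict (Set.Icc (-η') η')).tilted fun ε => f0 η R (γ * ε)) 1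
        (fun e => sliceTop (S := S) f e w) + Real.log (cN S η R η' γ)
      ≤ wTop f (f0 η R) (Pi.single (none : Option S) γ) w := by
  have := prob_pi S hη hR h0 γ
  have hcN : 0 < cN S η R η' γ :=
    lt_of_lt_of_le (mul_pos (Real.exp_pos _) (nuE_Icc_pos S h0)) (cN_bounds S hη hR γ).1
  obtain ⟨mΦ, C, hΦ⟩ := slice_fam (S := S) hm hb
  have bΦ : BM fun e => sliceTop (S := S) f e w := ⟨mΦ.of_uncurry_right, _, fun e => hΦ e w⟩
  have e1 := exp_mul_lse (ζ := 1) ((bΦ.eint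
    (ν := ((nuE S).restrict (Set.Icc (-η') η')).tilted fun ε => f0 η R (γ * ε))).2 1)
  simp only [one_mul] at e1
  rw [← Real.log_exp (lse _ 1 _), ← Real.log_mul (Real.exp_pos _).ne' hcN.ne']
  refine Real.log_le_log (mul_pos (Real.exp_pos _) hcN) ?_
  refine le_trans (le_of_eq ?_) (total_ge hm hb (bm_f0 hη hR) h1 γ w)
  rw [e1, integral_tilted, ← integral_mul_const]
  refine integral_congr_ae (Filter.Eventually.of_forall fun e => ?_)
  change _ / cN S η R η' γ * _ * _ = _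
  field_simp

end SlabSAux

open SlabSAux

/-- A slice is almost the smaller sphere. -/
theorem slice_ge {ζ : ℕ → ℝ} (hζ : Zok ζ) (hz : ζ 0 = 1) {f f1 f2 : A → ℝ → ℝ} {K : ℝ}
    (hf : ∀ a, Sm (f a) (f1 a) (f2 a) K) {k : A → ℝ} (hk : ∀ a z, |f1 a z| ≤ k a) {A1 : ℝ}
    (hA : ∑ a, k a ^ 2 ≤ A1 * (Fintype.card S + 1)) (n : ℕ) (θ : ℕ → ℝ) {ε : ℝ} (hε : ε ^ 2 ≤ 1) :
    Val (sph S) f ζ (cprof A S n θ 0) n - ε ^ 2 * A1 / 2
      ≤ X ζ (gvs (cprof A (Option S) n θ 0)) (sliceTop f ε) (n + 1) 0 := by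
  have hN : (0 : ℝ) < Fintype.card S := by exact_mod_cast Fintype.card_pos
  have hm : ∀ a, Measurable (f a) := fun a => (hf a).meas
  have hb : ∀ a x, |f a x| ≤ K := fun a => (hf a).bd
  have hL : LG (gtop (sph S) (uH f)) := (hg_uH hm hb).lg_gtop
  have hc : clipE S ε = ε := if_pos (by linarith)
  have hr : rhoE S ε ^ 2 = (Fintype.card S + 1 - ε ^ 2) / Fintype.card S := by
    unfold rhoE; rw [hc]; exact Real.sq_sqrt (div_nonneg (by linarith) hN.le)
  let s' : ℕ → Option (Co A S) → ℝ := fun d c => c.elim (sq0 θ d)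
    (prof n (fun _ _ => ((Fintype.card S : ℝ) + 1)⁻¹ * rhoE S ε ^ 2)
      (fun d _ => sq0 θ d * rhoE S ε ^ 2)
      (fun d _ => if d = n then ((Fintype.card S : ℝ) + 1)⁻¹ * ε ^ 2 else 0) d)
  have hΨ : Measurable fun u : Option (Co A S) → ℝ =>
      gtop (sph S) (uH f) (fun i => u (some i)) + ε * u none :=
    (hL.1.comp (measurable_pi_lambda _ fun i => measurable_pi_apply _)).add
      ((measurable_pi_apply _).const_mul _)
  have h1 := X_fib (tgt (A := A) (S := S)) (wt (rhoE S ε) ε) ζ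
    (cprof_nonneg (A := A) (S := Option S) n θ 0) s' hΨ (n + 1) (by
      intro d c
      obtain ⟨h1, h2, h3, h4⟩ :=
        sum_tgt fun i => cprof A (Option S) n θ 0 d i * wt (rhoE S ε) ε i ^ 2
      rcases c with _ | ⟨a, j⟩ | j | a
      · rw [h4]; simp [s', cprof, prof, wt]
      · rw [h1]; simp [s', cprof, prof, wt]
      · rw [h2]; simp [s', cprof, prof, wt]
      · rw [h3]; simp [s', cprof, prof, wt, sq0])
  have h2 := X_option hζ s' hL (lg_lin ε) (n + 1) 0
  have h3 := X_lin_ge hζ (fun j => s' j none) ε (n + 1) 0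
  have h4 := val_step hζ hz hf hk hA n θ (sq_nonneg ε) hε hr
  have e1 : sliceTop f ε = fun u : Co A (Option S) → ℝ => gtop (sph S) (uH f)
        (fun c => ∑ i, (if tgt i = some c then wt (rhoE S ε) ε i else 0) * u i)
      + ε * ∑ i, (if tgt i = none then wt (rhoE S ε) ε i else 0) * u i :=
    funext fun w => slice_eq hm hb hε w
  have e2 : cprof A S n θ 0
      = prof n (fun _ _ => (Fintype.card S : ℝ)⁻¹) (fun d _ => sq0 θ d) fun _ _ => 0 := by
    unfold cprof
    congr 1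
    funext d a
    simp [sq0]
  rw [e1, h1, h2, e2]
  unfold Val at h4 ⊢
  simp only [mul_zero] at h3
  change _ ≤ X ζ (gvs (prof n _ _ _)) _ _ 0 + X ζ _ _ _ 0
  linarith

/-- The weighted system along the last coordinate dominates the smaller sphere. -/
theorem wtop_axis_ge {ζ : ℕ → ℝ} (hζ : Zok ζ) (hz : ζ 0 = 1) {f f1 f2 : A → ℝ → ℝ} {K : ℝ}
    (hf : ∀ a, Sm (f a) (f1 a) (f2 a) K) {k : A → ℝ} (hk : ∀ a z, |f1 a z| ≤ k a) {A1 : ℝ}
    (hA : ∑ a, k a ^ 2 ≤ A1 * (Fintype.card S + 1)) (n : ℕ) (θ : ℕ → ℝ) {η R η' : ℝ}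
    (hη : 0 < η) (hR : 0 < R) (h0 : 0 < η') (h1 : η' ≤ 1) (γ : ℝ) :
    Val (sph S) f ζ (cprof A S n θ 0) n - η' ^ 2 * A1 / 2 + Real.log (cN S η R η' γ)
      ≤ X ζ (gvs (cprof A (Option S) n θ 0))
          (wTop f (f0 η R) (Pi.single (none : Option S) γ)) (n + 1) 0 := by
  have hN : (0 : ℝ) < Fintype.card S := by exact_mod_cast Fintype.card_pos
  have hm : ∀ a, Measurable (f a) := fun a => (hf a).meas
  have hb : ∀ a x, |f a x| ≤ K := fun a => (hf a).bd
  have hA1 : 0 ≤ A1 := by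
    by_contra h
    have := Finset.sum_nonneg fun a (_ : a ∈ Finset.univ) => sq_nonneg (k a)
    nlinarith [not_le.1 h]
  have hW := hg_wt (S := Option S) hm hb (bm_f0 hη hR) (Pi.single (none : Option S) γ)
  have hcas : Cas ζ (gvs (cprof A (Option S) n θ 0))
      (wTop f (f0 η R) (Pi.single (none : Option S) γ)) := by
    rw [wTop_eq]
    exact cas_gvs hζ _ hW.lg_gtop
  have := prob_pi S hη hR h0 γ
  obtain ⟨mΦ, C, hΦ⟩ := slice_fam (S := S) hm hb
  refine mixture hcas (((nuE S).restrict (Set.Icc (-η') η')).tilted fun ε => f0 η R (γ * ε))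
    mΦ hΦ (fun w => mix_le hm hb hη hR h0 h1 γ w) _ _ ?_
  refine (tilted_absolutelyContinuous _ _).ae_le ?_
  filter_upwards [ae_restrict_mem measurableSet_Icc] with e he
  have h2 : e ^ 2 ≤ η' ^ 2 := sq_le_sq' he.1 he.2
  refine le_trans ?_ (slice_ge hζ hz hf hk hA n θ (by nlinarith))
  nlinarith [mul_le_mul_of_nonneg_right h2 hA1]

end Vale.Agent.P157
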