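import Vale.Agent.P157.Jet

/-! # Adding a small variance along a direction -/

namespace Vale.Agent.P157

open MeasureTheory ProbabilityTheory

namespace SmallAux

theorem exp_cubic (x : ℝ) : |Real.exp x - 1 - x - x ^ 2 / 2| ≤ |x| ^ 3 * Real.exp |x| := by
  have h := Complex.norm_exp_sub_sum_le_norm_mul_exp (x : ℂ) 3
  have e : Complex.exp x - ∑ m ∈ Finset.range 3, (x : ℂ) ^ m / (m.factorial : ℂ) =
      ((Real.exp x - 1 - x - x ^ 2 / 2 : ℝ) : ℂ) := by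
    simp only [Finset.sum_range_succ, Finset.sum_range_zero, Nat.factorial]
    push_cast
    ring
  rwa [e, Complex.norm_real, Complex.norm_real, Real.norm_eq_abs, Real.norm_eq_abs] at h

/-- The weight that dominates all remainders. -/
noncomputable def om (K t : ℝ) : ℝ := |t| ^ 3 * Real.exp ((K + 1) * |t|)

theorem om_nonneg (K t : ℝ) : 0 ≤ om K t := by
  unfold om
  positivity

theorem continuous_om (K : ℝ) : Continuous (om K) := by
  unfold om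
  fun_prop

theorem integrable_om (K h : ℝ) : Integrable (om K) (g1 h) := by
  refine Integrable.mono' (((noise_g1 h).ex (K + 2)).const_mul 6)
    (continuous_om K).aestronglyMeasurable (Filter.Eventually.of_forall fun t => ?_)
  have h1 := Real.pow_div_factorial_le_exp _ (abs_nonneg t) 3
  have h2 : Real.exp ((K + 2) * |t|) = Real.exp |t| * Real.exp ((K + 1) * |t|) := by
    rw [← Real.exp_add]
    congr 1
    ring
  rw [Real.norm_of_nonneg (om_nonneg K t), Real.norm_eq_abs, h2, om, ← mul_assoc]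
  refine mul_le_mul_of_nonneg_right ?_ (Real.exp_pos _).le
  simp only [Nat.factorial] at h1
  push_cast at h1
  linarith

theorem integral_om_le {K h : ℝ} (hK : 0 ≤ K) (h0 : 0 ≤ h) (h1 : h ≤ 1) :
    ∫ t, om K t ∂g1 h ≤ (∫ t, om K t ∂g1 1) * (h * √h) := by
  have hs : √h ≤ 1 := Real.sqrt_le_one.2 h1
  have hs0 := Real.sqrt_nonneg h
  rw [g1_eq_map h, integral_map (by fun_prop) (continuous_om K).aestronglyMeasurable,
    ← integral_mul_const, ← g1_one]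
  refine integral_mono_of_nonneg (Filter.Eventually.of_forall fun z => om_nonneg _ _)
    ((integrable_om K 1).mul_const _) (Filter.Eventually.of_forall fun z => ?_)
  have e : √h ^ 3 = h * √h := by rw [pow_succ, Real.sq_sqrt h0]
  simp only [om]
  rw [abs_mul, abs_of_nonneg hs0, mul_pow, e]
  have h2 : Real.exp ((K + 1) * (√h * |z|)) ≤ Real.exp ((K + 1) * |z|) :=
    Real.exp_le_exp.2 (mul_le_mul_of_nonneg_left
      (mul_le_of_le_one_left (abs_nonneg z) hs) (by linarith))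
  calc h * √h * |z| ^ 3 * Real.exp ((K + 1) * (√h * |z|))
      ≤ h * √h * |z| ^ 3 * Real.exp ((K + 1) * |z|) := by gcongr
    _ = _ := by ring

theorem cube_le_om {K : ℝ} (hK : 0 ≤ K) (t : ℝ) : |t| ^ 3 ≤ om K t :=
  le_mul_of_one_le_right (by positivity) (Real.one_le_exp (by positivity))

theorem four_le_om {K : ℝ} (hK : 0 ≤ K) (t : ℝ) : |t| ^ 4 ≤ om K t := by
  rw [pow_succ, om]
  refine mul_le_mul_of_nonneg_left ?_ (by positivity)
  have h1 := Real.add_one_le_exp ((K + 1) * |t|)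
  nlinarith [abs_nonneg t]

/-- The pointwise expansion of the exponential. -/
theorem point {K ζ δ m a t : ℝ} (hK : 0 ≤ K) (h0 : 0 ≤ ζ) (h1 : ζ ≤ 1) (hm : |m| ≤ K)
    (ha : |a| ≤ K) (hl : |δ| ≤ K * |t|) (ht : |δ - t * m - t ^ 2 / 2 * a| ≤ K * |t| ^ 3) :
    |Real.exp (ζ * δ) - (1 + ζ * m * t + ζ * (a + ζ * m ^ 2) / 2 * t ^ 2)| ≤
      ζ * (K ^ 3 + K + 2 * K ^ 2) * om K t := by
  have t0 := abs_nonneg t
  have c3 := cube_le_om hK t
  have c4 := four_le_om hK t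
  have o0 := om_nonneg K t
  have a1 : |ζ * δ| ≤ ζ * (K * |t|) := by
    rw [abs_mul, abs_of_nonneg h0]
    exact mul_le_mul_of_nonneg_left hl h0
  have a2 : |Real.exp (ζ * δ) - 1 - ζ * δ - (ζ * δ) ^ 2 / 2| ≤ ζ * K ^ 3 * om K t := by
    refine (exp_cubic _).trans ?_
    have b1 : |ζ * δ| ^ 3 ≤ ζ * K ^ 3 * |t| ^ 3 := by
      have b2 : ζ ^ 3 ≤ ζ := pow_le_of_le_one h0 h1 (by norm_num)
      calc |ζ * δ| ^ 3 ≤ (ζ * (K * |t|)) ^ 3 := by gcongr
        _ = ζ ^ 3 * (K ^ 3 * |t| ^ 3) := by ring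
        _ ≤ ζ * (K ^ 3 * |t| ^ 3) := by gcongr
        _ = _ := by ring
    have b3 : Real.exp |ζ * δ| ≤ Real.exp ((K + 1) * |t|) := by
      refine Real.exp_le_exp.2 (a1.trans ?_)
      nlinarith [mul_nonneg hK t0]
    calc |ζ * δ| ^ 3 * Real.exp |ζ * δ| ≤ ζ * K ^ 3 * |t| ^ 3 * Real.exp ((K + 1) * |t|) := by
          gcongr
      _ = _ := by rw [om, mul_assoc (ζ * K ^ 3)]
  have a3 : |δ + t * m| ≤ 2 * K * |t| := by
    refine (abs_add_le _ _).trans ?_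
    rw [abs_mul]
    nlinarith
  have a4 : |δ - t * m| ≤ K * |t| ^ 2 / 2 + K * |t| ^ 3 := by
    have b1 : |t ^ 2 / 2 * a| ≤ K * |t| ^ 2 / 2 := by
      rw [abs_mul, abs_div, abs_pow, abs_two]
      nlinarith [sq_nonneg |t|]
    have b2 := abs_add_le (δ - t * m - t ^ 2 / 2 * a) (t ^ 2 / 2 * a)
    rw [sub_add_cancel] at b2
    linarith
  have a5 : |δ ^ 2 - (t * m) ^ 2| ≤ 4 * K ^ 2 * om K t := by
    rw [sq_sub_sq, abs_mul]
    calc |δ + t * m| * |δ - t * m| ≤ 2 * K * |t| * (K * |t| ^ 2 / 2 + K * |t| ^ 3) := by gcongr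
      _ = K ^ 2 * |t| ^ 3 + 2 * K ^ 2 * |t| ^ 4 := by ring
      _ ≤ K ^ 2 * om K t + 2 * K ^ 2 * om K t := by gcongr
      _ ≤ _ := by nlinarith [mul_nonneg (sq_nonneg K) o0]
  have a6 : |ζ * (δ - t * m - t ^ 2 / 2 * a)| ≤ ζ * K * om K t := by
    rw [abs_mul, abs_of_nonneg h0, mul_assoc]
    exact mul_le_mul_of_nonneg_left (ht.trans (mul_le_mul_of_nonneg_left c3 hK)) h0
  have a7 : |ζ ^ 2 / 2 * (δ ^ 2 - (t * m) ^ 2)| ≤ ζ * (2 * K ^ 2) * om K t := by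
    have b2 : ζ ^ 2 ≤ ζ := pow_le_of_le_one h0 h1 (by norm_num)
    rw [abs_mul, abs_of_nonneg (by positivity : 0 ≤ ζ ^ 2 / 2)]
    calc ζ ^ 2 / 2 * |δ ^ 2 - (t * m) ^ 2| ≤ ζ / 2 * (4 * K ^ 2 * om K t) := by gcongr
      _ = _ := by ring
  have e : Real.exp (ζ * δ) - (1 + ζ * m * t + ζ * (a + ζ * m ^ 2) / 2 * t ^ 2) =
      (Real.exp (ζ * δ) - 1 - ζ * δ - (ζ * δ) ^ 2 / 2) + ζ * (δ - t * m - t ^ 2 / 2 * a) +
        ζ ^ 2 / 2 * (δ ^ 2 - (t * m) ^ 2) := by ring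
  rw [e]
  refine (abs_add_three _ _ _).trans ?_
  linarith

theorem eint_id (h : ℝ) : EInt (g1 h) fun t => t := by
  refine ⟨measurable_id, fun c => Integrable.mono' ((noise_g1 h).ex |c|) (by fun_prop)
    (Filter.Eventually.of_forall fun t => ?_)⟩
  rw [Real.norm_of_nonneg (Real.exp_pos _).le, Real.norm_eq_abs, ← abs_mul]
  exact Real.exp_le_exp.2 (le_abs_self _)

/-- Integration of a quadratic expansion. -/
theorem int_quad {K h A c₀ c₁ c₂ : ℝ} (hK : 0 ≤ K) (h0 : 0 ≤ h) (h1 : h ≤ 1) (hA : 0 ≤ A)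
    {G : ℝ → ℝ} (hG : Integrable G (g1 h))
    (hb : ∀ t, |G t - (c₀ + c₁ * t + c₂ * t ^ 2)| ≤ A * om K t) :
    |∫ t, G t ∂g1 h - (c₀ + c₂ * h)| ≤ A * (∫ t, om K t ∂g1 1) * (h * √h) := by
  have i1 : Integrable (fun t => c₁ * t) (g1 h) := (eint_id h).integrable.const_mul _
  have i2 : Integrable (fun t => c₂ * t ^ 2) (g1 h) := ((eint_id h).integrable_pow 2).const_mul _
  have i3 : Integrable (fun t => c₀ + c₁ * t) (g1 h) := (integrable_const _).add i1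
  have e : ∫ t, (c₀ + c₁ * t + c₂ * t ^ 2) ∂g1 h = c₀ + c₂ * h := by
    rw [integral_add i3 i2, integral_add (integrable_const _) i1, integral_const_mul,
      integral_const_mul, integral_id_g1, integral_sq_g1 h0]
    simp
  have i4 : Integrable (fun t => c₀ + c₁ * t + c₂ * t ^ 2) (g1 h) := i3.add i2
  rw [← e, ← integral_sub hG i4, mul_assoc]
  refine le_trans ?_ (mul_le_mul_of_nonneg_left (integral_om_le hK h0 h1) hA)
  rw [← integral_const_mul]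
  exact norm_integral_le_of_norm_le (f := fun t => G t - (c₀ + c₁ * t + c₂ * t ^ 2))
    ((integrable_om K h).const_mul A) (Filter.Eventually.of_forall hb)

theorem log_est {x y B : ℝ} (h : Real.exp x = 1 + y) (hB : -B ≤ x) :
    |x - y| ≤ y ^ 2 * Real.exp B := by
  have h1 := Real.add_one_le_exp x
  have h2 := Real.add_one_le_exp (-x)
  have h3 : Real.exp (-x) ≤ Real.exp B := Real.exp_le_exp.2 (by linarith)
  have h4 : Real.exp (-x) * (1 + y) = 1 := by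
    rw [← h, ← Real.exp_add, neg_add_cancel, Real.exp_zero]
  have h6 : y ^ 2 * Real.exp (-x) = y - (1 - Real.exp (-x)) := by
    linear_combination (y - 1) * h4
  have h5 : y - x ≤ y ^ 2 * Real.exp (-x) := by linarith
  rw [abs_sub_comm, abs_of_nonneg (by linarith)]
  exact h5.trans (mul_le_mul_of_nonneg_left h3 (sq_nonneg y))

/-- The one dimensional form of the small step. -/
theorem line_step (K : ℝ) (hK : 0 ≤ K) : ∃ C : ℝ, 0 ≤ C ∧ ∀ ζ : ℝ, 0 ≤ ζ → ζ ≤ 1 →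
    ∀ (δ : ℝ → ℝ) (m a : ℝ), Measurable δ → |m| ≤ K → |a| ≤ K → (∀ t, |δ t| ≤ K * |t|) →
    (∀ t, |δ t - t * m - t ^ 2 / 2 * a| ≤ K * |t| ^ 3) → ∀ h : ℝ, 0 ≤ h → h ≤ 1 →
    |lse (g1 h) ζ δ - h / 2 * (a + ζ * m ^ 2)| ≤ C * (h * √h) := by
  obtain ⟨M, hM⟩ : ∃ M, M = ∫ t, om K t ∂g1 1 := ⟨_, rfl⟩
  have M0 : 0 ≤ M := hM ▸ integral_nonneg (om_nonneg K)
  obtain ⟨c, hc⟩ : ∃ c, c = (K ^ 3 + K + 2 * K ^ 2) * M := ⟨_, rfl⟩
  have c0 : K * M ≤ c := by
    rw [hc]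
    exact mul_le_mul_of_nonneg_right (by nlinarith [pow_nonneg hK 3, sq_nonneg K]) M0
  have c1 : 0 ≤ c := (mul_nonneg hK M0).trans c0
  obtain ⟨B, hB⟩ : ∃ B, B = c + K + K ^ 2 := ⟨_, rfl⟩
  have B0 : 0 ≤ B := by rw [hB]; positivity
  refine ⟨c + B ^ 2 * Real.exp B, by positivity, fun ζ z0 z1 δ m a hδ hm ha hl ht h h0 h1 => ?_⟩
  have hE : EInt (g1 h) δ := (eint_id h).of_le hδ (C := 0) (D := K) fun t => by
    rw [zero_add]; exact hl t
  have s0 := Real.sqrt_nonneg h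
  have s1 : √h ≤ 1 := Real.sqrt_le_one.2 h1
  have s2 : h * √h ≤ h := mul_le_of_le_one_right h0 s1
  have s3 : h * h ≤ h * √h := mul_le_mul_of_nonneg_left (Real.le_sqrt_of_sq_le (by nlinarith)) h0
  have s4 : 0 ≤ h * √h := mul_nonneg h0 s0
  have m1 := int_quad (c₀ := 0) (c₁ := m) (c₂ := a / 2) hK h0 h1 hK hE.integrable fun t => by
    refine le_trans (le_of_eq ?_) ((ht t).trans (mul_le_mul_of_nonneg_left (cube_le_om hK t) hK))
    congr 1
    ring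
  rw [← hM, zero_add] at m1
  rcases z0.eq_or_lt with rfl | zp
  · rw [lse, if_pos rfl, zero_mul, add_zero, show h / 2 * a = a / 2 * h by ring]
    refine m1.trans (mul_le_mul_of_nonneg_right ?_ s4)
    have : 0 ≤ B ^ 2 * Real.exp B := by positivity
    linarith
  have m2 := int_quad (c₀ := 1) (c₁ := ζ * m) (c₂ := ζ * (a + ζ * m ^ 2) / 2) hK h0 h1
    (A := ζ * (K ^ 3 + K + 2 * K ^ 2)) (by positivity) (hE.2 ζ) fun t =>
      point hK z0 z1 hm ha (hl t) (ht t)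
  rw [← hM, mul_assoc ζ, ← hc, ← exp_mul_lse (hE.2 ζ)] at m2
  obtain ⟨L, hL⟩ : ∃ L, L = lse (g1 h) ζ δ := ⟨_, rfl⟩
  have m3 : ∫ t, δ t ∂g1 h ≤ L := hL ▸ mean_le_lse z0 hE.integrable (hE.2 ζ)
  rw [← hL] at m2 ⊢
  have k1 : |a + ζ * m ^ 2| ≤ K + K ^ 2 := by
    refine (abs_add_le _ _).trans (add_le_add ha ?_)
    rw [abs_of_nonneg (by positivity), ← sq_abs m]
    calc ζ * |m| ^ 2 ≤ 1 * K ^ 2 := by gcongr
      _ = K ^ 2 := one_mul _
  have k2 : -B ≤ L := by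
    have q1 := (abs_le.1 m1).1
    have q2 := (abs_le.1 ha).1
    have q3 : K * M * (h * √h) ≤ c := by nlinarith [mul_nonneg hK M0]
    nlinarith [sq_nonneg K]
  have k3 : -B ≤ ζ * L := by nlinarith
  obtain ⟨y, hy⟩ : ∃ y, y = Real.exp (ζ * L) - 1 := ⟨_, rfl⟩
  have k4 := log_est (y := y) (by rw [hy]; ring) k3
  have k5 : |y - ζ * (h / 2 * (a + ζ * m ^ 2))| ≤ ζ * c * (h * √h) := by
    refine le_trans (le_of_eq ?_) m2
    congr 1
    rw [hy]
    ring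
  have k6 : |y| ≤ ζ * (h * B) := by
    have q1 : |ζ * (h / 2 * (a + ζ * m ^ 2))| ≤ ζ * (h * (K + K ^ 2)) := by
      rw [abs_mul, abs_mul, abs_of_nonneg z0, abs_of_nonneg (by positivity : 0 ≤ h / 2)]
      refine mul_le_mul_of_nonneg_left ?_ z0
      exact mul_le_mul (by linarith) k1 (abs_nonneg _) h0
    have q2 := abs_add_le (y - ζ * (h / 2 * (a + ζ * m ^ 2))) (ζ * (h / 2 * (a + ζ * m ^ 2)))
    have q3 : ζ * c * (h * √h) ≤ ζ * c * h := by gcongr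
    rw [sub_add_cancel] at q2
    rw [hB]
    linarith
  have k7 : y ^ 2 ≤ ζ * (B ^ 2 * (h * √h)) := by
    have b2 : ζ ^ 2 ≤ ζ := pow_le_of_le_one z0 z1 (by norm_num)
    calc y ^ 2 = |y| ^ 2 := (sq_abs y).symm
      _ ≤ (ζ * (h * B)) ^ 2 := by gcongr
      _ = ζ ^ 2 * (B ^ 2 * (h * h)) := by ring
      _ ≤ ζ * (B ^ 2 * (h * √h)) := by gcongr
  refine le_of_mul_le_mul_left ?_ zp
  have q4 := abs_add_le (ζ * L - y) (y - ζ * (h / 2 * (a + ζ * m ^ 2)))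
  have q5 := mul_le_mul_of_nonneg_right k7 (Real.exp_pos B).le
  rw [sub_add_sub_cancel, ← mul_sub, abs_mul, abs_of_nonneg z0] at q4
  linarith

end SmallAux

open SmallAux

theorem small_step (K : ℝ) : ∃ C : ℝ, 0 ≤ C ∧
    ∀ (W : Type) [NormedAddCommGroup W] [NormedSpace ℝ W] [MeasurableSpace W] [BorelSpace W]
      [SecondCountableTopology W] (ζ : ℝ), 0 ≤ ζ → ζ ≤ 1 → ∀ (Ψ m a : W → ℝ) (v : W),
      Measurable Ψ → DJet Ψ v m a K → ∀ h : ℝ, 0 ≤ h → h ≤ 1 → ∀ w : W,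
      |T ζ (line v h) Ψ w - Ψ w - h / 2 * (a w + ζ * m w ^ 2)| ≤ C * (h * √h) := by
  rcases lt_or_ge K 0 with hK | hK
  · exact ⟨0, le_rfl, fun W _ _ _ _ _ ζ _ _ Ψ m a v _ hj => absurd hj.K0 (not_le.2 hK)⟩
  obtain ⟨C, C0, hC⟩ := line_step K hK
  refine ⟨C, C0, fun W _ _ _ _ _ ζ z0 z1 Ψ m a v hΨ hj h h0 h1 w => ?_⟩
  have h2 : Measurable fun t : ℝ => t • v := (continuous_id.smul continuous_const).measurable
  have h3 : Measurable fun z => Ψ (w + z) := hΨ.comp (measurable_const_add w)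
  have h4 : Measurable fun t : ℝ => Ψ (w + t • v) - Ψ w := (h3.comp h2).sub_const _
  have hE : EInt (g1 h) fun t : ℝ => Ψ (w + t • v) - Ψ w :=
    (eint_id h).of_le h4 (C := 0) (D := K) fun t => by
      rw [zero_add]; exact hj.lip w t
  have h5 := lse_add_const hE.integrable (hE.2 ζ) (Ψ w)
  simp only [sub_add_cancel] at h5
  rw [T, line, lse_map h2 ζ h3, h5, add_sub_cancel_right]
  exact hC ζ z0 z1 _ _ _ h4 (hj.bm w) (hj.ba w) (hj.lip w) (hj.tay w) h h0 h1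

/-- Expansion of the value when a small variance is added at level `d`; the constant depends
only on the jet constant of `X (d+1)`. -/
theorem one_step (K : ℝ) : ∃ C : ℝ, 0 ≤ C ∧
    ∀ (W : Type) [NormedAddCommGroup W] [NormedSpace ℝ W] [MeasurableSpace W] [BorelSpace W]
      [SecondCountableTopology W] (ζ : ℕ → ℝ) (ν : ℕ → Measure W) (Ψ : W → ℝ), Cas ζ ν Ψ →
      ∀ (d n : ℕ), d < n → ∀ (v : W) (m a : W → ℝ), DJet (X ζ ν Ψ (d + 1)) v m a K →
      ∀ h : ℝ, 0 ≤ h → h ≤ 1 → ∀ w : W,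
      |X ζ (Function.update ν d ((line v h).conv (ν d))) Ψ n w - X ζ ν Ψ n w
          - h / 2 * Ex ζ ν Ψ (d + 1) (fun u => a u + ζ d * m u ^ 2) n w| ≤ C * (h * √h) := by
  obtain ⟨C, C0, hC⟩ := small_step K
  obtain ⟨B, hB⟩ : ∃ B, B = C + |K| + K ^ 2 := ⟨_, rfl⟩
  have B0 : 0 ≤ B := by rw [hB]; positivity
  refine ⟨C + 4 * B ^ 2 * Real.exp (2 * B), by positivity,
    fun W _ _ _ _ _ ζ ν Ψ hc d n hdn v m a hj h h0 h1 w => ?_⟩
  have z0 := hc.z.nn d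
  have z1 := hc.z.le_one d
  have hc' := hc.update d ((noise_line v h).conv (hc.noise d))
  obtain ⟨ν', hν'⟩ : ∃ ν', ν' = Function.update ν d ((line v h).conv (ν d)) := ⟨_, rfl⟩
  rw [← hν'] at hc' ⊢
  have e0 : X ζ ν' Ψ d = X ζ ν Ψ d :=
    X_congr fun j hj => ⟨rfl, by rw [hν', Function.update_of_ne hj.ne]⟩
  have e1 : X ζ ν' Ψ (d + 1) = T (ζ d) (line v h) (X ζ ν Ψ (d + 1)) := by
    rw [X_succ, X_succ, e0, ← T_conv z0 (noise_line v h) (hc.noise d) (hc.lgX d), hν',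
      Function.update_self]
  have s0 := Real.sqrt_nonneg h
  have s1 : √h ≤ 1 := Real.sqrt_le_one.2 h1
  have s2 : h * √h ≤ h := mul_le_of_le_one_right h0 s1
  have s3 : h * h ≤ h * √h := mul_le_mul_of_nonneg_left (Real.le_sqrt_of_sq_le (by nlinarith)) h0
  have h2 : ∀ u, |X ζ ν' Ψ (d + 1) u - X ζ ν Ψ (d + 1) u - h / 2 * (a u + ζ d * m u ^ 2)| ≤
      C * (h * √h) := fun u => by
    rw [e1]
    exact hC W (ζ d) z0 z1 _ m a v (hc.lgX (d + 1)).1 hj h h0 h1 u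
  have h3 : ∀ u, |X ζ ν' Ψ (d + 1) u - X ζ ν Ψ (d + 1) u| ≤ h * B := by
    intro u
    have k1 : |a u + ζ d * m u ^ 2| ≤ |K| + K ^ 2 := by
      refine (abs_add_le _ _).trans (add_le_add ((hj.ba u).trans (le_abs_self K)) ?_)
      have := hj.bm u
      rw [abs_of_nonneg (by positivity), ← sq_abs (m u)]
      calc ζ d * |m u| ^ 2 ≤ 1 * K ^ 2 := by gcongr
        _ = K ^ 2 := one_mul _
    have q1 : |h / 2 * (a u + ζ d * m u ^ 2)| ≤ h * (|K| + K ^ 2) := by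
      rw [abs_mul, abs_of_nonneg (by positivity : 0 ≤ h / 2)]
      exact mul_le_mul (by linarith) k1 (abs_nonneg _) h0
    have q2 := abs_add_le (X ζ ν' Ψ (d + 1) u - X ζ ν Ψ (d + 1) u -
      h / 2 * (a u + ζ d * m u ^ 2)) (h / 2 * (a u + ζ d * m u ^ 2))
    have q3 : C * (h * √h) ≤ C * h := by gcongr
    rw [sub_add_cancel] at q2
    rw [hB]
    linarith [h2 u]
  have h4 := first_order hc hc' (k := d + 1) (d := n) hdn
    (fun j hj _ => by rw [hν', Function.update_of_ne (by omega)]) h3 w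
  have b1 : BM fun u => X ζ ν' Ψ (d + 1) u - X ζ ν Ψ (d + 1) u :=
    ⟨(hc'.lgX _).1.sub (hc.lgX _).1, _, h3⟩
  have b2 : BM fun u => h / 2 * (a u + ζ d * m u ^ 2) :=
    (hj.bm_a.add ((hj.bm_m.pow 2).const_mul _)).const_mul _
  have h5 := abs_Ex_le (ζ := ζ) (ν := ν) (Ψ := Ψ) (d + 1) h2 n w
  rw [hc.Ex_sub _ b1 b2, Ex_const_mul] at h5
  have h6 : Real.exp (2 * (h * B)) - 1 ≤ 2 * (h * B) * Real.exp (2 * B) := by
    have r1 := Real.add_one_le_exp (-(2 * (h * B)))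
    have r2 : Real.exp (2 * (h * B)) ≤ Real.exp (2 * B) := Real.exp_le_exp.2 (by nlinarith)
    have r3 : Real.exp (-(2 * (h * B))) * Real.exp (2 * (h * B)) = 1 := by
      rw [← Real.exp_add, neg_add_cancel, Real.exp_zero]
    have r4 := mul_le_mul_of_nonneg_right r1 (Real.exp_pos (2 * (h * B))).le
    have r5 := mul_le_mul_of_nonneg_left r2 (by positivity : 0 ≤ 2 * (h * B))
    linarith
  have h7 : 2 * (h * B) * (Real.exp (2 * (h * B)) - 1) ≤
      4 * B ^ 2 * Real.exp (2 * B) * (h * √h) := by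
    calc _ ≤ 2 * (h * B) * (2 * (h * B) * Real.exp (2 * B)) := by gcongr
      _ = 4 * B ^ 2 * Real.exp (2 * B) * (h * h) := by ring
      _ ≤ _ := by gcongr
  have q := abs_add_le (X ζ ν' Ψ n w - X ζ ν Ψ n w -
      Ex ζ ν Ψ (d + 1) (fun u => X ζ ν' Ψ (d + 1) u - X ζ ν Ψ (d + 1) u) n w)
    (Ex ζ ν Ψ (d + 1) (fun u => X ζ ν' Ψ (d + 1) u - X ζ ν Ψ (d + 1) u) n w -
      h / 2 * Ex ζ ν Ψ (d + 1) (fun u => a u + ζ d * m u ^ 2) n w)
  rw [sub_add_sub_cancel] at q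
  linarith

end Vale.Agent.P157
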