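import Mathlib

/-!
# P157: the objects in the statement

Order parameters are step functions listed from the top (time 1) down to the root (time 0):
`1 = ζ 0 > ζ 1 > ... > ζ n = 0` and `1 = q 0 > q 1 ≥ ... ≥ q n ≥ q (n+1) = 0`;
the distribution function equals `ζ d` on `[q (d+1), q d)`.
-/

namespace Vale.Agent.P157

open MeasureTheory ProbabilityTheory

/-- One step of the Parisi recursion: exponent `m`, Gaussian variance `s`. -/
noncomputable def step (m s : ℝ) (Ψ : ℝ → ℝ) (x : ℝ) : ℝ :=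
  if m = 0 then ∫ z, Ψ (x + √s * z) ∂(gaussianReal 0 1)
  else m⁻¹ * Real.log (∫ z, Real.exp (m * Ψ (x + √s * z)) ∂(gaussianReal 0 1))

/-- The Parisi recursion started from `f`, with exponents `ζ d` and variances `c d - c (d+1)`. -/
noncomputable def parisi (ζ c : ℕ → ℝ) (f : ℝ → ℝ) : ℕ → ℝ → ℝ
  | 0 => f
  | d + 1 => step (ζ d) (c d - c (d + 1)) (parisi ζ c f d)

/-- The value at the origin after the levels `0, ..., n`. -/
noncomputable def psi (n : ℕ) (ζ c : ℕ → ℝ) (f : ℝ → ℝ) : ℝ := parisi ζ c f (n + 1) 0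

/-- Admissible discrete order parameters. -/
structure Adm (n : ℕ) (ζ q : ℕ → ℝ) : Prop where
  z0 : ζ 0 = 1
  zlt : ∀ d, d < n → ζ (d + 1) < ζ d
  zn : ∀ d, n ≤ d → ζ d = 0
  q0 : q 0 = 1
  q1 : q 1 < 1
  qa : Antitone q
  qn : ∀ d, n < d → q d = 0

/-- The pairing `∑ (ζ k - ζ (k+1)) p (k+1) q (k+1)` of two paths. -/
noncomputable def pairing (n : ℕ) (ζ p q : ℕ → ℝ) : ℝ :=
  ∑ k ∈ Finset.range n, (ζ k - ζ (k + 1)) * (p (k + 1) * q (k + 1))

/-- Values of the Ising entropy objective over all conjugate paths `p`. -/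
def isingObj (n : ℕ) (ζ q : ℕ → ℝ) : Set ℝ :=
  {y | ∃ p : ℕ → ℝ, Antitone p ∧ (∀ d, n < d → p d = 0) ∧
    y = psi n ζ p (fun x => Real.log (Real.cosh x)) - p 0 / 2 + pairing n ζ p q / 2}

/-- The Ising entropy term. -/
noncomputable def isingS (n : ℕ) (ζ q : ℕ → ℝ) : ℝ := sSup (isingObj n ζ q)

/-- `csDelta ζ q d` is the integral of the distribution function over `[q d, 1]`. -/
noncomputable def csDelta (ζ q : ℕ → ℝ) (d : ℕ) : ℝ :=
  ∑ k ∈ Finset.range d, ζ k * (q k - q (k + 1))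

/-- The Crisanti-Sommers entropy term of the sphere. -/
noncomputable def sphereS (n : ℕ) (ζ q : ℕ → ℝ) : ℝ :=
  (Real.log (csDelta ζ q 1)
    + ∑ d ∈ Finset.Ico 1 n, (ζ d)⁻¹ * Real.log (csDelta ζ q (d + 1) / csDelta ζ q d)
    + q n / csDelta ζ q n) / 2

/-- The law of the pattern matrix: independent standard Gaussian entries. -/
noncomputable def patterns (M N : ℕ) : Measure (Fin M × Fin N → ℝ) :=
  Measure.pi fun _ => gaussianReal 0 1

/-- The energy `∑ a, f (g a ⬝ x / √N)`. -/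
noncomputable def energy (f : ℝ → ℝ) {M N : ℕ} (g : Fin M × Fin N → ℝ) (x : Fin N → ℝ) : ℝ :=
  ∑ a : Fin M, f ((∑ i : Fin N, g (a, i) * x i) / √(N : ℝ))

/-- The pressure on the cube with the uniform probability measure. -/
noncomputable def isingPressure (f : ℝ → ℝ) (M N : ℕ) (g : Fin M × Fin N → ℝ) : ℝ :=
  (N : ℝ)⁻¹ * Real.log (((2 : ℝ) ^ N)⁻¹ *
    ∑ b : Fin N → Bool, Real.exp (energy f g fun i => if b i then 1 else -1))

/-- Normalized surface measure on the unit sphere of Euclidean space. -/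
noncomputable def unitSphereMeasure (S : Type) [Fintype S] :
    Measure (Metric.sphere (0 : EuclideanSpace ℝ S) 1) :=
  ((volume : Measure (EuclideanSpace ℝ S)).toSphere Set.univ)⁻¹ •
    (volume : Measure (EuclideanSpace ℝ S)).toSphere

/-- The pressure on the sphere of radius `√N` with normalized surface measure. -/
noncomputable def spherePressure (f : ℝ → ℝ) (M N : ℕ) (g : Fin M × Fin N → ℝ) : ℝ :=
  (N : ℝ)⁻¹ * Real.log (∫ u, Real.exp (energy f g fun i => √(N : ℝ) * u.1 i)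
    ∂(unitSphereMeasure (Fin N)))

end Vale.Agent.P157
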