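import Vale.Agent.P157.PC
import Vale.Agent.P157.Quad
import Vale.Agent.P157.Link

/-! # The upper bound -/

namespace Vale.Agent.P157

open MeasureTheory ProbabilityTheory Filter Topology

namespace UBAux

theorem near_max {ι : Type} (g : ι → ℝ) (p : ι → Prop) {x0 : ι} (h0 : p x0) {B : ℝ}
    (hB : ∀ x, p x → g x ≤ B) {η : ℝ} (hη : 0 < η) :
    ∃ x, p x ∧ ∀ y, p y → g y ≤ g x + η := by
  have hne : (g '' {x | p x}).Nonempty := ⟨g x0, x0, h0, rfl⟩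
  have hbd : BddAbove (g '' {x | p x}) := ⟨B, by rintro _ ⟨x, hx, rfl⟩; exact hB x hx⟩
  obtain ⟨_, ⟨x, hx, rfl⟩, hlt⟩ := exists_lt_of_lt_csSup hne
    (show sSup (g '' {x | p x}) - η < sSup (g '' {x | p x}) by linarith)
  refine ⟨x, hx, fun y hy => ?_⟩
  have := le_csSup hbd ⟨y, hy, rfl⟩
  linarith

theorem sum_update_sub (s : Finset ℕ) (g : ℕ → ℝ → ℝ) (θ : ℕ → ℝ) {e : ℕ} (he : e ∈ s) (x : ℝ) :
    ∑ d ∈ s, g d (Function.update θ e x d) - ∑ d ∈ s, g d (θ d) = g e x - g e (θ e) := by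
  rw [← Finset.add_sum_erase s _ he, ← Finset.add_sum_erase s (fun d => g d (θ d)) he]
  have : ∑ d ∈ s.erase e, g d (Function.update θ e x d) = ∑ d ∈ s.erase e, g d (θ d) :=
    Finset.sum_congr rfl fun d hd => by rw [Function.update_of_ne (Finset.ne_of_mem_erase hd)]
  rw [this, Function.update_self]; ring

/-- One term of the penalty. -/
noncomputable def pd (a kb x : ℝ) : ℝ := x ^ 2 * a / 2 + kb / x

theorem pd_add {a kb x y m : ℝ} (ha : a ≤ 1) (hkb : 0 ≤ kb) (hm : 0 < m) (hx : m ≤ x)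
    (hy : |y| ≤ m / 2) :
    pd a kb (x + y) - pd a kb x ≤ y * (a * x - kb / x ^ 2) + y ^ 2 * (1 / 2 + 2 * kb / m ^ 3) := by
  have hx0 : 0 < x := lt_of_lt_of_le hm hx
  have hy' := abs_le.mp hy
  have hxy : m / 2 ≤ x + y := by linarith
  have hxy0 : 0 < x + y := by linarith
  have e : pd a kb (x + y) - pd a kb x
      = y * (a * x - kb / x ^ 2) + y ^ 2 * (a / 2 + kb / (x ^ 2 * (x + y))) := by
    unfold pd; field_simp; ring
  rw [e]
  have h1 : m ^ 3 / 2 ≤ x ^ 2 * (x + y) := by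
    have : m ^ 2 ≤ x ^ 2 := by gcongr
    calc m ^ 3 / 2 = m ^ 2 * (m / 2) := by ring
      _ ≤ x ^ 2 * (x + y) := by gcongr
  have h2 : kb / (x ^ 2 * (x + y)) ≤ 2 * kb / m ^ 3 := by
    calc kb / (x ^ 2 * (x + y)) ≤ kb / (m ^ 3 / 2) := by gcongr
      _ = 2 * kb / m ^ 3 := by field_simp
  have : a / 2 + kb / (x ^ 2 * (x + y)) ≤ 1 / 2 + 2 * kb / m ^ 3 := by linarith
  gcongr

theorem QQ_nonneg {n : ℕ} {ζ q : ℕ → ℝ} (h : Adm n ζ q) (d : ℕ) : 0 ≤ QQ ζ q d :=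
  Finset.sum_nonneg fun k _ =>
    mul_nonneg (sub_nonneg.mpr (h.zadm.zok.anti (Nat.le_succ k))) (h.cadm.nonneg _)

theorem cum_sq0_zero (n : ℕ) : cum n (sq0 0) = 0 := by
  funext k
  simp [cum, sq0]

/-- The penalty. -/
noncomputable def pen (n : ℕ) (ζ q : ℕ → ℝ) (kb : ℝ) (θ : ℕ → ℝ) : ℝ :=
  ∑ d ∈ Finset.Icc 1 n, pd (1 - QQ ζ q d) kb (θ d)

theorem pen_split (n : ℕ) (ζ q : ℕ → ℝ) (kb : ℝ) (θ : ℕ → ℝ) :
    pen n ζ q kb θ = (∑ d ∈ Finset.Icc 1 n, θ d ^ 2 * (1 - QQ ζ q d)) / 2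
      + ∑ d ∈ Finset.Icc 1 n, kb / θ d := by
  unfold pen pd
  rw [Finset.sum_add_distrib, Finset.sum_div]

theorem pen_const {n : ℕ} {ζ q : ℕ → ℝ} (h : Adm n ζ q) (kb t : ℝ) :
    pen n ζ q kb (fun _ => t) ≤ n * (t ^ 2 / 2 + kb / t) := by
  unfold pen
  calc ∑ d ∈ Finset.Icc 1 n, pd (1 - QQ ζ q d) kb t
      ≤ ∑ _d ∈ Finset.Icc 1 n, (t ^ 2 / 2 + kb / t) := by
        refine Finset.sum_le_sum fun d _ => ?_
        unfold pd
        have := QQ_nonneg h d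
        nlinarith [sq_nonneg t]
    _ = n * (t ^ 2 / 2 + kb / t) := by simp [mul_add]

/-- Positive field strengths. -/
def Pos (n : ℕ) (θ : ℕ → ℝ) : Prop := ∀ d, 1 ≤ d → d ≤ n → 0 < θ d

theorem Pos.update {n : ℕ} {θ : ℕ → ℝ} (h : Pos n θ) (e : ℕ) {x : ℝ} (hx : 0 < x) :
    Pos n (Function.update θ e x) := by
  intro d h1 h2
  by_cases hd : d = e
  · subst hd; simpa using hx
  · rw [Function.update_of_ne hd]; exact h d h1 h2

theorem sd_of_near {n : ℕ} {ζ q : ℕ → ℝ} (h : Adm n ζ q) {kb m y η N : ℝ} (hkb : 0 ≤ kb)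
    (hm : 0 < m) (hN : 0 ≤ N) (hy0 : 0 ≤ y) (hy : y ≤ m / 2) {U : (ℕ → ℝ) → ℝ} {θ : ℕ → ℝ}
    (hθ : ∀ d, 1 ≤ d → d ≤ n → m ≤ θ d)
    (hmax : ∀ ϑ, Pos n ϑ → U ϑ - N * pen n ζ q kb ϑ ≤ U θ - N * pen n ζ q kb θ + η) :
    SD U θ (fun d => N * ((1 - QQ ζ q d) * θ d - kb / θ d ^ 2)) y
      (N * (y ^ 2 * (1 / 2 + 2 * kb / m ^ 3)) + η) n := by
  have hpos : Pos n θ := fun d h1 h2 => lt_of_lt_of_le hm (hθ d h1 h2)
  have key : ∀ d, 1 ≤ d → d ≤ n → ∀ z : ℝ, |z| ≤ m / 2 →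
      U (Function.update θ d (θ d + z)) - U θ
        ≤ z * (N * ((1 - QQ ζ q d) * θ d - kb / θ d ^ 2))
          + (N * (z ^ 2 * (1 / 2 + 2 * kb / m ^ 3)) + η) := by
    intro d h1 h2 z hz
    have hz' := abs_le.mp hz
    have hθd := hθ d h1 h2
    have h3 := hmax _ (hpos.update d (show 0 < θ d + z by linarith))
    have h4 : pen n ζ q kb (Function.update θ d (θ d + z)) - pen n ζ q kb θ
        = pd (1 - QQ ζ q d) kb (θ d + z) - pd (1 - QQ ζ q d) kb (θ d) :=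
      sum_update_sub (Finset.Icc 1 n) (fun d x => pd (1 - QQ ζ q d) kb x) θ
        (Finset.mem_Icc.mpr ⟨h1, h2⟩) _
    have h5 := pd_add (a := 1 - QQ ζ q d) (by linarith [QQ_nonneg h d]) hkb hm hθd hz
    have h6 := mul_le_mul_of_nonneg_left (h4.le.trans h5) hN
    nlinarith
  intro d h1 h2
  refine ⟨key d h1 h2 y (by rw [abs_of_nonneg hy0]; exact hy), ?_⟩
  have := key d h1 h2 (-y) (by rw [abs_neg, abs_of_nonneg hy0]; exact hy)
  rw [← sub_eq_add_neg, neg_sq] at this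
  linarith

theorem box {n : ℕ} {c kb L : ℝ} (hc : 0 < c) (hkb : 0 < kb) (hL : 0 < L) {θ : ℕ → ℝ}
    (hθ : Pos n θ)
    (h : c * ∑ d ∈ Finset.Icc 1 n, θ d ^ 2 + ∑ d ∈ Finset.Icc 1 n, kb / θ d ≤ L) :
    Fld n (kb / L) (L / c) θ := by
  intro d h1 h2
  have hd : d ∈ Finset.Icc 1 n := Finset.mem_Icc.mpr ⟨h1, h2⟩
  have hp : ∀ e ∈ Finset.Icc 1 n, 0 ≤ kb / θ e := fun e he =>
    (div_pos hkb (hθ e (Finset.mem_Icc.mp he).1 (Finset.mem_Icc.mp he).2)).le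
  have a1 : θ d ^ 2 ≤ ∑ d ∈ Finset.Icc 1 n, θ d ^ 2 :=
    Finset.single_le_sum (f := fun d => θ d ^ 2) (fun e _ => sq_nonneg _) hd
  have a2 : kb / θ d ≤ ∑ d ∈ Finset.Icc 1 n, kb / θ d :=
    Finset.single_le_sum (f := fun d => kb / θ d) hp hd
  have a3 : 0 ≤ ∑ d ∈ Finset.Icc 1 n, kb / θ d := Finset.sum_nonneg hp
  have a4 : 0 ≤ c * ∑ d ∈ Finset.Icc 1 n, θ d ^ 2 :=
    mul_nonneg hc.le (Finset.sum_nonneg fun e _ => sq_nonneg _)
  have hθd := hθ d h1 h2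
  constructor
  · have : kb / θ d ≤ L := by linarith
    rw [div_le_iff₀ hθd] at this
    rw [div_le_iff₀ hL]; linarith
  · rw [le_div_iff₀ hc]; nlinarith

end UBAux

open UBAux in
theorem ub_smooth (μ : ∀ N : ℕ, Measure (Sph (Fin N)))
    (hμ : ∀ N, 1 ≤ N → IsProbabilityMeasure (μ N)) {f f1 f2 : ℝ → ℝ} {K : ℝ} (hf : Sm f f1 f2 K)
    {α : ℝ} (hα : 0 < α) {n : ℕ} {ζ q : ℕ → ℝ} (h : Adm n ζ q) {me : ℝ} (hme0 : 0 < me)
    (hme1 : me ≤ 1) (hmesh : ∀ k, k < n → ζ k - ζ (k + 1) ≤ me ^ 2) {Sb : ℝ}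
    (hS : ∀ δ : ℝ, 0 < δ → ∀ᶠ N : ℕ in atTop, ∀ θ : ℕ → ℝ,
      VS (μ N) (fun _ => f) 0 ζ n θ 0
        - N * (∑ d ∈ Finset.Icc 1 n, θ d ^ 2 * (1 - QQ ζ q d)) / 2 ≤ N * (Sb + δ))
    {δ : ℝ} (hδ : 0 < δ) :
    ∀ᶠ N : ℕ in atTop,
      Fr (μ N) f ⌊α * N⌋₊ ≤ N * (α * psi n ζ q f + Sb + 6 * α * K ^ 2 * me + δ) := by
  have hK : 0 ≤ K := hf.jet.K0
  have hζ : Zok ζ := h.zadm.zok
  obtain ⟨C, c, hc, hco⟩ := coercive h
  obtain ⟨t, ht0, ht1, htδ⟩ : ∃ t : ℝ, 0 < t ∧ t ≤ 1 ∧ n * t ≤ δ / 10 := by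
    refine ⟨min 1 (δ / (10 * (n + 1))), by positivity, min_le_left _ _, ?_⟩
    calc (n : ℝ) * min 1 (δ / (10 * (n + 1))) ≤ (n + 1) * (δ / (10 * (n + 1))) := by
          gcongr
          · linarith
          · exact min_le_right _ _
      _ = δ / 10 := by field_simp
  obtain ⟨kb, hkb⟩ : ∃ kb : ℝ, kb = t ^ 3 := ⟨_, rfl⟩
  have hkb0 : 0 < kb := by rw [hkb]; positivity
  obtain ⟨η, hη0, hη1, hηδ⟩ : ∃ η : ℝ, 0 < η ∧ η ≤ 1 ∧ α * η ≤ δ / 5 := by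
    refine ⟨min 1 (δ / (5 * α)), by positivity, min_le_left _ _, ?_⟩
    calc α * min 1 (δ / (5 * α)) ≤ α * (δ / (5 * α)) := by gcongr; exact min_le_right _ _
      _ = δ / 5 := by field_simp
  obtain ⟨δ1, hδ10, hδ1⟩ : ∃ δ1 : ℝ, 0 < δ1 ∧ α * (K ^ 2 * δ1) ≤ δ / 5 := by
    refine ⟨δ / (5 * (α * K ^ 2 + 1)), by positivity, ?_⟩
    calc α * (K ^ 2 * (δ / (5 * (α * K ^ 2 + 1)))) = (α * K ^ 2) * (δ / (5 * (α * K ^ 2 + 1))) := by
          ring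
      _ ≤ (α * K ^ 2 + 1) * (δ / (5 * (α * K ^ 2 + 1))) := by gcongr; linarith
      _ = δ / 5 := by field_simp
  obtain ⟨L, hL⟩ : ∃ L : ℝ, L = |C| + 2 * α * K + n * (1 / 2 + kb) + 1 := ⟨_, rfl⟩
  have hL0 : 0 < L := by rw [hL]; positivity
  have hR : Reg n ζ me K α (L / c) (kb / L) :=
    ⟨h.zadm, hme0, hme1, hmesh, hK, hα.le, by positivity, by positivity⟩
  obtain ⟨k, hk, hk0⟩ := ((pc hR hδ10).and self_mem_nhdsWithin).exists
  replace hk0 : 0 < k := hk0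
  obtain ⟨C2, hC2⟩ : ∃ C2 : ℝ, C2 = 1 / 2 + 2 * kb / (kb / L) ^ 3 := ⟨_, rfl⟩
  have hC20 : 0 < C2 := by rw [hC2]; positivity
  obtain ⟨y, hy, hy0, hy1⟩ := (hk.and (Ioc_mem_nhdsGT
    (show (0 : ℝ) < min (kb / L / 2) (k / (2 * C2)) by positivity))).exists
  have hya : y ≤ kb / L / 2 := hy1.trans (min_le_left _ _)
  have hyb : y * C2 ≤ k / 2 := by
    have := hy1.trans (min_le_right _ _)
    rw [le_div_iff₀ (by positivity)] at this; linarith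
  have hT : Tendsto (fun N : ℕ => (N : ℝ)) atTop atTop := tendsto_natCast_atTop_atTop
  filter_upwards [hy, hS (δ / 5) (by positivity), eventually_ge_atTop 1,
    hT.eventually_ge_atTop ((2 * K + 1) * 2 / (k * y)),
    hT.eventually_ge_atTop (|psi n ζ q f| * 5 / δ)] with N hpc hS0 hN1 hNa hNb
  have := hμ N hN1
  have hN1' : (1 : ℝ) ≤ N := by exact_mod_cast hN1
  have hN0 : (0 : ℝ) ≤ N := by linarith
  have hF : ∀ a : ℕ, Sm ((fun _ => f : ℕ → ℝ → ℝ) a) ((fun _ => f1 : ℕ → ℝ → ℝ) a)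
      ((fun _ => f2 : ℕ → ℝ → ℝ) a) K := fun _ => hf
  obtain ⟨V, hV⟩ : ∃ V : ℕ → (ℕ → ℝ) → ℝ, V = fun m θ => VS (μ N) (fun _ => f) m ζ n θ 0 :=
    ⟨_, rfl⟩
  have hdrop : ∀ m θ, |V m θ - V 0 θ| ≤ m * K := by
    intro m θ
    have := vs_add_sub (μ N) hζ (F := fun _ => f) (fun _ => hf.meas) (fun _ => hf.bd) 0 m n θ 0
    rw [Nat.zero_add] at this
    rw [hV]; exact this
  have hup : ∀ m θ, V m θ - N * pen n ζ q kb θ ≤ m * K + N * (C -
      (c * ∑ d ∈ Finset.Icc 1 n, θ d ^ 2 + ∑ d ∈ Finset.Icc 1 n, kb / θ d)) := by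
    intro m θ
    have h1 := (abs_le.mp (hdrop m θ)).2
    have h2 : V 0 θ - N * (∑ d ∈ Finset.Icc 1 n, θ d ^ 2 * (1 - QQ ζ q d)) / 2
        ≤ N * (C - c * ∑ d ∈ Finset.Icc 1 n, θ d ^ 2) := by
      have := hco (Fin N) (μ N) (fun _ => f) θ 0
      rw [Fintype.card_fin] at this
      rw [hV]; exact this
    rw [pen_split]
    linarith
  have hlow : ∀ m, -(m * K) - N * (n * (1 / 2 + kb))
      ≤ V m (fun _ => 1) - N * pen n ζ q kb (fun _ => 1) := by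
    intro m
    have h1 := (abs_le.mp (hdrop m fun _ => 1)).1
    have h2 : 0 ≤ V 0 fun _ => 1 := by
      rw [hV]; exact vs_zero_nonneg (μ N) hζ h.z0 n _ _
    have h3 := mul_le_mul_of_nonneg_left (pen_const h kb 1) hN0
    rw [one_pow, div_one] at h3
    linarith
  have hstep : ∀ (m : ℕ) (B : ℝ), ((m + 1 : ℕ) : ℝ) ≤ α * N →
      (∀ θ, Pos n θ → V m θ - N * pen n ζ q kb θ ≤ B) →
      ∀ θ, Pos n θ → V (m + 1) θ - N * pen n ζ q kb θ
        ≤ B + (psi n ζ q f + K ^ 2 * (6 * me + δ1) + η) := by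
    intro m B hm hB
    have hone : Pos n fun _ => 1 := fun _ _ _ => one_pos
    obtain ⟨θ, hθ, hmax⟩ := near_max (fun θ => V (m + 1) θ - N * pen n ζ q kb θ) (Pos n) hone
      (B := ((m + 1 : ℕ) : ℝ) * K + N * C) (fun θ hθ => by
        have h1 := hup (m + 1) θ
        have a3 : 0 ≤ ∑ d ∈ Finset.Icc 1 n, kb / θ d := Finset.sum_nonneg fun e he =>
          (div_pos hkb0 (hθ e (Finset.mem_Icc.mp he).1 (Finset.mem_Icc.mp he).2)).le
        have a4 : 0 ≤ c * ∑ d ∈ Finset.Icc 1 n, θ d ^ 2 :=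
          mul_nonneg hc.le (Finset.sum_nonneg fun e _ => sq_nonneg _)
        have := mul_nonneg hN0 (add_nonneg a4 a3)
        linarith) hη0
    have hfld : Fld n (kb / L) (L / c) θ := by
      refine box hc hkb0 hL0 hθ ?_
      have h1 := hup (m + 1) θ
      have h2 := hlow (m + 1)
      have h3 := hmax _ hone
      have h4 : ((m + 1 : ℕ) : ℝ) * K ≤ α * N * K := by gcongr
      have h5 : (N : ℝ) * C ≤ N * |C| := by gcongr; exact le_abs_self C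
      obtain ⟨s, hs⟩ : ∃ s, s = c * ∑ d ∈ Finset.Icc 1 n, θ d ^ 2
        + ∑ d ∈ Finset.Icc 1 n, kb / θ d := ⟨_, rfl⟩
      rw [← hs] at h1 ⊢
      have h6 : N * s ≤ N * L := by rw [hL]; linarith
      exact le_of_mul_le_mul_left h6 (by linarith)
    have hsd := sd_of_near h hkb0.le (show 0 < kb / L by positivity) hN0 hy0.le hya
      (U := V (m + 1)) (fun d h1 h2 => (hfld d h1 h2).1) hmax
    have hsd2 := (hsd.of_close (U' := V m) (C := K) fun d a _ => by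
      rw [abs_sub_comm, hV]
      exact vs_succ_sub (μ N) hζ (F := fun _ => f) (fun _ => hf.meas) (fun _ => hf.bd) m hf.bd
        n _ 0).mono (κ' := k * y * N) (by
      rw [← hC2]
      have hky : 0 < k * y := mul_pos hk0 hy0
      rw [div_le_iff₀ hky] at hNa
      have : N * (y ^ 2 * C2) ≤ N * (y * (k / 2)) := by
        refine mul_le_mul_of_nonneg_left ?_ hN0
        calc y ^ 2 * C2 = y * (y * C2) := by ring
          _ ≤ y * (k / 2) := by gcongr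
      linarith)
    have hm' : (m : ℝ) ≤ α * N := by push_cast at hm; linarith
    have hmain := (hpc (Fin N) (μ N) (fun _ => f) (fun _ => f1) (fun _ => f2) m θ 0 _ q 0
      (Fintype.card_fin N) hm' hF hfld (by simp; positivity) h.cadm h.q0 le_rfl
      (by rw [hV] at hsd2; exact hsd2)).1 (fun d h1 h2 => by
        have hθd := hθ d h1 h2
        have e : N * ((1 - QQ ζ q d) * θ d - kb / θ d ^ 2) / θ d
            = N * (1 - QQ ζ q d) - N * (kb / θ d ^ 3) := by field_simp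
        have : 0 ≤ N * (kb / θ d ^ 3) := by positivity
        rw [e]; linarith)
    rw [cum_sq0_zero, add_zero, add_zero] at hmain
    intro ϑ hϑ
    have h1 := hmax ϑ hϑ
    have h2 := hB θ hθ
    have h3 : V (m + 1) θ - V m θ ≤ psi n ζ q f + K ^ 2 * (6 * me + δ1) := by
      rw [hV]; exact hmain
    linarith
  have hind : ∀ m : ℕ, (m : ℝ) ≤ α * N → ∀ θ, Pos n θ → V m θ - N * pen n ζ q kb θ
      ≤ N * (Sb + δ / 5) + m * (psi n ζ q f + K ^ 2 * (6 * me + δ1) + η) := by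
    intro m
    induction m with
    | zero =>
      intro _ θ hθ
      have h1 : V 0 θ - N * (∑ d ∈ Finset.Icc 1 n, θ d ^ 2 * (1 - QQ ζ q d)) / 2
          ≤ N * (Sb + δ / 5) := by rw [hV]; exact hS0 θ
      have a3 : 0 ≤ ∑ d ∈ Finset.Icc 1 n, kb / θ d := Finset.sum_nonneg fun e he =>
        (div_pos hkb0 (hθ e (Finset.mem_Icc.mp he).1 (Finset.mem_Icc.mp he).2)).le
      have := mul_nonneg hN0 a3
      rw [pen_split]
      push_cast
      linarith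
    | succ m ih =>
      intro hm θ hθ
      have := hstep m _ hm (ih (by push_cast at hm; linarith)) θ hθ
      push_cast at this ⊢
      linarith
  obtain ⟨M, hM⟩ : ∃ M, M = ⌊α * N⌋₊ := ⟨_, rfl⟩
  have hM1 : (M : ℝ) ≤ α * N := by rw [hM]; exact Nat.floor_le (by positivity)
  have hM2 : α * N < M + 1 := by rw [hM]; exact Nat.lt_floor_add_one _
  have hM0 : (0 : ℝ) ≤ M := Nat.cast_nonneg M
  rw [← hM, fr_eq_vs (μ N) hf.meas (h.zn n le_rfl) M]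
  have h1 : VS (μ N) (fun _ => f) M ζ n 0 0 ≤ V M fun _ => t := by
    rw [hV]; exact vs_le_vs_field (μ N) hζ h.z0 hF M n _ 0
  have h2 := hind M hM1 (fun _ => t) fun _ _ _ => ht0
  have h3 : pen n ζ q kb (fun _ => t) ≤ δ / 5 := by
    refine (pen_const h kb t).trans ?_
    have e : t ^ 2 / 2 + kb / t = t * (3 / 2 * t) := by rw [hkb]; field_simp; ring
    have : n * t * (3 / 2 * t) ≤ δ / 10 * (3 / 2 * 1) := by gcongr
    rw [e]; linarith
  have h4 := mul_le_mul_of_nonneg_left h3 hN0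
  have h5 : M * psi n ζ q f ≤ α * N * psi n ζ q f + N * (δ / 5) := by
    rw [div_le_iff₀ hδ] at hNb
    have : (α * N - M) * (-psi n ζ q f) ≤ 1 * |psi n ζ q f| :=
      calc (α * N - M) * (-psi n ζ q f) ≤ (α * N - M) * |psi n ζ q f| :=
            mul_le_mul_of_nonneg_left (neg_le_abs _) (by linarith)
        _ ≤ 1 * |psi n ζ q f| := by gcongr; linarith
    linarith
  have h6 : M * (K ^ 2 * (6 * me + δ1) + η) ≤ α * N * (K ^ 2 * (6 * me + δ1) + η) := by gcongr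
  have h7 := mul_le_mul_of_nonneg_left hδ1 hN0
  have h8 := mul_le_mul_of_nonneg_left hηδ hN0
  nlinarith

end Vale.Agent.P157
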