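import Vale.Agent.P157.Gibbs

/-! # The universal perceptron system: jets, blocks, interpolation -/

namespace Vale.Agent.P157

open MeasureTheory ProbabilityTheory

variable {A S : Type} [Fintype A] [Fintype S] [DecidableEq A] [DecidableEq S]

theorem measurable_sph_coord (i : S) : Measurable fun x : Sph S => x.1 i :=
  (measurable_pi_apply i).comp measurable_subtype_coe

theorem sph_sq_le (x : Sph S) (i : S) : x.1 i ^ 2 ≤ Fintype.card S := by
  exact (Finset.single_le_sum (f := fun i => x.1 i ^ 2) (fun _ _ => sq_nonneg _)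
    (Finset.mem_univ i)).trans_eq x.2

theorem measurable_arg (a : A) :
    Measurable fun p : (Co A S → ℝ) × Sph S => arg p.1 p.2.1 a := by
  unfold arg
  refine (Finset.measurable_sum _ fun i _ => ?_).add
    ((measurable_pi_apply _).comp measurable_fst)
  exact ((measurable_pi_apply _).comp measurable_fst).mul
    ((measurable_sph_coord i).comp measurable_snd)

namespace UnivAux

theorem abs_coord (x : Sph S) (i : S) : |x.1 i| ≤ 1 + Fintype.card S := by
  have h := sph_sq_le x i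
  rw [abs_le]
  constructor <;> nlinarith [sq_nonneg (x.1 i - 1), sq_nonneg (x.1 i + 1)]

/-- The field term. -/
def lin (w : Co A S → ℝ) (x : S → ℝ) : ℝ := ∑ i, w (.inr (.inl i)) * x i

theorem measurable_lin : Measurable fun p : (Co A S → ℝ) × Sph S => lin p.1 p.2.1 := by
  unfold lin
  refine Finset.measurable_sum _ fun i _ => ?_
  exact ((measurable_pi_apply _).comp measurable_fst).mul
    ((measurable_sph_coord i).comp measurable_snd)

theorem abs_sum_le (w : Co A S → ℝ) (x : Sph S) (c : S → Co A S) :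
    |∑ i, w (c i) * x.1 i| ≤ Fintype.card S * (1 + Fintype.card S) * ‖w‖ := by
  refine (Finset.abs_sum_le_sum_abs _ _).trans ?_
  refine (Finset.sum_le_sum (g := fun _ => ‖w‖ * (1 + Fintype.card S)) fun i _ => ?_).trans ?_
  · rw [abs_mul]
    exact mul_le_mul (norm_le_pi_norm w _) (abs_coord x i) (abs_nonneg _) (norm_nonneg _)
  · simp only [Finset.sum_const, Finset.card_univ, nsmul_eq_mul]
    exact le_of_eq (by ring)

omit [Fintype A] [DecidableEq A] [DecidableEq S] in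
theorem arg_add (w v : Co A S → ℝ) (t : ℝ) (x : S → ℝ) (a : A) :
    arg (w + t • v) x a = arg w x a + t * arg v x a := by
  simp only [arg, Pi.add_apply, Pi.smul_apply, smul_eq_mul, add_mul, Finset.sum_add_distrib,
    mul_add, Finset.mul_sum, mul_assoc]
  ring

omit [DecidableEq A] [DecidableEq S] in
theorem uH_add (f : A → ℝ → ℝ) (w v : Co A S → ℝ) (t : ℝ) (x : Sph S) :
    uH f (w + t • v) x - uH f w x
      = ∑ a, (f a (arg w x.1 a + t * arg v x.1 a) - f a (arg w x.1 a)) + t * lin v x.1 := by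
  simp only [uH, lin, arg_add, Pi.add_apply, Pi.smul_apply, smul_eq_mul, add_mul,
    Finset.sum_add_distrib, Finset.sum_sub_distrib, Finset.mul_sum, mul_assoc]
  ring

theorem jet_dir {f f1 f2 : A → ℝ → ℝ} {K : ℝ} (hf : ∀ a, Sm (f a) (f1 a) (f2 a) K)
    (v : Co A S → ℝ) : ∃ K', FJet (uH (S := S) f) v
      (fun w x => ∑ a, f1 a (arg w x.1 a) * arg v x.1 a + lin v x.1)
      (fun w x => ∑ a, f2 a (arg w x.1 a) * arg v x.1 a ^ 2) K' := by
  obtain ⟨L, hL1, hLa, hLl⟩ : ∃ L : ℝ, 1 ≤ L ∧ (∀ (x : Sph S) a, |arg v x.1 a| ≤ L) ∧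
      ∀ x : Sph S, |lin v x.1| ≤ L := by
    have h0 : 0 ≤ Fintype.card S * (1 + (Fintype.card S : ℝ)) * ‖v‖ := by positivity
    refine ⟨1 + ‖v‖ + Fintype.card S * (1 + Fintype.card S) * ‖v‖, by linarith [norm_nonneg v],
      fun x a => ?_, fun x => ?_⟩
    · refine (abs_add_le _ _).trans ?_
      have h1 := abs_sum_le v x fun i => .inl (a, i)
      have h2 : |v (.inr (.inr a))| ≤ ‖v‖ := norm_le_pi_norm v _
      linarith
    · have h1 := abs_sum_le v x fun i => .inr (.inl i)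
      unfold lin
      linarith [norm_nonneg v]
  have hL0 : 0 ≤ L := by linarith
  have hL2 : L ^ 2 ≤ L ^ 3 := pow_le_pow_right₀ hL1 (by norm_num)
  have hL3 : L ≤ L ^ 3 := le_self_pow₀ hL1 (by norm_num)
  have hsum : ∀ (F : A → ℝ) (c : ℝ), (∀ a, |F a| ≤ |K| * L ^ 3 * c) →
      |∑ a, F a| ≤ Fintype.card A * (|K| * L ^ 3) * c := by
    intro F c h
    refine (Finset.abs_sum_le_sum_abs _ _).trans ((Finset.sum_le_sum fun a _ => h a).trans ?_)
    simp only [Finset.sum_const, Finset.card_univ, nsmul_eq_mul]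
    exact le_of_eq (by ring)
  have hK : ∀ {u : ℝ}, u ≤ K → u ≤ |K| := fun h => h.trans (le_abs_self K)
  have hmv : ∀ a, Measurable fun p : (Co A S → ℝ) × Sph S => arg v p.2.1 a := fun a =>
    (measurable_arg a).comp (measurable_const.prodMk measurable_snd)
  refine ⟨Fintype.card A * (|K| * L ^ 3) + L, by positivity, ?_, ?_, fun w x => ?_,
    fun w x => ?_, fun w x t => ?_, fun w x t => ?_⟩
  · refine (Finset.measurable_sum _ fun a _ => ?_).add
      (measurable_lin.comp (measurable_const.prodMk measurable_snd))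
    exact ((hf a).jet.mm.comp (measurable_arg a)).mul (hmv a)
  · refine Finset.measurable_sum _ fun a _ => ?_
    exact ((hf a).jet.ma.comp (measurable_arg a)).mul ((hmv a).pow_const 2)
  · refine (abs_add_le _ _).trans (add_le_add ?_ (hLl x))
    refine (hsum _ 1 fun a => ?_).trans_eq (mul_one _)
    rw [abs_mul, mul_one]
    exact mul_le_mul (hK ((hf a).jet.bm _)) ((hLa x a).trans hL3) (abs_nonneg _) (abs_nonneg _)
  · refine le_trans ?_ (le_add_of_nonneg_right hL0)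
    refine (hsum _ 1 fun a => ?_).trans_eq (mul_one _)
    rw [abs_mul, mul_one, abs_pow]
    exact mul_le_mul (hK ((hf a).jet.ba _))
      ((pow_le_pow_left₀ (abs_nonneg _) (hLa x a) 2).trans hL2) (by positivity) (abs_nonneg _)
  · rw [uH_add, add_mul]
    refine (abs_add_le _ _).trans (add_le_add (hsum _ _ fun a => ?_) ?_)
    · have h := (hf a).jet.lip (arg w x.1 a) (t * arg v x.1 a)
      rw [smul_eq_mul, mul_one, abs_mul] at h
      refine h.trans ?_
      rw [mul_comm |t|, ← mul_assoc]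
      refine mul_le_mul_of_nonneg_right ?_ (abs_nonneg _)
      exact mul_le_mul (le_abs_self K) ((hLa x a).trans hL3) (abs_nonneg _) (abs_nonneg _)
    · rw [abs_mul, mul_comm]
      exact mul_le_mul_of_nonneg_right (hLl x) (abs_nonneg _)
  · have e : uH f (w + t • v) x - uH f w x
        - t * (∑ a, f1 a (arg w x.1 a) * arg v x.1 a + lin v x.1)
        - t ^ 2 / 2 * ∑ a, f2 a (arg w x.1 a) * arg v x.1 a ^ 2
        = ∑ a, (f a (arg w x.1 a + t * arg v x.1 a) - f a (arg w x.1 a)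
          - (t * arg v x.1 a) * f1 a (arg w x.1 a)
          - (t * arg v x.1 a) ^ 2 / 2 * f2 a (arg w x.1 a)) := by
      rw [uH_add, mul_add, Finset.mul_sum, Finset.mul_sum, add_sub_add_right_eq_sub,
        ← Finset.sum_sub_distrib, ← Finset.sum_sub_distrib]
      exact Finset.sum_congr rfl fun a _ => by ring
    rw [e, add_mul]
    refine le_trans (hsum _ _ fun a => ?_) (le_add_of_nonneg_right (by positivity))
    have h := (hf a).jet.tay (arg w x.1 a) (t * arg v x.1 a)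
    rw [smul_eq_mul, mul_one, abs_mul, mul_pow |t|] at h
    refine h.trans ?_
    rw [mul_comm (|t| ^ 3), ← mul_assoc]
    refine mul_le_mul_of_nonneg_right ?_ (by positivity)
    exact mul_le_mul (le_abs_self K) (pow_le_pow_left₀ (abs_nonneg _) (hLa x a) 3)
      (by positivity) (abs_nonneg _)

omit [Fintype A] [Fintype S] [DecidableEq A] [DecidableEq S] in
theorem embF_apply {β : Type} (e : β ↪ S) (j : β) : embF A e j = .inr (.inl (e j)) := rfl

omit [Fintype A] [Fintype S] [DecidableEq A] [DecidableEq S] in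
theorem embY_apply (a : A) : embY A S a = .inr (.inr a) := rfl

omit [DecidableEq S] in
theorem sum_sq (x : Sph S) : ∑ i, x.1 i ^ 2 = Fintype.card S := x.2

end UnivAux

open UnivAux

theorem hg_uH {f : A → ℝ → ℝ} (hm : ∀ a, Measurable (f a)) {K : ℝ} (hb : ∀ a x, |f a x| ≤ K) :
    HG (uH (S := S) f) := by
  refine ⟨(Finset.measurable_sum _ fun a _ => (hm a).comp (measurable_arg a)).add measurable_lin,
    Fintype.card A * |K| + Fintype.card S * (1 + Fintype.card S), fun w x => ?_⟩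
  refine (abs_add_le _ _).trans ?_
  have h1 := abs_sum_le w x fun i => .inr (.inl i)
  have h2 : |∑ a, f a (arg w x.1 a)| ≤ Fintype.card A * |K| := by
    refine (Finset.abs_sum_le_sum_abs _ _).trans
      ((Finset.sum_le_sum fun a _ => (hb a _).trans (le_abs_self K)).trans ?_)
    simp
  have h3 : 0 ≤ Fintype.card A * |K| * ‖w‖ := by positivity
  have h4 : 0 ≤ Fintype.card S * (1 + (Fintype.card S : ℝ)) := by positivity
  linarith

variable {f f1 f2 : A → ℝ → ℝ} {K : ℝ}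

theorem hj_uH (hf : ∀ a, Sm (f a) (f1 a) (f2 a) K) : HJ (uH (S := S) f) (u1 f1) (u2 f2) := by
  refine ⟨hg_uH (fun a => (hf a).meas) (fun a => (hf a).bd), ?_⟩
  have h : ∀ c : Co A S, ∃ K', FJet (uH (S := S) f) (Pi.single c 1) (u1 f1 c) (u2 f2 c) K' := by
    intro c
    obtain ⟨K', hK'⟩ := jet_dir hf (Pi.single c (1 : ℝ) : Co A S → ℝ)
    refine ⟨K', ?_⟩
    have e1 : u1 f1 c = fun w x => ∑ a, f1 a (arg w x.1 a) * arg (Pi.single c 1) x.1 a
        + lin (Pi.single c 1) x.1 := by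
      funext w x
      rcases c with ⟨a, i⟩ | i | a
      · rw [Finset.sum_eq_single a (fun b _ hb => by simp [arg, hb.symm])
          (by simp)]
        simp [u1, arg, lin, Pi.single_apply]
      · simp [u1, arg, lin, Pi.single_apply]
      · simp [u1, arg, lin, Pi.single_apply]
    have e2 : u2 f2 c
        = fun w x => ∑ a, f2 a (arg w x.1 a) * arg (Pi.single c 1) x.1 a ^ 2 := by
      funext w x
      rcases c with ⟨a, i⟩ | i | a
      · rw [Finset.sum_eq_single a (fun b _ hb => by simp [arg, hb.symm])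
          (by simp)]
        simp [u2, arg, Pi.single_apply]
      · simp [u2, arg]
      · simp [u2, arg, Pi.single_apply]
    rw [e1, e2]
    exact hK'
  choose k hk using h
  obtain ⟨M, hM⟩ := Finite.exists_le k
  exact ⟨M, fun c => (hk c).mono (hM c)⟩

theorem blk_F (hf : ∀ a, Sm (f a) (f1 a) (f2 a) K) {β : Type} [Fintype β] (e : β ↪ S) :
    Blk (uH (S := S) f) (u1 f1) (embF A e) 0 0 (Fintype.card S) := by
  have ha : ∀ (c : β → ℝ) (x : S → ℝ) a, arg (blk (embF A e) c) x a = 0 := by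
    intro c x a
    simp [arg, blk, embF_apply]
  have hl : ∀ (c : β → ℝ) (x : S → ℝ), lin (blk (embF A e) c) x = ∑ j, c j * x (e j) := by
    intro c x
    simp only [lin, blk, embF_apply, Sum.inr.injEq, Sum.inl.injEq,
      Finset.sum_mul]
    rw [Finset.sum_comm]
    simp
  refine ⟨le_rfl, fun c => ?_, fun c w x => ?_, Or.inl rfl, fun w x => ?_⟩
  · obtain ⟨K', hK'⟩ := jet_dir hf (blk (embF A e) c)
    simp only [ha, hl, mul_zero, Finset.sum_const_zero, zero_add] at hK'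
    exact ⟨_, K', hK', fun w x => by simp⟩
  · have h := uH_add f w (blk (embF A e) c) 1 x
    simp only [ha, hl, one_smul, mul_zero, add_zero, sub_self, Finset.sum_const_zero, zero_add,
      one_mul] at h
    change uH f w x + ∑ j, c j * x.1 (e j) - _ ≤ _
    linarith
  · change ∑ j, x.1 (e j) ^ 2 ≤ _
    rw [← Finset.sum_map Finset.univ e fun i => x.1 i ^ 2]
    exact (Finset.sum_le_sum_of_subset_of_nonneg (Finset.subset_univ _)
      fun _ _ _ => sq_nonneg _).trans_eq x.2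

theorem blk_Y (hK : 0 ≤ K) (hf : ∀ a, Sm (f a) (f1 a) (f2 a) K) :
    Blk (uH (S := S) f) (u1 f1) (embY A S) K (2 * K) (Fintype.card A * K ^ 2) := by
  have ha : ∀ (c : A → ℝ) (x : S → ℝ) a, arg (blk (embY A S) c) x a = c a := by
    intro c x a
    simp [arg, blk, embY_apply]
  have hl : ∀ (c : A → ℝ) (x : S → ℝ), lin (blk (embY A S) c) x = 0 := by
    intro c x
    simp [lin, blk, embY_apply]
  refine ⟨hK, fun c => ?_, fun c w x => ?_, Or.inr fun j w t x => ?_, fun w x => ?_⟩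
  · obtain ⟨K', hK'⟩ := jet_dir hf (blk (embY A S) c)
    simp only [ha, hl, add_zero, mul_comm _ (c _)] at hK'
    refine ⟨_, K', hK', fun w x => ?_⟩
    rw [Finset.mul_sum, ← Finset.sum_neg_distrib]
    refine Finset.sum_le_sum fun a _ => ?_
    rw [← neg_mul]
    exact mul_le_mul_of_nonneg_right (abs_le.1 ((hf a).jet.ba _)).1 (sq_nonneg _)
  · have h := uH_add f w (blk (embY A S) c) 1 x
    simp only [ha, hl, one_smul, add_zero, one_mul] at h
    change uH f w x + ∑ j, c j * f1 j (arg w x.1 j) - _ ≤ _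
    have h2 : ∑ j, (c j * f1 j (arg w x.1 j) - K / 2 * c j ^ 2)
        ≤ ∑ a, (f a (arg w x.1 a + c a) - f a (arg w x.1 a)) := by
      refine Finset.sum_le_sum fun a _ => ?_
      have h3 := (hf a).jet.semiconvex (k := K) (fun y => (abs_le.1 ((hf a).jet.ba y)).1)
        (arg w x.1 a) (c a)
      rw [smul_eq_mul, mul_one] at h3
      linarith
    rw [Finset.sum_sub_distrib, ← Finset.mul_sum] at h2
    linarith
  · rw [uH_add, Finset.sum_eq_single j
      (fun b _ hb => by simp [arg, embY_apply, hb]) (by simp)]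
    have h0 : lin (Pi.single (embY A S j) (1 : ℝ) : Co A S → ℝ) x.1 = 0 := by
      simp [lin, embY_apply]
    rw [h0, mul_zero, add_zero]
    refine (abs_sub _ _).trans ?_
    linarith [(hf j).bd (arg w x.1 j + t * arg (Pi.single (embY A S j) 1) x.1 j),
      (hf j).bd (arg w x.1 j)]
  · change ∑ j, f1 j (arg w x.1 j) ^ 2 ≤ _
    refine (Finset.sum_le_sum (g := fun _ => K ^ 2) fun a _ => ?_).trans (by simp)
    exact sq_le_sq' (abs_le.1 ((hf a).jet.bm _)).1 (abs_le.1 ((hf a).jet.bm _)).2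

theorem prof_nonneg (n : ℕ) {g : A → S → ℝ} {x : ℕ → S → ℝ} {y : ℕ → A → ℝ}
    (hg : ∀ a i, 0 ≤ g a i) (hx : ∀ d i, 0 ≤ x d i) (hy : ∀ d a, 0 ≤ y d a) (d : ℕ)
    (c : Co A S) : 0 ≤ prof n g x y d c := by
  rcases c with ⟨a, i⟩ | i | a
  · simp only [prof]
    split_ifs
    · exact hg a i
    · exact le_rfl
  · exact hx d i
  · exact hy d a

theorem UnivAux.sq0_nonneg (θ : ℕ → ℝ) (d : ℕ) : 0 ≤ sq0 θ d := by
  unfold sq0
  split_ifs
  · exact le_rfl
  · exact sq_nonneg _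

theorem cprof_nonneg (n : ℕ) (θ θ' : ℕ → ℝ) (d : ℕ) (c : Co A S) : 0 ≤ cprof A S n θ θ' d c :=
  prof_nonneg n (fun _ _ => by positivity) (fun _ _ => sq0_nonneg _ _)
    (fun _ _ => sq0_nonneg _ _) d c

theorem fam_F (n : ℕ) {β : Type} {e : β ↪ S} {g : A → S → ℝ} {xs : (ℕ → ℝ) → ℕ → S → ℝ}
    {y : ℕ → A → ℝ} (hg : ∀ a i, 0 ≤ g a i) (hx : Fam e xs) (hy : ∀ d a, 0 ≤ y d a) :
    Fam (embF A e) fun θ => prof n g (xs θ) y := by
  refine ⟨fun θ => prof_nonneg n hg (hx.nn θ) hy, fun θ d j hd => hx.blockv θ d j hd,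
    fun θ θ' d c h => ?_⟩
  rcases c with ⟨a, i⟩ | i | a
  · rfl
  · exact hx.off θ θ' d i (h.imp_right fun h j hj => h j (by rw [embF_apply, hj]))
  · rfl

theorem fam_Y (n : ℕ) {g : A → S → ℝ} {x : ℕ → S → ℝ} (hg : ∀ a i, 0 ≤ g a i)
    (hx : ∀ d i, 0 ≤ x d i) : Fam (embY A S) fun θ => prof n g x fun d _ => sq0 θ d := by
  refine ⟨fun θ => prof_nonneg n hg hx fun _ _ => sq0_nonneg _ _,
    fun θ d j hd => if_neg hd, fun θ θ' d c h => ?_⟩
  rcases c with ⟨a, i⟩ | i | a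
  · rfl
  · rfl
  · rcases h with rfl | h
    · rfl
    · exact absurd rfl (h a)

theorem fam_refl : Fam (Function.Embedding.refl S) fun θ d (_ : S) => sq0 θ d := by
  refine ⟨fun _ _ _ => sq0_nonneg _ _, fun θ d j hd => if_neg hd, fun θ θ' d i h => ?_⟩
  rcases h with rfl | h
  · rfl
  · exact absurd rfl (h i)

theorem fam_some {xn : ℕ → ℝ} (hx : ∀ d, 0 ≤ xn d) :
    Fam (Function.Embedding.some (α := S))
      fun θ d (i : Option S) => i.elim (xn d) fun _ => sq0 θ d := by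
  refine ⟨fun θ d i => ?_, fun θ d j hd => if_neg hd, fun θ θ' d i h => ?_⟩
  · rcases i with _ | i
    · exact hx d
    · exact sq0_nonneg _ _
  · rcases i with _ | i
    · rfl
    · rcases h with rfl | h
      · rfl
      · exact absurd rfl (h i)

/-- Weighted gradient bound at the root level. -/
theorem root_bound (hf : ∀ a, Sm (f a) (f1 a) (f2 a) K) (n : ℕ) {g : A → S → ℝ}
    {x : ℕ → S → ℝ} {y : ℕ → A → ℝ} {γ Θ : ℝ} (hγ : 0 ≤ γ) (hΘ : 0 ≤ Θ)
    (hg : ∀ a i, 0 ≤ g a i ∧ g a i ≤ γ) (hx : ∀ i, 0 ≤ x n i ∧ x n i ≤ Θ)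
    (hy : ∀ a, 0 ≤ y n a ∧ y n a ≤ Θ) (w : Co A S → ℝ) (z : Sph S) :
    ∑ c, prof n g x y n c * u1 f1 c w z ^ 2
      ≤ Fintype.card A * K ^ 2 * (γ * Fintype.card S + Θ) + Θ * Fintype.card S := by
  have hb : ∀ a, f1 a (arg w z.1 a) ^ 2 ≤ K ^ 2 := fun a =>
    sq_le_sq' (abs_le.1 ((hf a).jet.bm _)).1 (abs_le.1 ((hf a).jet.bm _)).2
  simp only [Fintype.sum_sum_type, Fintype.sum_prod_type, prof, u1, if_true]
  have h1 : ∑ a, ∑ i, g a i * (f1 a (arg w z.1 a) * z.1 i) ^ 2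
      ≤ ∑ _a : A, ∑ i, γ * K ^ 2 * z.1 i ^ 2 := by
    refine Finset.sum_le_sum fun a _ => Finset.sum_le_sum fun i _ => ?_
    rw [mul_pow, ← mul_assoc]
    exact mul_le_mul_of_nonneg_right (mul_le_mul (hg a i).2 (hb a) (sq_nonneg _) hγ) (sq_nonneg _)
  have h2 : ∑ i, x n i * z.1 i ^ 2 ≤ ∑ i, Θ * z.1 i ^ 2 :=
    Finset.sum_le_sum fun i _ => mul_le_mul_of_nonneg_right (hx i).2 (sq_nonneg _)
  have h3 : ∑ a, y n a * f1 a (arg w z.1 a) ^ 2 ≤ ∑ _a : A, Θ * K ^ 2 :=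
    Finset.sum_le_sum fun a _ => mul_le_mul (hy a).2 (hb a) (sq_nonneg _) hΘ
  simp only [← Finset.mul_sum, z.2, Finset.sum_const, Finset.card_univ, nsmul_eq_mul] at h1 h2 h3
  linarith

variable (μ : Measure (Sph S)) [IsProbabilityMeasure μ] {ζ : ℕ → ℝ}

/-- Interpolated profile. -/
def profI (n : ℕ) (g g' : A → S → ℝ) (x x' : ℕ → S → ℝ) (y y' : ℕ → A → ℝ) (t : ℝ) :
    ℕ → Co A S → ℝ :=
  prof n (fun a i => g a i + t * (g' a i - g a i)) (fun d i => x d i + t * (x' d i - x d i))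
    fun d a => y d a + t * (y' d a - y d a)

/-- Twice the derivative of the value along the interpolation. -/
noncomputable def valD (μ : Measure (Sph S)) (f f1 f2 : A → ℝ → ℝ) (ζ : ℕ → ℝ) (n : ℕ)
    (g g' : A → S → ℝ) (x x' : ℕ → S → ℝ) (y y' : ℕ → A → ℝ) (t : ℝ) : ℝ :=
  ∑ a, ∑ i, (g' a i - g a i) * Db ζ (gvs (profI n g g' x x' y y' t)) μ (uH f)
      (u1 f1 (.inl (a, i))) (u2 f2 (.inl (a, i))) n n
  + ∑ d ∈ Finset.range (n + 1), ∑ i, (x' d i - x d i) *
      Db ζ (gvs (profI n g g' x x' y y' t)) μ (uH f)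
        (u1 f1 (.inr (.inl i))) (u2 f2 (.inr (.inl i))) n d
  + ∑ d ∈ Finset.range (n + 1), ∑ a, (y' d a - y d a) *
      Db ζ (gvs (profI n g g' x x' y y' t)) μ (uH f)
        (u1 f1 (.inr (.inr a))) (u2 f2 (.inr (.inr a))) n d

theorem UnivAux.val_mvt (hζ : Zok ζ) (hz : ζ 0 = 1) (hf : ∀ a, Sm (f a) (f1 a) (f2 a) K) (n : ℕ)
    {g g' : A → S → ℝ} {x x' : ℕ → S → ℝ} {y y' : ℕ → A → ℝ}
    (hg : ∀ a i, 0 ≤ g a i) (hx : ∀ d i, 0 ≤ x d i) (hy : ∀ d a, 0 ≤ y d a)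
    (hg' : ∀ a i, 0 ≤ g' a i) (hx' : ∀ d i, 0 ≤ x' d i) (hy' : ∀ d a, 0 ≤ y' d a) :
    ∃ t ∈ Set.Icc (0 : ℝ) 1, Val μ f ζ (prof n g' x' y') n - Val μ f ζ (prof n g x y) n
      = valD μ f f1 f2 ζ n g g' x x' y y' t / 2 := by
  have h := deriv_gibbs μ hζ hz (hj_uH hf) (prof n g x y) (prof n g' x' y' - prof n g x y)
    (prof_nonneg n hg hx hy) (fun d c => by simpa using prof_nonneg n hg' hx' hy' d c) n
  obtain ⟨t, ht, e⟩ := exists_hasDerivAt_eq_slope _ _ zero_lt_one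
    (fun t ht => (h t ht).continuousWithinAt)
    (fun t ht => (h t (Set.Ioo_subset_Icc_self ht)).hasDerivAt (Icc_mem_nhds ht.1 ht.2))
  refine ⟨t, Set.Ioo_subset_Icc_self ht, ?_⟩
  have e1 : prof n g x y + t • (prof n g' x' y' - prof n g x y) = profI n g g' x x' y y' t := by
    funext d c
    rcases c with ⟨a, i⟩ | i | a
    · simp only [profI, prof, Pi.add_apply, Pi.smul_apply, Pi.sub_apply, smul_eq_mul]
      split_ifs <;> simp
    · rfl
    · rfl
  simp only [one_smul, zero_smul, add_zero, add_sub_cancel, sub_zero, div_one, e1] at e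
  unfold Val
  rw [← e]
  congr 1
  unfold valD
  simp only [Fintype.sum_sum_type, Fintype.sum_prod_type, Finset.sum_add_distrib, Pi.sub_apply,
    prof, add_assoc]
  congr 1
  rw [Finset.sum_eq_single n (fun d _ hd => by simp [hd]) (by simp)]
  simp

theorem val_le (hζ : Zok ζ) (hz : ζ 0 = 1) (hf : ∀ a, Sm (f a) (f1 a) (f2 a) K) (n : ℕ)
    {g g' : A → S → ℝ} {x x' : ℕ → S → ℝ} {y y' : ℕ → A → ℝ}
    (hg : ∀ a i, 0 ≤ g a i) (hx : ∀ d i, 0 ≤ x d i) (hy : ∀ d a, 0 ≤ y d a)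
    (hg' : ∀ a i, 0 ≤ g' a i) (hx' : ∀ d i, 0 ≤ x' d i) (hy' : ∀ d a, 0 ≤ y' d a) {κ : ℝ}
    (h : ∀ t ∈ Set.Icc (0 : ℝ) 1, valD μ f f1 f2 ζ n g g' x x' y y' t ≤ 2 * κ) :
    Val μ f ζ (prof n g' x' y') n - Val μ f ζ (prof n g x y) n ≤ κ := by
  obtain ⟨t, ht, e⟩ := val_mvt μ hζ hz hf n hg hx hy hg' hx' hy'
  linarith [h t ht]

theorem val_ge (hζ : Zok ζ) (hz : ζ 0 = 1) (hf : ∀ a, Sm (f a) (f1 a) (f2 a) K) (n : ℕ)
    {g g' : A → S → ℝ} {x x' : ℕ → S → ℝ} {y y' : ℕ → A → ℝ}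
    (hg : ∀ a i, 0 ≤ g a i) (hx : ∀ d i, 0 ≤ x d i) (hy : ∀ d a, 0 ≤ y d a)
    (hg' : ∀ a i, 0 ≤ g' a i) (hx' : ∀ d i, 0 ≤ x' d i) (hy' : ∀ d a, 0 ≤ y' d a) {κ : ℝ}
    (h : ∀ t ∈ Set.Icc (0 : ℝ) 1, 2 * κ ≤ valD μ f f1 f2 ζ n g g' x x' y y' t) :
    κ ≤ Val μ f ζ (prof n g' x' y') n - Val μ f ζ (prof n g x y) n := by
  obtain ⟨t, ht, e⟩ := val_mvt μ hζ hz hf n hg hx hy hg' hx' hy'
  linarith [h t ht]

theorem UnivAux.bm1 (hf : ∀ a, Sm (f a) (f1 a) (f2 a) K) (c : Co A S) : BM2 (u1 f1 c) := by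
  obtain ⟨_, h⟩ := (hj_uH (S := S) hf).jet
  exact (h c).bm2_m

theorem UnivAux.bm2 (hf : ∀ a, Sm (f a) (f1 a) (f2 a) K) (c : Co A S) : BM2 (u2 f2 c) := by
  obtain ⟨_, h⟩ := (hj_uH (S := S) hf).jet
  exact (h c).bm2_a

theorem UnivAux.sum_le (hζ : Zok ζ) (d : ℕ) {E : ℕ → ℝ} {C : ℝ} (hC : 0 ≤ C)
    (h : ∀ k < d, E k ≤ C) : ∑ k ∈ Finset.range d, (ζ k - ζ (k + 1)) * E k ≤ C := by
  refine (Finset.sum_le_sum fun k hk => mul_le_mul_of_nonneg_left (h k (Finset.mem_range.1 hk))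
    (sub_nonneg.2 (hζ.anti (Nat.le_succ k)))).trans ?_
  rw [← Finset.sum_mul, Finset.sum_range_sub']
  exact mul_le_of_le_one_left hC (by linarith [hζ.le1, hζ.nn d])

theorem UnivAux.sum_nn (hζ : Zok ζ) (d : ℕ) {E : ℕ → ℝ} (h : ∀ k, 0 ≤ E k) :
    0 ≤ ∑ k ∈ Finset.range d, (ζ k - ζ (k + 1)) * E k :=
  Finset.sum_nonneg fun k _ => mul_nonneg (sub_nonneg.2 (hζ.anti (Nat.le_succ k))) (h k)

theorem EG_sum_sq (hζ : Zok ζ) (hf : ∀ a, Sm (f a) (f1 a) (f2 a) K) (s : ℕ → Co A S → ℝ)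
    (n : ℕ) : ∑ i, EG ζ (gvs s) μ (uH f) (fun _ x => x.1 i ^ 2) n = Fintype.card S := by
  have hH := (hj_uH (S := S) hf).hg
  unfold EG
  rw [← GE_sum (ν := gvs s) hH hζ (fun d => noise_gv (s d)) Finset.univ
    (g := fun i _ (x : Sph S) => x.1 i ^ 2) fun i _ => (bm1 hf (.inr (.inl i))).pow 2]
  simp only [sum_sq]
  exact GE_const hH hζ (fun d => noise_gv (s d)) _ _ _

theorem Db_F_nonneg (hζ : Zok ζ) (hz : ζ 0 = 1) (hf : ∀ a, Sm (f a) (f1 a) (f2 a) K)
    (s : ℕ → Co A S → ℝ) {n d : ℕ} (hd : d ≤ n) (i : S) :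
    0 ≤ Db ζ (gvs s) μ (uH f) (u1 f1 (.inr (.inl i))) (u2 f2 (.inr (.inl i))) n d := by
  have hH := (hj_uH (S := S) hf).hg
  unfold Db
  simp only [u2, zero_add, sub_nonneg]
  exact sum_le hζ d (GE_nonneg (fun _ _ => sq_nonneg _) _ _) fun k hk =>
    Esq_le_EG hH hζ (fun d => noise_gv (s d)) (bm1 hf _) (by omega)

theorem Db_F_le (hζ : Zok ζ) (hf : ∀ a, Sm (f a) (f1 a) (f2 a) K)
    (s : ℕ → Co A S → ℝ) (n d : ℕ) (i : S) :
    Db ζ (gvs s) μ (uH f) (u1 f1 (.inr (.inl i))) (u2 f2 (.inr (.inl i))) n d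
      ≤ EG ζ (gvs s) μ (uH f) (fun _ x => x.1 i ^ 2) n := by
  unfold Db
  simp only [u2, zero_add]
  exact sub_le_self _ (sum_nn hζ d fun k => Esq_nonneg _ _ _)

theorem abs_Db_Y_le (hζ : Zok ζ) (hf : ∀ a, Sm (f a) (f1 a) (f2 a) K)
    (s : ℕ → Co A S → ℝ) (n d : ℕ) (a : A) :
    |Db ζ (gvs s) μ (uH f) (u1 f1 (.inr (.inr a))) (u2 f2 (.inr (.inr a))) n d| ≤ K + K ^ 2 := by
  have hH := (hj_uH (S := S) hf).hg
  have hν := fun d => noise_gv (s d)
  have hB := (bm2 hf (.inr (.inr a) : Co A S)).add ((bm1 hf (.inr (.inr a))).pow 2)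
  have h1 := GE_mono (μ := μ) hH hζ hν hB (BM2.const (K + K ^ 2)) (fun w x =>
    add_le_add (abs_le.1 ((hf a).jet.ba _)).2
      (sq_le_sq' (abs_le.1 ((hf a).jet.bm _)).1 (abs_le.1 ((hf a).jet.bm _)).2)) (n + 1) 0
  have h2 := GE_mono (μ := μ) hH hζ hν (BM2.const (-K)) hB (fun w x =>
    le_add_of_le_of_nonneg (abs_le.1 ((hf a).jet.ba _)).1 (sq_nonneg _)) (n + 1) 0
  rw [GE_const hH hζ hν] at h1 h2
  have h3 := sum_le hζ d (sq_nonneg K) fun k _ =>
    Esq_le_sq (ζ := ζ) (ν := gvs s) (μ := μ) (H := uH f) (g := u1 f1 (.inr (.inr a)))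
      (hf a).jet.K0 (fun w => Filter.Eventually.of_forall fun x => (hf a).jet.bm _) n (k + 1)
  have h4 := sum_nn hζ d fun k =>
    Esq_nonneg (ζ := ζ) (ν := gvs s) (μ := μ) (H := uH f) (u1 f1 (.inr (.inr a))) n (k + 1)
  unfold Db EG
  rw [abs_le]
  constructor
  · exact le_trans (by linarith) (sub_le_sub h2 h3)
  · exact (sub_le_self _ h4).trans h1

/-- The second order terms of a pattern row add up to those of the argument field. -/
theorem sum_Db_G (hζ : Zok ζ) (hf : ∀ a, Sm (f a) (f1 a) (f2 a) K)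
    (s : ℕ → Co A S → ℝ) (n d : ℕ) (a : A) :
    ∑ i, Db ζ (gvs s) μ (uH f) (u1 f1 (.inl (a, i))) (u2 f2 (.inl (a, i))) n d
      = Fintype.card S * EG ζ (gvs s) μ (uH f)
          (fun w x => f2 a (arg w x.1 a) + f1 a (arg w x.1 a) ^ 2) n
        - ∑ k ∈ Finset.range d, (ζ k - ζ (k + 1)) *
          rho ζ (gvs s) μ (uH f) (fun i w x => f1 a (arg w x.1 a) * x.1 i) n (k + 1) := by
  have hH := (hj_uH (S := S) hf).hg
  unfold Db rho EG
  rw [Finset.sum_sub_distrib, Finset.sum_comm, ← GE_const_mul,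
    ← GE_sum (ν := gvs s) hH hζ (fun d => noise_gv (s d)) Finset.univ
      fun i _ => (bm2 hf (.inl (a, i))).add ((bm1 hf (.inl (a, i))).pow 2)]
  simp only [Finset.mul_sum]
  congr 2
  funext w x
  simp only [u1, u2, mul_pow, ← add_mul, ← Finset.mul_sum, sum_sq]
  ring

end Vale.Agent.P157
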